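import Mathlib

/-!
Chamber systems: a set of chambers `Ω`, colours `I`, vertex maps `v i : Ω → V`.
A face of type `τ` is a class of `Rel v τ`.  Cochains are graded by the size `τ.card`
(size `k` = degree `k - 1`; size `0` is the augmentation).
-/

namespace Vale.Agent.P067

open Finset

/-- Cochains in chamber form. -/
abbrev Coch (I Ω : Type) : Type := Finset I → Ω → ZMod 2

section Defs

variable {I Ω V : Type}

/-- `ω` and `ω'` have the same face of type `τ`. -/
def Rel (v : I → Ω → V) (τ : Finset I) (ω ω' : Ω) : Prop := ∀ i ∈ τ, v i ω = v i ω'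

/-- The coboundary. -/
def dd [DecidableEq I] (f : Coch I Ω) : Coch I Ω := fun τ ω => ∑ i ∈ τ, f (τ.erase i) ω

/-- The usual domain: chambers in `S`, colours in `J`. -/
def dom (S : Finset Ω) (J : Finset I) : Finset I → Ω → Prop := fun τ ω => τ ⊆ J ∧ ω ∈ S

/-- `f` is a cochain of size `k` on the domain `D`: it depends only on the face. -/
def Inv (v : I → Ω → V) (D : Finset I → Ω → Prop) (k : ℕ) (f : Coch I Ω) : Prop :=
  ∀ τ ω ω', τ.card = k → D τ ω → D τ ω' → Rel v τ ω ω' → f τ ω = f τ ω'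

/-- `f` and `g` agree in size `k` on `D`. -/
def EqOn (D : Finset I → Ω → Prop) (k : ℕ) (f g : Coch I Ω) : Prop :=
  ∀ τ ω, τ.card = k → D τ ω → f τ ω = g τ ω

/-- `f` (of size `k`) is a cocycle on `D`. -/
def Cocyc [DecidableEq I] (D : Finset I → Ω → Prop) (k : ℕ) (f : Coch I Ω) : Prop :=
  EqOn D (k + 1) (dd f) 0

/-- `f` (of size `k`) is a coboundary on `D`. -/
def Cobdy [DecidableEq I] (v : I → Ω → V) (D : Finset I → Ω → Prop) (k : ℕ) (f : Coch I Ω) :
    Prop :=
  ∃ h, Inv v D (k - 1) h ∧ EqOn D k f (dd h)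

/-- Exactness (vanishing of reduced cohomology) in size `k`. -/
def Exact [DecidableEq I] (v : I → Ω → V) (D : Finset I → Ω → Prop) (k : ℕ) : Prop :=
  ∀ f, Inv v D k f → Cocyc D k f → Cobdy v D k f

/-- Every cocycle of size `k` for `v` is cohomologous to a cochain for the coarser system `v'`. -/
def Red [DecidableEq I] {V' : Type} (v : I → Ω → V) (v' : I → Ω → V')
    (D : Finset I → Ω → Prop) (k : ℕ) : Prop :=
  ∀ f, Inv v D k f → Cocyc D k f →
    ∃ h f', Inv v D (k - 1) h ∧ Inv v' D k f' ∧ EqOn D k f (f' + dd h)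

open Classical in
/-- The chambers of `S` that share the face of type `σ` with `ω₀` (the link of that face). -/
noncomputable def cls (v : I → Ω → V) (S : Finset Ω) (σ : Finset I) (ω₀ : Ω) : Finset Ω :=
  S.filter (Rel v σ ω₀)

/-- The (integer) norm of a cochain in size `k`. -/
def nrm (S : Finset Ω) (J : Finset I) (k : ℕ) (f : Coch I Ω) : ℕ :=
  ∑ τ ∈ J.powersetCard k, (S.filter fun ω => f τ ω ≠ 0).card

/-- Coboundary expansion in size `k` with constant `M`. -/
def Expand [DecidableEq I] (v : I → Ω → V) (S : Finset Ω) (J : Finset I) (k M : ℕ) : Prop :=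
  ∀ ψ, Inv v (dom S J) k ψ →
    ∃ h, Inv v (dom S J) (k - 1) h ∧ nrm S J k (ψ + dd h) ≤ M * nrm S J (k + 1) (dd ψ)

/-- A real function on `S` that depends only on the vertex `u ω`. -/
def Meas {α : Type} (u : Ω → V) (S : Finset Ω) (φ : Ω → α) : Prop :=
  ∀ ω ∈ S, ∀ ω' ∈ S, u ω = u ω' → φ ω = φ ω'

/-- The maximal correlation of the vertices `u ω` and `w ω` (uniform `ω ∈ S`) is at most `ρ`. -/
def Corr (u w : Ω → V) (S : Finset Ω) (ρ : ℝ) : Prop :=
  ∀ φ ψ : Ω → ℝ, Meas u S φ → Meas w S ψ → ∑ ω ∈ S, φ ω = 0 → ∑ ω ∈ S, ψ ω = 0 →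
    2 * ∑ ω ∈ S, φ ω * ψ ω ≤ ρ * (∑ ω ∈ S, φ ω ^ 2 + ∑ ω ∈ S, ψ ω ^ 2)

/-- The bipartite graph of the vertices `u ω`, `w ω` is connected. -/
def Conn (u w : Ω → V) (S : Finset Ω) : Prop :=
  ∀ P : Ω → Prop, Meas u S P → Meas w S P → ∀ ω ∈ S, ∀ ω' ∈ S, P ω → P ω'

/-- The vertex map of a coset complex: the coset `g K`. -/
def cos {Γ : Type} [Group Γ] (K : I → Subgroup Γ) : I → Γ → Set Γ :=
  fun i g => {x | g⁻¹ * x ∈ K i}

/-- A subgroup of a finite group as a finset. -/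
noncomputable def fin {Γ : Type} [Group Γ] [Finite Γ] (K : Subgroup Γ) : Finset Γ :=
  (Set.toFinite (K : Set Γ)).toFinset

/-- Coboundary for cochains in face form (functions on finsets of vertices). -/
def dF {M : Type} [DecidableEq M] (ψ : Finset M → ZMod 2) (s : Finset M) : ZMod 2 :=
  ∑ x ∈ s, ψ (s.erase x)

/-- Exactness in size `j` of the complex `Δ` in face form. -/
def FExact {M : Type} [DecidableEq M] (Δ : Finset M → Prop) (j : ℕ) : Prop :=
  ∀ ψ : Finset M → ZMod 2, (∀ s, Δ s → s.card = j + 1 → dF ψ s = 0) →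
    ∃ χ : Finset M → ZMod 2, ∀ s, Δ s → s.card = j → ψ s = dF χ s

/-- `Δ` is closed under subsets. -/
def DownF {M : Type} (Δ : Finset M → Prop) : Prop := ∀ s t, Δ s → t ⊆ s → Δ t

end Defs

section Lemmas

variable {I Ω V : Type}

theorem Rel.refl (v : I → Ω → V) (τ : Finset I) (ω : Ω) : Rel v τ ω ω := fun _ _ => rfl

theorem Rel.symm {v : I → Ω → V} {τ : Finset I} {ω ω' : Ω} (h : Rel v τ ω ω') :
    Rel v τ ω' ω := fun i hi => (h i hi).symm

theorem Rel.trans {v : I → Ω → V} {τ : Finset I} {ω ω' ω'' : Ω} (h : Rel v τ ω ω')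
    (h' : Rel v τ ω' ω'') : Rel v τ ω ω'' := fun i hi => (h i hi).trans (h' i hi)

theorem Rel.mono {v : I → Ω → V} {τ τ' : Finset I} {ω ω' : Ω} (h : Rel v τ ω ω')
    (hτ : τ' ⊆ τ) : Rel v τ' ω ω' := fun i hi => h i (hτ hi)

theorem mem_cls {v : I → Ω → V} {S : Finset Ω} {σ : Finset I} {ω₀ ω : Ω} :
    ω ∈ cls v S σ ω₀ ↔ ω ∈ S ∧ Rel v σ ω₀ ω := by
  unfold cls
  simp

theorem mem_fin {Γ : Type} [Group Γ] [Finite Γ] {K : Subgroup Γ} {g : Γ} :
    g ∈ fin K ↔ g ∈ K := by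
  unfold fin
  simp

theorem cos_eq_iff {Γ : Type} [Group Γ] (K : I → Subgroup Γ) (i : I) (g g' : Γ) :
    cos K i g = cos K i g' ↔ g⁻¹ * g' ∈ K i := by
  constructor
  · intro h
    have : g' ∈ cos K i g' := by simp [cos]
    rw [← h] at this
    exact this
  · intro h
    ext x
    simp only [cos, Set.mem_ofPred_eq]
    constructor
    · intro hx
      have := (K i).mul_mem ((K i).inv_mem h) hx
      simpa [mul_assoc] using this
    · intro hx
      have := (K i).mul_mem h hx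
      simpa [mul_assoc] using this

theorem rel_cos_iff {Γ : Type} [Group Γ] (K : I → Subgroup Γ) (τ : Finset I) (g g' : Γ) :
    Rel (cos K) τ g g' ↔ ∀ i ∈ τ, g⁻¹ * g' ∈ K i := by
  simp [Rel, cos_eq_iff]

variable [DecidableEq I]

theorem dd_add (f g : Coch I Ω) : dd (f + g) = dd f + dd g := by
  funext τ ω
  simp [dd, Finset.sum_add_distrib]

theorem dd_zero : dd (0 : Coch I Ω) = 0 := by
  funext τ ω
  simp [dd]

omit [DecidableEq I] in
theorem coch_add_self (f : Coch I Ω) : f + f = 0 := by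
  funext τ ω
  simp [CharTwo.add_self_eq_zero]

theorem dd_dd (f : Coch I Ω) : dd (dd f) = 0 := by
  funext τ ω
  simp only [dd, Pi.zero_apply]
  rw [Finset.sum_sigma']
  refine Finset.sum_involution (fun x _ => ⟨x.2, x.1⟩) ?_ ?_ ?_ ?_
  · intro x _
    rw [Finset.erase_right_comm]
    exact CharTwo.add_self_eq_zero _
  · intro x hx _ h
    have h1 : x.2 = x.1 := congrArg Sigma.fst h
    have := (Finset.mem_sigma.mp hx).2
    exact (Finset.mem_erase.mp this).1 h1
  · intro x hx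
    have h := Finset.mem_sigma.mp hx
    have h2 := Finset.mem_erase.mp h.2
    exact Finset.mem_sigma.mpr ⟨h2.2, Finset.mem_erase.mpr ⟨h2.1.symm, h.1⟩⟩
  · intro x _
    rfl

theorem dF_dF {M : Type} [DecidableEq M] (ψ : Finset M → ZMod 2) (s : Finset M) :
    dF (dF ψ) s = 0 :=
  congrFun (congrFun (dd_dd (I := M) (Ω := Unit) fun t _ => ψ t) s) ()

/-- The domain is closed under passing to smaller types. -/
def Down (D : Finset I → Ω → Prop) : Prop := ∀ τ τ' ω, D τ ω → τ' ⊆ τ → D τ' ω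

omit [DecidableEq I] in
theorem down_dom (S : Finset Ω) (J : Finset I) : Down (dom S J) :=
  fun _ _ _ h h' => ⟨h'.trans h.1, h.2⟩

theorem Inv.dd {v : I → Ω → V} {D : Finset I → Ω → Prop} (hD : Down D) {k : ℕ} {h : Coch I Ω}
    (hh : Inv v D (k - 1) h) : Inv v D k (dd h) := by
  intro τ ω ω' hτ h1 h2 hr
  refine Finset.sum_congr rfl fun i hi => hh _ _ _ ?_ (hD _ _ _ h1 (erase_subset _ _))
    (hD _ _ _ h2 (erase_subset _ _)) (hr.mono (erase_subset _ _))
  rw [Finset.card_erase_of_mem hi, hτ]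

omit [DecidableEq I] in
theorem Inv.add {v : I → Ω → V} {D : Finset I → Ω → Prop} {k : ℕ} {f g : Coch I Ω}
    (hf : Inv v D k f) (hg : Inv v D k g) : Inv v D k (f + g) := by
  intro τ ω ω' hτ h1 h2 hr
  simp only [Pi.add_apply]
  rw [hf τ ω ω' hτ h1 h2 hr, hg τ ω ω' hτ h1 h2 hr]

omit [DecidableEq I] in
theorem Inv.zero (v : I → Ω → V) (D : Finset I → Ω → Prop) (k : ℕ) :
    Inv v D k (0 : Coch I Ω) := fun _ _ _ _ _ _ _ => rfl

theorem EqOn.dd {D : Finset I → Ω → Prop} (hD : Down D) {k : ℕ} {f g : Coch I Ω}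
    (h : EqOn D k f g) : EqOn D (k + 1) (dd f) (dd g) := by
  intro τ ω hτ h1
  refine Finset.sum_congr rfl fun i hi => h _ _ ?_ (hD _ _ _ h1 (erase_subset _ _))
  rw [Finset.card_erase_of_mem hi, hτ]
  rfl

theorem Expand.exact {v : I → Ω → V} {S : Finset Ω} {J : Finset I} {k M : ℕ}
    (h : Expand v S J k M) : Exact v (dom S J) k := by
  intro f hf hc
  obtain ⟨g, hg, hn⟩ := h f hf
  have h0 : nrm S J (k + 1) (dd f) = 0 := by
    refine Finset.sum_eq_zero fun τ hτ => ?_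
    rw [Finset.card_eq_zero, Finset.filter_eq_empty_iff]
    intro ω hω
    have hτ' := Finset.mem_powersetCard.mp hτ
    simpa using hc τ ω hτ'.2 ⟨hτ'.1, hω⟩
  rw [h0, Nat.mul_zero, Nat.le_zero] at hn
  refine ⟨g, hg, fun τ ω hτ hD => ?_⟩
  have h1 := (Finset.sum_eq_zero_iff.mp hn) τ (Finset.mem_powersetCard.mpr ⟨hD.1, hτ⟩)
  rw [Finset.card_eq_zero, Finset.filter_eq_empty_iff] at h1
  have h2 : f τ ω + dd g τ ω = 0 := by simpa using h1 hD.2
  have h3 := CharTwo.add_self_eq_zero (dd g τ ω)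
  exact add_right_cancel (h2.trans h3.symm)

end Lemmas

end Vale.Agent.P067
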