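import Vale.Agent.P067.Defs
import Vale.Agent.P067.Basic

/-! From chamber systems to simplicial complexes (the `d`-skeleton). -/

namespace Vale.Agent.P067

open Finset

namespace Conv

variable {I Ω V : Type}

/-- The face of type `τ` of the chamber `ω`. -/
def face (e : I → Ω → ℕ) (τ : Finset I) (ω : Ω) : Finset ℕ := τ.image fun i => e i ω

/-- `e` is an injective coding of the vertices. -/
def Enc (v : I → Ω → V) (S : Finset Ω) (e : I → Ω → ℕ) : Prop :=
  ∀ i j, ∀ ω ∈ S, ∀ ω' ∈ S, e i ω = e j ω' ↔ i = j ∧ v i ω = v j ω'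

theorem exists_enc [Fintype I] (v : I → Ω → V) (S : Finset Ω) : ∃ e, Enc v S e := by
  have hfin : (Set.range fun p : I × S => (p.1, v p.1 p.2)).Finite := Set.finite_range _
  obtain ⟨enc, henc⟩ := Set.countable_iff_exists_injOn.mp hfin.countable
  refine ⟨fun i ω => enc (i, v i ω), fun i j ω hω ω' hω' => ⟨fun h => ?_, fun h => ?_⟩⟩
  · have := henc ⟨(i, ⟨ω, hω⟩), rfl⟩ ⟨(j, ⟨ω', hω'⟩), rfl⟩ h
    exact ⟨congrArg Prod.fst this, congrArg Prod.snd this⟩
  · simp only [h.2]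
    rw [h.1]

variable {v : I → Ω → V} {S : Finset Ω} {e : I → Ω → ℕ}

theorem face_inj (he : Enc v S e) {ω : Ω} (hω : ω ∈ S) : Function.Injective fun i => e i ω :=
  fun i j h => ((he i j ω hω ω hω).mp h).1

theorem card_face (he : Enc v S e) (τ : Finset I) {ω : Ω} (hω : ω ∈ S) :
    (face e τ ω).card = τ.card :=
  card_image_of_injective _ (face_inj he hω)

theorem face_mono {τ τ' : Finset I} (h : τ ⊆ τ') (ω : Ω) : face e τ ω ⊆ face e τ' ω :=
  image_subset_image h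

theorem face_subset_iff (he : Enc v S e) {τ τ' : Finset I} {ω ω' : Ω} (hω : ω ∈ S)
    (hω' : ω' ∈ S) : face e τ ω ⊆ face e τ' ω' ↔ τ ⊆ τ' ∧ Rel v τ ω ω' := by
  constructor
  · intro h
    have key : ∀ i ∈ τ, i ∈ τ' ∧ v i ω = v i ω' := by
      intro i hi
      obtain ⟨j, hj, hji⟩ := mem_image.mp (h (mem_image_of_mem _ hi))
      obtain ⟨rfl, h2⟩ := (he j i ω' hω' ω hω).mp hji
      exact ⟨hj, h2.symm⟩
    exact ⟨fun i hi => (key i hi).1, fun i hi => (key i hi).2⟩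
  · rintro ⟨h1, h2⟩ a ha
    obtain ⟨i, hi, rfl⟩ := mem_image.mp ha
    exact mem_image.mpr ⟨i, h1 hi, (he i i ω' hω' ω hω).mpr ⟨rfl, (h2 i hi).symm⟩⟩

theorem face_eq_iff (he : Enc v S e) {τ τ' : Finset I} {ω ω' : Ω} (hω : ω ∈ S)
    (hω' : ω' ∈ S) : face e τ ω = face e τ' ω' ↔ τ = τ' ∧ Rel v τ ω ω' := by
  constructor
  · intro h
    have h1 := (face_subset_iff he hω hω').mp h.subset
    have h2 := (face_subset_iff he hω' hω).mp h.symm.subset
    exact ⟨Subset.antisymm h1.1 h2.1, h1.2⟩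
  · rintro ⟨rfl, h⟩
    exact Subset.antisymm ((face_subset_iff he hω hω').mpr ⟨Subset.refl _, h⟩)
      ((face_subset_iff he hω' hω).mpr ⟨Subset.refl _, h.symm⟩)

theorem exists_of_subset {τ : Finset I} {ω : Ω} {t : Finset ℕ} (h : t ⊆ face e τ ω) :
    ∃ τ' ⊆ τ, t = face e τ' ω := by
  obtain ⟨τ', h1, h2⟩ := subset_image_iff.mp h
  exact ⟨τ', h1, h2.symm⟩

/-- The `d`-skeleton. -/
def cx [Fintype I] (e : I → Ω → ℕ) (S : Finset Ω) (d : ℕ) : Finset (Finset ℕ) :=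
  ((univ.filter fun τ : Finset I => τ.Nonempty ∧ τ.card ≤ d + 1) ×ˢ S).image
    fun p => face e p.1 p.2

variable [Fintype I] {d : ℕ}

theorem mem_cx {s : Finset ℕ} :
    s ∈ cx e S d ↔ ∃ τ : Finset I, ∃ ω ∈ S, τ.Nonempty ∧ τ.card ≤ d + 1 ∧ s = face e τ ω := by
  simp only [cx, mem_image, mem_product, mem_filter, mem_univ, true_and, Prod.exists]
  constructor
  · rintro ⟨τ, ω, ⟨⟨h1, h2⟩, h3⟩, rfl⟩
    exact ⟨τ, ω, h3, h1, h2, rfl⟩
  · rintro ⟨τ, ω, h3, h1, h2, rfl⟩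
    exact ⟨τ, ω, ⟨⟨h1, h2⟩, h3⟩, rfl⟩

theorem face_mem (he : Enc v S e) {i : ℕ} (hi : i ≤ d) {τ : Finset I} (hτ : τ.card = i + 1)
    {ω : Ω} (hω : ω ∈ S) : face e τ ω ∈ faces (cx e S d) i :=
  mem_filter.mpr ⟨mem_cx.mpr ⟨τ, ω, hω, card_pos.mp (by omega), by omega, rfl⟩,
    by rw [card_face he τ hω, hτ]⟩

theorem exists_of_mem (he : Enc v S e) {i : ℕ} {s : Finset ℕ} (hs : s ∈ faces (cx e S d) i) :
    ∃ τ : Finset I, ∃ ω ∈ S, τ.card = i + 1 ∧ s = face e τ ω := by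
  obtain ⟨h1, h2⟩ := mem_filter.mp hs
  obtain ⟨τ, ω, hω, _, _, rfl⟩ := mem_cx.mp h1
  exact ⟨τ, ω, hω, by rw [← card_face he τ hω, h2], rfl⟩

theorem pure (he : Enc v S e) (hS : S.Nonempty) (hI : Fintype.card I = d + 2) :
    IsPureComplex d (cx e S d) := by
  classical
  refine ⟨?_, ?_, ?_, ?_⟩
  · obtain ⟨ω, hω⟩ := hS
    obtain ⟨i⟩ : Nonempty I := Fintype.card_pos_iff.mp (by omega)
    exact ⟨_, mem_cx.mpr ⟨{i}, ω, hω, singleton_nonempty i, by simp, rfl⟩⟩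
  · intro s hs
    obtain ⟨τ, ω, _, h1, _, rfl⟩ := mem_cx.mp hs
    exact h1.image _
  · intro s hs t hts ht
    obtain ⟨τ, ω, hω, _, h2, rfl⟩ := mem_cx.mp hs
    obtain ⟨τ', h3, rfl⟩ := exists_of_subset hts
    exact mem_cx.mpr ⟨τ', ω, hω, ht.of_image, (card_le_card h3).trans h2, rfl⟩
  · intro s hs
    obtain ⟨τ, ω, hω, _, h2, rfl⟩ := mem_cx.mp hs
    obtain ⟨τ', h3, _, h4⟩ := exists_subsuperset_card_eq (subset_univ τ) h2
      (by rw [card_univ]; omega)
    exact ⟨_, face_mem he le_rfl h4 hω, face_mono h3 ω⟩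

theorem degree {Q : ℕ} (he : Enc v S e) (hI : Fintype.card I = d + 2)
    (hQ : ∀ i, ∀ ω ∈ S, (cls v S {i} ω).card ≤ Q) : DegreeLE d (cx e S d) (2 ^ (d + 2) * Q) := by
  intro a
  rcases ((faces (cx e S d) d).filter fun t => a ∈ t).eq_empty_or_nonempty with h | ⟨t, ht⟩
  · rw [h]
    simp
  obtain ⟨ht1, ht2⟩ := mem_filter.mp ht
  obtain ⟨τ₀, ω₀, hω₀, _, rfl⟩ := exists_of_mem he ht1
  obtain ⟨i, _, rfl⟩ := mem_image.mp ht2
  have hsub : ((faces (cx e S d) d).filter fun t => e i ω₀ ∈ t) ⊆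
      ((univ : Finset (Finset I)) ×ˢ cls v S {i} ω₀).image fun p => face e p.1 p.2 := by
    intro s hs
    obtain ⟨hs1, hs2⟩ := mem_filter.mp hs
    obtain ⟨τ, ω, hω, _, rfl⟩ := exists_of_mem he hs1
    obtain ⟨j, _, hj⟩ := mem_image.mp hs2
    obtain ⟨rfl, h2⟩ := (he j i ω hω ω₀ hω₀).mp hj
    refine mem_image.mpr ⟨(τ, ω), mem_product.mpr ⟨mem_univ _, mem_cls.mpr ⟨hω, ?_⟩⟩, rfl⟩
    intro l hl
    rw [mem_singleton.mp hl]
    exact h2.symm
  refine (card_le_card hsub).trans (card_image_le.trans ?_)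
  rw [card_product, card_univ, Fintype.card_finset, hI]
  exact Nat.mul_le_mul_left _ (hQ i ω₀ hω₀)

theorem vertices {Q : ℕ} (he : Enc v S e) (hI : Fintype.card I = d + 2)
    (hQ : ∀ i, ∀ ω ∈ S, (cls v S {i} ω).card ≤ Q) :
    S.card ≤ Q * (faces (cx e S d) 0).card := by
  obtain ⟨i⟩ : Nonempty I := Fintype.card_pos_iff.mp (by omega)
  refine card_le_mul_card_image_of_maps_to (f := fun ω => face e {i} ω)
    (fun ω hω => face_mem he (Nat.zero_le _) (card_singleton i) hω) Q fun b _ => ?_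
  rcases (S.filter fun ω => face e {i} ω = b).eq_empty_or_nonempty with h | ⟨ω₀, h₀⟩
  · rw [h]
    simp
  obtain ⟨h1, rfl⟩ := mem_filter.mp h₀
  refine (card_le_card fun ω hω => ?_).trans (hQ i ω₀ h1)
  obtain ⟨h2, h3⟩ := mem_filter.mp hω
  exact mem_cls.mpr ⟨h2, ((face_eq_iff he h2 h1).mp h3).2.symm⟩

variable [DecidableEq I]

theorem connected (he : Enc v S e) (hd : 1 ≤ d) (hex : Exact v (dom S univ) 1) :
    IsConnected (cx e S d) := by
  classical
  intro a b ha hb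
  set R := Relation.ReflTransGen fun a b => ({a, b} : Finset ℕ) ∈ cx e S d with hR
  have hvert : ∀ c, {c} ∈ cx e S d → ∃ i, ∃ ω ∈ S, c = e i ω := by
    intro c hc
    obtain ⟨τ, ω, hω, _, _, h⟩ := mem_cx.mp hc
    have : c ∈ face e τ ω := h ▸ mem_singleton_self c
    obtain ⟨i, _, hi⟩ := mem_image.mp this
    exact ⟨i, ω, hω, hi.symm⟩
  have hstep : ∀ i j, ∀ ω ∈ S, R a (e i ω) → R a (e j ω) := by
    intro i j ω hω h
    refine h.tail (mem_cx.mpr ⟨{i, j}, ω, hω, insert_nonempty _ _,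
      (card_le_two).trans (by omega), ?_⟩)
    simp [face]
  let f : Coch I Ω := fun τ ω => if ∀ i ∈ τ, R a (e i ω) then 1 else 0
  have hf : Inv v (dom S univ) 1 f := by
    intro τ ω ω' _ h1 h2 hrel
    have : (∀ i ∈ τ, R a (e i ω)) ↔ ∀ i ∈ τ, R a (e i ω') := by
      refine forall₂_congr fun i hi => ?_
      rw [(he i i ω h1.2 ω' h2.2).mpr ⟨rfl, hrel i hi⟩]
    simp only [f, this]
  have hc : Cocyc (dom S univ) 1 f := by
    intro τ ω hτ h1
    obtain ⟨i, j, hij, rfl⟩ := card_eq_two.mp hτ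
    have e1 : ({i, j} : Finset I).erase i = {j} := by
      rw [erase_insert (by simpa using hij)]
    have e2 : ({i, j} : Finset I).erase j = {i} := by
      rw [pair_comm, erase_insert (by simpa using hij.symm)]
    simp only [dd, Pi.zero_apply]
    rw [sum_pair hij, e1, e2]
    have : R a (e j ω) ↔ R a (e i ω) := ⟨hstep j i ω h1.2, hstep i j ω h1.2⟩
    simp only [f, mem_singleton, forall_eq, this]
    exact CharTwo.add_self_eq_zero _
  obtain ⟨h, hh, hfh⟩ := hex f hf hc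
  obtain ⟨i, ω, hω, rfl⟩ := hvert a ha
  obtain ⟨j, ω', hω', rfl⟩ := hvert b hb
  have h1 := hfh {i} ω (card_singleton i) ⟨subset_univ _, hω⟩
  have h2 := hfh {j} ω' (card_singleton j) ⟨subset_univ _, hω'⟩
  have h3 := hh ∅ ω ω' rfl ⟨subset_univ _, hω⟩ ⟨subset_univ _, hω'⟩ fun l hl => absurd hl (by simp)
  simp only [dd, sum_singleton, erase_singleton] at h1 h2
  have h4 : f {j} ω' = f {i} ω := by rw [h1, h2, h3]
  have h5 : R (e i ω) (e i ω) := Relation.ReflTransGen.refl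
  simp only [f, mem_singleton, forall_eq, if_pos h5] at h4
  by_contra hne
  rw [if_neg hne] at h4
  exact zero_ne_one h4

/-- A simplicial cochain as a chamber cochain. -/
def lift (e : I → Ω → ℕ) (X : Finset (Finset ℕ)) (i : ℕ) (g : Cochain X i) : Coch I Ω :=
  fun τ ω => if H : face e τ ω ∈ faces X i then g ⟨_, H⟩ else 0

omit [Fintype I] [DecidableEq I] in
theorem lift_inv (he : Enc v S e) (J : Finset I) (X : Finset (Finset ℕ)) (i k : ℕ)
    (g : Cochain X i) : Inv v (dom S J) k (lift e X i g) := by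
  intro τ ω ω' _ h1 h2 hrel
  have : face e τ ω = face e τ ω' := (face_eq_iff he h1.2 h2.2).mpr ⟨rfl, hrel⟩
  simp only [lift, this]

theorem dd_lift (he : Enc v S e) {i : ℕ} (hi : i + 1 ≤ d) (g : Cochain (cx e S d) i) :
    EqOn (dom S univ) (i + 2) (dd (lift e (cx e S d) i g))
      (lift e (cx e S d) (i + 1) (cob (cx e S d) i g)) := by
  intro τ ω hτ hD
  have hω := hD.2
  have hmem : ∀ j ∈ τ, face e (τ.erase j) ω ∈ faces (cx e S d) i := fun j hj =>
    face_mem he (by omega) (by rw [card_erase_of_mem hj, hτ]; rfl) hω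
  simp only [lift, dif_pos (face_mem he hi hτ hω), cob, dd]
  rw [← sum_filter]
  refine sum_bij (fun j hj => ⟨_, hmem j hj⟩) ?_ ?_ ?_ ?_
  · intro j hj
    exact mem_filter.mpr ⟨mem_univ _, face_mono (erase_subset _ _) ω⟩
  · intro j hj l hl h
    have h1 := ((face_eq_iff he hω hω).mp (congrArg Subtype.val h)).1
    exact erase_injOn τ hj hl h1
  · intro σ hσ
    obtain ⟨τ', h1, h2⟩ := exists_of_subset (mem_filter.mp hσ).2
    have h3 : τ'.card = i + 1 := by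
      rw [← card_face he τ' hω, ← h2]
      exact (mem_filter.mp σ.2).2
    obtain ⟨j, hj, hj'⟩ := exists_mem_notMem_of_card_lt_card (s := τ') (t := τ) (by omega)
    have h4 : τ' = τ.erase j :=
      eq_of_subset_of_card_le (subset_erase.mpr ⟨h1, hj'⟩) (by rw [card_erase_of_mem hj]; omega)
    exact ⟨j, hj, Subtype.ext (by rw [h2, h4])⟩
  · intro j hj
    rw [dif_pos (hmem j hj)]

omit [DecidableEq I] in
theorem exists_lift (he : Enc v S e) {i : ℕ} (hi : i ≤ d) {H : Coch I Ω}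
    (hH : Inv v (dom S univ) (i + 1) H) :
    ∃ g : Cochain (cx e S d) i, EqOn (dom S univ) (i + 1) (lift e (cx e S d) i g) H := by
  have hex : ∀ σ : faces (cx e S d) i, ∃ τ : Finset I, ∃ ω ∈ S, τ.card = i + 1 ∧
      σ.1 = face e τ ω := fun σ => exists_of_mem he σ.2
  choose t w hw ht hσ using hex
  refine ⟨fun σ => H (t σ) (w σ), fun τ ω hτ hD => ?_⟩
  have hm := face_mem he hi hτ hD.2
  simp only [lift, dif_pos hm]
  obtain ⟨h1, h2⟩ := (face_eq_iff he hD.2 (hw ⟨_, hm⟩)).mp (hσ ⟨_, hm⟩)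
  rw [← h1]
  exact (hH τ _ _ hτ hD ⟨subset_univ _, hw _⟩ h2).symm

omit [Fintype I] [DecidableEq I] in
theorem nrm_congr {J : Finset I} {k : ℕ} {f g : Coch I Ω} (h : EqOn (dom S J) k f g) :
    nrm S J k f = nrm S J k g := by
  refine sum_congr rfl fun τ hτ => ?_
  have hτ' := mem_powersetCard.mp hτ
  congr 1
  exact filter_congr fun ω hω => by rw [h τ ω hτ'.2 ⟨hτ'.1, hω⟩]

omit [Fintype I] [DecidableEq I] in
theorem nrm_eq (J : Finset I) (k : ℕ) (f : Coch I Ω) :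
    nrm S J k f = ((J.powersetCard k ×ˢ S).filter fun p => f p.1 p.2 ≠ 0).card := by
  rw [card_filter, sum_product]
  exact sum_congr rfl fun τ _ => card_filter _ _

/-- The size of the support. -/
def supp (X : Finset (Finset ℕ)) (i : ℕ) (g : Cochain X i) : ℕ :=
  (univ.filter fun σ => g σ ≠ 0).card

omit [DecidableEq I] in
theorem supp_le (he : Enc v S e) {i : ℕ} (g : Cochain (cx e S d) i) :
    supp _ i g ≤ nrm S univ (i + 1) (lift e (cx e S d) i g) := by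
  rw [nrm_eq, supp, ← card_image_of_injective _ Subtype.val_injective]
  refine (card_le_card fun s hs => ?_).trans
    (card_image_le (f := fun p : Finset I × Ω => face e p.1 p.2))
  obtain ⟨σ, hσ, rfl⟩ := mem_image.mp hs
  obtain ⟨τ, ω, hω, hτ, h⟩ := exists_of_mem he σ.2
  refine mem_image.mpr ⟨(τ, ω), mem_filter.mpr ⟨mem_product.mpr
    ⟨mem_powersetCard.mpr ⟨subset_univ _, hτ⟩, hω⟩, ?_⟩, h.symm⟩
  have hm : face e τ ω ∈ faces (cx e S d) i := h ▸ σ.2
  simp only [lift, dif_pos hm]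
  have : σ = ⟨_, hm⟩ := Subtype.ext h
  rw [← this]
  exact (mem_filter.mp hσ).2

omit [DecidableEq I] in
theorem le_supp {Q : ℕ} (he : Enc v S e) (hQ : ∀ i, ∀ ω ∈ S, (cls v S {i} ω).card ≤ Q)
    {i : ℕ} (hi : i ≤ d) (g : Cochain (cx e S d) i) :
    nrm S univ (i + 1) (lift e (cx e S d) i g) ≤ Q * supp _ i g := by
  classical
  rw [nrm_eq, supp, ← card_image_of_injective _ Subtype.val_injective]
  refine card_le_mul_card_image_of_maps_to (f := fun p : Finset I × Ω => face e p.1 p.2)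
    (fun p hp => ?_) Q fun b _ => ?_
  · obtain ⟨h1, h2⟩ := mem_filter.mp hp
    obtain ⟨h3, h4⟩ := mem_product.mp h1
    have hm := face_mem he hi (mem_powersetCard.mp h3).2 h4
    simp only [lift, dif_pos hm] at h2
    exact mem_image.mpr ⟨⟨_, hm⟩, mem_filter.mpr ⟨mem_univ _, h2⟩, rfl⟩
  · set T := ((univ.powersetCard (i + 1) ×ˢ S).filter
      fun p => lift e (cx e S d) i g p.1 p.2 ≠ 0).filter fun p => face e p.1 p.2 = b with hT
    rcases T.eq_empty_or_nonempty with h | ⟨p₀, h₀⟩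
    · rw [h]
      simp
    have hmem : ∀ p ∈ T, p.1.card = i + 1 ∧ p.2 ∈ S ∧ face e p.1 p.2 = b := by
      intro p hp
      obtain ⟨h1, h2⟩ := mem_filter.mp hp
      obtain ⟨h3, h4⟩ := mem_product.mp (mem_filter.mp h1).1
      exact ⟨(mem_powersetCard.mp h3).2, h4, h2⟩
    obtain ⟨h1, h2, h3⟩ := hmem p₀ h₀
    obtain ⟨l, hl⟩ : p₀.1.Nonempty := card_pos.mp (by omega)
    have hsub : T ⊆ (cls v S {l} p₀.2).image fun ω => (p₀.1, ω) := by
      intro p hp
      obtain ⟨_, h5, h6⟩ := hmem p hp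
      obtain ⟨h7, h8⟩ := (face_eq_iff he h2 h5).mp (h3.trans h6.symm)
      exact mem_image.mpr ⟨p.2, mem_cls.mpr ⟨h5, h8.mono (singleton_subset_iff.mpr hl)⟩,
        Prod.ext h7 rfl⟩
    exact (card_le_card hsub).trans (card_image_le.trans (hQ l _ h2))

theorem cnorm_nonneg (d : ℕ) (X : Finset (Finset ℕ)) (i : ℕ) (g : Cochain X i) :
    0 ≤ cnorm d X i g := by
  refine sum_nonneg fun σ _ => ?_
  split_ifs
  · unfold weight
    positivity
  · exact le_rfl

theorem cnorm_le {d D : ℕ} {X : Finset (Finset ℕ)} (hD : DegreeLE d X D) {i : ℕ} (hi : i ≤ d)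
    (g : Cochain X i) : cnorm d X i g * (faces X d).card ≤ D * supp X i g := by
  unfold cnorm supp
  rw [card_filter, sum_mul]
  push_cast
  rw [mul_sum]
  refine sum_le_sum fun σ _ => ?_
  split_ifs
  · have hc : (1 : ℝ) ≤ ((d + 1).choose (i + 1) : ℝ) := by
      exact_mod_cast Nat.choose_pos (by omega)
    obtain ⟨a, ha⟩ : σ.1.Nonempty := card_pos.mp (by rw [(mem_filter.mp σ.2).2]; omega)
    have hN : (((faces X d).filter fun t => σ.1 ⊆ t).card : ℝ) ≤ D := by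
      have hsub : ((faces X d).filter fun t => σ.1 ⊆ t) ⊆ (faces X d).filter fun t => a ∈ t :=
        fun t ht => mem_filter.mpr ⟨(mem_filter.mp ht).1, (mem_filter.mp ht).2 ha⟩
      exact_mod_cast (card_le_card hsub).trans (hD a)
    unfold weight
    rcases Nat.eq_zero_or_pos (faces X d).card with h0 | h0
    · simp [h0]
    have h0' : (0 : ℝ) < (faces X d).card := by exact_mod_cast h0
    rw [mul_one, div_mul_eq_mul_div, mul_div_mul_right _ _ h0'.ne', div_le_iff₀ (by linarith)]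
    nlinarith [(Nat.cast_nonneg D : (0 : ℝ) ≤ D)]
  · simp

theorem le_cnorm {d : ℕ} {X : Finset (Finset ℕ)} (hX : IsPureComplex d X) {i : ℕ} (hi : i ≤ d)
    (g : Cochain X i) : (supp X i g : ℝ) ≤ 2 ^ (d + 1) * (cnorm d X i g * (faces X d).card) := by
  unfold cnorm supp
  rw [card_filter, sum_mul]
  push_cast
  rw [mul_sum]
  refine sum_le_sum fun σ _ => ?_
  split_ifs
  · have hc : (1 : ℝ) ≤ ((d + 1).choose (i + 1) : ℝ) := by
      exact_mod_cast Nat.choose_pos (by omega)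
    have hc' : ((d + 1).choose (i + 1) : ℝ) ≤ 2 ^ (d + 1) := by
      exact_mod_cast Nat.choose_le_two_pow _ _
    obtain ⟨t, ht, hσt⟩ := hX.2.2.2 σ.1 (mem_filter.mp σ.2).1
    have hN : (1 : ℝ) ≤ (((faces X d).filter fun t => σ.1 ⊆ t).card : ℝ) := by
      exact_mod_cast card_pos.mpr ⟨t, mem_filter.mpr ⟨ht, hσt⟩⟩
    have h0' : (0 : ℝ) < (faces X d).card := by exact_mod_cast card_pos.mpr ⟨t, ht⟩
    unfold weight
    rw [div_mul_eq_mul_div, mul_div_mul_right _ _ h0'.ne', ← mul_div_assoc,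
      le_div_iff₀ (by linarith)]
    nlinarith [(by positivity : (0 : ℝ) < 2 ^ (d + 1))]
  · simp

theorem exists_cobdry (he : Enc v S e) (hS : S.Nonempty) {i : ℕ} (hi : i ≤ d) {H : Coch I Ω}
    (hH : Inv v (dom S univ) i H) : ∃ a ∈ cobdries (cx e S d) i,
      EqOn (dom S univ) (i + 1) (lift e (cx e S d) i a) (dd H) := by
  cases i with
  | zero =>
    obtain ⟨ω₀, hω₀⟩ := hS
    refine ⟨fun _ => H ∅ ω₀, ⟨_, fun _ => rfl⟩, fun τ ω hτ hD => ?_⟩
    simp only [lift, dif_pos (face_mem he hi hτ hD.2)]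
    obtain ⟨j, rfl⟩ := card_eq_one.mp hτ
    simp only [dd, sum_singleton, erase_singleton]
    exact hH ∅ ω₀ ω rfl ⟨subset_univ _, hω₀⟩ ⟨subset_univ _, hD.2⟩ fun l hl => absurd hl (by simp)
  | succ i =>
    obtain ⟨g, hg⟩ := exists_lift he (by omega : i ≤ d) hH
    refine ⟨cob _ i g, ⟨g, rfl⟩, fun τ ω hτ hD => ?_⟩
    rw [← dd_lift he hi g τ ω hτ hD]
    exact EqOn.dd (down_dom _ _) hg τ ω hτ hD

theorem expander {Q C : ℕ} (he : Enc v S e) (hS : S.Nonempty) (hI : Fintype.card I = d + 2)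
    (hQ : ∀ i, ∀ ω ∈ S, (cls v S {i} ω).card ≤ Q)
    (hE : ∀ k, 1 ≤ k → k ≤ d → Expand v S univ k C) :
    IsCobExpander d (cx e S d) (1 / ((2 ^ (d + 2) * Q : ℕ) * C * Q * 2 ^ (d + 1) + 1 : ℝ)) := by
  have hX := pure he hS hI
  have hD := degree he hI hQ
  set X := cx e S d with hXdef
  set D := 2 ^ (d + 2) * Q with hDdef
  intro i hi f
  obtain ⟨H, hH, hn⟩ := hE (i + 1) (by omega) (by omega) _ (lift_inv he univ X i (i + 1) f)
  obtain ⟨a, ha, hla⟩ := exists_cobdry he hS hi.le hH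
  have h1 : distB d X i f ≤ cnorm d X i (f - a) := by
    refine csInf_le ⟨0, ?_⟩ ⟨a, ha, rfl⟩
    rintro r ⟨b, _, rfl⟩
    exact cnorm_nonneg _ _ _ _
  have h2 : EqOn (dom S univ) (i + 1) (lift e X i (f - a)) (lift e X i f + dd H) := by
    intro τ ω hτ hD
    simp only [Pi.add_apply]
    rw [← hla τ ω hτ hD]
    have hm : face e τ ω ∈ faces X i := face_mem he hi.le hτ hD.2
    have hm' : face e τ ω ∈ faces (cx e S d) i := hm
    simp only [lift, dif_pos hm, dif_pos hm', Pi.sub_apply]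
    exact CharTwo.sub_eq_add (R := ZMod 2) _ _
  have h3 : supp X i (f - a) ≤ C * (Q * supp X (i + 1) (cob X i f)) := by
    refine (supp_le he _).trans ?_
    rw [nrm_congr h2]
    refine hn.trans (Nat.mul_le_mul_left _ ?_)
    rw [nrm_congr (dd_lift he hi f)]
    exact le_supp he hQ hi _
  have h3' : (supp X i (f - a) : ℝ) ≤ C * (Q * supp X (i + 1) (cob X i f)) := by
    exact_mod_cast h3
  have h4 := cnorm_le hD hi.le (f - a)
  have h5 := le_cnorm hX (by omega : i + 1 ≤ d) (cob X i f)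
  obtain ⟨s, hs⟩ := hX.1
  obtain ⟨t, ht, _⟩ := hX.2.2.2 s hs
  have h0 : (0 : ℝ) < (faces X d).card := by exact_mod_cast card_pos.mpr ⟨t, ht⟩
  have hc := cnorm_nonneg d X (i + 1) (cob X i f)
  have h6 : cnorm d X i (f - a) ≤ D * C * Q * 2 ^ (d + 1) * cnorm d X (i + 1) (cob X i f) := by
    refine le_of_mul_le_mul_right ?_ h0
    calc cnorm d X i (f - a) * (faces X d).card ≤ D * supp X i (f - a) := h4
      _ ≤ D * (C * (Q * supp X (i + 1) (cob X i f))) := by gcongr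
      _ ≤ D * (C * (Q * (2 ^ (d + 1) * (cnorm d X (i + 1) (cob X i f) * (faces X d).card)))) := by
        gcongr
      _ = _ := by ring
  rw [one_div, inv_mul_le_iff₀ (by positivity)]
  nlinarith

end Conv

theorem convert (d Q C : ℕ) (hd : 1 ≤ d) : ∃ D : ℕ, ∃ ε : ℝ, 0 < ε ∧
    ∀ (I Ω V : Type) [Fintype I] [DecidableEq I] (v : I → Ω → V) (S : Finset Ω),
      S.Nonempty → Fintype.card I = d + 2 →
      (∀ i, ∀ ω ∈ S, (cls v S {i} ω).card ≤ Q) →
      (∀ k, 1 ≤ k → k ≤ d → Expand v S univ k C) →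
      ∃ X : Finset (Finset ℕ), IsPureComplex d X ∧ IsConnected X ∧ DegreeLE d X D ∧
        IsCobExpander d X ε ∧ S.card ≤ Q * (faces X 0).card := by
  refine ⟨2 ^ (d + 2) * Q, 1 / ((2 ^ (d + 2) * Q : ℕ) * C * Q * 2 ^ (d + 1) + 1 : ℝ),
    by positivity, ?_⟩
  intro I Ω V _ _ v S hS hI hQ hE
  obtain ⟨e, he⟩ := Conv.exists_enc v S
  exact ⟨Conv.cx e S d, Conv.pure he hS hI, Conv.connected he hd (hE 1 le_rfl hd).exact,
    Conv.degree he hI hQ, Conv.expander he hS hI hQ hE, Conv.vertices he hI hQ⟩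

end Vale.Agent.P067
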