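import Mathlib

/-!
Definitions used in the statement of P067 (finite simplicial complexes with vertices in `ℕ`,
weights, cochains over `ZMod 2`, coboundary expansion).
-/

namespace Vale.Agent.P067

open Finset

/-- `X(i)`: the faces of `X` with `i + 1` vertices. -/
def faces (X : Finset (Finset ℕ)) (i : ℕ) : Finset (Finset ℕ) :=
  X.filter fun s => s.card = i + 1

/-- `X` is a (nonempty) finite simplicial complex that is pure of dimension `d`: its faces are
nonempty, nonempty subsets of faces are faces, and every face lies in a `d`-face. -/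
def IsPureComplex (d : ℕ) (X : Finset (Finset ℕ)) : Prop :=
  X.Nonempty ∧ (∀ s ∈ X, s.Nonempty) ∧ (∀ s ∈ X, ∀ t ⊆ s, t.Nonempty → t ∈ X) ∧
    ∀ s ∈ X, ∃ t ∈ faces X d, s ⊆ t

/-- Any two vertices are joined by a path of edges. -/
def IsConnected (X : Finset (Finset ℕ)) : Prop :=
  ∀ u v : ℕ, {u} ∈ X → {v} ∈ X → Relation.ReflTransGen (fun a b => ({a, b} : Finset ℕ) ∈ X) u v

/-- Every vertex lies in at most `D` of the `d`-faces. -/
def DegreeLE (d : ℕ) (X : Finset (Finset ℕ)) (D : ℕ) : Prop :=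
  ∀ v : ℕ, ((faces X d).filter fun t => v ∈ t).card ≤ D

/-- `C^i(X)`: functions `X(i) → F_2`. -/
abbrev Cochain (X : Finset (Finset ℕ)) (i : ℕ) : Type := faces X i → ZMod 2

/-- The weight `w_i(σ)`. -/
noncomputable def weight (d : ℕ) (X : Finset (Finset ℕ)) (i : ℕ) (σ : Finset ℕ) : ℝ :=
  (((faces X d).filter fun t => σ ⊆ t).card : ℝ) /
    (((d + 1).choose (i + 1) : ℝ) * ((faces X d).card : ℝ))

/-- The norm `‖f‖_i`: the total weight of the support. -/
noncomputable def cnorm (d : ℕ) (X : Finset (Finset ℕ)) (i : ℕ) (f : Cochain X i) : ℝ :=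
  ∑ σ : faces X i, if f σ ≠ 0 then weight d X i σ.1 else 0

/-- The coboundary `δ_i`. -/
def cob (X : Finset (Finset ℕ)) (i : ℕ) (f : Cochain X i) : Cochain X (i + 1) :=
  fun τ => ∑ σ : faces X i, if σ.1 ⊆ τ.1 then f σ else 0

/-- `B^i`: the constant functions for `i = 0`, the image of `δ_{i-1}` for `i ≥ 1`. -/
def cobdries (X : Finset (Finset ℕ)) : (i : ℕ) → Set (Cochain X i)
  | 0 => {a | ∃ c : ZMod 2, ∀ σ, a σ = c}
  | i + 1 => Set.range (cob X i)

/-- `dist_i(f, B^i)`: the minimum of `‖f - a‖_i` over `a ∈ B^i`. -/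
noncomputable def distB (d : ℕ) (X : Finset (Finset ℕ)) (i : ℕ) (f : Cochain X i) : ℝ :=
  sInf {r : ℝ | ∃ a ∈ cobdries X i, r = cnorm d X i (f - a)}

/-- `X` is an `ε`-coboundary expander (as a `d`-dimensional complex). -/
def IsCobExpander (d : ℕ) (X : Finset (Finset ℕ)) (ε : ℝ) : Prop :=
  ∀ i < d, ∀ f : Cochain X i, ε * distB d X i f ≤ cnorm d X (i + 1) (cob X i f)

end Vale.Agent.P067
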