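import Vale.Agent.P067.Basic

/-! Formal cohomological lemmas for chamber systems. -/

namespace Vale.Agent.P067

open Finset

variable {I Ω V Ω' V' : Type} [DecidableEq I]

/-- Pull back a coboundary along a map of chamber systems. -/
theorem Cobdy.pull {v : I → Ω → V} {v' : I → Ω' → V'} {D : Finset I → Ω → Prop}
    {D' : Finset I → Ω' → Prop} (π : Ω' → Ω) (hD : ∀ τ x, D' τ x → D τ (π x))
    (hr : ∀ τ x y, D' τ x → D' τ y → Rel v' τ x y → Rel v τ (π x) (π y)) {k : ℕ} {f : Coch I Ω}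
    (h : Cobdy v D k f) : Cobdy v' D' k fun τ x => f τ (π x) := by
  obtain ⟨g, hg, hfg⟩ := h
  refine ⟨fun τ x => g τ (π x), ?_, ?_⟩
  · intro τ x y hτ hx hy hxy
    exact hg τ _ _ hτ (hD _ _ hx) (hD _ _ hy) (hr _ _ _ hx hy hxy)
  · intro τ x hτ hx
    exact hfg τ _ hτ (hD _ _ hx)

/-- A cochain descends along a map that is a bijection on faces. -/
theorem Inv.descend {v : I → Ω → V} {v' : I → Ω' → V'} {D : Finset I → Ω → Prop}
    {D' : Finset I → Ω' → Prop} (π : Ω' → Ω) (hD : ∀ τ x, D' τ x → D τ (π x))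
    (hr : ∀ τ x y, D' τ x → D' τ y → Rel v τ (π x) (π y) → Rel v' τ x y)
    {k : ℕ} {f' : Coch I Ω'} (h : Inv v' D' k f') :
    ∃ f, Inv v D k f ∧ EqOn D' k f' fun τ x => f τ (π x) := by
  classical
  have _ := hD
  refine ⟨fun τ ω => if H : ∃ x, D' τ x ∧ Rel v τ ω (π x) then f' τ H.choose else 0, ?_, ?_⟩
  · intro τ ω ω' hτ _ _ hrel
    by_cases H : ∃ x, D' τ x ∧ Rel v τ ω (π x)
    · have H' : ∃ x, D' τ x ∧ Rel v τ ω' (π x) :=
        ⟨H.choose, H.choose_spec.1, hrel.symm.trans H.choose_spec.2⟩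
      simp only [dif_pos H, dif_pos H']
      exact h τ _ _ hτ H.choose_spec.1 H'.choose_spec.1 (hr _ _ _ H.choose_spec.1
        H'.choose_spec.1 (H.choose_spec.2.symm.trans (hrel.trans H'.choose_spec.2)))
    · have H' : ¬ ∃ x, D' τ x ∧ Rel v τ ω' (π x) := fun H' =>
        H ⟨H'.choose, H'.choose_spec.1, hrel.trans H'.choose_spec.2⟩
      simp only [dif_neg H, dif_neg H']
  · intro τ x hτ hx
    have H : ∃ y, D' τ y ∧ Rel v τ (π x) (π y) := ⟨x, hx, Rel.refl _ _ _⟩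
    simp only [dif_pos H]
    exact h τ _ _ hτ hx H.choose_spec.1 (hr _ _ _ hx H.choose_spec.1 H.choose_spec.2)

/-- Push a coboundary forward along a map that is a bijection on faces. -/
theorem Cobdy.push {v : I → Ω → V} {v' : I → Ω' → V'} {D : Finset I → Ω → Prop}
    {D' : Finset I → Ω' → Prop} (hdown : Down D) (hdown' : Down D') (π : Ω' → Ω)
    (hD : ∀ τ x, D' τ x → D τ (π x))
    (hr : ∀ τ x y, D' τ x → D' τ y → Rel v τ (π x) (π y) → Rel v' τ x y)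
    (hs : ∀ τ ω, D τ ω → ∃ x, D' τ x ∧ Rel v τ ω (π x)) {k : ℕ} {f : Coch I Ω}
    (hf : Inv v D k f) (h : Cobdy v' D' k fun τ x => f τ (π x)) : Cobdy v D k f := by
  obtain ⟨h', hh', hfh⟩ := h
  obtain ⟨g, hg, hgh⟩ := Inv.descend (D := D) π hD hr hh'
  refine ⟨g, hg, fun τ ω hτ hω => ?_⟩
  obtain ⟨x, hx, hrel⟩ := hs τ ω hω
  rw [hf τ ω (π x) hτ hω (hD _ _ hx) hrel, Inv.dd hdown hg τ ω (π x) hτ hω (hD _ _ hx) hrel]
  have h1 : f τ (π x) = dd h' τ x := hfh τ x hτ hx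
  rw [h1]
  refine Finset.sum_congr rfl fun i hi => hgh _ _ ?_ (hdown' _ _ _ hx (erase_subset _ _))
  rw [Finset.card_erase_of_mem hi, hτ]

/-- Exactness passes along a map that is a bijection on faces (to the target). -/
theorem Exact.push {v : I → Ω → V} {v' : I → Ω' → V'} {D : Finset I → Ω → Prop}
    {D' : Finset I → Ω' → Prop} (hdown : Down D) (hdown' : Down D') (π : Ω' → Ω)
    (hD : ∀ τ x, D' τ x → D τ (π x))
    (hr : ∀ τ x y, D' τ x → D' τ y → (Rel v τ (π x) (π y) ↔ Rel v' τ x y))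
    (hs : ∀ τ ω, D τ ω → ∃ x, D' τ x ∧ Rel v τ ω (π x)) {k : ℕ} (h : Exact v' D' k) :
    Exact v D k := by
  intro f hf hc
  refine Cobdy.push hdown hdown' π hD (fun τ x y hx hy hxy => (hr τ x y hx hy).mp hxy) hs hf
    (h _ ?_ ?_)
  · intro τ x y hτ hx hy hxy
    exact hf τ _ _ hτ (hD _ _ hx) (hD _ _ hy) ((hr τ x y hx hy).mpr hxy)
  · intro τ x hτ hx
    exact hc τ _ hτ (hD _ _ hx)

/-- Exactness passes along a map that is a bijection on faces (to the source). -/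
theorem Exact.pull {v : I → Ω → V} {v' : I → Ω' → V'} {D : Finset I → Ω → Prop}
    {D' : Finset I → Ω' → Prop} (hdown : Down D) (hdown' : Down D') (π : Ω' → Ω)
    (hD : ∀ τ x, D' τ x → D τ (π x))
    (hr : ∀ τ x y, D' τ x → D' τ y → (Rel v τ (π x) (π y) ↔ Rel v' τ x y))
    (hs : ∀ τ ω, D τ ω → ∃ x, D' τ x ∧ Rel v τ ω (π x)) {k : ℕ} (h : Exact v D k) :
    Exact v' D' k := by
  intro f' hf' hc'
  obtain ⟨f, hf, hff⟩ :=
    Inv.descend (D := D) π hD (fun τ x y hx hy hxy => (hr τ x y hx hy).mp hxy) hf'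
  have hc : Cocyc D k f := by
    intro τ ω hτ hω
    obtain ⟨x, hx, hrel⟩ := hs τ ω hω
    have h1 : Inv v D (k + 1) (dd f) := Inv.dd hdown (by simpa using hf)
    rw [h1 τ ω (π x) hτ hω (hD _ _ hx) hrel]
    have h2 := EqOn.dd hdown' hff τ x hτ hx
    have h3 := hc' τ x hτ hx
    exact h2.symm.trans h3
  obtain ⟨g, hg, hfg⟩ :=
    Cobdy.pull π hD (fun τ x y hx hy hxy => (hr τ x y hx hy).mpr hxy) (h f hf hc)
  exact ⟨g, hg, fun τ x hτ hx => (hff τ x hτ hx).trans (hfg τ x hτ hx)⟩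

/-- Transfer of exactness along a correspondence with odd fibres. -/
theorem Exact.of_comp (v : I → Ω → V) (v' : I → Ω' → V') (S : Finset Ω) (S' : Finset Ω')
    (J : Finset I) (C : Ω → Finset Ω') (hsub : ∀ ω ∈ S, C ω ⊆ S')
    (ha : ∀ x ∈ S', ∃ ω ∈ S, x ∈ C ω)
    (hb : ∀ i ∈ J, ∀ ω₁ ∈ S, ∀ ω₂ ∈ S, ∀ x₁ ∈ C ω₁, ∀ x₂ ∈ C ω₂,
      v' i x₁ = v' i x₂ → v i ω₁ = v i ω₂)
    (hc : ∀ ω ∈ S, Odd (C ω).card)
    (hd : ∀ τ ⊆ J, ∀ ω₁ ∈ S, ∀ ω₂ ∈ S, Rel v τ ω₁ ω₂ →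
      ∃ e : Ω' → Ω', Set.BijOn e (C ω₁ : Set Ω') (C ω₂ : Set Ω') ∧ ∀ x ∈ C ω₁, Rel v' τ x (e x))
    {k : ℕ} (h : Exact v' (dom S' J) k) : Exact v (dom S J) k := by
  classical
  intro f hf hcf
  choose c hcS hcC using ha
  let f' : Coch I Ω' := fun τ x => if H : x ∈ S' then f τ (c x H) else 0
  have hf' : Inv v' (dom S' J) k f' := by
    intro τ x y hτ hx hy hxy
    simp only [f', dif_pos hx.2, dif_pos hy.2]
    exact hf τ _ _ hτ ⟨hx.1, hcS _ _⟩ ⟨hx.1, hcS _ _⟩ fun i hi =>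
      hb i (hx.1 hi) _ (hcS _ _) _ (hcS _ _) _ (hcC _ _) _ (hcC _ _) (hxy i hi)
  have hc' : Cocyc (dom S' J) k f' := by
    intro τ x hτ hx
    have h1 := hcf τ (c x hx.2) hτ ⟨hx.1, hcS _ _⟩
    simp only [dd, f', dif_pos hx.2]
    exact h1
  obtain ⟨h', hh', hfh⟩ := h f' hf' hc'
  refine ⟨fun τ ω => ∑ x ∈ C ω, h' τ x, ?_, ?_⟩
  · intro τ ω₁ ω₂ hτ h1 h2 hrel
    obtain ⟨e, he, hre⟩ := hd τ h1.1 ω₁ h1.2 ω₂ h2.2 hrel
    refine Finset.sum_nbij e (fun x hx => he.mapsTo hx) he.injOn he.surjOn fun x hx => ?_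
    exact hh' τ _ _ hτ ⟨h1.1, hsub _ h1.2 hx⟩ ⟨h1.1, hsub _ h2.2 (he.mapsTo hx)⟩ (hre x hx)
  · intro τ ω hτ hω
    have h1 : ∀ x ∈ C ω, dd h' τ x = f τ ω := by
      intro x hx
      have hxS : x ∈ S' := hsub _ hω.2 hx
      rw [← hfh τ x hτ ⟨hω.1, hxS⟩]
      simp only [f', dif_pos hxS]
      exact hf τ _ _ hτ ⟨hω.1, hcS _ _⟩ hω fun i hi =>
        hb i (hω.1 hi) _ (hcS _ _) _ hω.2 _ (hcC _ _) _ hx rfl
    have h2 : dd (fun τ ω => ∑ x ∈ C ω, h' τ x) τ ω = ∑ x ∈ C ω, dd h' τ x := by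
      simp only [dd]
      exact Finset.sum_comm
    rw [h2, Finset.sum_congr rfl h1, Finset.sum_const, nsmul_eq_mul,
      (ZMod.natCast_eq_one_iff_odd).mpr (hc ω hω.2), one_mul]

theorem Red.refl (v : I → Ω → V) (D : Finset I → Ω → Prop) (k : ℕ) : Red v v D k := by
  intro f hf _
  refine ⟨0, f, Inv.zero _ _ _, hf, fun τ ω _ _ => ?_⟩
  rw [dd_zero, add_zero]

theorem Red.trans {V'' : Type} {v : I → Ω → V} {v' : I → Ω → V'} {v'' : I → Ω → V''}
    {D : Finset I → Ω → Prop} (hdown : Down D)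
    (hr : ∀ τ x y, D τ x → D τ y → Rel v τ x y → Rel v' τ x y) {k : ℕ}
    (h₁ : Red v v' D k) (h₂ : Red v' v'' D k) : Red v v'' D k := by
  intro f hf hc
  obtain ⟨g, f', hg, hf', he⟩ := h₁ f hf hc
  have hc' : Cocyc D k f' := by
    intro τ ω hτ hω
    have h1 := EqOn.dd hdown he τ ω hτ hω
    rw [dd_add, dd_dd, add_zero] at h1
    exact h1.symm.trans (hc τ ω hτ hω)
  obtain ⟨g', f'', hg', hf'', he'⟩ := h₂ f' hf' hc'
  refine ⟨g' + g, f'', Inv.add ?_ hg, hf'', fun τ ω hτ hω => ?_⟩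
  · intro τ x y hτ hx hy hxy
    exact hg' τ x y hτ hx hy (hr τ x y hx hy hxy)
  · rw [he τ ω hτ hω, dd_add]
    simp only [Pi.add_apply]
    rw [he' τ ω hτ hω]
    simp only [Pi.add_apply]
    rw [add_assoc]

/-- Only the relations on the domain matter. -/
theorem Red.congr {W W' : Type} {v : I → Ω → V} {v' : I → Ω → V'} {w : I → Ω → W}
    {w' : I → Ω → W'} {D : Finset I → Ω → Prop}
    (hr : ∀ τ x y, D τ x → D τ y → (Rel v τ x y ↔ Rel w τ x y))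
    (hr' : ∀ τ x y, D τ x → D τ y → (Rel v' τ x y ↔ Rel w' τ x y)) {k : ℕ}
    (h : Red v v' D k) : Red w w' D k := by
  intro f hf hc
  obtain ⟨g, f', hg, hf', he⟩ :=
    h f (fun τ x y hτ hx hy hxy => hf τ x y hτ hx hy ((hr τ x y hx hy).mp hxy)) hc
  exact ⟨g, f', fun τ x y hτ hx hy hxy => hg τ x y hτ hx hy ((hr τ x y hx hy).mpr hxy),
    fun τ x y hτ hx hy hxy => hf' τ x y hτ hx hy ((hr' τ x y hx hy).mpr hxy), he⟩

/-- Coarsening one colour, when the fibres are acyclic. -/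
theorem red_of_link [Fintype I] (v : I → Ω → V) (v' : I → Ω → V') (S : Finset Ω) (i : I)
    (hsame : ∀ j, j ≠ i → ∀ x ∈ S, ∀ y ∈ S, (v j x = v j y ↔ v' j x = v' j y))
    (hcoarse : ∀ x ∈ S, ∀ y ∈ S, v i x = v i y → v' i x = v' i y) (k : ℕ)
    (hlink : ∀ ω₀ ∈ S, Exact v (dom (cls v' S {i} ω₀) univ) k) :
    Red v v' (dom S univ) k := by
  classical
  intro f hf hc
  let P : Finset Ω → Coch I Ω → Prop := fun T g =>
    Inv v (dom T univ) (k - 1) g ∧ EqOn (dom T univ) k f (dd g)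
  let H : Finset Ω → Coch I Ω := fun T => Classical.epsilon (P T)
  have hH : ∀ ω₀ ∈ S, P (cls v' S {i} ω₀) (H (cls v' S {i} ω₀)) := by
    intro ω₀ hω₀
    refine Classical.epsilon_spec (p := P (cls v' S {i} ω₀)) (hlink ω₀ hω₀ f ?_ ?_)
    · intro τ x y hτ hx hy hxy
      exact hf τ x y hτ ⟨hx.1, (mem_cls.mp hx.2).1⟩ ⟨hy.1, (mem_cls.mp hy.2).1⟩ hxy
    · intro τ x hτ hx
      exact hc τ x hτ ⟨hx.1, (mem_cls.mp hx.2).1⟩
  have hcls : ∀ x y, v' i x = v' i y → cls v' S {i} x = cls v' S {i} y := by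
    intro x y hxy
    ext z
    simp only [mem_cls, Rel, Finset.mem_singleton, forall_eq, hxy]
  have hself : ∀ x ∈ S, x ∈ cls v' S {i} x := fun x hx => mem_cls.mpr ⟨hx, Rel.refl _ _ _⟩
  let g : Coch I Ω := fun τ ω => if i ∈ τ then H (cls v' S {i} ω) τ ω else 0
  have hg : Inv v (dom S univ) (k - 1) g := by
    intro τ x y hτ hx hy hxy
    by_cases hi : i ∈ τ
    · simp only [g, if_pos hi]
      have h1 := hcls x y (hcoarse x hx.2 y hy.2 (hxy i hi))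
      rw [← h1]
      exact (hH x hx.2).1 τ x y hτ ⟨hx.1, hself x hx.2⟩ ⟨hx.1, h1 ▸ hself y hy.2⟩ hxy
    · simp only [g, if_neg hi]
  have key : ∀ τ x, τ.card = k → i ∈ τ → x ∈ S →
      (f + dd g) τ x = H (cls v' S {i} x) (τ.erase i) x := by
    intro τ x hτ hi hx
    have h1 := (hH x hx).2 τ x hτ ⟨subset_univ _, hself x hx⟩
    simp only [Pi.add_apply]
    rw [h1]
    simp only [dd, g]
    rw [← Finset.add_sum_erase τ _ hi, ← Finset.add_sum_erase τ _ hi,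
      if_neg (Finset.notMem_erase i τ), zero_add]
    have h2 : ∑ j ∈ τ.erase i, (if i ∈ τ.erase j then H (cls v' S {i} x) (τ.erase j) x else 0) =
        ∑ j ∈ τ.erase i, H (cls v' S {i} x) (τ.erase j) x := by
      refine Finset.sum_congr rfl fun j hj => ?_
      rw [if_pos (Finset.mem_erase.mpr ⟨(Finset.mem_erase.mp hj).1.symm, hi⟩)]
    rw [h2, add_assoc, CharTwo.add_self_eq_zero, add_zero]
  refine ⟨g, f + dd g, hg, ?_, fun τ ω _ _ => ?_⟩
  · intro τ x y hτ hx hy hxy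
    by_cases hi : i ∈ τ
    · have h1 := hcls x y (hxy i hi)
      rw [key τ x hτ hi hx.2, key τ y hτ hi hy.2, ← h1]
      refine (hH x hx.2).1 _ x y ?_ ⟨subset_univ _, hself x hx.2⟩
        ⟨subset_univ _, h1 ▸ hself y hy.2⟩ fun j hj => ?_
      · rw [Finset.card_erase_of_mem hi, hτ]
      · have hj' := Finset.mem_erase.mp hj
        exact (hsame j hj'.1 x hx.2 y hy.2).mpr (hxy j hj'.2)
    · refine Inv.add hf (Inv.dd (down_dom _ _) hg) τ x y hτ hx hy fun j hj => ?_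
      exact (hsame j (fun e => hi (e ▸ hj)) x hx.2 y hy.2).mpr (hxy j hj)
  · rw [add_assoc, coch_add_self, add_zero]

/-- The horizontal coboundary of the double complex. -/
def dH {M : Type} [DecidableEq M] (F : Finset M → Coch I Ω) (φ : Finset M) : Coch I Ω :=
  fun τ ω => ∑ x ∈ φ, F (φ.erase x) τ ω

theorem dd_dH {M : Type} [DecidableEq M] (F : Finset M → Coch I Ω) (φ : Finset M) :
    dd (dH F φ) = dH (fun ψ => dd (F ψ)) φ := by
  funext τ ω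
  simp only [dd, dH]
  exact Finset.sum_comm

omit [DecidableEq I] in
theorem dH_dH {M : Type} [DecidableEq M] (F : Finset M → Coch I Ω) (φ : Finset M) :
    dH (dH F) φ = 0 := by
  funext τ ω
  exact dF_dF (fun ψ => F ψ τ ω) φ

omit [DecidableEq I] in
theorem dH_add {M : Type} [DecidableEq M] (F G : Finset M → Coch I Ω) (φ : Finset M) :
    dH (fun ψ => F ψ + G ψ) φ = dH F φ + dH G φ := by
  funext τ ω
  simp [dH, Finset.sum_add_distrib]

omit [DecidableEq I] in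
/-- Solving along the rows, once per face. -/
theorem row_solve {M : Type} [DecidableEq M] (v : I → Ω → V)
    (A : Finset M → Finset I → Ω → Prop) (hdownM : ∀ τ ω, DownF fun φ => A φ τ ω)
    (hinv : ∀ φ τ ω ω', A φ τ ω → A ∅ τ ω' → Rel v τ ω ω' → A φ τ ω') (p q : ℕ)
    (hrow : ∀ τ ω, A ∅ τ ω → FExact (fun φ => A φ τ ω) p)
    (G : Finset M → Coch I Ω) (hG : ∀ φ, φ.card = p → Inv v (A φ) q (G φ))
    (hc : ∀ φ, φ.card = p + 1 → EqOn (A φ) q (dH G φ) 0) :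
    ∃ g : Finset M → Coch I Ω, (∀ φ, Inv v (A φ) q (g φ)) ∧
      ∀ φ, φ.card = p → EqOn (A φ) q (G φ) (dH g φ) := by
  let P : Finset I → Ω → (Finset M → ZMod 2) → Prop := fun τ ω χ =>
    ∀ s, A s τ ω → s.card = p → G s τ ω = dF χ s
  refine ⟨fun φ τ ω => Classical.epsilon (P τ ω) φ, ?_, ?_⟩
  · intro φ τ ω ω' hτ h1 h2 hrel
    have h1' : A ∅ τ ω := hdownM τ ω φ ∅ h1 (empty_subset _)
    have h2' : A ∅ τ ω' := hdownM τ ω' φ ∅ h2 (empty_subset _)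
    have : P τ ω = P τ ω' := by
      funext χ
      refine propext ⟨fun h s hs hp => ?_, fun h s hs hp => ?_⟩
      · have hs' := hinv s τ ω' ω hs h1' hrel.symm
        rw [← h s hs' hp]
        exact (hG s hp τ ω ω' hτ hs' hs hrel).symm
      · have hs' := hinv s τ ω ω' hs h2' hrel
        rw [← h s hs' hp]
        exact hG s hp τ ω ω' hτ hs hs' hrel
    simp only [this]
  · intro φ hφ τ ω hτ hω
    have h0 : A ∅ τ ω := hdownM τ ω φ ∅ hω (empty_subset _)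
    have hex : ∃ χ, P τ ω χ :=
      hrow τ ω h0 (fun s => G s τ ω) fun s hs hs1 => hc s hs1 τ ω hτ hs
    exact Classical.epsilon_spec hex φ hω hφ

theorem double_aux {M : Type} [DecidableEq M] (v : I → Ω → V)
    (A : Finset M → Finset I → Ω → Prop) (hdownI : ∀ φ, Down (A φ))
    (hdownM : ∀ τ ω, DownF fun φ => A φ τ ω)
    (hinv : ∀ φ τ ω ω', A φ τ ω → A ∅ τ ω' → Rel v τ ω ω' → A φ τ ω') (k : ℕ)
    (hrow : ∀ τ ω, A ∅ τ ω → ∀ j ≤ k, FExact (fun φ => A φ τ ω) j)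
    (hcol : ∀ φ : Finset M, 2 ≤ φ.card → φ.card ≤ k + 1 → Exact v (A φ) (k + 1 - φ.card))
    (q : ℕ) : ∀ j, j + q = k → ∀ F : Finset M → Coch I Ω,
      (∀ φ, φ.card = j → Inv v (A φ) q (F φ)) →
      (∀ φ, φ.card = j + 1 → Cobdy v (A φ) q (dH F φ)) →
      ∃ g : Finset M → Coch I Ω, (∀ φ, φ.card = j → Inv v (A φ) (q - 1) (g φ)) ∧
        ∀ φ, φ.card = j + 1 → EqOn (A φ) q (dH (fun ψ => F ψ + dd (g ψ)) φ) 0 := by
  have hcongr : ∀ (p n : ℕ) (F G : Finset M → Coch I Ω),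
      (∀ φ, φ.card = p → EqOn (A φ) n (F φ) (G φ)) →
      ∀ φ, φ.card = p + 1 → EqOn (A φ) n (dH F φ) (dH G φ) := by
    intro p n F G h φ hφ τ ω hτ hω
    refine Finset.sum_congr rfl fun x hx => h _ ?_ τ ω hτ (hdownM τ ω φ _ hω (erase_subset _ _))
    rw [Finset.card_erase_of_mem hx, hφ]
    rfl
  have hinvH : ∀ (p n : ℕ) (F : Finset M → Coch I Ω),
      (∀ φ, φ.card = p → Inv v (A φ) n (F φ)) →
      ∀ φ, φ.card = p + 1 → Inv v (A φ) n (dH F φ) := by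
    intro p n F h φ hφ τ ω ω' hτ hω hω' hrel
    refine Finset.sum_congr rfl fun x hx => h _ ?_ τ ω ω' hτ
      (hdownM τ ω φ _ hω (erase_subset _ _)) (hdownM τ ω' φ _ hω' (erase_subset _ _)) hrel
    rw [Finset.card_erase_of_mem hx, hφ]
    rfl
  induction q with
  | zero =>
    intro j _ F _ hcb
    refine ⟨fun _ => 0, fun φ _ => Inv.zero _ _ _, fun φ hφ τ ω hτ hω => ?_⟩
    obtain ⟨h, _, hh⟩ := hcb φ hφ
    have h1 := hh τ ω hτ hω
    rw [Finset.card_eq_zero] at hτ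
    subst hτ
    simp only [dd_zero, add_zero]
    rw [h1]
    simp [dd]
  | succ q ih =>
    intro j hj F _ hcb
    have hcb' : ∀ φ : Finset M, ∃ h : Coch I Ω, φ.card = j + 1 →
        Inv v (A φ) q h ∧ EqOn (A φ) (q + 1) (dH F φ) (dd h) := by
      intro φ
      by_cases hφ : φ.card = j + 1
      · obtain ⟨h, h1, h2⟩ := hcb φ hφ
        exact ⟨h, fun _ => ⟨h1, h2⟩⟩
      · exact ⟨0, fun h => absurd h hφ⟩
    choose G hG using hcb'
    obtain ⟨g', hg', hd'⟩ := ih (j + 1) (by omega) G (fun φ hφ => (hG φ hφ).1) (by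
      intro φ hφ
      have h1 := hcol φ (by omega) (by omega)
      have h2 : k + 1 - φ.card = q := by omega
      rw [h2] at h1
      refine h1 _ (hinvH (j + 1) q G (fun φ hφ => (hG φ hφ).1) φ hφ) ?_
      intro τ ω hτ hω
      rw [dd_dH, ← hcongr (j + 1) (q + 1) (dH F) _ (fun φ hφ => (hG φ hφ).2) φ hφ τ ω hτ hω,
        dH_dH])
    obtain ⟨g, hg, hgd⟩ := row_solve v A hdownM hinv (j + 1) q
      (fun τ ω h => hrow τ ω h (j + 1) (by omega)) (fun ψ => G ψ + dd (g' ψ))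
      (fun φ hφ => Inv.add (hG φ hφ).1 (Inv.dd (hdownI φ) (hg' φ hφ))) hd'
    refine ⟨g, fun φ _ => hg φ, fun φ hφ τ ω hτ hω => ?_⟩
    have h1 := (hG φ hφ).2 τ ω hτ hω
    have h2 := EqOn.dd (hdownI φ) (hgd φ hφ) τ ω hτ hω
    rw [dd_add, dd_dd, add_zero] at h2
    rw [dH_add, ← dd_dH]
    simp only [Pi.add_apply, Pi.zero_apply]
    rw [h1, h2]
    exact CharTwo.add_self_eq_zero _

/-- The double complex lemma: a cocycle that is a coboundary on each `A {x}` is a coboundary. -/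
theorem double {M : Type} [DecidableEq M] (v : I → Ω → V)
    (A : Finset M → Finset I → Ω → Prop) (hdownI : ∀ φ, Down (A φ))
    (hdownM : ∀ τ ω, DownF fun φ => A φ τ ω)
    (hinv : ∀ φ τ ω ω', A φ τ ω → A ∅ τ ω' → Rel v τ ω ω' → A φ τ ω') (k : ℕ)
    (hrow : ∀ τ ω, A ∅ τ ω → ∀ j ≤ k, FExact (fun φ => A φ τ ω) j)
    (hcol : ∀ φ : Finset M, 2 ≤ φ.card → φ.card ≤ k + 1 → Exact v (A φ) (k + 1 - φ.card))
    (f : Coch I Ω) (hf : Inv v (A ∅) k f) (hc : Cocyc (A ∅) k f)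
    (h1 : ∀ x, Cobdy v (A {x}) k f) : Cobdy v (A ∅) k f := by
  obtain ⟨g, hg, hd⟩ := double_aux v A hdownI hdownM hinv k hrow hcol k 0 (by omega)
    (fun _ => f) (fun φ hφ => by
      rw [Finset.card_eq_zero] at hφ
      rw [hφ]
      exact hf) (fun φ hφ => by
      obtain ⟨x, rfl⟩ := Finset.card_eq_one.mp hφ
      have : dH (fun _ : Finset M => f) {x} = f := by
        funext τ ω
        simp [dH]
      rw [this]
      exact h1 x)
  have _ := hc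
  refine ⟨g ∅, hg ∅ rfl, fun τ ω hτ hω => ?_⟩
  obtain ⟨χ, hχ⟩ := hrow τ ω hω 0 (Nat.zero_le _) (fun φ => (f + dd (g φ)) τ ω)
    fun s hs hs1 => hd s hs1 τ ω hτ hs
  have h2 : f τ ω + dd (g ∅) τ ω = 0 := by simpa [dF] using hχ ∅ hω rfl
  exact add_right_cancel (h2.trans (CharTwo.add_self_eq_zero (dd (g ∅) τ ω)).symm)

end Vale.Agent.P067
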