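import Vale.Agent.P067.EKAux2

/-! The Evra-Kaufman argument in chamber form. -/

namespace Vale.Agent.P067

open Finset

/-- Small cocycles are coboundaries of proportionally small cochains. -/
theorem ek (n M : ℕ) : ∃ lam : ℝ, 0 < lam ∧ ∃ μ : ℝ, 0 < μ ∧
    ∀ (I Ω V : Type) [Fintype I] [DecidableEq I] (v : I → Ω → V) (S : Finset Ω) (Q : ℕ),
      Fintype.card I = n →
      (∀ σ : Finset I, σ.Nonempty → ∀ ω₀ ∈ S, ∀ j, j + 1 ≤ σᶜ.card →
        Expand v (cls v S σ ω₀) σᶜ j M) →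
      (∀ σ : Finset I, ∀ ω₀ ∈ S, ∀ a b, a ≠ b → a ∉ σ → b ∉ σ →
        Corr (v a) (v b) (cls v S σ ω₀) lam) →
      (∀ i, ∀ ω ∈ S, (cls v S {i} ω).card ≤ Q) →
      ∀ k, k + 1 ≤ n → ∀ g, Inv v (dom S univ) k g → Cocyc (dom S univ) k g →
        (nrm S univ k g : ℝ) ≤ μ * S.card →
        ∃ h, Inv v (dom S univ) (k - 1) h ∧ EqOn (dom S univ) k g (dd h) ∧
          nrm S univ (k - 1) h ≤ 2 ^ n * Q * nrm S univ k g := by
  obtain ⟨lam, hlam, μ, hμ, H⟩ := ek_vanish n M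
  refine ⟨lam, hlam, μ, hμ, ?_⟩
  intro I Ω V _ _ v S Q hn hex hc hQ k hk g hg hco hsmall
  obtain ⟨h, h1, h2, h3, h4⟩ := EK.correct v S Q k hQ g
  have hco' : Cocyc (dom S univ) k (g + dd h) := by
    unfold Cocyc
    rw [dd_add, dd_dd, add_zero]
    exact hco
  have h3' : (nrm S univ k (g + dd h) : ℝ) ≤ nrm S univ k g := by exact_mod_cast h3
  have hz := H I Ω V v S hn hex hc k hk (g + dd h) (hg.add (Inv.dd (down_dom _ _) h1)) hco' h2
    (h3'.trans hsmall)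
  refine ⟨h, h1, fun τ ω hτ hD => ?_, hn ▸ h4⟩
  have e1 : g τ ω + dd h τ ω = 0 := hz τ ω hτ hD
  exact add_right_cancel (e1.trans (CharTwo.add_self_eq_zero (dd h τ ω)).symm)

/-- Good links and exactness give coboundary expansion. -/
theorem ek_expand (n M : ℕ) : ∃ lam : ℝ, 0 < lam ∧ ∀ Q : ℕ, ∃ C : ℕ,
    ∀ (I Ω V : Type) [Fintype I] [DecidableEq I] (v : I → Ω → V) (S : Finset Ω),
      Fintype.card I = n →
      (∀ σ : Finset I, σ.Nonempty → ∀ ω₀ ∈ S, ∀ j, j + 1 ≤ σᶜ.card →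
        Expand v (cls v S σ ω₀) σᶜ j M) →
      (∀ σ : Finset I, ∀ ω₀ ∈ S, ∀ a b, a ≠ b → a ∉ σ → b ∉ σ →
        Corr (v a) (v b) (cls v S σ ω₀) lam) →
      (∀ i, ∀ ω ∈ S, (cls v S {i} ω).card ≤ Q) →
      ∀ k, k + 2 ≤ n → Exact v (dom S univ) k → Expand v S univ k C := by
  obtain ⟨lam, hlam, μ, hμ, H⟩ := ek n M
  refine ⟨lam, hlam, fun Q => ⟨2 ^ n * Q + 2 ^ n * ⌈1 / μ⌉₊, ?_⟩⟩
  intro I Ω V _ _ v S hn hex hc hQ k hk hexact φ hφ
  by_cases hsmall : (nrm S univ (k + 1) (dd φ) : ℝ) ≤ μ * S.card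
  · obtain ⟨h, h1, h2, h3⟩ := H I Ω V v S Q hn hex hc hQ (k + 1) hk (dd φ)
      (Inv.dd (down_dom _ _) hφ) (by unfold Cocyc; rw [dd_dd]; exact fun _ _ _ _ => rfl) hsmall
    rw [Nat.add_sub_cancel] at h1 h3
    obtain ⟨h', i1, i2⟩ := hexact (φ + h) (hφ.add h1) fun τ ω hτ hD => by
      rw [dd_add, Pi.add_apply, Pi.add_apply, h2 τ ω hτ hD]
      exact CharTwo.add_self_eq_zero _
    refine ⟨h', i1, ?_⟩
    have e : nrm S univ k (φ + dd h') = nrm S univ k h := by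
      refine EK.nrm_congr fun τ ω hτ hD => ?_
      rw [Pi.add_apply, Pi.add_apply, ← i2 τ ω hτ hD, Pi.add_apply, Pi.add_apply, ← add_assoc,
        CharTwo.add_self_eq_zero, zero_add]
    rw [e, add_mul]
    omega
  · refine ⟨0, Inv.zero _ _ _, ?_⟩
    rw [dd_zero, add_zero, add_mul]
    have e1 : nrm S univ k φ ≤ 2 ^ Fintype.card I * S.card :=
      EK.nrm_le_of_supp fun _ ω hω _ => hω
    have e2 : S.card ≤ ⌈1 / μ⌉₊ * nrm S univ (k + 1) (dd φ) := by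
      have e3 : (S.card : ℝ) ≤ 1 / μ * nrm S univ (k + 1) (dd φ) := by
        rw [div_mul_eq_mul_div, one_mul, le_div_iff₀ hμ, mul_comm]
        exact (not_le.1 hsmall).le
      have e4 : 1 / μ * nrm S univ (k + 1) (dd φ) ≤
          (⌈1 / μ⌉₊ : ℝ) * nrm S univ (k + 1) (dd φ) :=
        mul_le_mul_of_nonneg_right (Nat.le_ceil _) (Nat.cast_nonneg _)
      exact_mod_cast e3.trans e4
    rw [hn] at e1
    have e5 := Nat.mul_le_mul_left (2 ^ n) e2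
    rw [← mul_assoc] at e5
    omega

end Vale.Agent.P067
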