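import Vale.Agent.P067.Basic

/-! Counting tools and the correction algorithm for the Evra-Kaufman argument. -/

namespace Vale.Agent.P067

open Finset

namespace EK

open Classical in
/-- Real indicator of a proposition. -/
noncomputable def ind (P : Prop) : ℝ := if P then 1 else 0

theorem ind_pos {P : Prop} (h : P) : ind P = 1 := by simp [ind, h]

theorem ind_neg {P : Prop} (h : ¬ P) : ind P = 0 := by simp [ind, h]

theorem ind_nonneg (P : Prop) : 0 ≤ ind P := by unfold ind; split_ifs <;> norm_num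

theorem ind_le_one (P : Prop) : ind P ≤ 1 := by unfold ind; split_ifs <;> norm_num

theorem ind_le_of {P : Prop} {x : ℝ} (h0 : 0 ≤ x) (h : P → 1 ≤ x) : ind P ≤ x := by
  by_cases hP : P
  · rw [ind_pos hP]; exact h hP
  · rw [ind_neg hP]; exact h0

theorem ind_mono {P Q : Prop} (h : P → Q) : ind P ≤ ind Q :=
  ind_le_of (ind_nonneg _) fun hP => (ind_pos (h hP)).ge

theorem ind_le_sum {α : Type} {P : Prop} {s : Finset α} {f : α → ℝ} (h0 : ∀ i ∈ s, 0 ≤ f i)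
    (h : P → ∃ i ∈ s, 1 ≤ f i) : ind P ≤ ∑ i ∈ s, f i :=
  ind_le_of (sum_nonneg h0) fun hP => by
    obtain ⟨i, hi, h1⟩ := h hP
    exact h1.trans (single_le_sum h0 hi)

theorem ind_and (P Q : Prop) : ind (P ∧ Q) = ind P * ind Q := by
  by_cases hP : P <;> by_cases hQ : Q <;> simp [ind, hP, hQ]

theorem ind_sq (P : Prop) : ind P ^ 2 = ind P := by
  by_cases hP : P <;> simp [ind, hP]

variable {I Ω V : Type}

theorem nrm_cast (S : Finset Ω) (J : Finset I) (k : ℕ) (f : Coch I Ω) :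
    (nrm S J k f : ℝ) = ∑ τ ∈ J.powersetCard k, ∑ ω ∈ S, ind (f τ ω ≠ 0) := by
  unfold nrm
  push_cast
  refine sum_congr rfl fun τ _ => ?_
  rw [card_filter]
  push_cast
  refine sum_congr rfl fun ω _ => ?_
  by_cases h : f τ ω = 0 <;> simp [ind, h]

theorem cls_eq {v : I → Ω → V} {S : Finset Ω} {σ : Finset I} {ω ω' : Ω} (h : Rel v σ ω ω') :
    cls v S σ ω = cls v S σ ω' := by
  ext x
  rw [mem_cls, mem_cls]
  exact ⟨fun hx => ⟨hx.1, h.symm.trans hx.2⟩, fun hx => ⟨hx.1, h.trans hx.2⟩⟩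

theorem self_mem_cls {v : I → Ω → V} {S : Finset Ω} {σ : Finset I} {ω : Ω} (h : ω ∈ S) :
    ω ∈ cls v S σ ω := mem_cls.2 ⟨h, Rel.refl _ _ _⟩

theorem rel_of_mem_cls {v : I → Ω → V} {S : Finset Ω} {σ : Finset I} {ω₀ ω ω' : Ω}
    (h : ω ∈ cls v S σ ω₀) (h' : ω' ∈ cls v S σ ω₀) : Rel v σ ω ω' :=
  (mem_cls.1 h).2.symm.trans (mem_cls.1 h').2

theorem sum_le_of_cls (v : I → Ω → V) (S : Finset Ω) (σ : Finset I) {φ ψ : Ω → ℝ}
    (h : ∀ ω₀ ∈ S, ∑ ω ∈ cls v S σ ω₀, φ ω ≤ ∑ ω ∈ cls v S σ ω₀, ψ ω) :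
    ∑ ω ∈ S, φ ω ≤ ∑ ω ∈ S, ψ ω := by
  classical
  rw [← sum_fiberwise_of_maps_to (s := S) (t := S.image (cls v S σ)) (g := cls v S σ)
      (fun x hx => mem_image_of_mem _ hx),
    ← sum_fiberwise_of_maps_to (s := S) (t := S.image (cls v S σ)) (g := cls v S σ)
      (fun x hx => mem_image_of_mem _ hx)]
  refine sum_le_sum fun c hc => ?_
  obtain ⟨x0, hx0, rfl⟩ := mem_image.1 hc
  have : S.filter (fun x => cls v S σ x = cls v S σ x0) = cls v S σ x0 := by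
    ext y
    rw [mem_filter, mem_cls]
    refine ⟨fun hy => ⟨hy.1, ?_⟩, fun hy => ⟨hy.1, cls_eq hy.2.symm⟩⟩
    have := self_mem_cls (v := v) (σ := σ) hy.1
    rw [hy.2] at this
    exact (mem_cls.1 this).2
  rw [this]; exact h x0 hx0

theorem corr_count {u w : Ω → V} {C : Finset Ω} {lam θ : ℝ} (hlam : 0 ≤ lam) (hθ : 0 ≤ θ)
    (hc : Corr u w C lam) {A B : Ω → Prop} (hA : Meas u C A) (hB : Meas w C B)
    (hle : ∑ ω ∈ C, ind (A ω) ≤ θ * C.card) :
    ∑ ω ∈ C, ind (A ω ∧ B ω) ≤ (θ + lam) * (∑ ω ∈ C, ind (A ω) + ∑ ω ∈ C, ind (B ω)) := by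
  rcases C.eq_empty_or_nonempty with rfl | hC
  · simp
  have hc0 : (0 : ℝ) < C.card := by exact_mod_cast hC.card_pos
  set α := ∑ ω ∈ C, ind (A ω) with hα
  set β := ∑ ω ∈ C, ind (B ω) with hβ
  have hα0 : 0 ≤ α := sum_nonneg fun _ _ => ind_nonneg _
  have hβ0 : 0 ≤ β := sum_nonneg fun _ _ => ind_nonneg _
  set a := α / C.card with ha
  set b := β / C.card with hb
  have ha' : (C.card : ℝ) * a = α := by rw [ha]; field_simp
  have hb' : (C.card : ℝ) * b = β := by rw [hb]; field_simp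
  have ha0 : 0 ≤ a := div_nonneg hα0 hc0.le
  have hb0 : 0 ≤ b := div_nonneg hβ0 hc0.le
  have haθ : a ≤ θ := by rw [ha, div_le_iff₀ hc0]; exact hle
  have h := hc (fun ω => ind (A ω) - a) (fun ω => ind (B ω) - b)
    (fun ω hω ω' hω' e => by simp only [hA ω hω ω' hω' e])
    (fun ω hω ω' hω' e => by simp only [hB ω hω ω' hω' e])
    (by rw [sum_sub_distrib, sum_const, nsmul_eq_mul, ha', sub_self])
    (by rw [sum_sub_distrib, sum_const, nsmul_eq_mul, hb', sub_self])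
  have e1 : ∑ ω ∈ C, (ind (A ω) - a) * (ind (B ω) - b) = ∑ ω ∈ C, ind (A ω ∧ B ω) - a * β := by
    have : ∀ ω, (ind (A ω) - a) * (ind (B ω) - b) =
        ind (A ω ∧ B ω) - b * ind (A ω) - a * ind (B ω) + a * b := fun ω => by
      rw [ind_and]; ring
    simp only [this, sum_add_distrib, sum_sub_distrib, ← mul_sum, sum_const, nsmul_eq_mul]
    rw [← hα, ← hβ, ← ha']; ring
  have e2 : ∀ (P : Ω → Prop) (c : ℝ), (C.card : ℝ) * c = ∑ ω ∈ C, ind (P ω) → 0 ≤ c →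
      ∑ ω ∈ C, (ind (P ω) - c) ^ 2 ≤ ∑ ω ∈ C, ind (P ω) := by
    intro P c h1 h2
    have : ∀ ω, (ind (P ω) - c) ^ 2 = ind (P ω) - 2 * c * ind (P ω) + c ^ 2 := fun ω => by
      rw [sub_sq, ind_sq]; ring
    simp only [this, sum_add_distrib, sum_sub_distrib, ← mul_sum, sum_const, nsmul_eq_mul]
    rw [← h1]
    have : 0 ≤ (C.card : ℝ) * c ^ 2 := by positivity
    nlinarith
  have e3 := e2 A a ha' ha0
  have e4 := e2 B b hb' hb0
  rw [e1] at h
  have e5 : lam * (∑ ω ∈ C, (ind (A ω) - a) ^ 2 + ∑ ω ∈ C, (ind (B ω) - b) ^ 2) ≤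
      lam * (α + β) := mul_le_mul_of_nonneg_left (add_le_add e3 e4) hlam
  have e6 : a * β ≤ θ * β := mul_le_mul_of_nonneg_right haθ hβ0
  have e7 : 0 ≤ θ * α := mul_nonneg hθ hα0
  have e8 : 0 ≤ lam * (α + β) := mul_nonneg hlam (add_nonneg hα0 hβ0)
  nlinarith

theorem nrm_add_le (S : Finset Ω) (J : Finset I) (k : ℕ) (f g : Coch I Ω) :
    nrm S J k (f + g) ≤ nrm S J k f + nrm S J k g := by
  have : (nrm S J k (f + g) : ℝ) ≤ nrm S J k f + nrm S J k g := by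
    simp only [nrm_cast, ← sum_add_distrib]
    refine sum_le_sum fun τ _ => sum_le_sum fun ω _ => ?_
    refine ind_le_of (add_nonneg (ind_nonneg _) (ind_nonneg _)) fun h => ?_
    by_cases h1 : f τ ω = 0
    · have h2 : g τ ω ≠ 0 := by simpa [h1] using h
      rw [ind_pos h2]; linarith [ind_nonneg (f τ ω ≠ 0)]
    · rw [ind_pos h1]; linarith [ind_nonneg (g τ ω ≠ 0)]
  exact_mod_cast this

theorem nrm_congr {S : Finset Ω} {J : Finset I} {k : ℕ} {f g : Coch I Ω}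
    (h : EqOn (dom S J) k f g) : nrm S J k f = nrm S J k g := by
  refine sum_congr rfl fun τ hτ => ?_
  obtain ⟨h1, h2⟩ := mem_powersetCard.1 hτ
  rw [filter_congr fun ω hω => by rw [h τ ω h2 ⟨h1, hω⟩]]

theorem card_powersetCard_le [Fintype I] (J : Finset I) (k : ℕ) :
    (J.powersetCard k).card ≤ 2 ^ Fintype.card I := by
  rw [← Fintype.card_finset]
  exact card_le_univ _

theorem nrm_le_of_supp [Fintype I] {S C : Finset Ω} {J : Finset I} {k : ℕ} {f : Coch I Ω}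
    (h : ∀ τ, ∀ ω ∈ S, f τ ω ≠ 0 → ω ∈ C) : nrm S J k f ≤ 2 ^ Fintype.card I * C.card := by
  refine le_trans (sum_le_card_nsmul _ _ C.card fun τ _ => card_le_card fun ω hω => ?_) ?_
  · exact h τ ω (mem_filter.1 hω).1 (mem_filter.1 hω).2
  · exact Nat.mul_le_mul_right _ (card_powersetCard_le J k)

theorem eqOn_of_nrm_eq_zero {S : Finset Ω} {J : Finset I} {k : ℕ} {f : Coch I Ω}
    (h : nrm S J k f = 0) : EqOn (dom S J) k f 0 := by
  intro τ ω hτ hD
  have h1 := (sum_eq_zero_iff.mp h) τ (mem_powersetCard.mpr ⟨hD.1, hτ⟩)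
  rw [card_eq_zero, filter_eq_empty_iff] at h1
  simpa using h1 hD.2

variable [Fintype I] [DecidableEq I]

/-- The link cochain. -/
def lk (σ : Finset I) (g : Coch I Ω) : Coch I Ω := fun ρ ω => g (σ ∪ ρ) ω

theorem disj_of_subset_compl {σ ρ : Finset I} (h : ρ ⊆ σᶜ) : Disjoint σ ρ :=
  disjoint_left.2 fun _ hx hx' => mem_compl.1 (h hx') hx

theorem sum_lk {α : Type} [AddCommMonoid α] (σ : Finset I) {k : ℕ} (hk : σ.card ≤ k)
    (F : Finset I → α) :
    ∑ ρ ∈ σᶜ.powersetCard (k - σ.card), F (σ ∪ ρ) =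
      ∑ τ ∈ (univ.powersetCard k).filter (σ ⊆ ·), F τ := by
  refine sum_nbij' (fun ρ => σ ∪ ρ) (fun τ => τ \ σ) (fun ρ hρ => ?_) (fun τ hτ => ?_)
    (fun ρ hρ => ?_) (fun τ hτ => ?_) (fun _ _ => rfl)
  · obtain ⟨h1, h2⟩ := mem_powersetCard.1 hρ
    refine mem_filter.2 ⟨mem_powersetCard.2 ⟨subset_univ _, ?_⟩, subset_union_left⟩
    rw [card_union_of_disjoint (disj_of_subset_compl h1), h2]; omega
  · obtain ⟨h1, h2⟩ := mem_filter.1 hτ
    refine mem_powersetCard.2 ⟨fun x hx => mem_compl.2 (mem_sdiff.1 hx).2, ?_⟩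
    rw [card_sdiff_of_subset h2, (mem_powersetCard.1 h1).2]
  · exact union_sdiff_cancel_left (disj_of_subset_compl (mem_powersetCard.1 hρ).1)
  · exact union_sdiff_of_subset (mem_filter.1 hτ).2

/-- Local minimality. -/
def LocMin (v : I → Ω → V) (S : Finset Ω) (k : ℕ) (g : Coch I Ω) : Prop :=
  ∀ σ : Finset I, σ.Nonempty → σ.card ≤ k → ∀ ω₀ ∈ S, ∀ h0 : Coch I Ω,
    Inv v (dom (cls v S σ ω₀) σᶜ) (k - σ.card - 1) h0 →
    nrm (cls v S σ ω₀) σᶜ (k - σ.card) (lk σ g) ≤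
      nrm (cls v S σ ω₀) σᶜ (k - σ.card) (lk σ g + dd h0)

open Classical in
/-- Extension of a link cochain by zero. -/
noncomputable def extz (σ : Finset I) (C : Finset Ω) (h0 : Coch I Ω) : Coch I Ω :=
  fun τ ω => if σ ⊆ τ ∧ ω ∈ C then h0 (τ \ σ) ω else 0

omit [Fintype I] in
theorem dd_extz (σ : Finset I) (C : Finset Ω) (h0 : Coch I Ω) :
    dd (extz σ C h0) = extz σ C (dd h0) := by
  funext τ ω
  unfold dd extz
  split_ifs with h
  · rw [← sum_subset (sdiff_subset : τ \ σ ⊆ τ)]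
    · refine sum_congr rfl fun i hi => ?_
      rw [if_pos ⟨subset_erase.2 ⟨h.1, (mem_sdiff.1 hi).2⟩, h.2⟩, erase_sdiff_comm]
    · intro i hi hi'
      refine if_neg fun h' => (subset_erase.1 h'.1).2 ?_
      by_contra hc
      exact hi' (mem_sdiff.2 ⟨hi, hc⟩)
  · exact sum_eq_zero fun i _ => if_neg fun h' => h ⟨h'.1.trans (erase_subset _ _), h'.2⟩

theorem inv_extz {v : I → Ω → V} {S : Finset Ω} {σ : Finset I} {ω₀ : Ω} {k : ℕ}
    {h0 : Coch I Ω} (h : Inv v (dom (cls v S σ ω₀) σᶜ) (k - σ.card - 1) h0) :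
    Inv v (dom S univ) (k - 1) (extz σ (cls v S σ ω₀) h0) := by
  intro τ ω ω' hτ h1 h2 hr
  unfold extz
  by_cases hσ : σ ⊆ τ
  · have hiff : ω ∈ cls v S σ ω₀ ↔ ω' ∈ cls v S σ ω₀ := by
      rw [mem_cls, mem_cls]
      exact ⟨fun h => ⟨h2.2, h.2.trans (hr.mono hσ)⟩,
        fun h => ⟨h1.2, h.2.trans (hr.mono hσ).symm⟩⟩
    by_cases hω : ω ∈ cls v S σ ω₀
    · have hsub : τ \ σ ⊆ σᶜ := fun x hx => mem_compl.2 (mem_sdiff.1 hx).2
      rw [if_pos ⟨hσ, hω⟩, if_pos ⟨hσ, hiff.1 hω⟩]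
      refine h _ _ _ ?_ ⟨hsub, hω⟩ ⟨hsub, hiff.1 hω⟩ (hr.mono sdiff_subset)
      rw [card_sdiff_of_subset hσ, hτ]; omega
    · rw [if_neg fun h => hω h.2, if_neg fun h => hω (hiff.2 h.2)]
  · rw [if_neg fun h => hσ h.1, if_neg fun h => hσ h.1]

theorem nrm_extz_lt {S C : Finset Ω} (hC : C ⊆ S) {σ : Finset I} {k : ℕ} (hk : σ.card ≤ k)
    (g h : Coch I Ω)
    (hlt : nrm C σᶜ (k - σ.card) (lk σ g + h) < nrm C σᶜ (k - σ.card) (lk σ g)) :
    nrm S univ k (g + extz σ C h) < nrm S univ k g := by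
  classical
  have split : ∀ f : Coch I Ω, (nrm S univ k f : ℝ) = nrm C σᶜ (k - σ.card) (lk σ f) +
      ∑ τ ∈ univ.powersetCard k, ∑ ω ∈ S, if σ ⊆ τ ∧ ω ∈ C then 0 else ind (f τ ω ≠ 0) := by
    intro f
    rw [nrm_cast, nrm_cast]
    unfold lk
    rw [sum_lk σ hk fun τ => ∑ ω ∈ C, ind (f τ ω ≠ 0), sum_filter, ← sum_add_distrib]
    refine sum_congr rfl fun τ _ => ?_
    by_cases hσ : σ ⊆ τ
    · have e : S.filter (· ∈ C) = C := by rw [filter_mem_eq_inter, inter_eq_right.2 hC]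
      rw [if_pos hσ]
      nth_rewrite 1 [← e]
      rw [sum_filter, ← sum_add_distrib]
      refine sum_congr rfl fun ω _ => ?_
      by_cases hω : ω ∈ C <;> simp [hω, hσ]
    · simp [hσ]
  have e1 : nrm C σᶜ (k - σ.card) (lk σ (g + extz σ C h)) =
      nrm C σᶜ (k - σ.card) (lk σ g + h) := by
    refine nrm_congr fun ρ ω _ hD => ?_
    simp only [lk, Pi.add_apply, extz]
    rw [if_pos ⟨subset_union_left, hD.2⟩, union_sdiff_cancel_left (disj_of_subset_compl hD.1)]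
  have e2 : ∑ τ ∈ univ.powersetCard k, ∑ ω ∈ S,
      (if σ ⊆ τ ∧ ω ∈ C then 0 else ind ((g + extz σ C h) τ ω ≠ 0)) =
      ∑ τ ∈ univ.powersetCard k, ∑ ω ∈ S,
        if σ ⊆ τ ∧ ω ∈ C then 0 else ind (g τ ω ≠ 0) := by
    refine sum_congr rfl fun τ _ => sum_congr rfl fun ω _ => ?_
    split_ifs with h1
    · rfl
    · simp only [Pi.add_apply, extz]
      rw [if_neg h1, add_zero]
  have : (nrm S univ k (g + extz σ C h) : ℝ) < nrm S univ k g := by
    rw [split, split g, e1, e2]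
    have : (nrm C σᶜ (k - σ.card) (lk σ g + h) : ℝ) < nrm C σᶜ (k - σ.card) (lk σ g) := by
      exact_mod_cast hlt
    linarith
  exact_mod_cast this

/-- The correction algorithm. -/
theorem correct (v : I → Ω → V) (S : Finset Ω) (Q k : ℕ)
    (hQ : ∀ i, ∀ ω ∈ S, (cls v S {i} ω).card ≤ Q) (g : Coch I Ω) :
    ∃ h, Inv v (dom S univ) (k - 1) h ∧ LocMin v S k (g + dd h) ∧
      nrm S univ k (g + dd h) ≤ nrm S univ k g ∧
      nrm S univ (k - 1) h ≤ 2 ^ Fintype.card I * Q * nrm S univ k g := by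
  induction hN : nrm S univ k g using Nat.strong_induction_on generalizing g with
  | _ N ih =>
  by_cases hmin : LocMin v S k g
  · refine ⟨0, Inv.zero _ _ _, by rwa [dd_zero, add_zero], by rw [dd_zero, add_zero, hN], ?_⟩
    simp [nrm]
  · unfold LocMin at hmin
    push Not at hmin
    obtain ⟨σ, hσ, hk, ω₀, hω₀, h0, hh0, hlt⟩ := hmin
    have hlt' := nrm_extz_lt (S := S) (fun x hx => (mem_cls.1 hx).1) hk g (dd h0) hlt
    rw [← dd_extz] at hlt'
    obtain ⟨h', i1, i2, i3, i4⟩ := ih _ (hN ▸ hlt') _ rfl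
    have e : g + dd (extz σ (cls v S σ ω₀) h0 + h') =
        g + dd (extz σ (cls v S σ ω₀) h0) + dd h' := by rw [dd_add, add_assoc]
    refine ⟨extz σ (cls v S σ ω₀) h0 + h', (inv_extz hh0).add i1, by rwa [e], ?_, ?_⟩
    · rw [e]; omega
    · obtain ⟨i, hi⟩ := hσ
      have b1 : nrm S univ (k - 1) (extz σ (cls v S σ ω₀) h0) ≤
          2 ^ Fintype.card I * (cls v S {i} ω₀).card := by
        refine nrm_le_of_supp fun τ ω _ hne => ?_
        have : ω ∈ cls v S σ ω₀ := by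
          by_contra hc
          exact hne (if_neg fun h => hc h.2)
        exact mem_cls.2 ⟨(mem_cls.1 this).1, (mem_cls.1 this).2.mono (by simpa using hi)⟩
      have b2 := Nat.mul_le_mul_left (2 ^ Fintype.card I) (hQ i ω₀ hω₀)
      have b3 := nrm_add_le S univ (k - 1) (extz σ (cls v S σ ω₀) h0) h'
      have b4 := Nat.mul_le_mul_left (2 ^ Fintype.card I * Q) (Nat.succ_le_of_lt (hN ▸ hlt'))
      rw [Nat.mul_succ] at b4
      omega

end EK

end Vale.Agent.P067
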