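import Vale.Agent.P067.EKAux

/-! Fat faces, dead ends and ladders. -/

namespace Vale.Agent.P067

open Finset

namespace EK

/-- The products of the thresholds. -/
noncomputable def pp (η : ℝ) : ℕ → ℝ
  | 0 => 1
  | d + 1 => η * pp η d * pp η d

theorem pp_pos {η : ℝ} (h0 : 0 < η) : ∀ d, 0 < pp η d
  | 0 => one_pos
  | d + 1 => mul_pos (mul_pos h0 (pp_pos h0 d)) (pp_pos h0 d)

theorem pp_le_one {η : ℝ} (h0 : 0 < η) (h1 : η ≤ 1) : ∀ d, pp η d ≤ 1
  | 0 => le_rfl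
  | d + 1 => mul_le_one₀ (mul_le_one₀ h1 (pp_pos h0 d).le (pp_le_one h0 h1 d)) (pp_pos h0 d).le
      (pp_le_one h0 h1 d)

theorem pp_anti {η : ℝ} (h0 : 0 < η) (h1 : η ≤ 1) : Antitone (pp η) :=
  antitone_nat_of_succ_le fun d =>
    mul_le_of_le_one_left (pp_pos h0 d).le (mul_le_one₀ h1 (pp_pos h0 d).le (pp_le_one h0 h1 d))

variable {I Ω V : Type} [DecidableEq I] (v : I → Ω → V) (S : Finset Ω) (g : Coch I Ω) (η : ℝ)

/-- Fat faces, by depth below the top size. -/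
def Fat : ℕ → Finset I → Ω → Prop
  | 0, τ, ω => g τ ω ≠ 0
  | d + 1, τ, ω => ∃ c, c ∉ τ ∧
      η * pp η d * (cls v S τ ω).card < ∑ ω' ∈ cls v S τ ω, ind (Fat d (insert c τ) ω')

variable (k : ℕ)

/-- Fat faces. -/
def FF (τ : Finset I) (ω : Ω) : Prop := Fat v S g η (k - τ.card) τ ω

/-- Dead ends. -/
def Dead (ω : Ω) : Prop := ∃ τ a b, τ.card < k ∧ a ≠ b ∧ a ∉ τ ∧ b ∉ τ ∧
  FF v S g η k (insert a τ) ω ∧ FF v S g η k (insert b τ) ω ∧ ¬ FF v S g η k τ ω

/-- Ladders of fat faces. -/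
inductive Lad (τ : Finset I) (ω : Ω) : Finset I → Prop
  | top : τ.card = k → FF v S g η k τ ω → Lad τ ω τ
  | step (σ : Finset I) (c : I) : FF v S g η k σ ω → c ∈ τ → c ∉ σ → Lad τ ω (insert c σ) →
      Lad τ ω σ

variable {v S g η k}

theorem FF_top {τ : Finset I} {ω : Ω} (h : τ.card = k) : FF v S g η k τ ω ↔ g τ ω ≠ 0 := by
  unfold FF; rw [h, Nat.sub_self]; rfl

theorem FF_lt {τ : Finset I} {ω : Ω} (h : τ.card < k) : FF v S g η k τ ω ↔ ∃ c, c ∉ τ ∧
    η * pp η (k - τ.card - 1) * (cls v S τ ω).card <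
      ∑ ω' ∈ cls v S τ ω, ind (FF v S g η k (insert c τ) ω') := by
  unfold FF
  obtain ⟨d, hd⟩ : ∃ d, k - τ.card = d + 1 := ⟨k - τ.card - 1, by omega⟩
  rw [hd, Fat, Nat.add_sub_cancel]
  refine exists_congr fun c => and_congr_right fun hc => ?_
  rw [card_insert_of_notMem hc, show k - (τ.card + 1) = d by omega]

theorem Lad.subset {τ σ : Finset I} {ω : Ω} (h : Lad v S g η k τ ω σ) : σ ⊆ τ := by
  induction h with
  | top => exact subset_rfl
  | step σ c _ _ _ _ ih => exact (subset_insert _ _).trans ih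

theorem Lad.card {τ σ : Finset I} {ω : Ω} (h : Lad v S g η k τ ω σ) : τ.card = k := by
  induction h with
  | top h => exact h
  | step σ c _ _ _ _ ih => exact ih

theorem Lad.fat {τ σ : Finset I} {ω : Ω} (h : Lad v S g η k τ ω σ) : FF v S g η k σ ω := by
  cases h with
  | top _ h => exact h
  | step _ c h => exact h

theorem Lad.fat_top {τ σ : Finset I} {ω : Ω} (h : Lad v S g η k τ ω σ) : FF v S g η k τ ω := by
  induction h with
  | top _ h => exact h
  | step σ c _ _ _ _ ih => exact ih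

theorem Lad.key {τ' σ : Finset I} {ω : Ω} {c x : I} (hτ : τ'.card = k + 1)
    (hD : ¬ Dead v S g η k ω) (hc : c ∈ τ') (hx : x ∈ τ') (hxc : x ≠ c)
    (hF : FF v S g η k (τ'.erase x) ω) (h : Lad v S g η k (τ'.erase c) ω σ) :
    Lad v S g η k (τ'.erase x) ω (σ.erase x) := by
  have hD' : ∀ τ a b, τ.card < k → a ≠ b → a ∉ τ → b ∉ τ → FF v S g η k (insert a τ) ω →
      FF v S g η k (insert b τ) ω → FF v S g η k τ ω := by
    intro τ a b h1 h2 h3 h4 h5 h6
    by_contra h7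
    exact hD ⟨τ, a, b, h1, h2, h3, h4, h5, h6, h7⟩
  induction h with
  | top h1 h2 =>
    have e1 : insert x ((τ'.erase c).erase x) = τ'.erase c :=
      insert_erase (mem_erase.2 ⟨hxc, hx⟩)
    have e2 : insert c ((τ'.erase c).erase x) = τ'.erase x := by
      rw [erase_right_comm]; exact insert_erase (mem_erase.2 ⟨hxc.symm, hc⟩)
    have hcn : c ∉ (τ'.erase c).erase x := fun h => notMem_erase c τ' (mem_of_mem_erase h)
    refine Lad.step _ c (hD' _ x c ?_ hxc (notMem_erase _ _) hcn (by rwa [e1]) (by rwa [e2]))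
      (mem_erase.2 ⟨hxc.symm, hc⟩) hcn ?_
    · rw [← h1]; exact card_erase_lt_of_mem (mem_erase.2 ⟨hxc, hx⟩)
    · rw [e2]
      exact Lad.top (by rw [card_erase_of_mem hx, hτ]; rfl) hF
  | step σ y h1 h2 h3 h4 ih =>
    by_cases hxy : x = y
    · subst hxy
      rwa [erase_insert h3, ← erase_eq_of_notMem h3] at ih
    have hy : y ∈ τ'.erase x := mem_erase.2 ⟨Ne.symm hxy, mem_of_mem_erase h2⟩
    rw [erase_insert_of_ne (Ne.symm hxy)] at ih
    have hyn : y ∉ σ.erase x := fun h => h3 (mem_of_mem_erase h)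
    refine Lad.step _ y ?_ hy hyn ih
    by_cases hxσ : x ∈ σ
    · refine hD' _ x y ?_ hxy (notMem_erase _ _) hyn (by rwa [insert_erase hxσ]) ih.fat
      have := card_le_card ((subset_insert _ _).trans h4.subset)
      rw [h4.card] at this
      exact (card_erase_lt_of_mem hxσ).trans_le this
    · rwa [erase_eq_of_notMem hxσ]

variable [Fintype I]

theorem FF_inv (hg : Inv v (dom S univ) k g) {τ : Finset I} (hτ : τ.card ≤ k) {ω ω' : Ω}
    (hω : ω ∈ S) (hω' : ω' ∈ S) (hr : Rel v τ ω ω') :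
    FF v S g η k τ ω ↔ FF v S g η k τ ω' := by
  rcases hτ.eq_or_lt with h | h
  · rw [FF_top h, FF_top h, hg τ ω ω' h ⟨subset_univ _, hω⟩ ⟨subset_univ _, hω'⟩ hr]
  · rw [FF_lt h, FF_lt h, cls_eq hr]

theorem Lad.inv (hg : Inv v (dom S univ) k g) {τ σ : Finset I} {ω ω' : Ω}
    (hω : ω ∈ S) (hω' : ω' ∈ S) (hr : Rel v τ ω ω') (h : Lad v S g η k τ ω σ) :
    Lad v S g η k τ ω' σ := by
  induction h with
  | top h1 h2 => exact Lad.top h1 ((FF_inv hg h1.le hω hω' hr).1 h2)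
  | step σ c h1 h2 h3 h4 ih =>
    have hs : σ ⊆ τ := (subset_insert _ _).trans h4.subset
    exact Lad.step σ c ((FF_inv hg ((card_le_card hs).trans h4.card.le) hω hω'
      (hr.mono hs)).1 h1) h2 h3 ih

theorem fat_markov (hg : Inv v (dom S univ) k g) {τ : Finset I} (hτ : τ.card < k) :
    η * pp η (k - τ.card - 1) * ∑ ω ∈ S, ind (FF v S g η k τ ω) ≤
      ∑ c ∈ τᶜ, ∑ ω ∈ S, ind (FF v S g η k (insert c τ) ω) := by
  rw [sum_comm, mul_sum]
  refine sum_le_of_cls v S τ fun ω₀ hω₀ => ?_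
  have hiff : ∀ ω ∈ cls v S τ ω₀, ind (FF v S g η k τ ω) = ind (FF v S g η k τ ω₀) :=
    fun ω hω => by rw [FF_inv hg hτ.le hω₀ (mem_cls.1 hω).1 (mem_cls.1 hω).2]
  rw [sum_congr rfl fun ω hω => by rw [hiff ω hω], sum_const, nsmul_eq_mul, sum_comm]
  by_cases hF : FF v S g η k τ ω₀
  · rw [ind_pos hF, mul_one, mul_comm]
    obtain ⟨c, hc, hlt⟩ := (FF_lt hτ).1 hF
    exact hlt.le.trans (single_le_sum
      (f := fun c => ∑ ω ∈ cls v S τ ω₀, ind (FF v S g η k (insert c τ) ω))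
      (fun _ _ => sum_nonneg fun _ _ => ind_nonneg _) (mem_compl.2 hc))
  · rw [ind_neg hF, mul_zero, mul_zero]
    exact sum_nonneg fun _ _ => sum_nonneg fun _ _ => ind_nonneg _

theorem fat_count (hη : 0 < η) (hg : Inv v (dom S univ) k g) (d : ℕ) :
    ∀ τ : Finset I, τ.card + d = k → pp η d * ∑ ω ∈ S, ind (FF v S g η k τ ω) ≤
      (Fintype.card I : ℝ) ^ d * nrm S univ k g := by
  induction d with
  | zero =>
    intro τ hτ
    rw [pp, pow_zero, one_mul, one_mul, nrm_cast]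
    simp only [FF_top (show τ.card = k from hτ)]
    exact single_le_sum (f := fun τ => ∑ ω ∈ S, ind (g τ ω ≠ 0))
      (fun _ _ => sum_nonneg fun _ _ => ind_nonneg _) (mem_powersetCard.2 ⟨subset_univ _, hτ⟩)
  | succ d ih =>
    intro τ hτ
    have h1 := fat_markov (η := η) hg (show τ.card < k by omega)
    rw [show k - τ.card - 1 = d by omega] at h1
    have h3 : ∑ c ∈ τᶜ, pp η d * ∑ ω ∈ S, ind (FF v S g η k (insert c τ) ω) ≤
        ∑ _c ∈ τᶜ, (Fintype.card I : ℝ) ^ d * nrm S univ k g :=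
      sum_le_sum fun c hc => ih _ (by rw [card_insert_of_notMem (mem_compl.1 hc)]; omega)
    rw [sum_const, nsmul_eq_mul] at h3
    have h4 : ((τᶜ).card : ℝ) ≤ Fintype.card I := by exact_mod_cast card_le_univ _
    have h5 : ((τᶜ).card : ℝ) * ((Fintype.card I : ℝ) ^ d * nrm S univ k g) ≤
        Fintype.card I * ((Fintype.card I : ℝ) ^ d * nrm S univ k g) :=
      mul_le_mul_of_nonneg_right h4 (by positivity)
    calc pp η (d + 1) * ∑ ω ∈ S, ind (FF v S g η k τ ω)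
        = pp η d * (η * pp η d * ∑ ω ∈ S, ind (FF v S g η k τ ω)) := by rw [pp]; ring
      _ ≤ pp η d * ∑ c ∈ τᶜ, ∑ ω ∈ S, ind (FF v S g η k (insert c τ) ω) :=
          mul_le_mul_of_nonneg_left h1 (pp_pos hη d).le
      _ = ∑ c ∈ τᶜ, pp η d * ∑ ω ∈ S, ind (FF v S g η k (insert c τ) ω) := mul_sum _ _ _
      _ ≤ _ := h3.trans h5
      _ = _ := by ring

theorem dead_count (hη : 0 < η) (hη1 : η ≤ 1) (hg : Inv v (dom S univ) k g)
    (hk : k ≤ Fintype.card I)
    (hc : ∀ σ : Finset I, ∀ ω₀ ∈ S, ∀ a b, a ≠ b → a ∉ σ → b ∉ σ →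
      Corr (v a) (v b) (cls v S σ ω₀) (η * pp η (Fintype.card I))) :
    ∑ ω ∈ S, ind (Dead v S g η k ω) ≤ 2 ^ Fintype.card I * (Fintype.card I * (Fintype.card I *
      (4 * η * (Fintype.card I : ℝ) ^ Fintype.card I * nrm S univ k g))) := by
  set n := Fintype.card I with hn
  set D : Finset I → I → I → Ω → Prop := fun τ a b ω => τ.card < k ∧ a ≠ b ∧ a ∉ τ ∧ b ∉ τ ∧
    FF v S g η k (insert a τ) ω ∧ FF v S g η k (insert b τ) ω ∧ ¬ FF v S g η k τ ω with hD
  have h1 : ∀ ω, ind (Dead v S g η k ω) ≤ ∑ τ, ∑ a, ∑ b, ind (D τ a b ω) := by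
    intro ω
    refine ind_le_sum (fun _ _ => sum_nonneg fun _ _ => sum_nonneg fun _ _ => ind_nonneg _) ?_
    rintro ⟨τ, a, b, h⟩
    refine ⟨τ, mem_univ _, le_trans ?_ (single_le_sum (f := fun a => ∑ b, ind (D τ a b ω))
      (fun _ _ => sum_nonneg fun _ _ => ind_nonneg _) (mem_univ a))⟩
    exact le_trans (ind_pos h).ge (single_le_sum (f := fun b => ind (D τ a b ω))
      (fun _ _ => ind_nonneg _) (mem_univ b))
  have h2 : ∀ τ a b, ∑ ω ∈ S, ind (D τ a b ω) ≤ 4 * η * (n : ℝ) ^ n * nrm S univ k g := by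
    intro τ a b
    by_cases hs : τ.card < k ∧ a ≠ b ∧ a ∉ τ ∧ b ∉ τ
    swap
    · rw [sum_eq_zero fun ω _ => ind_neg fun h => hs ⟨h.1, h.2.1, h.2.2.1, h.2.2.2.1⟩]
      positivity
    obtain ⟨s1, s2, s3, s4⟩ := hs
    set d := k - τ.card - 1 with hd
    have hp := pp_pos hη d
    have hlam : η * pp η n ≤ η * pp η d :=
      mul_le_mul_of_nonneg_left (pp_anti hη hη1 (by omega)) hη.le
    have hmeas : ∀ c, c ∉ τ → ∀ ω₀, Meas (v c) (cls v S τ ω₀)
        (FF v S g η k (insert c τ)) := by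
      intro c hc ω₀ ω hω ω' hω' e
      refine propext (FF_inv hg (by rw [card_insert_of_notMem hc]; omega) (mem_cls.1 hω).1
        (mem_cls.1 hω').1 fun i hi => ?_)
      rcases mem_insert.1 hi with rfl | hi
      · exact e
      · exact rel_of_mem_cls hω hω' i hi
    have e1 : ∑ ω ∈ S, ind (D τ a b ω) ≤ ∑ ω ∈ S, (η * pp η d + η * pp η n) *
        (ind (FF v S g η k (insert a τ) ω) + ind (FF v S g η k (insert b τ) ω)) := by
      refine sum_le_of_cls v S τ fun ω₀ hω₀ => ?_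
      have hθ : 0 ≤ η * pp η d := by positivity
      have hl : 0 ≤ η * pp η n := (mul_pos hη (pp_pos hη n)).le
      by_cases hF : FF v S g η k τ ω₀
      · rw [sum_eq_zero fun ω hω => ind_neg fun h => h.2.2.2.2.2.2
          ((FF_inv hg s1.le hω₀ (mem_cls.1 hω).1 (mem_cls.1 hω).2).1 hF)]
        exact sum_nonneg fun _ _ => mul_nonneg (add_nonneg hθ hl)
          (add_nonneg (ind_nonneg _) (ind_nonneg _))
      · rw [← mul_sum, sum_add_distrib]
        refine le_trans (sum_le_sum fun ω _ => ind_mono fun h => ⟨h.2.2.2.2.1, h.2.2.2.2.2.1⟩)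
          (corr_count hl hθ (hc τ ω₀ hω₀ a b s2 s3 s4) (hmeas a s3 ω₀) (hmeas b s4 ω₀) ?_)
        by_contra hlt
        exact hF ((FF_lt s1).2 ⟨a, s3, not_le.1 hlt⟩)
    rw [← mul_sum, sum_add_distrib] at e1
    have ea := fat_count hη hg d (insert a τ) (by rw [card_insert_of_notMem s3]; omega)
    have eb := fat_count hη hg d (insert b τ) (by rw [card_insert_of_notMem s4]; omega)
    rw [← hn] at ea eb
    have hn1 : (1 : ℝ) ≤ n := by exact_mod_cast (show 1 ≤ n by omega)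
    have e2 : (n : ℝ) ^ d * nrm S univ k g ≤ (n : ℝ) ^ n * nrm S univ k g :=
      mul_le_mul_of_nonneg_right (pow_le_pow_right₀ hn1 (by omega)) (Nat.cast_nonneg _)
    set α := ∑ ω ∈ S, ind (FF v S g η k (insert a τ) ω)
    set β := ∑ ω ∈ S, ind (FF v S g η k (insert b τ) ω)
    have hα : 0 ≤ α := sum_nonneg fun _ _ => ind_nonneg _
    have hβ : 0 ≤ β := sum_nonneg fun _ _ => ind_nonneg _
    have e3 : (η * pp η d + η * pp η n) * (α + β) ≤ (η * pp η d + η * pp η d) * (α + β) :=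
      mul_le_mul_of_nonneg_right (by linarith) (add_nonneg hα hβ)
    have e4 : η * (pp η d * α + pp η d * β) ≤ η * (2 * ((n : ℝ) ^ n * nrm S univ k g)) :=
      mul_le_mul_of_nonneg_left (by linarith) hη.le
    nlinarith
  refine (sum_le_sum fun ω _ => h1 ω).trans ?_
  rw [sum_comm]
  refine (sum_le_card_nsmul _ _ (n * (n * (4 * η * (n : ℝ) ^ n * nrm S univ k g)))
    fun τ _ => ?_).trans (by simp [hn])
  rw [sum_comm]
  refine (sum_le_card_nsmul _ _ (n * (4 * η * (n : ℝ) ^ n * nrm S univ k g))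
    fun a _ => ?_).trans (by simp [hn])
  rw [sum_comm]
  exact (sum_le_card_nsmul _ _ _ fun b _ => h2 τ a b).trans (by simp [hn])

theorem zmod2_eq_one {x : ZMod 2} (h : x ≠ 0) : x = 1 := by
  revert x; decide

theorem ladder_step {M : ℕ} (hg : Inv v (dom S univ) k g) (hco : Cocyc (dom S univ) k g)
    (hmin : LocMin v S k g) (hk : k + 1 ≤ Fintype.card I)
    (hex : ∀ σ : Finset I, σ.Nonempty → ∀ ω₀ ∈ S, ∀ j, j + 1 ≤ σᶜ.card →
      Expand v (cls v S σ ω₀) σᶜ j M) {σ : Finset I} (hσ : σ.Nonempty) (hσk : σ.card ≤ k) :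
    ∑ ω ∈ S, ∑ τ, ind (Lad v S g η k τ ω σ) ≤ ∑ ω ∈ S, (M * 2 ^ Fintype.card I) *
      (ind (Dead v S g η k ω) + ∑ x ∈ σ, ∑ τ, ind (Lad v S g η k τ ω (σ.erase x))) := by
  classical
  refine sum_le_of_cls v S σ fun ω₀ hω₀ => ?_
  set C := cls v S σ ω₀ with hC
  set j := k - σ.card with hj
  set ψ : Coch I Ω := fun ρ ω => if Lad v S g η k (σ ∪ ρ) ω σ then 1 else 0 with hψ
  have hψ0 : ∀ ρ ω, ψ ρ ω ≠ 0 ↔ Lad v S g η k (σ ∪ ρ) ω σ := by
    intro ρ ω
    simp only [hψ]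
    split_ifs with h <;> simp [h]
  have hinv : Inv v (dom C σᶜ) j ψ := by
    intro ρ ω ω' _ h1 h2 hr
    have hr' : Rel v (σ ∪ ρ) ω ω' := fun i hi => by
      rcases mem_union.1 hi with hi | hi
      · exact rel_of_mem_cls h1.2 h2.2 i hi
      · exact hr i hi
    have : Lad v S g η k (σ ∪ ρ) ω σ ↔ Lad v S g η k (σ ∪ ρ) ω' σ :=
      ⟨Lad.inv hg (mem_cls.1 h1.2).1 (mem_cls.1 h2.2).1 hr',
        Lad.inv hg (mem_cls.1 h2.2).1 (mem_cls.1 h1.2).1 hr'.symm⟩
    simp only [hψ, this]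
  obtain ⟨h, hh, hle⟩ := hex σ hσ ω₀ hω₀ j (by rw [card_compl]; omega) ψ hinv
  have hm := hmin σ hσ hσk ω₀ hω₀ h hh
  rw [← hC, ← hj] at hm
  rw [← hC] at hle
  have e1 : (nrm C σᶜ j (lk σ g + dd h) : ℝ) + nrm C σᶜ j ψ ≤
      nrm C σᶜ j (ψ + dd h) + nrm C σᶜ j (lk σ g) := by
    simp only [nrm_cast, ← sum_add_distrib]
    refine sum_le_sum fun ρ _ => sum_le_sum fun ω _ => ?_
    by_cases h1 : ψ ρ ω = 0
    · rw [ind_neg (not_not.2 h1), add_zero]
      refine ind_le_of (add_nonneg (ind_nonneg _) (ind_nonneg _)) fun h2 => ?_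
      by_cases h3 : lk σ g ρ ω = 0
      · have h4 : (ψ + dd h) ρ ω ≠ 0 := by simpa [h1, h3] using h2
        rw [ind_pos h4]; linarith [ind_nonneg (lk σ g ρ ω ≠ 0)]
      · rw [ind_pos h3]; linarith [ind_nonneg ((ψ + dd h) ρ ω ≠ 0)]
    · have hl := (hψ0 ρ ω).1 h1
      have h2 : lk σ g ρ ω ≠ 0 := (FF_top hl.card).1 hl.fat_top
      rw [ind_pos h1, ind_pos h2]
      simp only [Pi.add_apply, zmod2_eq_one h1, zmod2_eq_one h2, le_refl]
  have e2 : ∑ ω ∈ C, ∑ τ, ind (Lad v S g η k τ ω σ) = nrm C σᶜ j ψ := by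
    rw [nrm_cast, sum_comm]
    simp only [hψ0]
    rw [sum_lk σ hσk fun τ => ∑ ω ∈ C, ind (Lad v S g η k τ ω σ)]
    refine (sum_subset (subset_univ _) fun τ _ hτ => sum_eq_zero fun ω _ => ind_neg fun hl =>
      hτ (mem_filter.2 ⟨mem_powersetCard.2 ⟨subset_univ _, hl.card⟩, hl.subset⟩)).symm
  set B : Ω → ℝ := fun ω =>
    ind (Dead v S g η k ω) + ∑ x ∈ σ, ∑ τ, ind (Lad v S g η k τ ω (σ.erase x)) with hB
  have hB0 : ∀ ω, 0 ≤ B ω := fun ω => add_nonneg (ind_nonneg _)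
    (sum_nonneg fun _ _ => sum_nonneg fun _ _ => ind_nonneg _)
  have e3 : ∀ ρ ∈ σᶜ.powersetCard (j + 1), ∀ ω ∈ C, ind (dd ψ ρ ω ≠ 0) ≤ B ω := by
    intro ρ hρ ω hω
    obtain ⟨hρ1, hρ2⟩ := mem_powersetCard.1 hρ
    have hdis := disj_of_subset_compl hρ1
    refine ind_le_of (hB0 ω) fun hne => ?_
    by_cases hD : Dead v S g η k ω
    · simp only [hB, ind_pos hD]
      exact le_add_of_nonneg_right (sum_nonneg fun _ _ => sum_nonneg fun _ _ => ind_nonneg _)
    have hcard : (σ ∪ ρ).card = k + 1 := by rw [card_union_of_disjoint hdis]; omega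
    have her : ∀ x ∈ ρ, σ ∪ ρ.erase x = (σ ∪ ρ).erase x := fun x hx => by
      rw [erase_union_distrib, erase_eq_of_notMem (disjoint_right.1 hdis hx)]
    have hce : ∀ x ∈ σ ∪ ρ, ((σ ∪ ρ).erase x).card = k := fun x hx => by
      rw [card_erase_of_mem hx, hcard]; rfl
    obtain ⟨c, hc, hc0⟩ := exists_ne_zero_of_sum_ne_zero hne
    have hlc := (hψ0 _ _).1 hc0
    rw [her c hc] at hlc
    by_contra hlt
    have hno : ∀ x ∈ σ, ¬ Lad v S g η k ((σ ∪ ρ).erase x) ω (σ.erase x) := by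
      intro x hx hl
      refine hlt ?_
      simp only [hB, ind_neg hD, zero_add]
      refine le_trans ?_ (single_le_sum (f := fun x => ∑ τ, ind (Lad v S g η k τ ω (σ.erase x)))
        (fun _ _ => sum_nonneg fun _ _ => ind_nonneg _) hx)
      exact le_trans (ind_pos hl).ge (single_le_sum
        (f := fun τ => ind (Lad v S g η k τ ω (σ.erase x))) (fun _ _ => ind_nonneg _) (mem_univ _))
    have z1 : ∀ x ∈ σ, g ((σ ∪ ρ).erase x) ω = 0 := by
      intro x hx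
      by_contra hne'
      have hxc : x ≠ c := fun e => disjoint_left.1 hdis hx (e ▸ hc)
      exact hno x hx (Lad.key hcard hD (mem_union_right _ hc) (mem_union_left _ hx) hxc
        ((FF_top (hce x (mem_union_left _ hx))).2 hne') hlc)
    have z2 : ∀ x ∈ ρ, g ((σ ∪ ρ).erase x) ω = ψ (ρ.erase x) ω := by
      intro x hx
      have hiff : g ((σ ∪ ρ).erase x) ω ≠ 0 ↔ ψ (ρ.erase x) ω ≠ 0 := by
        rw [hψ0, her x hx, ← FF_top (hce x (mem_union_right _ hx)) (v := v) (S := S) (η := η)]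
        refine ⟨fun hF => ?_, fun hl => hl.fat_top⟩
        by_cases hxc : x = c
        · rwa [hxc]
        · have := Lad.key hcard hD (mem_union_right _ hc) (mem_union_right _ hx) hxc hF hlc
          rwa [erase_eq_of_notMem (disjoint_right.1 hdis hx)] at this
      by_cases h0 : g ((σ ∪ ρ).erase x) ω = 0
      · rw [h0]; by_contra h1; exact hiff.2 (Ne.symm h1) h0
      · rw [zmod2_eq_one h0, zmod2_eq_one (hiff.1 h0)]
    have z3 := hco (σ ∪ ρ) ω hcard ⟨subset_univ _, (mem_cls.1 hω).1⟩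
    unfold dd at z3 hne
    rw [sum_union hdis, sum_eq_zero z1, zero_add, sum_congr rfl z2] at z3
    exact hne z3
  have e4 : (nrm C σᶜ (j + 1) (dd ψ) : ℝ) ≤ 2 ^ Fintype.card I * ∑ ω ∈ C, B ω := by
    rw [nrm_cast]
    refine (sum_le_card_nsmul _ _ (∑ ω ∈ C, B ω)
      fun ρ hρ => sum_le_sum fun ω hω => e3 ρ hρ ω hω).trans ?_
    rw [nsmul_eq_mul]
    exact mul_le_mul_of_nonneg_right (by exact_mod_cast card_powersetCard_le _ _)
      (sum_nonneg fun ω _ => hB0 ω)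
  have hm' : (nrm C σᶜ j (lk σ g) : ℝ) ≤ nrm C σᶜ j (lk σ g + dd h) := by exact_mod_cast hm
  have hle' : (nrm C σᶜ j (ψ + dd h) : ℝ) ≤ M * nrm C σᶜ (j + 1) (dd ψ) := by exact_mod_cast hle
  have e5 := mul_le_mul_of_nonneg_left e4 (Nat.cast_nonneg M : (0 : ℝ) ≤ M)
  rw [e2, ← mul_sum, mul_assoc]
  linarith

theorem ladder_bound {M : ℕ} (hg : Inv v (dom S univ) k g) (hco : Cocyc (dom S univ) k g)
    (hmin : LocMin v S k g) (hk : k + 1 ≤ Fintype.card I)
    (hex : ∀ σ : Finset I, σ.Nonempty → ∀ ω₀ ∈ S, ∀ j, j + 1 ≤ σᶜ.card →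
      Expand v (cls v S σ ω₀) σᶜ j M) (h0 : ∀ ω ∈ S, ¬ FF v S g η k ∅ ω) (s : ℕ) :
    ∀ σ : Finset I, σ.card = s → s ≤ k → ∑ ω ∈ S, ∑ τ, ind (Lad v S g η k τ ω σ) ≤
      (M * 2 ^ Fintype.card I * (Fintype.card I + 1) + 1 : ℝ) ^ s *
        ∑ ω ∈ S, ind (Dead v S g η k ω) := by
  have hD0 : 0 ≤ ∑ ω ∈ S, ind (Dead v S g η k ω) := sum_nonneg fun _ _ => ind_nonneg _
  induction s with
  | zero =>
    intro σ hσ _
    rw [card_eq_zero.1 hσ,
      sum_eq_zero fun ω hω => sum_eq_zero fun τ _ => ind_neg fun hl => h0 ω hω hl.fat]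
    simpa using hD0
  | succ s ih =>
    intro σ hσ hs
    refine (ladder_step hg hco hmin hk hex (card_pos.1 (by omega)) (by omega)).trans ?_
    rw [← mul_sum, sum_add_distrib, sum_comm (s := S) (t := σ)]
    set E : ℝ := M * 2 ^ Fintype.card I * (Fintype.card I + 1) + 1 with hE
    set Dd := ∑ ω ∈ S, ind (Dead v S g η k ω)
    set K : ℝ := M * 2 ^ Fintype.card I with hK
    have hK0 : 0 ≤ K := by positivity
    have hE1 : 1 ≤ E := le_add_of_nonneg_left (by positivity)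
    have hEs : 1 ≤ E ^ s := one_le_pow₀ hE1
    have e1 : ∑ x ∈ σ, ∑ ω ∈ S, ∑ τ, ind (Lad v S g η k τ ω (σ.erase x)) ≤
        Fintype.card I * (E ^ s * Dd) := by
      refine (sum_le_card_nsmul _ _ (E ^ s * Dd) fun x hx =>
        ih _ (by rw [card_erase_of_mem hx, hσ]; rfl) (by omega)).trans ?_
      rw [nsmul_eq_mul]
      exact mul_le_mul_of_nonneg_right (by exact_mod_cast card_le_univ _) (by positivity)
    have e2 : Dd ≤ E ^ s * Dd := le_mul_of_one_le_left hD0 hEs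
    have e3 : 0 ≤ E ^ s * Dd := by positivity
    calc _ ≤ K * ((Fintype.card I + 1) * (E ^ s * Dd)) :=
          mul_le_mul_of_nonneg_left (by linarith) hK0
      _ ≤ K * ((Fintype.card I + 1) * (E ^ s * Dd)) + E ^ s * Dd := by linarith
      _ = _ := by rw [pow_succ, hE]; ring

end EK

open EK in
/-- Small locally minimal cocycles vanish. -/
theorem ek_vanish (n M : ℕ) : ∃ lam : ℝ, 0 < lam ∧ ∃ μ : ℝ, 0 < μ ∧
    ∀ (I Ω V : Type) [Fintype I] [DecidableEq I] (v : I → Ω → V) (S : Finset Ω),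
      Fintype.card I = n →
      (∀ σ : Finset I, σ.Nonempty → ∀ ω₀ ∈ S, ∀ j, j + 1 ≤ σᶜ.card →
        Expand v (cls v S σ ω₀) σᶜ j M) →
      (∀ σ : Finset I, ∀ ω₀ ∈ S, ∀ a b, a ≠ b → a ∉ σ → b ∉ σ →
        Corr (v a) (v b) (cls v S σ ω₀) lam) →
      ∀ k, k + 1 ≤ n → ∀ g, Inv v (dom S univ) k g → Cocyc (dom S univ) k g →
        LocMin v S k g → (nrm S univ k g : ℝ) ≤ μ * S.card → EqOn (dom S univ) k g 0 := by
  set E : ℝ := M * 2 ^ n * (n + 1) + 1 with hE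
  set X : ℝ := 2 ^ n * (E ^ n * (2 ^ n * (n * (n * (4 * (n : ℝ) ^ n))))) with hX
  have hE1 : 1 ≤ E := le_add_of_nonneg_left (by positivity)
  have hX0 : 0 ≤ X := by positivity
  set η : ℝ := 1 / (X + 1) with hη
  have hη0 : 0 < η := by positivity
  have hη1 : η ≤ 1 := by rw [hη, div_le_one (by positivity)]; linarith
  have hηX : η * X < 1 := by
    rw [hη, div_mul_eq_mul_div, one_mul, div_lt_one (by positivity)]; linarith
  have hpn := pp_pos hη0 n
  refine ⟨η * pp η n, by positivity, pp η n / (2 * ((n : ℝ) ^ n + 1)), by positivity, ?_⟩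
  intro I Ω V _ _ v S hn hex hc k hk g hg hco hmin hsmall
  subst hn
  set n := Fintype.card I with hn
  rcases Nat.eq_zero_or_pos k with rfl | hk0
  · intro τ ω hτ hD
    obtain ⟨i⟩ : Nonempty I := Fintype.card_pos_iff.1 (by omega)
    have := hco {i} ω (by simp) ⟨subset_univ _, hD.2⟩
    rw [card_eq_zero.1 hτ]
    simpa [dd] using this
  have hn1 : (1 : ℝ) ≤ n := by exact_mod_cast (show 1 ≤ n by omega)
  have hN0 : (0 : ℝ) ≤ nrm S univ k g := Nat.cast_nonneg _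
  have h0 : ∀ ω ∈ S, ¬ FF v S g η k ∅ ω := by
    intro ω hω hF
    have e1 := fat_count hη0 hg k ∅ (by simp)
    rw [sum_congr rfl fun ω' hω' => ind_pos ((FF_inv hg (by simp) hω hω'
      (fun i hi => absurd hi (notMem_empty i))).1 hF), sum_const, nsmul_eq_mul, mul_one,
      ← hn] at e1
    have hS : (0 : ℝ) < S.card := by exact_mod_cast card_pos.2 ⟨ω, hω⟩
    have e2 : pp η n * S.card ≤ pp η k * S.card :=
      mul_le_mul_of_nonneg_right (pp_anti hη0 hη1 (by omega)) hS.le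
    have e3 : (n : ℝ) ^ k * nrm S univ k g ≤ ((n : ℝ) ^ n + 1) * nrm S univ k g :=
      mul_le_mul_of_nonneg_right ((pow_le_pow_right₀ hn1 (show k ≤ n by omega)).trans
        (by linarith)) hN0
    have e4 := mul_le_mul_of_nonneg_left hsmall (show 0 ≤ (n : ℝ) ^ n + 1 by positivity)
    have e5 : ((n : ℝ) ^ n + 1) * (pp η n / (2 * ((n : ℝ) ^ n + 1)) * S.card) =
        pp η n * S.card / 2 := by field_simp
    have e6 : 0 < pp η n * S.card := by positivity
    linarith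
  have hdead := dead_count hη0 hη1 hg (by omega) hc
  rw [← hn] at hdead
  set Dd := ∑ ω ∈ S, ind (Dead v S g η k ω)
  have hD0 : 0 ≤ Dd := sum_nonneg fun _ _ => ind_nonneg _
  have hN : (nrm S univ k g : ℝ) ≤ 2 ^ n * (E ^ n * Dd) := by
    rw [nrm_cast]
    refine (sum_le_card_nsmul _ _ (E ^ n * Dd) fun τ hτ => ?_).trans ?_
    · have hτ' := (mem_powersetCard.1 hτ).2
      refine le_trans (sum_le_sum fun ω _ => ?_)
        ((ladder_bound hg hco hmin hk hex h0 k τ hτ' le_rfl).trans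
          (mul_le_mul_of_nonneg_right (pow_le_pow_right₀ hE1 (by omega)) hD0))
      exact ind_le_sum (fun _ _ => ind_nonneg _) fun h =>
        ⟨τ, mem_univ _, (ind_pos (Lad.top hτ' ((FF_top hτ').2 h))).ge⟩
    · rw [nsmul_eq_mul]
      exact mul_le_mul_of_nonneg_right (by exact_mod_cast card_powersetCard_le _ _)
        (by positivity)
  have hN2 : (nrm S univ k g : ℝ) ≤ η * X * nrm S univ k g := by
    refine hN.trans (le_trans (mul_le_mul_of_nonneg_left (mul_le_mul_of_nonneg_left hdead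
      (by positivity)) (by positivity)) (le_of_eq ?_))
    rw [hX]; ring
  have hz : (nrm S univ k g : ℝ) = 0 := by nlinarith
  exact eqOn_of_nrm_eq_zero (by exact_mod_cast hz)

end Vale.Agent.P067
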