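import Vale.Agent.P067.Basic

/-! Bounded fillings and cones for complexes in face form. Chains are multisets of faces, and
are only used through their pairing with cochains. -/

namespace Vale.Agent.P067

open Finset

section Defs

variable {V : Type}

/-- Pairing of a chain with a cochain. -/
def pair (z : Multiset (Finset V)) (ψ : Finset V → ZMod 2) : ZMod 2 := (z.map ψ).sum

/-- `z` is a chain of faces of `Δ` of size `k`. -/
def IsChain' (Δ : Finset V → Prop) (k : ℕ) (z : Multiset (Finset V)) : Prop :=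
  ∀ ρ ∈ z, Δ ρ ∧ ρ.card = k

variable [DecidableEq V]

/-- `z` is a cycle. -/
def IsCyc (z : Multiset (Finset V)) : Prop := ∀ ψ, pair z (dF ψ) = 0

/-- `w` has boundary `z`. -/
def Bd (w z : Multiset (Finset V)) : Prop := ∀ ψ, pair z ψ = pair w (dF ψ)

/-- Cycles of size `k` with at most `s` faces bound chains with at most `M` faces. -/
def Fill (Δ : Finset V → Prop) (k s M : ℕ) : Prop :=
  ∀ z, IsChain' Δ k z → IsCyc z → Multiset.card z ≤ s →
    ∃ w, IsChain' Δ (k + 1) w ∧ Multiset.card w ≤ M ∧ Bd w z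

/-- A cone (contraction) of radius `M` up to size `k`. -/
def IsCone (Δ : Finset V → Prop) (k M : ℕ) (c : Finset V → Multiset (Finset V)) : Prop :=
  ∀ ρ, Δ ρ → ρ.card ≤ k → IsChain' Δ (ρ.card + 1) (c ρ) ∧ Multiset.card (c ρ) ≤ M ∧
    ∀ ψ, ψ ρ = pair (c ρ) (dF ψ) + ∑ y ∈ ρ, pair (c (ρ.erase y)) ψ

/-- The link of the face `σ`, restricted to the vertex types in `T`. -/
def lk (Δ : Finset V → Prop) (ty : V → ℕ) (σ : Finset V) (T : Finset ℕ) :
    Finset V → Prop :=
  fun ρ => Disjoint ρ σ ∧ Δ (ρ ∪ σ) ∧ ∀ x ∈ ρ, ty x ∈ T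

end Defs

namespace FillAux

variable {V : Type}

lemma pair_zero (ψ : Finset V → ZMod 2) : pair 0 ψ = 0 := by simp [pair]

lemma pair_add (z w : Multiset (Finset V)) (ψ : Finset V → ZMod 2) :
    pair (z + w) ψ = pair z ψ + pair w ψ := by simp [pair]

lemma pair_single (ρ : Finset V) (ψ : Finset V → ZMod 2) : pair {ρ} ψ = ψ ρ := by simp [pair]

lemma pair_map (z : Multiset (Finset V)) (f : Finset V → Finset V) (ψ : Finset V → ZMod 2) :
    pair (z.map f) ψ = pair z (fun ρ => ψ (f ρ)) := by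
  simp [pair]

lemma pair_congr {z : Multiset (Finset V)} {ψ χ : Finset V → ZMod 2}
    (h : ∀ ρ ∈ z, ψ ρ = χ ρ) : pair z ψ = pair z χ := by
  unfold pair
  rw [Multiset.map_congr rfl h]

lemma pair_fun_add (z : Multiset (Finset V)) (ψ χ : Finset V → ZMod 2) :
    pair z (fun ρ => ψ ρ + χ ρ) = pair z ψ + pair z χ := by
  unfold pair
  exact Multiset.sum_map_add

lemma pair_fun_zero (z : Multiset (Finset V)) : pair z (fun _ => 0) = 0 := by simp [pair]

lemma pair_sum {ι : Type} (X : Finset ι) (c : ι → Multiset (Finset V))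
    (ψ : Finset V → ZMod 2) : pair (∑ y ∈ X, c y) ψ = ∑ y ∈ X, pair (c y) ψ := by
  classical
  induction X using Finset.induction_on with
  | empty => simp [pair_zero]
  | insert a X ha ih => rw [Finset.sum_insert ha, Finset.sum_insert ha, pair_add, ih]

lemma pair_fun_sum {ι : Type} (X : Finset ι) (z : Multiset (Finset V))
    (f : ι → Finset V → ZMod 2) :
    pair z (fun ρ => ∑ y ∈ X, f y ρ) = ∑ y ∈ X, pair z (f y) := by
  classical
  induction X using Finset.induction_on with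
  | empty => simp [pair_fun_zero]
  | insert a X ha ih =>
    simp only [Finset.sum_insert ha]
    rw [pair_fun_add, ih]

lemma pair_filter (z : Multiset (Finset V)) (p : Finset V → Prop) [DecidablePred p]
    (ψ : Finset V → ZMod 2) :
    pair (z.filter p) ψ = pair z (fun ρ => if p ρ then ψ ρ else 0) := by
  induction z using Multiset.induction_on with
  | empty => simp [pair]
  | cons a z ih =>
    unfold pair at ih ⊢
    by_cases h : p a
    · simp [h, ih]
    · simp [h, ih]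

lemma card_sum_le {ι : Type} (X : Finset ι) (c : ι → Multiset (Finset V)) (M : ℕ)
    (h : ∀ y ∈ X, Multiset.card (c y) ≤ M) : Multiset.card (∑ y ∈ X, c y) ≤ X.card * M := by
  rw [Multiset.card_sum]
  simpa using Finset.sum_le_card_nsmul X _ M h

lemma chain_add {Δ : Finset V → Prop} {k : ℕ} {z w : Multiset (Finset V)}
    (hz : IsChain' Δ k z) (hw : IsChain' Δ k w) : IsChain' Δ k (z + w) := by
  intro ρ hρ
  rcases Multiset.mem_add.1 hρ with h | h
  · exact hz ρ h
  · exact hw ρ h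

lemma chain_sum {ι : Type} {Δ : Finset V → Prop} {k : ℕ} (X : Finset ι)
    (c : ι → Multiset (Finset V)) (h : ∀ y ∈ X, IsChain' Δ k (c y)) :
    IsChain' Δ k (∑ y ∈ X, c y) := by
  intro ρ hρ
  obtain ⟨y, hy, h'⟩ := Multiset.mem_sum.1 hρ
  exact h y hy ρ h'

lemma eq_add_of_add_eq {a b c : ZMod 2} (h : a + b = c) : a = c + b := by
  rw [← h, add_assoc, CharTwo.add_self_eq_zero, add_zero]

variable [DecidableEq V]

lemma pair_dF_dF (z : Multiset (Finset V)) (ψ : Finset V → ZMod 2) :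
    pair z (dF (dF ψ)) = 0 := by
  rw [pair_congr (χ := fun _ => 0) fun ρ _ => dF_dF ψ ρ, pair_fun_zero]

lemma dF_insert (ψ : Finset V → ZMod 2) {x : V} {ρ : Finset V} (hx : x ∉ ρ) :
    dF ψ (insert x ρ) = ψ ρ + dF (fun s => ψ (insert x s)) ρ := by
  unfold dF
  rw [Finset.sum_insert hx, Finset.erase_insert hx]
  congr 1
  refine Finset.sum_congr rfl fun y hy => ?_
  rw [Finset.erase_insert_of_ne (fun h => hx (by rw [h]; exact hy))]

lemma bd_trans {w w' z z' : Multiset (Finset V)} (h : Bd w (z + z')) (h' : Bd w' z') :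
    Bd (w + w') z := by
  intro ψ
  have h1 := h ψ
  rw [pair_add] at h1
  rw [pair_add, ← h' ψ]
  exact eq_add_of_add_eq h1

lemma cyc_of_bd {w z z' : Multiset (Finset V)} (h : Bd w (z + z')) (hz : IsCyc z) :
    IsCyc z' := by
  intro ψ
  have h1 := h (dF ψ)
  rwa [pair_add, hz ψ, zero_add, pair_dF_dF] at h1

/-- The link of a vertex in a chain. -/
def link (x : V) (z : Multiset (Finset V)) : Multiset (Finset V) :=
  (z.filter fun ρ => x ∈ ρ).map fun ρ => ρ.erase x

lemma pair_link (x : V) (z : Multiset (Finset V)) (ψ : Finset V → ZMod 2) :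
    pair (link x z) ψ = pair z (fun ρ => if x ∈ ρ then ψ (ρ.erase x) else 0) := by
  unfold link
  rw [pair_map, pair_filter]

lemma card_link_le (x : V) (z : Multiset (Finset V)) :
    Multiset.card (link x z) ≤ Multiset.card z := by
  unfold link
  rw [Multiset.card_map]
  exact Multiset.card_le_card (Multiset.filter_le _ _)

lemma dF_tilde (x : V) (ψ : Finset V → ZMod 2) (ρ : Finset V) :
    dF (fun s => if x ∈ s then ψ (s.erase x) else 0) ρ =
      if x ∈ ρ then dF ψ (ρ.erase x) else 0 := by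
  unfold dF
  by_cases hx : x ∈ ρ
  · rw [if_pos hx, ← Finset.add_sum_erase ρ _ hx]
    beta_reduce
    rw [if_neg (Finset.notMem_erase x ρ), zero_add]
    refine Finset.sum_congr rfl fun y hy => ?_
    rw [if_pos (Finset.mem_erase.2 ⟨(Finset.mem_erase.1 hy).1.symm, hx⟩),
      Finset.erase_right_comm]
  · rw [if_neg hx]
    exact Finset.sum_eq_zero fun y _ => if_neg fun h => hx (Finset.mem_of_mem_erase h)

lemma pair_link_dF (x : V) (z : Multiset (Finset V)) (ψ : Finset V → ZMod 2) :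
    pair (link x z) (dF ψ) = pair z (dF fun s => if x ∈ s then ψ (s.erase x) else 0) := by
  rw [pair_link]
  exact pair_congr fun ρ _ => (dF_tilde x ψ ρ).symm

variable {Δ : Finset V → Prop} {ty : V → ℕ}

lemma chain_link (hty : ∀ ρ, Δ ρ → Set.InjOn ty ρ) {σ : Finset V} {T : Finset ℕ} {t k : ℕ}
    {z : Multiset (Finset V)} (hz : IsChain' (lk Δ ty σ (insert t T)) k z) {x : V}
    (hx : ty x = t) : IsChain' (lk Δ ty (insert x σ) T) (k - 1) (link x z) := by
  intro ρ' hρ'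
  obtain ⟨ρ, hρ, rfl⟩ := Multiset.mem_map.1 hρ'
  obtain ⟨hρ1, hρ2⟩ := Multiset.mem_filter.1 hρ
  obtain ⟨⟨h1, h2, h3⟩, h4⟩ := hz ρ hρ1
  refine ⟨⟨?_, ?_, fun y hy => ?_⟩, by rw [Finset.card_erase_of_mem hρ2, h4]⟩
  · rw [Finset.disjoint_insert_right]
    exact ⟨Finset.notMem_erase _ _, h1.mono_left (Finset.erase_subset _ _)⟩
  · rw [Finset.union_insert, ← Finset.insert_union, Finset.insert_erase hρ2]
    exact h2
  · obtain ⟨hy1, hy2⟩ := Finset.mem_erase.1 hy
    rcases Finset.mem_insert.1 (h3 y hy2) with h | h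
    · exact absurd (hty _ h2 (by simp [hy2]) (by simp [hρ2]) (h.trans hx.symm)) hy1
    · exact h

lemma star_replace (hΔ : DownF Δ) (hty : ∀ ρ, Δ ρ → Set.InjOn ty ρ) (σ : Finset V)
    (T : Finset ℕ) (t k s M : ℕ) (z : Multiset (Finset V))
    (hz : IsChain' (lk Δ ty σ (insert t T)) k z) (hs : Multiset.card z ≤ s)
    (hu : ∀ x, x ∉ σ → Δ (insert x σ) → ty x = t → (∃ ρ ∈ z, x ∈ ρ) →
      ∃ u, IsChain' (lk Δ ty (insert x σ) T) k u ∧ Multiset.card u ≤ M ∧ Bd u (link x z)) :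
    ∃ z' w, IsChain' (lk Δ ty σ T) k z' ∧ Multiset.card z' ≤ s + s * M ∧
      IsChain' (lk Δ ty σ (insert t T)) (k + 1) w ∧ Multiset.card w ≤ s * M ∧ Bd w (z + z') := by
  let X : Finset V := z.toFinset.biUnion fun ρ => ρ.filter fun x => ty x = t
  have huniq : ∀ ρ ∈ z, ∀ x ∈ ρ, ∀ y ∈ ρ, ty x = t → ty y = t → x = y := by
    intro ρ hρ x hx y hy h1 h2
    exact hty _ (hz ρ hρ).1.2.1 (by simp [hx]) (by simp [hy]) (h1.trans h2.symm)
  have hX : ∀ x, x ∈ X ↔ (∃ ρ ∈ z, x ∈ ρ) ∧ ty x = t := by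
    intro x
    simp only [X, Finset.mem_biUnion, Multiset.mem_toFinset, Finset.mem_filter]
    constructor
    · rintro ⟨ρ, h1, h2, h3⟩
      exact ⟨⟨ρ, h1, h2⟩, h3⟩
    · rintro ⟨⟨ρ, h1, h2⟩, h3⟩
      exact ⟨ρ, h1, h2, h3⟩
  have hXc : X.card ≤ s := by
    have h1 : X.card ≤ z.toFinset.card * 1 := by
      refine Finset.card_biUnion_le_card_mul _ _ _ fun ρ hρ => Finset.card_le_one.2 ?_
      intro a ha b hb
      obtain ⟨a1, a2⟩ := Finset.mem_filter.1 ha
      obtain ⟨b1, b2⟩ := Finset.mem_filter.1 hb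
      exact huniq ρ (Multiset.mem_toFinset.1 hρ) a a1 b b1 a2 b2
    have h2 := Multiset.toFinset_card_le z
    omega
  have hu' : ∀ x, ∃ u, x ∈ X → IsChain' (lk Δ ty (insert x σ) T) k u ∧ Multiset.card u ≤ M ∧
      Bd u (link x z) := by
    intro x
    by_cases hx : x ∈ X
    · obtain ⟨⟨ρ, h1, h2⟩, h3⟩ := (hX x).1 hx
      obtain ⟨⟨a1, a2, -⟩, -⟩ := hz ρ h1
      obtain ⟨u, hu⟩ := hu x (Finset.disjoint_left.1 a1 h2) (hΔ _ _ a2 (by
        intro y hy
        rcases Finset.mem_insert.1 hy with rfl | hy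
        · simp [h2]
        · simp [hy])) h3 ⟨ρ, h1, h2⟩
      exact ⟨u, fun _ => hu⟩
    · exact ⟨0, fun h => absurd h hx⟩
  choose u hu using hu'
  have hnot : ∀ x ∈ X, ∀ ρ ∈ u x, x ∉ ρ := fun x hx ρ hρ h =>
    Finset.disjoint_left.1 ((hu x hx).1 ρ hρ).1.1 h (Finset.mem_insert_self _ _)
  refine ⟨(z.filter fun ρ => ∀ y ∈ ρ, ty y ≠ t) + ∑ x ∈ X, u x,
    ∑ x ∈ X, (u x).map (insert x), chain_add ?_ (chain_sum _ _ ?_), ?_, chain_sum _ _ ?_, ?_, ?_⟩
  · intro ρ hρ
    obtain ⟨h1, h2⟩ := Multiset.mem_filter.1 hρ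
    obtain ⟨⟨a1, a2, a3⟩, a4⟩ := hz ρ h1
    exact ⟨⟨a1, a2, fun y hy => (Finset.mem_insert.1 (a3 y hy)).resolve_left (h2 y hy)⟩, a4⟩
  · intro x hx ρ hρ
    obtain ⟨⟨a1, a2, a3⟩, a4⟩ := (hu x hx).1 ρ hρ
    exact ⟨⟨a1.mono_right (Finset.subset_insert _ _), hΔ _ _ a2
      (Finset.union_subset_union_right (Finset.subset_insert _ _)), a3⟩, a4⟩
  · rw [Multiset.card_add]
    have h1 : Multiset.card (z.filter fun ρ => ∀ y ∈ ρ, ty y ≠ t) ≤ Multiset.card z :=
      Multiset.card_le_card (Multiset.filter_le _ _)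
    have h2 := card_sum_le X u M fun x hx => (hu x hx).2.1
    have h3 := Nat.mul_le_mul_right M hXc
    omega
  · intro x hx ρ' hρ'
    obtain ⟨ρ, hρ, rfl⟩ := Multiset.mem_map.1 hρ'
    obtain ⟨⟨a1, a2, a3⟩, a4⟩ := (hu x hx).1 ρ hρ
    obtain ⟨⟨ρ0, h1, h2⟩, h3⟩ := (hX x).1 hx
    refine ⟨⟨?_, ?_, fun y hy => ?_⟩, by rw [Finset.card_insert_of_notMem (hnot x hx ρ hρ), a4]⟩
    · rw [Finset.disjoint_insert_left]
      exact ⟨Finset.disjoint_left.1 (hz ρ0 h1).1.1 h2, a1.mono_right (Finset.subset_insert _ _)⟩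
    · rw [Finset.insert_union, ← Finset.union_insert]
      exact a2
    · rcases Finset.mem_insert.1 hy with rfl | hy
      · rw [h3]
        exact Finset.mem_insert_self _ _
      · exact Finset.mem_insert_of_mem (a3 y hy)
  · have h2 := card_sum_le X (fun x => (u x).map (insert x)) M fun x hx => by
      rw [Multiset.card_map]
      exact (hu x hx).2.1
    exact h2.trans (Nat.mul_le_mul_right M hXc)
  · intro ψ
    have h1 : pair z ψ = pair (z.filter fun ρ => ∀ y ∈ ρ, ty y ≠ t) ψ +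
        ∑ x ∈ X, pair (link x z) (fun s => ψ (insert x s)) := by
      rw [pair_filter, Finset.sum_congr rfl fun x _ => pair_link x z _, ← pair_fun_sum,
        ← pair_fun_add]
      refine pair_congr fun ρ hρ => ?_
      by_cases h : ∀ y ∈ ρ, ty y ≠ t
      · rw [if_pos h, Finset.sum_eq_zero, add_zero]
        exact fun x hx => if_neg fun hxρ => h x hxρ ((hX x).1 hx).2
      · rw [if_neg h, zero_add]
        push Not at h
        obtain ⟨x0, h1, h2⟩ := h
        rw [Finset.sum_eq_single_of_mem x0 ((hX x0).2 ⟨⟨ρ, hρ, h1⟩, h2⟩), if_pos h1,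
          Finset.insert_erase h1]
        exact fun x hx hne => if_neg fun hxρ => hne (huniq ρ hρ x hxρ x0 h1 ((hX x).1 hx).2 h2)
    have h2 : pair (∑ x ∈ X, (u x).map (insert x)) (dF ψ) =
        ∑ x ∈ X, pair (u x) ψ + ∑ x ∈ X, pair (link x z) (fun s => ψ (insert x s)) := by
      rw [pair_sum, ← Finset.sum_add_distrib]
      refine Finset.sum_congr rfl fun x hx => ?_
      rw [pair_map, (hu x hx).2.2, ← pair_fun_add]
      exact pair_congr fun ρ hρ => dF_insert ψ (hnot x hx ρ hρ)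
    rw [pair_add, pair_add, pair_sum, h1, h2]
    have h3 := CharTwo.add_self_eq_zero (pair (z.filter fun ρ => ∀ y ∈ ρ, ty y ≠ t) ψ)
    linear_combination h3

lemma image_of_none {t : ℕ} (φ : V → V) {s : Finset V} (h : ∀ y ∈ s, ty y ≠ t) :
    (s.image fun x => if ty x = t then φ x else x) = s := by
  exact (Finset.image_congr (g := id) fun y hy => if_neg (h y hy)).trans Finset.image_id

lemma image_of_one {t : ℕ} (φ : V → V) {s : Finset V} {x : V} (hx : x ∈ s) (hxt : ty x = t)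
    (h : ∀ y ∈ s, ty y = t → y = x) :
    (s.image fun x => if ty x = t then φ x else x) = insert (φ x) (s.erase x) := by
  conv_lhs => rw [← Finset.insert_erase hx]
  rw [Finset.image_insert, if_pos hxt, image_of_none]
  exact fun y hy e => (Finset.mem_erase.1 hy).1 (h y (Finset.mem_of_mem_erase hy) e)

end FillAux

open FillAux

theorem Fill.mono {V : Type} [DecidableEq V] {Δ : Finset V → Prop} {k s M s' M' : ℕ}
    (h : Fill Δ k s M) (hs : s' ≤ s) (hM : M ≤ M') : Fill Δ k s' M' := by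
  intro z hz hc hcard
  obtain ⟨w, h1, h2, h3⟩ := h z hz hc (hcard.trans hs)
  exact ⟨w, h1, h2.trans hM, h3⟩

theorem downF_lk {V : Type} [DecidableEq V] {Δ : Finset V → Prop} (hΔ : DownF Δ) (ty : V → ℕ)
    (σ : Finset V) (T : Finset ℕ) : DownF (lk Δ ty σ T) := by
  rintro s t ⟨h1, h2, h3⟩ hts
  exact ⟨h1.mono_left hts, hΔ _ _ h2 (Finset.union_subset_union_left hts),
    fun x hx => h3 x (hts hx)⟩

/-- Bounded fillings give a cone of bounded radius. -/
theorem cone_of_fill (k : ℕ) (Mf : ℕ → ℕ) : ∃ (T : Finset ℕ) (M : ℕ),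
    ∀ (V : Type) [DecidableEq V] (Δ : Finset V → Prop), DownF Δ →
      (∀ s ∈ T, ∀ j ≤ k, Fill Δ j s (Mf s)) → ∃ c, IsCone Δ k M c := by
  let a : ℕ → ℕ := fun j => Nat.rec 1 (fun j b => 1 + (j + 1) * Mf b) j
  have ha : ∀ j, a (j + 1) = 1 + (j + 1) * Mf (a j) := fun j => rfl
  refine ⟨(Finset.range (k + 1)).image a, (Finset.range (k + 1)).sup fun j => Mf (a j), ?_⟩
  intro V _ Δ hΔ hfill
  have key : ∀ j ≤ k + 1, ∃ c : Finset V → Multiset (Finset V), ∀ ρ, Δ ρ → ρ.card < j →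
      IsChain' Δ (ρ.card + 1) (c ρ) ∧ Multiset.card (c ρ) ≤ Mf (a ρ.card) ∧
      ∀ ψ, ψ ρ = pair (c ρ) (dF ψ) + ∑ y ∈ ρ, pair (c (ρ.erase y)) ψ := by
    intro j
    induction j with
    | zero => exact fun _ => ⟨fun _ => 0, fun ρ _ h => absurd h (Nat.not_lt_zero _)⟩
    | succ j ih =>
      intro hj
      obtain ⟨c, hc⟩ := ih (by omega)
      have hw : ∀ ρ : Finset V, ∃ w, Δ ρ → ρ.card = j → IsChain' Δ (j + 1) w ∧
          Multiset.card w ≤ Mf (a j) ∧ Bd w ({ρ} + ∑ y ∈ ρ, c (ρ.erase y)) := by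
        intro ρ
        by_cases h : Δ ρ ∧ ρ.card = j
        · obtain ⟨h1, h2⟩ := h
          have he : ∀ y ∈ ρ, (ρ.erase y).card + 1 = j := fun y hy => by
            rw [Finset.card_erase_add_one hy, h2]
          have hc' := fun y (hy : y ∈ ρ) => hc (ρ.erase y) (hΔ _ _ h1 (Finset.erase_subset _ _))
            (by have := he y hy; omega)
          obtain ⟨w, hw⟩ := hfill (a j) (Finset.mem_image_of_mem _ (Finset.mem_range.2 (by omega)))
            j (by omega) ({ρ} + ∑ y ∈ ρ, c (ρ.erase y))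
            (chain_add (fun ρ' h => by rw [Multiset.mem_singleton.1 h]; exact ⟨h1, h2⟩)
              (chain_sum _ _ fun y hy => by rw [← he y hy]; exact (hc' y hy).1))
            (by
              intro ψ
              rw [pair_add, pair_single, pair_sum]
              have e1 : dF ψ ρ = ∑ y ∈ ρ, pair (c (ρ.erase y)) (dF ψ) +
                  dF (dF fun s => pair (c s) ψ) ρ := by
                rw [dF, dF, ← Finset.sum_add_distrib]
                exact Finset.sum_congr rfl fun y hy => (hc' y hy).2.2 ψ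
              rw [e1, dF_dF, add_zero, CharTwo.add_self_eq_zero])
            (by
              rw [Multiset.card_add, Multiset.card_singleton]
              cases j with
              | zero =>
                rw [Finset.card_eq_zero.1 h2]
                exact le_rfl
              | succ j =>
                have := card_sum_le ρ (fun y => c (ρ.erase y)) (Mf (a j)) fun y hy => by
                  have e : (ρ.erase y).card = j := by have := he y hy; omega
                  have := (hc' y hy).2.1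
                  rwa [e] at this
                rw [ha, ← h2]
                omega)
          exact ⟨w, fun _ _ => hw⟩
        · exact ⟨0, fun h1 h2 => absurd ⟨h1, h2⟩ h⟩
      choose w hw using hw
      refine ⟨fun ρ => if ρ.card = j then w ρ else c ρ, fun ρ h1 h2 => ?_⟩
      have he : ∀ ψ, ∑ y ∈ ρ, pair (if (ρ.erase y).card = j then w (ρ.erase y)
          else c (ρ.erase y)) ψ = ∑ y ∈ ρ, pair (c (ρ.erase y)) ψ := fun ψ =>
        Finset.sum_congr rfl fun y hy => by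
          rw [if_neg]
          have := Finset.card_erase_add_one hy
          omega
      simp only [he]
      by_cases h3 : ρ.card = j
      · rw [if_pos h3, h3]
        obtain ⟨a1, a2, a3⟩ := hw ρ h1 h3
        refine ⟨a1, a2, fun ψ => ?_⟩
        have := a3 ψ
        rw [pair_add, pair_single, pair_sum] at this
        exact eq_add_of_add_eq this
      · rw [if_neg h3]
        exact hc ρ h1 (by omega)
  obtain ⟨c, hc⟩ := key (k + 1) le_rfl
  refine ⟨c, fun ρ h1 h2 => ?_⟩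
  obtain ⟨a1, a2, a3⟩ := hc ρ h1 (by omega)
  exact ⟨a1, a2.trans (Finset.le_sup (f := fun j => Mf (a j))
    (Finset.mem_range.2 (by omega))), a3⟩

theorem IsCone.fexact {V : Type} [DecidableEq V] {Δ : Finset V → Prop} {k M : ℕ}
    {c : Finset V → Multiset (Finset V)} (h : IsCone Δ k M c) : ∀ j ≤ k, FExact Δ j := by
  intro j hj ψ hψ
  refine ⟨fun s => pair (c s) ψ, fun s h1 h2 => ?_⟩
  obtain ⟨a1, -, a3⟩ := h s h1 (by omega)
  rw [a3 ψ, pair_congr (χ := fun _ => 0) fun ρ hρ => hψ ρ (a1 ρ hρ).1 (by rw [(a1 ρ hρ).2, h2]),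
    pair_fun_zero, zero_add]
  rfl

/-- Filling by a cone point. -/
theorem fill_cone {V : Type} [DecidableEq V] (Δ : Finset V → Prop) (k : ℕ)
    (z : Multiset (Finset V)) (hz : IsChain' Δ k z) (hc : IsCyc z) (x : V)
    (hx : ∀ ρ ∈ z, x ∉ ρ ∧ Δ (insert x ρ)) :
    ∃ w, IsChain' Δ (k + 1) w ∧ Multiset.card w = Multiset.card z ∧ Bd w z := by
  refine ⟨z.map (insert x), ?_, Multiset.card_map _ _, fun ψ => ?_⟩
  · intro ρ' hρ'
    obtain ⟨ρ, hρ, rfl⟩ := Multiset.mem_map.1 hρ'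
    exact ⟨(hx ρ hρ).2, by rw [Finset.card_insert_of_notMem (hx ρ hρ).1, (hz ρ hρ).2]⟩
  · rw [pair_map, pair_congr fun ρ hρ => dF_insert ψ (hx ρ hρ).1, pair_fun_add, hc, add_zero]

/-- The extension property gives exactness. -/
theorem fexact_of_ext (k : ℕ) : ∃ s : ℕ, ∀ (V : Type) [DecidableEq V] (Δ : Finset V → Prop),
    DownF Δ → (∀ T : Finset V, T.card ≤ s → ∃ x, x ∉ T ∧ ∀ ρ ⊆ T, Δ ρ → Δ (insert x ρ)) →
      ∀ j ≤ k, FExact Δ j := by
  obtain ⟨T, M, h⟩ := cone_of_fill k id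
  refine ⟨T.sup id * k, fun V _ Δ hΔ hext => ?_⟩
  obtain ⟨c, hc⟩ := h V Δ hΔ (by
    intro s hs j hj z hz hcyc hcard
    have h1 : (z.toFinset.biUnion id).card ≤ z.toFinset.card * k :=
      Finset.card_biUnion_le_card_mul _ _ _ fun ρ hρ =>
        ((hz ρ (Multiset.mem_toFinset.1 hρ)).2.le).trans hj
    have h2 : z.toFinset.card ≤ T.sup id :=
      (Multiset.toFinset_card_le z).trans (hcard.trans (Finset.le_sup (f := id) hs))
    obtain ⟨x, hx1, hx2⟩ := hext (z.toFinset.biUnion id) (h1.trans (Nat.mul_le_mul_right k h2))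
    have h3 : ∀ ρ ∈ z, ρ ⊆ z.toFinset.biUnion id := fun ρ hρ =>
      Finset.subset_biUnion_of_mem id (Multiset.mem_toFinset.2 hρ)
    obtain ⟨w, a1, a2, a3⟩ := fill_cone Δ j z hz hcyc x fun ρ hρ =>
      ⟨fun h => hx1 (h3 ρ hρ h), hx2 ρ (h3 ρ hρ) (hz ρ hρ).1⟩
    exact ⟨w, a1, a2.le.trans hcard, a3⟩)
  exact hc.fexact

section Typed

variable {V : Type} [DecidableEq V] {Δ : Finset V → Prop} {ty : V → ℕ}

/-- Pushing a cycle off the vertices of type `t`, by filling in their links. -/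
theorem push_off (hΔ : DownF Δ) (hty : ∀ ρ, Δ ρ → Set.InjOn ty ρ) (σ : Finset V) (T : Finset ℕ)
    (t k s M : ℕ) (ht : t ∉ T)
    (hfill : ∀ x, x ∉ σ → Δ (insert x σ) → ty x = t → 1 ≤ k →
      Fill (lk Δ ty (insert x σ) T) (k - 1) s M)
    (z : Multiset (Finset V)) (hz : IsChain' (lk Δ ty σ (insert t T)) k z) (hc : IsCyc z)
    (hs : Multiset.card z ≤ s) :
    ∃ z' w, IsChain' (lk Δ ty σ T) k z' ∧ IsCyc z' ∧ Multiset.card z' ≤ s + s * M ∧
      IsChain' (lk Δ ty σ (insert t T)) (k + 1) w ∧ Multiset.card w ≤ s * M ∧ Bd w (z + z') := by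
  have _ := ht
  obtain ⟨z', w, a1, a2, a3, a4, a5⟩ := star_replace hΔ hty σ T t k s M z hz hs (by
    rintro x h1 h2 h3 ⟨ρ, h4, h5⟩
    have hk : 1 ≤ k := by
      rw [← (hz ρ h4).2]
      exact Finset.card_pos.2 ⟨x, h5⟩
    have := hfill x h1 h2 h3 hk (link x z) (chain_link hty hz h3)
      (fun ψ => by rw [pair_link_dF, hc]) ((card_link_le x z).trans hs)
    rwa [Nat.sub_add_cancel hk] at this)
  exact ⟨z', w, a1, cyc_of_bd a5 hc, a2, a3, a4, a5⟩

/-- Rank selection: remove the type `t` from a filling. -/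
theorem fill_select (hΔ : DownF Δ) (hty : ∀ ρ, Δ ρ → Set.InjOn ty ρ) (σ : Finset V)
    (T : Finset ℕ) (t k s M M' : ℕ) (ht : t ∉ T)
    (hbig : Fill (lk Δ ty σ (insert t T)) k s M)
    (hfill : ∀ x, x ∉ σ → Δ (insert x σ) → ty x = t → Fill (lk Δ ty (insert x σ) T) k M M') :
    Fill (lk Δ ty σ T) k s (M + M * M') := by
  intro z hz hc hs
  obtain ⟨w0, b1, b2, b3⟩ := hbig z (fun ρ hρ => ⟨⟨(hz ρ hρ).1.1, (hz ρ hρ).1.2.1,
    fun x hx => Finset.mem_insert_of_mem ((hz ρ hρ).1.2.2 x hx)⟩, (hz ρ hρ).2⟩) hc hs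
  obtain ⟨z', w, a1, a2, -, -, a5⟩ := star_replace hΔ hty σ T t (k + 1) M M' w0 b1 b2 (by
    rintro x h1 h2 h3 -
    refine hfill x h1 h2 h3 (link x w0) (chain_link hty b1 h3) (fun ψ => ?_)
      ((card_link_le x w0).trans b2)
    rw [pair_link_dF, ← b3, pair_congr (χ := fun _ => 0), pair_fun_zero]
    exact fun ρ hρ => if_neg fun hx => ht (h3 ▸ (hz ρ hρ).1.2.2 x hx))
  refine ⟨z', a1, a2, fun ψ => ?_⟩
  have := a5 (dF ψ)
  rw [pair_add, pair_dF_dF, ← b3] at this
  rw [eq_add_of_add_eq this, zero_add]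

/-- Replacing every vertex `x` of type `t` of a cycle by `φ x`. -/
theorem replace_type (Δ : Finset V → Prop) (hΔ : DownF Δ) (hty : ∀ ρ, Δ ρ → Set.InjOn ty ρ)
    (t k : ℕ) (φ : V → V) (z : Multiset (Finset V)) (hz : IsChain' Δ k z) (hc : IsCyc z)
    (hφ : ∀ ρ ∈ z, ∀ x ∈ ρ, ty x = t → φ x ∉ ρ ∧ Δ (insert (φ x) ρ)) :
    IsChain' Δ k (z.map fun ρ => ρ.image fun x => if ty x = t then φ x else x) ∧
    IsCyc (z.map fun ρ => ρ.image fun x => if ty x = t then φ x else x) ∧
    ∃ w, IsChain' Δ (k + 1) w ∧ Multiset.card w ≤ Multiset.card z ∧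
      Bd w (z + z.map fun ρ => ρ.image fun x => if ty x = t then φ x else x) := by
  have huniq : ∀ ρ ∈ z, ∀ x ∈ ρ, ty x = t → ∀ y ∈ ρ, ty y = t → y = x :=
    fun ρ hρ x hx h1 y hy h2 => hty _ (hz ρ hρ).1 hy hx (h2.trans h1.symm)
  have hun : ∀ (s : Finset V) (x : V), x ∈ s → ty x = t → (∀ y ∈ s, ty y = t → y = x) →
      (s ∪ s.image fun x => if ty x = t then φ x else x) = insert (φ x) s := by
    intro s x h1 h2 h3
    rw [image_of_one φ h1 h2 h3, Finset.union_insert,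
      Finset.union_eq_left.2 (Finset.erase_subset _ _)]
  have hbd : Bd ((z.filter fun ρ => ∃ x ∈ ρ, ty x = t).map
      fun ρ => ρ ∪ ρ.image fun x => if ty x = t then φ x else x)
      (z + z.map fun ρ => ρ.image fun x => if ty x = t then φ x else x) := by
    intro ψ
    have h0 := hc fun s => if ∃ x ∈ s, ty x = t then
      ψ (s ∪ s.image fun x => if ty x = t then φ x else x) else 0
    rw [pair_add, pair_map, pair_map, pair_filter, ← pair_fun_add]
    refine Eq.trans ?_ (add_zero _)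
    conv_rhs => rhs; rw [← h0]
    rw [← pair_fun_add]
    refine pair_congr fun ρ hρ => ?_
    by_cases h : ∃ x ∈ ρ, ty x = t
    · obtain ⟨x, h1, h2⟩ := h
      rw [if_pos ⟨x, h1, h2⟩, hun ρ x h1 h2 (huniq ρ hρ x h1 h2), dF_insert ψ (hφ ρ hρ x h1 h2).1,
        image_of_one φ h1 h2 (huniq ρ hρ x h1 h2)]
      unfold dF
      rw [← Finset.add_sum_erase ρ _ h1, ← Finset.add_sum_erase ρ _ h1]
      beta_reduce
      rw [if_neg, zero_add]
      · have e : ∑ y ∈ ρ.erase x, (if ∃ x ∈ ρ.erase y, ty x = t then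
            ψ (ρ.erase y ∪ (ρ.erase y).image fun x => if ty x = t then φ x else x) else 0) =
            ∑ y ∈ ρ.erase x, ψ (insert (φ x) (ρ.erase y)) := by
          refine Finset.sum_congr rfl fun y hy => ?_
          have h3 : x ∈ ρ.erase y := Finset.mem_erase.2 ⟨(Finset.mem_erase.1 hy).1.symm, h1⟩
          rw [if_pos ⟨x, h3, h2⟩, hun _ x h3 h2 fun y' hy' =>
            huniq ρ hρ x h1 h2 y' (Finset.mem_of_mem_erase hy')]
        rw [e]
        have h4 := CharTwo.add_self_eq_zero (∑ y ∈ ρ.erase x, ψ (insert (φ x) (ρ.erase y)))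
        linear_combination -h4
      · rintro ⟨y, h3, h4⟩
        exact (Finset.mem_erase.1 h3).1 (huniq ρ hρ x h1 h2 y (Finset.mem_of_mem_erase h3) h4)
    · rw [if_neg h, image_of_none φ fun y hy e => h ⟨y, hy, e⟩, CharTwo.add_self_eq_zero, zero_add]
      symm
      refine Finset.sum_eq_zero fun y _ => if_neg ?_
      rintro ⟨x, h1, h2⟩
      exact h ⟨x, Finset.mem_of_mem_erase h1, h2⟩
  refine ⟨?_, cyc_of_bd hbd hc, _, ?_, ?_, hbd⟩
  · intro ρ' hρ'
    obtain ⟨ρ, hρ, rfl⟩ := Multiset.mem_map.1 hρ'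
    by_cases h : ∃ x ∈ ρ, ty x = t
    · obtain ⟨x, h1, h2⟩ := h
      rw [image_of_one φ h1 h2 (huniq ρ hρ x h1 h2)]
      refine ⟨hΔ _ _ (hφ ρ hρ x h1 h2).2
        (Finset.insert_subset_insert _ (Finset.erase_subset _ _)), ?_⟩
      rw [Finset.card_insert_of_notMem fun h => (hφ ρ hρ x h1 h2).1 (Finset.mem_of_mem_erase h),
        Finset.card_erase_add_one h1, (hz ρ hρ).2]
    · rw [image_of_none φ fun y hy e => h ⟨y, hy, e⟩]
      exact hz ρ hρ
  · intro ρ' hρ'
    obtain ⟨ρ, hρ, rfl⟩ := Multiset.mem_map.1 hρ'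
    obtain ⟨hρ, x, h1, h2⟩ := Multiset.mem_filter.1 hρ
    rw [hun ρ x h1 h2 (huniq ρ hρ x h1 h2)]
    exact ⟨(hφ ρ hρ x h1 h2).2, by
      rw [Finset.card_insert_of_notMem (hφ ρ hρ x h1 h2).1, (hz ρ hρ).2]⟩
  · rw [Multiset.card_map]
    exact Multiset.card_le_card (Multiset.filter_le _ _)

end Typed

end Vale.Agent.P067
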