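import Vale.Agent.P067.Fill

/-! Flags of subspaces that are transversal to a finite family of subspaces. -/

namespace Vale.Agent.P067

open Finset Module

section Defs

variable {F W : Type} [Field F] [AddCommGroup W] [Module F W]

/-- `U` is transversal to every member of `𝓗`. -/
def Tr (𝓗 : Finset (Submodule F W)) (U : Submodule F W) : Prop :=
  ∀ H ∈ 𝓗, U ⊓ H = ⊥ ∨ U ⊔ H = ⊤

/-- Flags of transversal subspaces. -/
def Flag (𝓗 : Finset (Submodule F W)) (ρ : Finset (Submodule F W)) : Prop :=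
  (∀ U ∈ ρ, Tr 𝓗 U) ∧ ∀ U ∈ ρ, ∀ U' ∈ ρ, U ≤ U' ∨ U' ≤ U

/-- The type of a subspace is its dimension. -/
noncomputable def tyS (U : Submodule F W) : ℕ := finrank F U

theorem downF_flag (𝓗 : Finset (Submodule F W)) : DownF (Flag 𝓗) := by
  rintro s t ⟨h1, h2⟩ hts
  exact ⟨fun U hU => h1 U (hts hU), fun U hU U' hU' => h2 U (hts hU) U' (hts hU')⟩

theorem injOn_flag [FiniteDimensional F W] (𝓗 : Finset (Submodule F W))
    (ρ : Finset (Submodule F W)) (h : Flag 𝓗 ρ) : Set.InjOn tyS (ρ : Set (Submodule F W)) := by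
  intro U hU U' hU' e
  rcases h.2 U hU U' hU' with h1 | h1
  · exact Submodule.eq_of_le_of_finrank_eq h1 e
  · exact (Submodule.eq_of_le_of_finrank_eq h1 e.symm).symm

theorem Flag.le_of_finrank_le [FiniteDimensional F W] {𝓗 ρ : Finset (Submodule F W)}
    (h : Flag 𝓗 ρ) {U U' : Submodule F W} (hU : U ∈ ρ) (hU' : U' ∈ ρ)
    (e : finrank F U ≤ finrank F U') : U ≤ U' := by
  rcases h.2 U hU U' hU' with h1 | h1
  · exact h1
  · exact (Submodule.eq_of_le_of_finrank_eq h1
      (le_antisymm (Submodule.finrank_mono h1) e)).symm.le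

theorem Flag.insert' [DecidableEq (Submodule F W)] {𝓗 ρ : Finset (Submodule F W)}
    (h : Flag 𝓗 ρ) {A : Submodule F W} (hA : Tr 𝓗 A) (hc : ∀ U ∈ ρ, U ≤ A ∨ A ≤ U) :
    Flag 𝓗 (insert A ρ) := by
  constructor
  · intro U hU
    rcases Finset.mem_insert.1 hU with rfl | hU
    · exact hA
    · exact h.1 U hU
  · intro U hU U' hU'
    rcases Finset.mem_insert.1 hU with rfl | hU <;> rcases Finset.mem_insert.1 hU' with e | hU'
    · exact Or.inl e.ge
    · exact (hc U' hU').symm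
    · rw [e]
      exact hc U hU
    · exact h.2 U hU U' hU'

theorem avoid_subspaces [Fintype F] [FiniteDimensional F W] (B : Submodule F W)
    (s : Finset (Submodule F W)) (hs : ∀ P ∈ s, ¬ B ≤ P) (hq : s.card ≤ Fintype.card F) :
    ∃ x ∈ B, ∀ P ∈ s, x ∉ P := by
  classical
  rcases s.eq_empty_or_nonempty with rfl | ⟨P0, hP0⟩
  · exact ⟨0, B.zero_mem, by simp⟩
  have : Finite W := Module.finite_of_finite F
  have : Fintype W := Fintype.ofFinite W
  have hcard : ∀ S : Submodule F W, ((Finset.univ.filter fun x => x ∈ S).erase 0).card =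
      Fintype.card F ^ finrank F S - 1 := by
    intro S
    rw [Finset.card_erase_of_mem (by simp), ← Fintype.card_subtype,
      Module.card_eq_pow_finrank (K := F)]
  have hlt : ∀ P ∈ s, finrank F (B ⊓ P : Submodule F W) < finrank F B := fun P hP =>
    Submodule.finrank_lt_finrank_of_lt
      (lt_of_le_of_ne inf_le_left fun e => hs P hP (inf_eq_left.1 e))
  obtain ⟨d, hd⟩ : ∃ d, finrank F B = d + 1 := ⟨finrank F B - 1, by have := hlt P0 hP0; omega⟩
  have hq2 : 2 ≤ Fintype.card F := Fintype.one_lt_card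
  by_contra hcon
  push Not at hcon
  have h1 : (Finset.univ.filter fun x => x ∈ B).erase 0 ⊆
      s.biUnion fun P => (Finset.univ.filter fun x => x ∈ B ⊓ P).erase 0 := by
    intro x hx
    obtain ⟨hx0, hxB⟩ := Finset.mem_erase.1 hx
    have hxB' : x ∈ B := (Finset.mem_filter.1 hxB).2
    obtain ⟨P, hP, hxP⟩ := hcon x hxB'
    exact Finset.mem_biUnion.2 ⟨P, hP, Finset.mem_erase.2 ⟨hx0,
      Finset.mem_filter.2 ⟨Finset.mem_univ _, hxB', hxP⟩⟩⟩
  have h2 := (Finset.card_le_card h1).trans (Finset.card_biUnion_le_card_mul _ _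
    (Fintype.card F ^ d - 1) fun P hP => by
      rw [hcard]
      have := hlt P hP
      exact Nat.sub_le_sub_right (Nat.pow_le_pow_right (by omega) (by omega)) 1)
  rw [hcard, hd, pow_succ] at h2
  have h3 := Nat.mul_le_mul_right (Fintype.card F ^ d - 1) hq
  have h4 : 1 ≤ Fintype.card F ^ d := Nat.one_le_pow _ _ (by omega)
  obtain ⟨e, he⟩ : ∃ e, Fintype.card F ^ d = e + 1 := ⟨Fintype.card F ^ d - 1, by omega⟩
  rw [he] at h2 h3
  simp only [Nat.add_sub_cancel] at h2 h3
  have h5 : (e + 1) * Fintype.card F = Fintype.card F * e + Fintype.card F := by ring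
  omega

/-- A generic vector: given a transversal `B` and finitely many transversal `U < B`, there is
`x ∈ B` outside every `U` such that every `U ⊔ span {x}` is transversal. -/
theorem exists_generic [Fintype F] [FiniteDimensional F W] (𝓗 : Finset (Submodule F W))
    (B : Submodule F W) (hB : Tr 𝓗 B) (𝒰 : Finset (Submodule F W))
    (h𝒰 : ∀ U ∈ 𝒰, U < B ∧ Tr 𝓗 U) (hq : 𝒰.card * (𝓗.card + 1) ≤ Fintype.card F) :
    ∃ x ∈ B, ∀ U ∈ 𝒰, x ∉ U ∧ Tr 𝓗 (U ⊔ Submodule.span F {x}) := by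
  classical
  obtain ⟨x, hxB, hx⟩ := avoid_subspaces B
    (𝒰.biUnion fun U => insert U ((𝓗.filter fun H => U ⊔ H ≠ ⊤).image fun H => U ⊔ H))
    (by
      intro P hP hle
      obtain ⟨U, hU, hP⟩ := Finset.mem_biUnion.1 hP
      obtain ⟨h1, h2⟩ := h𝒰 U hU
      rcases Finset.mem_insert.1 hP with rfl | hP
      · exact absurd hle (not_le_of_gt h1)
      · obtain ⟨H, hH, rfl⟩ := Finset.mem_image.1 hP
        obtain ⟨hH1, hH2⟩ := Finset.mem_filter.1 hH
        rcases hB H hH1 with h3 | h3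
        · have h4 : (U ⊔ H) ⊓ B = U ⊔ H ⊓ B := sup_inf_assoc_of_le H h1.le
          rw [inf_eq_right.2 hle, inf_comm, h3, sup_bot_eq] at h4
          exact h1.ne' h4
        · exact hH2 (top_le_iff.1 (h3.ge.trans (sup_le hle le_sup_right))))
    ((Finset.card_biUnion_le_card_mul _ _ (𝓗.card + 1) fun U _ =>
      (Finset.card_insert_le _ _).trans (Nat.succ_le_succ
        (Finset.card_image_le.trans (Finset.card_filter_le _ _)))).trans hq)
  refine ⟨x, hxB, fun U hU => ⟨hx U (Finset.mem_biUnion.2 ⟨U, hU, Finset.mem_insert_self _ _⟩),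
    fun H hH => ?_⟩⟩
  by_cases h1 : U ⊔ H = ⊤
  · exact Or.inr (top_le_iff.1 (h1.ge.trans (sup_le_sup_right le_sup_left _)))
  · left
    have h2 : U ⊓ H = ⊥ := ((h𝒰 U hU).2 H hH).resolve_right h1
    have h3 : x ∉ U ⊔ H := hx _ (Finset.mem_biUnion.2 ⟨U, hU, Finset.mem_insert_of_mem
      (Finset.mem_image.2 ⟨H, Finset.mem_filter.2 ⟨hH, h1⟩, rfl⟩)⟩)
    rw [eq_bot_iff]
    rintro y ⟨hy1, hy2⟩
    obtain ⟨u, hu, z, hz, rfl⟩ := Submodule.mem_sup.1 hy1
    obtain ⟨a, rfl⟩ := Submodule.mem_span_singleton.1 hz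
    by_cases ha : a = 0
    · rw [ha, zero_smul, add_zero] at hy2 ⊢
      rw [← h2]
      exact ⟨hu, hy2⟩
    · exfalso
      apply h3
      have h4 : a • x ∈ U ⊔ H := by
        have := Submodule.sub_mem _ (Submodule.mem_sup_right (S := U) hy2)
          (Submodule.mem_sup_left (T := H) hu)
        simpa using this
      exact ((U ⊔ H).smul_mem_iff ha).1 h4

theorem tr_bot (𝓗 : Finset (Submodule F W)) : Tr 𝓗 ⊥ := fun _ _ => Or.inl (bot_inf_eq _)

theorem tr_top (𝓗 : Finset (Submodule F W)) : Tr 𝓗 ⊤ := fun _ _ => Or.inr (top_sup_eq _)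

open Classical in
/-- The types that are not used by the flag `σ`. -/
noncomputable def freeTy (σ : Finset (Submodule F W)) : Finset ℕ :=
  (Finset.range (finrank F W + 1)).filter fun t => ∀ U ∈ σ, finrank F U ≠ t

theorem mem_freeTy {σ : Finset (Submodule F W)} {t : ℕ} :
    t ∈ freeTy σ ↔ t ≤ finrank F W ∧ ∀ U ∈ σ, finrank F U ≠ t := by
  unfold freeTy
  simp [Nat.lt_succ_iff]

theorem freeTy_insert [DecidableEq (Submodule F W)] (σ : Finset (Submodule F W))
    (A : Submodule F W) : freeTy (insert A σ) = (freeTy σ).erase (finrank F A) := by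
  ext t
  simp only [mem_freeTy, Finset.mem_erase, Finset.forall_mem_insert]
  tauto

theorem exists_full [Fintype F] [FiniteDimensional F W] (𝓗 : Finset (Submodule F W))
    (hq : 𝓗.card + 1 ≤ Fintype.card F) (c : ℕ) : ∀ σ : Finset (Submodule F W), Flag 𝓗 σ →
    ⊥ ∈ σ → ⊤ ∈ σ → (freeTy σ).card = c → ∃ σ', σ ⊆ σ' ∧ Flag 𝓗 σ' ∧ freeTy σ' = ∅ := by
  classical
  induction c with
  | zero => exact fun σ h _ _ hc => ⟨σ, subset_rfl, h, Finset.card_eq_zero.1 hc⟩
  | succ c ih =>
    intro σ hσ hb ht hc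
    have hne : (freeTy σ).Nonempty := Finset.card_pos.1 (by omega)
    obtain ⟨t, ht1, ht2⟩ := Finset.exists_min_image (freeTy σ) id hne
    obtain ⟨ht3, ht4⟩ := mem_freeTy.1 ht1
    have ht0 : t ≠ 0 := fun e => ht4 ⊥ hb (by rw [e, finrank_bot])
    obtain ⟨A, hA, hAd⟩ : ∃ A ∈ σ, finrank F A + 1 = t := by
      by_contra hcon
      push Not at hcon
      have := ht2 (t - 1) (mem_freeTy.2 ⟨by omega, fun U hU e => hcon U hU (by omega)⟩)
      simp only [id] at this
      omega
    obtain ⟨B, hB, hBm⟩ := Finset.exists_min_image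
      (σ.filter fun U : Submodule F W => t ≤ finrank F U) (fun U : Submodule F W => finrank F U)
      ⟨⊤, Finset.mem_filter.2 ⟨ht, by rw [finrank_top]; exact ht3⟩⟩
    obtain ⟨hB1, hB2⟩ := Finset.mem_filter.1 hB
    have hAB : A < B := lt_of_le_of_ne (hσ.le_of_finrank_le hA hB1 (by omega))
      fun e => by rw [e] at hAd; omega
    obtain ⟨x, hxB, hx⟩ := exists_generic 𝓗 B (hσ.1 B hB1) {A}
      (by simpa using ⟨hAB, hσ.1 A hA⟩) (by simpa using hq)
    obtain ⟨hx1, hx2⟩ := hx A (Finset.mem_singleton_self _)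
    have hd : finrank F (A ⊔ Submodule.span F {x} : Submodule F W) = t := by
      rw [Submodule.finrank_sup_span_singleton hx1, hAd]
    obtain ⟨σ', h1, h2, h3⟩ := ih (insert (A ⊔ Submodule.span F {x}) σ)
      (hσ.insert' hx2 fun U hU => by
        by_cases h : t ≤ finrank F U
        · right
          refine le_trans (sup_le hAB.le ?_)
            (hσ.le_of_finrank_le hB1 hU (hBm U (Finset.mem_filter.2 ⟨hU, h⟩)))
          simpa using hxB
        · exact Or.inl ((hσ.le_of_finrank_le hU hA (by omega)).trans le_sup_left))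
      (Finset.mem_insert_of_mem hb) (Finset.mem_insert_of_mem ht)
      (by rw [freeTy_insert, hd, Finset.card_erase_of_mem ht1, hc]; rfl)
    exact ⟨σ', (Finset.subset_insert _ _).trans h1, h2, h3⟩

/-- Every flag extends to a full flag. -/
theorem flag_extend [Fintype F] [FiniteDimensional F W] (𝓗 : Finset (Submodule F W))
    (hq : 𝓗.card + 1 ≤ Fintype.card F) (σ : Finset (Submodule F W)) (hσ : Flag 𝓗 σ) :
    ∃ U : ℕ → Submodule F W, Monotone U ∧
      (∀ t ≤ finrank F W, finrank F (U t) = t ∧ Tr 𝓗 (U t)) ∧ ∀ A ∈ σ, U (finrank F A) = A := by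
  classical
  have h0 : Flag 𝓗 (insert ⊤ (insert ⊥ σ)) :=
    (hσ.insert' (tr_bot 𝓗) fun _ _ => Or.inr bot_le).insert' (tr_top 𝓗) fun _ _ => Or.inl le_top
  obtain ⟨σ', h1, h2, h3⟩ := exists_full 𝓗 hq _ _ h0 (by simp) (by simp) rfl
  have h4 : ∀ t, ∃ U ∈ σ', finrank F U = min t (finrank F W) := by
    intro t
    by_contra hcon
    push Not at hcon
    have : min t (finrank F W) ∈ freeTy σ' := mem_freeTy.2 ⟨min_le_right _ _, hcon⟩
    rw [h3] at this
    exact Finset.notMem_empty _ this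
  choose U hU1 hU2 using h4
  refine ⟨U, fun a b hab => h2.le_of_finrank_le (hU1 a) (hU1 b) ?_, fun t ht => ?_,
    fun A hA => ?_⟩
  · rw [hU2, hU2]
    exact min_le_min_right _ hab
  · exact ⟨by rw [hU2, min_eq_left ht], h2.1 _ (hU1 t)⟩
  · refine injOn_flag 𝓗 σ' h2 (hU1 _) (h1 (by simp [hA])) ?_
    show finrank F _ = finrank F _
    rw [hU2, min_eq_left (Submodule.finrank_le A)]

/-- Sweeping a cycle upwards along a generic vector, then coning. -/
theorem sweep [FiniteDimensional F W] [DecidableEq (Submodule F W)]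
    (𝓗 σ : Finset (Submodule F W)) (hσ : Flag 𝓗 σ) (A B : Submodule F W) (hA : A ∈ σ)
    (hB : B ∈ σ) (hgap : ∀ U ∈ σ, finrank F A < finrank F U → finrank F B ≤ finrank F U)
    (x : W) (hxB : x ∈ B) (G : Submodule F W → Prop)
    (hG : ∀ U, G U → x ∉ U ∧ Tr 𝓗 (U ⊔ Submodule.span F {x})) (hGA : G A) (k d : ℕ) :
    finrank F A + d + 1 < finrank F B → ∀ z : Multiset (Finset (Submodule F W)),
      IsChain' (lk (Flag 𝓗) tyS σ (freeTy σ)) k z → IsCyc z →
      (∀ ρ ∈ z, ∀ U ∈ ρ, finrank F U ≠ finrank F A + d + 1 ∧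
        (finrank F A + d + 1 < finrank F U → x ∈ U) ∧
        (finrank F A < finrank F U → finrank F U ≤ finrank F A + d → G U)) →
      ∃ w, IsChain' (lk (Flag 𝓗) tyS σ (freeTy σ)) (k + 1) w ∧
        Multiset.card w ≤ (d + 1) * Multiset.card z ∧ Bd w z := by
  have step : ∀ d, finrank F A + d + 1 < finrank F B → ∀ ρ : Finset (Submodule F W),
      lk (Flag 𝓗) tyS σ (freeTy σ) ρ → (∀ U ∈ ρ, finrank F U ≠ finrank F A + d + 1 ∧
        (finrank F A + d + 1 < finrank F U → x ∈ U)) →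
      ∀ U ∈ ρ ∪ σ, finrank F U = finrank F A + d → G U →
        U ⊔ Submodule.span F {x} ∉ ρ ∧
          lk (Flag 𝓗) tyS σ (freeTy σ) (insert (U ⊔ Submodule.span F {x}) ρ) := by
    rintro d hd ρ ⟨h1, h2, h3⟩ hρ U hU hUd hGU
    obtain ⟨hx1, hx2⟩ := hG U hGU
    have hdim : finrank F (U ⊔ Submodule.span F {x} : Submodule F W) = finrank F A + d + 1 := by
      rw [Submodule.finrank_sup_span_singleton hx1, hUd]
    have hfree : finrank F A + d + 1 ∈ freeTy σ := by
      refine mem_freeTy.2 ⟨hd.le.trans (Submodule.finrank_le B), fun V hV e => ?_⟩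
      have := hgap V hV (by omega)
      omega
    refine ⟨fun h => (hρ _ h).1 hdim, ?_, ?_, fun V hV => ?_⟩
    · rw [Finset.disjoint_insert_left]
      exact ⟨fun h => (mem_freeTy.1 hfree).2 _ h hdim, h1⟩
    · rw [Finset.insert_union]
      refine h2.insert' hx2 fun V hV => ?_
      by_cases h : finrank F V ≤ finrank F A + d
      · exact Or.inl ((h2.le_of_finrank_le hV hU (by omega)).trans le_sup_left)
      · right
        refine sup_le (h2.le_of_finrank_le hU hV (by omega)) ?_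
        rw [Submodule.span_singleton_le_iff_mem]
        rcases Finset.mem_union.1 hV with hV | hV
        · have := (hρ V hV).1
          exact (hρ V hV).2 (by omega)
        · exact hσ.le_of_finrank_le hB hV (hgap V hV (by omega)) hxB
    · rcases Finset.mem_insert.1 hV with rfl | hV
      · show finrank F _ ∈ _
        rw [hdim]
        exact hfree
      · exact h3 V hV
  induction d with
  | zero =>
    intro hd z hz hc hinv
    obtain ⟨w, a1, a2, a3⟩ := fill_cone _ k z hz hc (A ⊔ Submodule.span F {x}) fun ρ hρ =>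
      step 0 hd ρ (hz ρ hρ).1 (fun U hU => ⟨(hinv ρ hρ U hU).1, (hinv ρ hρ U hU).2.1⟩) A
        (Finset.mem_union_right _ hA) rfl hGA
    exact ⟨w, a1, by omega, a3⟩
  | succ d ih =>
    intro hd z hz hc hinv
    obtain ⟨b1, b2, w, b3, b4, b5⟩ := replace_type (ty := tyS) (lk (Flag 𝓗) tyS σ (freeTy σ))
      (downF_lk (downF_flag 𝓗) _ _ _)
      (fun ρ hρ => (injOn_flag 𝓗 _ hρ.2.1).mono (by simp))
      (finrank F A + (d + 1)) k (fun U => U ⊔ Submodule.span F {x}) z hz hc
      (fun ρ hρ U hU hUd => step (d + 1) hd ρ (hz ρ hρ).1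
        (fun U hU => ⟨(hinv ρ hρ U hU).1, (hinv ρ hρ U hU).2.1⟩) U
        (Finset.mem_union_left _ hU) hUd ((hinv ρ hρ U hU).2.2
          (by have : finrank F U = _ := hUd; omega) (le_of_eq hUd)))
    obtain ⟨w', c1, c2, c3⟩ := ih (by omega) _ b1 b2 (by
      intro ρ' hρ' U' hU'
      obtain ⟨ρ, hρ, rfl⟩ := Multiset.mem_map.1 hρ'
      obtain ⟨U, hU, rfl⟩ := Finset.mem_image.1 hU'
      obtain ⟨e1, e2, e3⟩ := hinv ρ hρ U hU
      by_cases h : tyS U = finrank F A + (d + 1)
      · rw [if_pos h]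
        have h' : finrank F U = finrank F A + (d + 1) := h
        have hdim : finrank F (U ⊔ Submodule.span F {x} : Submodule F W) =
            finrank F A + d + 2 := by
          rw [Submodule.finrank_sup_span_singleton (hG U (e3 (by omega) h'.le)).1, h']
          omega
        refine ⟨by omega, fun _ => ?_, fun _ _ => by omega⟩
        exact Submodule.mem_sup_right (Submodule.mem_span_singleton_self x)
      · rw [if_neg h]
        have h' : finrank F U ≠ finrank F A + (d + 1) := h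
        exact ⟨h', fun _ => e2 (by omega), fun f1 f2 => e3 f1 (by omega)⟩)
    refine ⟨w + w', FillAux.chain_add b3 c1, ?_, FillAux.bd_trans b5 c3⟩
    rw [Multiset.card_add]
    rw [Multiset.card_map] at c2
    nlinarith

end Defs

theorem flag_fill_all (h c : ℕ) : ∀ s : ℕ, ∃ M q₀ : ℕ,
    ∀ (F W : Type) [Field F] [Fintype F] [AddCommGroup W] [Module F W] [FiniteDimensional F W]
      [DecidableEq (Submodule F W)], q₀ ≤ Fintype.card F →
      ∀ (𝓗 : Finset (Submodule F W)), 𝓗.card ≤ h →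
      ∀ (σ : Finset (Submodule F W)), Flag 𝓗 σ → ⊥ ∈ σ → ⊤ ∈ σ → (freeTy σ).card ≤ c →
      ∀ k, k + 1 ≤ (freeTy σ).card → Fill (lk (Flag 𝓗) tyS σ (freeTy σ)) k s M := by
  induction c with
  | zero => exact fun s => ⟨0, 0, fun F W _ _ _ _ _ _ _ 𝓗 _ σ _ _ _ hc k hk => by omega⟩
  | succ c ih =>
    intro s
    obtain ⟨M1, q1, H⟩ := ih s
    refine ⟨s * M1 + (c + 1) * (s + s * M1), max q1 (((s + s * M1) * c + 1) * (h + 1)),
      fun F W _ _ _ _ _ _ hq 𝓗 h𝓗 σ hσ hb ht hc k hk z hz hcyc hs => ?_⟩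
    have hne : (freeTy σ).Nonempty := Finset.card_pos.1 (by omega)
    obtain ⟨t, ht1, ht2⟩ := Finset.exists_max_image (freeTy σ) id hne
    obtain ⟨ht3, ht4⟩ := mem_freeTy.1 ht1
    have hT : insert t ((freeTy σ).erase t) = freeTy σ := Finset.insert_erase ht1
    have hcard : ((freeTy σ).erase t).card + 1 = (freeTy σ).card := Finset.card_erase_add_one ht1
    obtain ⟨z', w1, a1, a2, a3, a4, a5, a6⟩ := push_off (downF_flag 𝓗) (injOn_flag 𝓗) σ
      ((freeTy σ).erase t) t k s M1 (Finset.notMem_erase _ _) (by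
        intro x _ hx2 hx3 hk1
        have e : freeTy (insert x σ) = (freeTy σ).erase t := by rw [freeTy_insert, ← hx3]; rfl
        have := H F W ((le_max_left _ _).trans hq) 𝓗 h𝓗 (insert x σ) hx2
          (Finset.mem_insert_of_mem hb) (Finset.mem_insert_of_mem ht) (by rw [e]; omega) (k - 1)
          (by rw [e]; omega)
        rwa [e] at this) z (by rw [hT]; exact hz) hcyc hs
    rw [hT] at a4
    obtain ⟨B, hB, hBd⟩ : ∃ B ∈ σ, finrank F B = t + 1 := by
      by_contra hcon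
      push Not at hcon
      have h1 : t ≠ finrank F W := fun e => ht4 ⊤ ht (by rw [e, finrank_top])
      have := ht2 (t + 1) (mem_freeTy.2 ⟨by omega, hcon⟩)
      simp only [id] at this
      omega
    have ht0 : t ≠ 0 := fun e => ht4 ⊥ hb (by rw [e, finrank_bot])
    obtain ⟨A, hA, hAm⟩ := Finset.exists_max_image
      (σ.filter fun U : Submodule F W => finrank F U < t) (fun U : Submodule F W => finrank F U)
      ⟨⊥, Finset.mem_filter.2 ⟨hb, by rw [finrank_bot]; omega⟩⟩
    obtain ⟨hA1, hA2⟩ := Finset.mem_filter.1 hA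
    have hgap : ∀ U ∈ σ, finrank F A < finrank F U → finrank F B ≤ finrank F U := by
      intro U hU h1
      by_contra h2
      have h3 := ht4 U hU
      have := hAm U (Finset.mem_filter.2 ⟨hU, by omega⟩)
      omega
    have hlt : ∀ ρ ∈ z', ∀ U ∈ ρ, finrank F U < t := by
      intro ρ hρ U hU
      obtain ⟨h1, h2⟩ := Finset.mem_erase.1 ((a1 ρ hρ).1.2.2 U hU)
      exact lt_of_le_of_ne (ht2 _ h2) h1
    obtain ⟨x, hxB, hx⟩ := exists_generic 𝓗 B (hσ.1 B hB) (insert A (z'.toFinset.biUnion id))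
      (by
        intro U hU
        rcases Finset.mem_insert.1 hU with rfl | hU
        · exact ⟨lt_of_le_of_ne (hσ.le_of_finrank_le hA1 hB (by omega))
            (fun e => by rw [e] at hA2; omega), hσ.1 _ hA1⟩
        · obtain ⟨ρ, hρ, hU⟩ := Finset.mem_biUnion.1 hU
          have hρ' := Multiset.mem_toFinset.1 hρ
          have h1 := hlt ρ hρ' U hU
          have h2 := (a1 ρ hρ').1.2.1
          exact ⟨lt_of_le_of_ne (h2.le_of_finrank_le (Finset.mem_union_left _ hU)
            (Finset.mem_union_right _ hB) (by omega)) (fun e => by rw [e] at h1; omega),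
            h2.1 U (Finset.mem_union_left _ hU)⟩)
      (by
        refine le_trans (Nat.mul_le_mul ?_ (Nat.succ_le_succ h𝓗)) ((le_max_right _ _).trans hq)
        refine (Finset.card_insert_le _ _).trans (Nat.succ_le_succ ?_)
        refine (Finset.card_biUnion_le_card_mul _ _ c fun ρ hρ => ?_).trans
          (Nat.mul_le_mul_right _ ((Multiset.toFinset_card_le _).trans a3))
        have := (a1 ρ (Multiset.mem_toFinset.1 hρ)).2
        simp only [id]
        omega)
    obtain ⟨d, hd⟩ : ∃ d, finrank F A + d + 1 = t := ⟨t - 1 - finrank F A, by omega⟩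
    have hdc : d + 1 ≤ c + 1 := by
      refine le_trans ?_ hc
      have : (Finset.Ioc (finrank F A) t).card = d + 1 := by rw [Nat.card_Ioc]; omega
      rw [← this]
      refine Finset.card_le_card fun u hu => ?_
      obtain ⟨h1, h2⟩ := Finset.mem_Ioc.1 hu
      refine mem_freeTy.2 ⟨by omega, fun U hU e => ?_⟩
      have := hgap U hU (by omega)
      omega
    obtain ⟨w2, b1, b2, b3⟩ := sweep 𝓗 σ hσ A B hA1 hB hgap x hxB
      (fun U => U ∈ insert A (z'.toFinset.biUnion id)) hx (Finset.mem_insert_self _ _) k d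
      (by omega) z' (fun ρ hρ => ⟨⟨(a1 ρ hρ).1.1, (a1 ρ hρ).1.2.1, fun U hU =>
        Finset.mem_of_mem_erase ((a1 ρ hρ).1.2.2 U hU)⟩, (a1 ρ hρ).2⟩) a2 (by
        intro ρ hρ U hU
        have := hlt ρ hρ U hU
        exact ⟨by omega, fun _ => by omega, fun _ _ => Finset.mem_insert_of_mem
          (Finset.mem_biUnion.2 ⟨ρ, Multiset.mem_toFinset.2 hρ, hU⟩)⟩)
    refine ⟨w1 + w2, FillAux.chain_add a4 b1, ?_, FillAux.bd_trans a6 b3⟩
    rw [Multiset.card_add]
    exact Nat.add_le_add a5 (b2.trans (Nat.mul_le_mul hdc a3))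

theorem flag_fill_sub (c h m : ℕ) : ∀ s : ℕ, ∃ M q₀ : ℕ,
    ∀ (F W : Type) [Field F] [Fintype F] [AddCommGroup W] [Module F W] [FiniteDimensional F W]
      [DecidableEq (Submodule F W)], q₀ ≤ Fintype.card F →
      ∀ (𝓗 : Finset (Submodule F W)), 𝓗.card ≤ h →
      ∀ (σ : Finset (Submodule F W)), Flag 𝓗 σ → ⊥ ∈ σ → ⊤ ∈ σ → (freeTy σ).card ≤ c →
      ∀ T : Finset ℕ, T ⊆ freeTy σ → (freeTy σ \ T).card ≤ m →
      ∀ k, k + 1 ≤ T.card → Fill (lk (Flag 𝓗) tyS σ T) k s M := by
  induction m with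
  | zero =>
    intro s
    obtain ⟨M, q₀, H⟩ := flag_fill_all h c s
    refine ⟨M, q₀, fun F W _ _ _ _ _ _ hq 𝓗 h𝓗 σ hσ hb ht hc T hT hm k hk => ?_⟩
    have e : T = freeTy σ := Finset.Subset.antisymm hT
      (Finset.sdiff_eq_empty_iff_subset.1 (Finset.card_eq_zero.1 (by omega)))
    subst e
    exact H F W hq 𝓗 h𝓗 σ hσ hb ht hc k hk
  | succ m ih =>
    intro s
    obtain ⟨M1, q1, H1⟩ := ih s
    obtain ⟨M2, q2, H2⟩ := ih M1
    refine ⟨M1 + M1 * M2, max q1 q2,
      fun F W _ _ _ _ _ _ hq 𝓗 h𝓗 σ hσ hb ht hc T hT hm k hk => ?_⟩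
    by_cases hm' : (freeTy σ \ T).card ≤ m
    · exact (H1 F W ((le_max_left _ _).trans hq) 𝓗 h𝓗 σ hσ hb ht hc T hT hm' k hk).mono le_rfl
        (Nat.le_add_right _ _)
    obtain ⟨t, ht1⟩ : (freeTy σ \ T).Nonempty := Finset.card_pos.1 (by omega)
    obtain ⟨ht2, ht3⟩ := Finset.mem_sdiff.1 ht1
    have hcard : ((freeTy σ \ T).erase t).card ≤ m := by
      rw [Finset.card_erase_of_mem ht1]
      omega
    refine fill_select (downF_flag 𝓗) (injOn_flag 𝓗) σ T t k s M1 M2 ht3 ?_ ?_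
    · refine H1 F W ((le_max_left _ _).trans hq) 𝓗 h𝓗 σ hσ hb ht hc _
        (Finset.insert_subset ht2 hT) ?_ k (by rw [Finset.card_insert_of_notMem ht3]; omega)
      rwa [Finset.sdiff_insert]
    · intro x _ hx2 hx3
      have e : freeTy (insert x σ) = (freeTy σ).erase t := by rw [freeTy_insert, ← hx3]; rfl
      refine H2 F W ((le_max_right _ _).trans hq) 𝓗 h𝓗 (insert x σ) hx2
        (Finset.mem_insert_of_mem hb) (Finset.mem_insert_of_mem ht) ?_ T ?_ ?_ k hk
      · rw [e]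
        exact Finset.card_erase_le.trans hc
      · rw [e]
        exact fun u hu => Finset.mem_erase.2 ⟨fun h => ht3 (h ▸ hu), hT hu⟩
      · rwa [e, Finset.erase_sdiff_comm]


open Classical in
/-- Bounded fillings in all links of the complex of transversal flags, for every set of types. -/
theorem flag_fill (n h s : ℕ) : ∃ M q₀ : ℕ,
    ∀ (F W : Type) [Field F] [Fintype F] [AddCommGroup W] [Module F W] [FiniteDimensional F W],
      finrank F W ≤ n → q₀ ≤ Fintype.card F →
      ∀ (𝓗 : Finset (Submodule F W)), 𝓗.card ≤ h →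
      ∀ (σ : Finset (Submodule F W)), Flag 𝓗 σ → ⊥ ∈ σ → ⊤ ∈ σ →
      ∀ T : Finset ℕ, (∀ t ∈ T, t ≤ finrank F W ∧ ∀ U ∈ σ, finrank F U ≠ t) →
      ∀ k, k + 1 ≤ T.card → Fill (lk (Flag 𝓗) tyS σ T) k s M := by
  obtain ⟨M, q₀, H⟩ := flag_fill_sub (n + 1) h (n + 1) s
  refine ⟨M, q₀, fun F W _ _ _ _ _ hn hq 𝓗 h𝓗 σ hσ hb ht T hT k hk => ?_⟩
  have h1 : (freeTy σ).card ≤ n + 1 := by
    refine le_trans (Finset.card_le_card (t := Finset.range (n + 1)) fun t ht => ?_) (by simp)
    have := (mem_freeTy.1 ht).1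
    exact Finset.mem_range.2 (by omega)
  exact H F W hq 𝓗 h𝓗 σ hσ hb ht h1 T (fun t ht => mem_freeTy.2 (hT t ht))
    ((Finset.card_le_card Finset.sdiff_subset).trans h1) k hk

end Vale.Agent.P067
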