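import Vale.Agent.P067.Basic

/-! Correlation bounds: trickling down, base cases, transfer. -/

namespace Vale.Agent.P067

open Finset

variable {I Ω V : Type}

open Classical in
/-- The class of `ω` for the vertex map `u`. -/
noncomputable def trK (u : Ω → V) (S : Finset Ω) (ω : Ω) : Finset Ω := S.filter fun x => u x = u ω

theorem mem_trK {u : Ω → V} {S : Finset Ω} {ω x : Ω} : x ∈ trK u S ω ↔ x ∈ S ∧ u x = u ω := by
  unfold trK
  simp

theorem trK_congr {u : Ω → V} {S : Finset Ω} {ω ω' : Ω} (h : u ω = u ω') :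
    trK u S ω = trK u S ω' := by
  ext x
  rw [mem_trK, mem_trK, h]

theorem trK_card_pos {u : Ω → V} {S : Finset Ω} {ω : Ω} (h : ω ∈ S) :
    (0 : ℝ) < (trK u S ω).card := by
  exact_mod_cast card_pos.2 ⟨ω, mem_trK.2 ⟨h, rfl⟩⟩

/-- The conditional mean on the classes of `u`. -/
noncomputable def trMean (u : Ω → V) (S : Finset Ω) (φ : Ω → ℝ) (ω : Ω) : ℝ :=
  (∑ x ∈ trK u S ω, φ x) / (trK u S ω).card

theorem trMean_meas (u : Ω → V) (S : Finset Ω) (φ : Ω → ℝ) : Meas u S (trMean u S φ) := by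
  intro ω _ ω' _ h
  unfold trMean
  rw [trK_congr h]

theorem tr_sum_swap (u : Ω → V) (S : Finset Ω) (F : Ω → Ω → ℝ) :
    ∑ ω ∈ S, ∑ x ∈ trK u S ω, F ω x = ∑ x ∈ S, ∑ ω ∈ trK u S x, F ω x := by
  refine sum_comm' fun ω x => ?_
  rw [mem_trK, mem_trK]
  exact ⟨fun h => ⟨⟨h.1, h.2.2.symm⟩, h.2.1⟩, fun h => ⟨h.1.1, h.2, h.1.2.symm⟩⟩

theorem tr_sum_mean {u : Ω → V} {S : Finset Ω} {g : Ω → ℝ} (hg : Meas u S g) (φ : Ω → ℝ) :
    ∑ ω ∈ S, g ω * trMean u S φ ω = ∑ ω ∈ S, g ω * φ ω := by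
  have e : ∀ ω ∈ S, g ω * trMean u S φ ω =
      ∑ x ∈ trK u S ω, g ω * φ x / (trK u S ω).card := fun ω _ => by
    unfold trMean
    rw [← sum_div, ← mul_sum, mul_div_assoc]
  rw [sum_congr rfl e, tr_sum_swap]
  refine sum_congr rfl fun x hx => ?_
  have e2 : ∀ ω ∈ trK u S x, g ω * φ x / (trK u S ω).card = g x * φ x / (trK u S x).card :=
    fun ω hω => by
      have h := mem_trK.1 hω
      rw [trK_congr h.2, hg ω h.1 x hx h.2]
  rw [sum_congr rfl e2, sum_const, nsmul_eq_mul]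
  have := trK_card_pos (u := u) hx
  field_simp

theorem tr_sum_mean_one (u : Ω → V) (S : Finset Ω) (φ : Ω → ℝ) :
    ∑ ω ∈ S, trMean u S φ ω = ∑ ω ∈ S, φ ω := by
  have := tr_sum_mean (u := u) (S := S) (g := fun _ => 1) (fun _ _ _ _ _ => rfl) φ
  simpa using this

theorem Meas.subset {α : Type} {u : Ω → V} {S T : Finset Ω} {φ : Ω → α} (h : Meas u S φ)
    (hT : T ⊆ S) : Meas u T φ := fun ω hω ω' hω' e => h ω (hT hω) ω' (hT hω') e

theorem cls_single (v : I → Ω → V) (S : Finset Ω) (c : I) (ω : Ω) :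
    cls v S {c} ω = trK (v c) S ω := by
  ext x
  rw [mem_cls, mem_trK]
  simp only [Rel, mem_singleton, forall_eq]
  exact ⟨fun h => ⟨h.1, h.2.symm⟩, fun h => ⟨h.1, h.2.symm⟩⟩

open Classical in
theorem tr_sum_pull {Ω' R : Type} [AddCommMonoid R] (π : Ω' → Ω) (S' : Finset Ω') (S : Finset Ω)
    (c : ℕ) (hmap : ∀ x ∈ S', π x ∈ S)
    (hfib : ∀ y ∈ S, (S'.filter fun x => π x = y).card = c) (F : Ω → R) :
    ∑ x ∈ S', F (π x) = c • ∑ y ∈ S, F y := by
  rw [← sum_fiberwise_of_maps_to hmap, smul_sum]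
  refine sum_congr rfl fun y hy => ?_
  rw [← hfib y hy, ← sum_const]
  refine sum_congr rfl fun x hx => ?_
  rw [(mem_filter.1 hx).2]

theorem Corr.mono {u w : Ω → V} {S : Finset Ω} {ρ ρ' : ℝ} (h : Corr u w S ρ) (hρ : ρ ≤ ρ') :
    Corr u w S ρ' := by
  intro φ ψ h1 h2 h3 h4
  refine (h φ ψ h1 h2 h3 h4).trans (mul_le_mul_of_nonneg_right hρ ?_)
  positivity

theorem Corr.symm {u w : Ω → V} {S : Finset Ω} {ρ : ℝ} (h : Corr u w S ρ) : Corr w u S ρ := by
  intro φ ψ h1 h2 h3 h4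
  have := h ψ φ h2 h1 h4 h3
  simp only [mul_comm (ψ _) (φ _)] at this
  rwa [add_comm]

theorem Corr.conn {u w : Ω → V} {S : Finset Ω} {ρ : ℝ} (h : Corr u w S ρ) (hρ : ρ < 1) :
    Conn u w S := by
  classical
  intro P hu hw ω hω ω' hω' hP
  have hc : (0 : ℝ) < S.card := by exact_mod_cast card_pos.2 ⟨ω, hω⟩
  set m : ℝ := (∑ x ∈ S, if P x then (1 : ℝ) else 0) / S.card with hm
  set φ : Ω → ℝ := fun x => (if P x then 1 else 0) - m with hφ
  have m1 : Meas u S φ := fun x hx y hy e => by simp only [hφ, hu x hx y hy e]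
  have m2 : Meas w S φ := fun x hx y hy e => by simp only [hφ, hw x hx y hy e]
  have m3 : ∑ x ∈ S, φ x = 0 := by
    simp only [hφ, sum_sub_distrib, sum_const, nsmul_eq_mul, hm]
    field_simp
    ring
  have h1 := h φ φ m1 m2 m3 m3
  simp only [← pow_two] at h1
  have h2 : 0 ≤ ∑ x ∈ S, φ x ^ 2 := by positivity
  have h3 : ∑ x ∈ S, φ x ^ 2 = 0 := by nlinarith
  rw [sum_eq_zero_iff_of_nonneg (fun _ _ => sq_nonneg _)] at h3
  have a1 := pow_eq_zero_iff (two_ne_zero) |>.1 (h3 ω hω)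
  have a2 := pow_eq_zero_iff (two_ne_zero) |>.1 (h3 ω' hω')
  by_contra hP'
  simp only [hφ, if_pos hP, if_neg hP'] at a1 a2
  linarith

/-- Connectivity gives some correlation bound below `1`. -/
theorem Conn.corr {u w : Ω → V} {S : Finset Ω} (h : Conn u w S) :
    ∃ ρ : ℝ, 0 ≤ ρ ∧ ρ < 1 ∧ Corr u w S ρ := by
  classical
  let W : Submodule ℝ ((S → ℝ) × (S → ℝ)) :=
    { carrier := {p | (∀ x y : S, u x = u y → p.1 x = p.1 y) ∧
        (∀ x y : S, w x = w y → p.2 x = p.2 y) ∧ ∑ x, p.1 x = 0 ∧ ∑ x, p.2 x = 0}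
      add_mem' := by
        rintro p q ⟨a1, a2, a3, a4⟩ ⟨b1, b2, b3, b4⟩
        refine ⟨fun x y e => ?_, fun x y e => ?_, ?_, ?_⟩
        · simp [a1 x y e, b1 x y e]
        · simp [a2 x y e, b2 x y e]
        · simp only [Prod.fst_add, Pi.add_apply, sum_add_distrib, a3, b3, add_zero]
        · simp only [Prod.snd_add, Pi.add_apply, sum_add_distrib, a4, b4, add_zero]
      zero_mem' := by simp
      smul_mem' := by
        rintro r p ⟨a1, a2, a3, a4⟩
        refine ⟨fun x y e => ?_, fun x y e => ?_, ?_, ?_⟩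
        · simp [a1 x y e]
        · simp [a2 x y e]
        · simp only [Prod.smul_fst, Pi.smul_apply, smul_eq_mul, ← mul_sum, a3, mul_zero]
        · simp only [Prod.smul_snd, Pi.smul_apply, smul_eq_mul, ← mul_sum, a4, mul_zero] }
  let L : W →ₗ[ℝ] (S → ℝ) := 
    (LinearMap.fst ℝ (S → ℝ) (S → ℝ) - LinearMap.snd ℝ (S → ℝ) (S → ℝ)).comp W.subtype
  have hker : LinearMap.ker L = ⊥ := by
    rw [LinearMap.ker_eq_bot']
    rintro ⟨p, a1, a2, a3, a4⟩ hp
    have e : p.1 = p.2 := sub_eq_zero.1 hp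
    have hconst : ∀ x y : S, p.1 y = p.1 x := fun x y => by
      have := h (fun z => ∃ hz : z ∈ S, p.1 ⟨z, hz⟩ = p.1 x) ?_ ?_ x x.2 y y.2 ⟨x.2, rfl⟩
      · obtain ⟨_, h'⟩ := this
        exact h'
      · intro z hz z' hz' e'
        have := a1 ⟨z, hz⟩ ⟨z', hz'⟩ e'
        simp [hz, hz', this]
      · intro z hz z' hz' e'
        have := a2 ⟨z, hz⟩ ⟨z', hz'⟩ e'
        rw [← e] at this
        simp [hz, hz', this]
    have hz : p.1 = 0 := by
      funext x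
      rw [sum_congr rfl fun y _ => hconst x y, sum_const, nsmul_eq_mul, mul_eq_zero] at a3
      rcases a3 with h' | h'
      · have : (0 : ℝ) < (univ : Finset S).card := by exact_mod_cast card_pos.2 ⟨x, mem_univ _⟩
        exact absurd h' this.ne'
      · exact h'
    ext1
    exact Prod.ext hz (e ▸ hz)
  obtain ⟨K, -, hK⟩ := L.exists_antilipschitzWith hker
  set C : ℝ := 2 * S.card * (K : ℝ) ^ 2 + 1 with hC
  have hC1 : 1 ≤ C := by
    have : 0 ≤ 2 * S.card * (K : ℝ) ^ 2 := by positivity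
    linarith
  have hC0 : 0 < C := by linarith
  refine ⟨1 - 1 / C, ?_, ?_, ?_⟩
  · rw [sub_nonneg, div_le_one hC0]; exact hC1
  · have : 0 < 1 / C := by positivity
    linarith
  intro φ ψ h1 h2 h3 h4
  let p : W := ⟨(fun x => φ x, fun x => ψ x), fun x y e => h1 x x.2 y y.2 e,
    fun x y e => h2 x x.2 y y.2 e, by rw [← h3]; exact sum_coe_sort S φ,
    by rw [← h4]; exact sum_coe_sort S ψ⟩
  have hp : ‖p‖ ≤ K * ‖L p‖ := by simpa using hK.le_mul_dist p 0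
  set T := ∑ x ∈ S, (φ x - ψ x) ^ 2 with hT
  have hT0 : 0 ≤ T := by positivity
  have hL : ‖L p‖ ≤ Real.sqrt T := by
    refine (pi_norm_le_iff_of_nonneg (Real.sqrt_nonneg _)).2 fun x => ?_
    refine Real.abs_le_sqrt ?_
    exact single_le_sum (f := fun x => (φ x - ψ x) ^ 2) (fun _ _ => sq_nonneg _) x.2
  have hp2 : ‖p‖ ^ 2 ≤ (K : ℝ) ^ 2 * T := by
    calc ‖p‖ ^ 2 ≤ (K * Real.sqrt T) ^ 2 := by
          gcongr
          exact hp.trans (by gcongr)
      _ = _ := by rw [mul_pow, Real.sq_sqrt hT0]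
  have b1 : ∀ x ∈ S, φ x ^ 2 ≤ (K : ℝ) ^ 2 * T := fun x hx => by
    refine le_trans ?_ hp2
    have : ‖φ x‖ ≤ ‖p‖ := (norm_le_pi_norm p.1.1 ⟨x, hx⟩).trans (norm_fst_le p.1)
    rw [← sq_abs]
    exact pow_le_pow_left₀ (abs_nonneg _) this 2
  have b2 : ∀ x ∈ S, ψ x ^ 2 ≤ (K : ℝ) ^ 2 * T := fun x hx => by
    refine le_trans ?_ hp2
    have : ‖ψ x‖ ≤ ‖p‖ := (norm_le_pi_norm p.1.2 ⟨x, hx⟩).trans (norm_snd_le p.1)
    rw [← sq_abs]
    exact pow_le_pow_left₀ (abs_nonneg _) this 2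
  have c1 := sum_le_sum b1
  have c2 := sum_le_sum b2
  rw [sum_const, nsmul_eq_mul] at c1 c2
  have hT2 : T = ∑ x ∈ S, φ x ^ 2 + ∑ x ∈ S, ψ x ^ 2 - 2 * ∑ x ∈ S, φ x * ψ x := by
    rw [hT, mul_sum, ← sum_add_distrib, ← sum_sub_distrib]
    exact sum_congr rfl fun _ _ => by ring
  set A := ∑ x ∈ S, φ x ^ 2 + ∑ x ∈ S, ψ x ^ 2 with hA
  have d1 : A ≤ C * T := by rw [hA, hC]; nlinarith
  have d2 : 1 / C * A ≤ T := by
    rw [one_div, inv_mul_le_iff₀ hC0]; exact d1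
  linarith

/-- One step of trickling down. -/
theorem trickle_step (v : I → Ω → V) (S : Finset Ω) (J : Finset I) (lam : ℝ) (h0 : 0 ≤ lam)
    (h1 : lam < 1) (hJ : 3 ≤ J.card)
    (hloc : ∀ c ∈ J, ∀ ω ∈ S, ∀ a ∈ J, ∀ b ∈ J, a ≠ b → a ≠ c → b ≠ c →
      Corr (v a) (v b) (cls v S {c} ω) lam)
    (hconn : ∀ a ∈ J, ∀ b ∈ J, a ≠ b → Conn (v a) (v b) S) :
    ∀ a ∈ J, ∀ b ∈ J, a ≠ b → Corr (v a) (v b) S (lam / (1 - lam)) := by
  classical
  set R : Set ℝ := {ρ | 0 ≤ ρ ∧ ∀ a ∈ J, ∀ b ∈ J, a ≠ b → Corr (v a) (v b) S ρ} with hR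
  -- some element of `R` is below one
  obtain ⟨ρ₀, hρ₀, hρ₀1⟩ : ∃ ρ₀ ∈ R, ρ₀ < 1 := by
    have key : ∀ T : Finset (I × I), T ⊆ J ×ˢ J → ∃ ρ : ℝ, 0 ≤ ρ ∧ ρ < 1 ∧
        ∀ p ∈ T, p.1 ≠ p.2 → Corr (v p.1) (v p.2) S ρ := by
      intro T
      induction T using Finset.induction_on with
      | empty => exact fun _ => ⟨0, le_rfl, one_pos, by simp⟩
      | insert p T _ ih =>
        intro hT
        obtain ⟨ρ, a1, a2, a3⟩ := ih ((subset_insert _ _).trans hT)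
        by_cases hp : p.1 = p.2
        · refine ⟨ρ, a1, a2, fun q hq hq' => ?_⟩
          rcases mem_insert.1 hq with rfl | hq
          · exact absurd hp hq'
          · exact a3 q hq hq'
        · have hpJ := mem_product.1 (hT (mem_insert_self _ _))
          obtain ⟨ρ', b1, b2, b3⟩ := (hconn _ hpJ.1 _ hpJ.2 hp).corr
          refine ⟨max ρ ρ', le_max_of_le_left a1, max_lt a2 b2, fun q hq hq' => ?_⟩
          rcases mem_insert.1 hq with rfl | hq
          · exact b3.mono (le_max_right _ _)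
          · exact (a3 q hq hq').mono (le_max_left _ _)
    obtain ⟨ρ, a1, a2, a3⟩ := key (J ×ˢ J) Subset.rfl
    exact ⟨ρ, ⟨a1, fun a ha b hb hab => a3 (a, b) (mem_product.2 ⟨ha, hb⟩) hab⟩, a2⟩
  have hbdd : BddBelow R := ⟨0, fun ρ hρ => hρ.1⟩
  set r := sInf R with hr
  have hr0 : 0 ≤ r := le_csInf ⟨ρ₀, hρ₀⟩ fun ρ hρ => hρ.1
  have hr1 : r < 1 := (csInf_le hbdd hρ₀).trans_lt hρ₀1
  have hrR : ∀ a ∈ J, ∀ b ∈ J, a ≠ b → Corr (v a) (v b) S r := by
    intro a ha b hb hab φ ψ m1 m2 m3 m4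
    have hV : 0 ≤ ∑ ω ∈ S, φ ω ^ 2 + ∑ ω ∈ S, ψ ω ^ 2 := by positivity
    rcases hV.eq_or_lt with hV | hV
    · have := hρ₀.2 a ha b hb hab φ ψ m1 m2 m3 m4
      rw [← hV] at this ⊢
      simpa using this
    · rw [← div_le_iff₀ hV]
      refine le_csInf ⟨ρ₀, hρ₀⟩ fun ρ hρ => ?_
      rw [div_le_iff₀ hV]
      exact hρ.2 a ha b hb hab φ ψ m1 m2 m3 m4
  -- the variance of a conditional mean
  have hvar : ∀ a ∈ J, ∀ c ∈ J, a ≠ c → ∀ φ : Ω → ℝ, Meas (v a) S φ → ∑ ω ∈ S, φ ω = 0 →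
      ∑ ω ∈ S, trMean (v c) S φ ω ^ 2 ≤ r ^ 2 * ∑ ω ∈ S, φ ω ^ 2 := by
    intro a ha c hc hac φ m1 m3
    have hm := trMean_meas (v c) S φ
    have hz : ∑ ω ∈ S, trMean (v c) S φ ω = 0 := by rw [tr_sum_mean_one, m3]
    have e : ∑ ω ∈ S, φ ω * trMean (v c) S φ ω = ∑ ω ∈ S, trMean (v c) S φ ω ^ 2 := by
      simp only [pow_two]
      rw [tr_sum_mean hm φ]
      exact sum_congr rfl fun _ _ => mul_comm _ _
    rcases hr0.eq_or_lt with h0' | h0'
    · have := hrR a ha c hc hac φ _ m1 hm m3 hz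
      rw [e, ← h0'] at this
      rw [← h0']
      linarith
    · have := hrR a ha c hc hac (fun ω => r * φ ω) _
        (fun x hx y hy e' => by simp only [m1 x hx y hy e']) hm (by rw [← mul_sum, m3, mul_zero]) hz
      simp only [mul_assoc, mul_pow, ← mul_sum, e] at this
      have h' : r * ∑ ω ∈ S, trMean (v c) S φ ω ^ 2 ≤ r * (r ^ 2 * ∑ ω ∈ S, φ ω ^ 2) := by
        linarith
      exact le_of_mul_le_mul_left h' h0'
  have hg : lam + (1 - lam) * r ^ 2 ∈ R := by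
    refine ⟨by have : 0 ≤ 1 - lam := by linarith
               positivity, fun a ha b hb hab φ ψ m1 m2 m3 m4 => ?_⟩
    obtain ⟨c, hc, hca, hcb⟩ : ∃ c ∈ J, a ≠ c ∧ b ≠ c := by
      have : ({a, b} : Finset I).card < J.card := lt_of_le_of_lt card_le_two (by omega)
      obtain ⟨c, hc, hc'⟩ := exists_mem_notMem_of_card_lt_card this
      simp only [mem_insert, mem_singleton, not_or] at hc'
      exact ⟨c, hc, Ne.symm hc'.1, Ne.symm hc'.2⟩
    set φc := trMean (v c) S φ with hφc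
    set ψc := trMean (v c) S ψ with hψc
    have mφ : Meas (v c) S φc := trMean_meas _ _ _
    have mψ : Meas (v c) S ψc := trMean_meas _ _ _
    have hA := hvar a ha c hc hca φ m1 m3
    have hB := hvar b hb c hc hcb ψ m2 m4
    rw [← hφc] at hA
    rw [← hψc] at hB
    have loc : ∀ ω ∈ S, trMean (v c) S (fun x => 2 * ((φ x - φc x) * (ψ x - ψc x))) ω ≤
        trMean (v c) S (fun x => lam * ((φ x - φc x) ^ 2 + (ψ x - ψc x) ^ 2)) ω := by
      intro ω hω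
      have hpos := trK_card_pos (u := v c) hω
      have hsub : trK (v c) S ω ⊆ S := fun x hx => (mem_trK.1 hx).1
      have hl := hloc c hc ω hω a ha b hb hab hca hcb
      rw [cls_single] at hl
      have z : ∀ θ : Ω → ℝ, ∑ x ∈ trK (v c) S ω, (θ x - trMean (v c) S θ ω) = 0 := fun θ => by
        rw [sum_sub_distrib, sum_const, nsmul_eq_mul, trMean]
        field_simp
        ring
      have := hl (fun x => φ x - φc ω) (fun x => ψ x - ψc ω)
        (fun x hx y hy e => by simp only [m1 x (hsub hx) y (hsub hy) e])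
        (fun x hx y hy e => by simp only [m2 x (hsub hx) y (hsub hy) e]) (z φ) (z ψ)
      unfold trMean
      refine div_le_div_of_nonneg_right ?_ hpos.le
      have e1 : ∀ x ∈ trK (v c) S ω, φc x = φc ω := fun x hx =>
        mφ x (hsub hx) ω hω (mem_trK.1 hx).2
      have e2 : ∀ x ∈ trK (v c) S ω, ψc x = ψc ω := fun x hx =>
        mψ x (hsub hx) ω hω (mem_trK.1 hx).2
      rw [← mul_sum, ← mul_sum, sum_add_distrib]
      have f1 : ∑ x ∈ trK (v c) S ω, (φ x - φc x) * (ψ x - ψc x) =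
          ∑ x ∈ trK (v c) S ω, (φ x - φc ω) * (ψ x - ψc ω) :=
        sum_congr rfl fun x hx => by rw [e1 x hx, e2 x hx]
      have f2 : ∑ x ∈ trK (v c) S ω, (φ x - φc x) ^ 2 = ∑ x ∈ trK (v c) S ω, (φ x - φc ω) ^ 2 :=
        sum_congr rfl fun x hx => by rw [e1 x hx]
      have f3 : ∑ x ∈ trK (v c) S ω, (ψ x - ψc x) ^ 2 = ∑ x ∈ trK (v c) S ω, (ψ x - ψc ω) ^ 2 :=
        sum_congr rfl fun x hx => by rw [e2 x hx]
      rw [f1, f2, f3]
      exact this
    have glob := sum_le_sum loc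
    rw [tr_sum_mean_one, tr_sum_mean_one] at glob
    have i1 : ∑ ω ∈ S, φc ω * φc ω = ∑ ω ∈ S, φc ω * φ ω := tr_sum_mean mφ φ
    have i2 : ∑ ω ∈ S, ψc ω * ψc ω = ∑ ω ∈ S, ψc ω * ψ ω := tr_sum_mean mψ ψ
    have i3 : ∑ ω ∈ S, φc ω * ψc ω = ∑ ω ∈ S, φc ω * ψ ω := tr_sum_mean mφ ψ
    have i4 : ∑ ω ∈ S, ψc ω * φc ω = ∑ ω ∈ S, ψc ω * φ ω := tr_sum_mean mψ φ
    have j1 : ∑ x ∈ S, 2 * ((φ x - φc x) * (ψ x - ψc x)) = 2 * ∑ x ∈ S, φ x * ψ x -
        2 * ∑ x ∈ S, ψc x * φ x - 2 * ∑ x ∈ S, φc x * ψ x + 2 * ∑ x ∈ S, φc x * ψc x := by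
      simp only [mul_sum, ← sum_sub_distrib, ← sum_add_distrib]
      exact sum_congr rfl fun _ _ => by ring
    have j2 : ∑ x ∈ S, lam * ((φ x - φc x) ^ 2 + (ψ x - ψc x) ^ 2) =
        lam * (∑ x ∈ S, φ x ^ 2 - 2 * ∑ x ∈ S, φc x * φ x + ∑ x ∈ S, φc x * φc x +
          (∑ x ∈ S, ψ x ^ 2 - 2 * ∑ x ∈ S, ψc x * ψ x + ∑ x ∈ S, ψc x * ψc x)) := by
      simp only [mul_sum, ← sum_sub_distrib, ← sum_add_distrib]
      exact sum_congr rfl fun _ _ => by ring
    have j3 : ∑ x ∈ S, ψc x * φc x = ∑ x ∈ S, φc x * ψc x := sum_congr rfl fun _ _ => mul_comm _ _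
    have j4 : 2 * ∑ x ∈ S, φc x * ψc x ≤ ∑ x ∈ S, φc x * φc x + ∑ x ∈ S, ψc x * ψc x := by
      rw [mul_sum, ← sum_add_distrib]
      exact sum_le_sum fun x _ => by nlinarith [sq_nonneg (φc x - ψc x)]
    simp only [pow_two (φc _), pow_two (ψc _)] at hA hB
    rw [j1, j2, ← i1, ← i2, ← i3, ← i4, j3] at glob
    have h1' : 0 ≤ 1 - lam := by linarith
    have k := mul_le_mul_of_nonneg_left (add_le_add hA hB) h1'
    nlinarith
  have hle : r ≤ lam + (1 - lam) * r ^ 2 := csInf_le hbdd hg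
  have hfin : r ≤ lam / (1 - lam) := by
    rw [le_div_iff₀ (by linarith)]
    by_contra hcon
    have a1 : 0 < r * (1 - lam) - lam := by linarith [not_le.1 hcon]
    have a2 : 0 < 1 - r := by linarith
    nlinarith [mul_pos a1 a2]
  exact fun a ha b hb hab => (hrR a ha b hb hab).mono hfin

/-- Trickling down from codimension two to all links (colours in `J`). -/
theorem trickle_all [DecidableEq I] (v : I → Ω → V) (S : Finset Ω) (J : Finset I) (lam : ℝ)
    (h0 : 0 ≤ lam) (h1 : (J.card : ℝ) * lam ≤ 1 / 2)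
    (hbase : ∀ σ ⊆ J, ∀ ω ∈ S, ∀ a b, a ≠ b → J \ σ = {a, b} →
      Corr (v a) (v b) (cls v S σ ω) lam)
    (hconn : ∀ σ ⊆ J, ∀ ω ∈ S, ∀ a ∈ J \ σ, ∀ b ∈ J \ σ, a ≠ b →
      Conn (v a) (v b) (cls v S σ ω)) :
    ∀ σ ⊆ J, ∀ ω ∈ S, ∀ a ∈ J \ σ, ∀ b ∈ J \ σ, a ≠ b →
      Corr (v a) (v b) (cls v S σ ω) (2 * lam) := by
  have main : ∀ n : ℕ, ∀ σ ⊆ J, (J \ σ).card = n + 2 → ∀ ω ∈ S, ∀ a ∈ J \ σ, ∀ b ∈ J \ σ, a ≠ b →
      Corr (v a) (v b) (cls v S σ ω) (lam / (1 - n * lam)) := by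
    intro n
    induction n with
    | zero =>
      intro σ hσ hc ω hω a ha b hb hab
      have e : J \ σ = {a, b} := by
        refine (eq_of_subset_of_card_le ?_ ?_).symm
        · intro x hx
          rcases mem_insert.1 hx with rfl | hx
          · exact ha
          · rw [mem_singleton.1 hx]; exact hb
        · rw [card_pair hab, hc]
      simpa using hbase σ hσ ω hω a b hab e
    | succ n ih =>
      intro σ hσ hc ω hω
      have hle : ((n : ℝ) + 3) ≤ J.card := by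
        have : n + 3 ≤ J.card := by
          have := card_le_card (sdiff_subset (s := J) (t := σ))
          omega
        exact_mod_cast this
      have hn : ((n : ℝ) + 3) * lam ≤ 1 / 2 := (mul_le_mul_of_nonneg_right hle h0).trans h1
      have hpos : 0 < 1 - n * lam := by nlinarith
      have := trickle_step v (cls v S σ ω) (J \ σ) (lam / (1 - n * lam)) (div_nonneg h0 hpos.le)
        (by rw [div_lt_one hpos]; nlinarith) (by omega) ?_ (hconn σ hσ ω hω)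
      · have e : lam / (1 - n * lam) / (1 - lam / (1 - n * lam)) =
            lam / (1 - ((n + 1 : ℕ) : ℝ) * lam) := by
          push_cast
          rw [one_sub_div hpos.ne', div_div_div_cancel_right₀ hpos.ne']
          congr 1
          ring
        rwa [e] at this
      · intro c hc' ω' hω' a ha b hb hab hac hbc
        have hω'' := mem_cls.1 hω'
        have e : cls v (cls v S σ ω) {c} ω' = cls v S (insert c σ) ω' := by
          ext x
          simp only [mem_cls]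
          constructor
          · rintro ⟨⟨x1, x2⟩, x3⟩
            refine ⟨x1, fun i hi => ?_⟩
            rcases mem_insert.1 hi with rfl | hi
            · exact x3 _ (mem_singleton_self _)
            · exact (hω''.2.symm.trans x2) i hi
          · rintro ⟨x1, x2⟩
            exact ⟨⟨x1, hω''.2.trans (x2.mono (subset_insert _ _))⟩,
              x2.mono (singleton_subset_iff.2 (mem_insert_self _ _))⟩
        rw [e]
        have e2 : J \ insert c σ = (J \ σ).erase c := by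
          ext x
          simp only [mem_sdiff, mem_insert, mem_erase]
          tauto
        refine ih (insert c σ) (insert_subset (mem_sdiff.1 hc').1 hσ) ?_ ω' hω''.1 a ?_ b ?_ hab
        · rw [e2, card_erase_of_mem hc', hc]
          rfl
        · rw [e2]; exact mem_erase.2 ⟨hac, ha⟩
        · rw [e2]; exact mem_erase.2 ⟨hbc, hb⟩
  intro σ hσ ω hω a ha b hb hab
  have h2 : 2 ≤ (J \ σ).card := one_lt_card.2 ⟨a, ha, b, hb, hab⟩
  obtain ⟨n, hn⟩ : ∃ n, (J \ σ).card = n + 2 := ⟨(J \ σ).card - 2, by omega⟩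
  refine (main n σ hσ hn ω hω a ha b hb hab).mono ?_
  have hle : (n : ℝ) ≤ J.card := by
    have : n ≤ J.card := by
      have := card_le_card (sdiff_subset (s := J) (t := σ))
      omega
    exact_mod_cast this
  have hn' : (n : ℝ) * lam ≤ 1 / 2 := (mul_le_mul_of_nonneg_right hle h0).trans h1
  rw [div_le_iff₀ (by linarith)]
  nlinarith

theorem tr_conn_aux [DecidableEq I] (v : I → Ω → V) (S : Finset Ω) (J : Finset I) (a : I)
    (ha : a ∈ J) (hex : Exact v (dom S J) 1) (P : Ω → Prop) (hP : ∀ c ∈ J, Meas (v c) S P) :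
    ∀ ω ∈ S, ∀ ω' ∈ S, P ω → P ω' := by
  classical
  intro ω hω ω' hω' h
  obtain ⟨g, hg, he⟩ := hex (fun _ x => if P x then 1 else 0) (by
    intro τ x y hτ hx hy hr
    obtain ⟨i, rfl⟩ := card_eq_one.1 hτ
    have := hP i (hx.1 (mem_singleton_self i)) x hx.2 y hy.2 (hr i (mem_singleton_self i))
    simp only [this]) (by
    intro τ x hτ _
    simp only [dd, sum_const, hτ, Pi.zero_apply]
    rw [show (1 + 1 : ℕ) = 2 from rfl, two_nsmul]
    exact CharTwo.add_self_eq_zero _)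
  have e1 := he {a} ω rfl ⟨singleton_subset_iff.2 ha, hω⟩
  have e2 := he {a} ω' rfl ⟨singleton_subset_iff.2 ha, hω'⟩
  simp only [dd, sum_singleton, erase_singleton] at e1 e2
  have e3 := hg ∅ ω ω' rfl ⟨empty_subset _, hω⟩ ⟨empty_subset _, hω'⟩ (fun i hi => absurd hi (by simp))
  by_contra h'
  rw [if_pos h] at e1
  rw [if_neg h'] at e2
  rw [← e1, ← e2] at e3
  exact one_ne_zero e3

/-- Connectivity of the `(a, b)` graph from exactness in size one and the links. -/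
theorem conn_of_links [Fintype I] [DecidableEq I] (v : I → Ω → V) (S : Finset Ω) (a b : I)
    (hex : Exact v (dom S univ) 1)
    (hlink : ∀ c, c ≠ a → c ≠ b → ∀ ω ∈ S, Conn (v a) (v b) (cls v S {c} ω)) :
    Conn (v a) (v b) S := by
  intro P hu hw
  refine tr_conn_aux v S univ a (mem_univ _) hex P fun c _ => ?_
  by_cases hca : c = a
  · rw [hca]; exact hu
  by_cases hcb : c = b
  · rw [hcb]; exact hw
  intro x hx y hy e
  have hsub : cls v S {c} x ⊆ S := fun z hz => (mem_cls.1 hz).1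
  have hl := hlink c hca hcb x hx P (hu.subset hsub) (hw.subset hsub)
  have m1 : x ∈ cls v S {c} x := mem_cls.2 ⟨hx, Rel.refl _ _ _⟩
  have m2 : y ∈ cls v S {c} x := mem_cls.2 ⟨hy, fun i hi => by rw [mem_singleton.1 hi]; exact e⟩
  exact propext ⟨hl x m1 y m2, hl y m2 x m1⟩

/-- Exactness in size one for two colours is connectivity. -/
theorem conn_of_exact [DecidableEq I] (v : I → Ω → V) (S : Finset Ω) (a b : I)
    (hex : Exact v (dom S {a, b}) 1) : Conn (v a) (v b) S := by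
  intro P hu hw
  refine tr_conn_aux v S {a, b} a (mem_insert_self _ _) hex P fun c hc => ?_
  rcases mem_insert.1 hc with rfl | hc
  · exact hu
  · rw [mem_singleton.1 hc]; exact hw

open Classical in
/-- Independent vertices have correlation zero. -/
theorem corr_of_indep (u w : Ω → V) (S : Finset Ω) (α β γ : ℕ)
    (hα : ∀ ω ∈ S, (S.filter fun x => u x = u ω).card = α)
    (hβ : ∀ ω ∈ S, (S.filter fun x => w x = w ω).card = β)
    (hγ : ∀ ω ∈ S, ∀ ω' ∈ S, (S.filter fun x => u x = u ω ∧ w x = w ω').card = γ) :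
    Corr u w S 0 := by
  intro φ ψ m1 m2 m3 m4
  rw [zero_mul]
  rcases S.eq_empty_or_nonempty with rfl | ⟨ω₀, hω₀⟩
  · simp
  have hα0 : (0 : ℝ) < α := by
    rw [← hα ω₀ hω₀, Nat.cast_pos, card_pos]
    exact ⟨ω₀, mem_filter.2 ⟨hω₀, rfl⟩⟩
  have hβ0 : (0 : ℝ) < β := by
    rw [← hβ ω₀ hω₀, Nat.cast_pos, card_pos]
    exact ⟨ω₀, mem_filter.2 ⟨hω₀, rfl⟩⟩
  have e1 : ∀ x ∈ S, ∑ y ∈ S, (if u x = u y then φ y else 0) = α * φ x := fun x hx => by
    rw [← sum_filter, sum_congr rfl (g := fun _ => φ x) fun y hy =>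
      m1 y (mem_filter.1 hy).1 x hx (mem_filter.1 hy).2.symm, sum_const, nsmul_eq_mul,
      ← hα x hx]
    simp only [eq_comm]
  have e2 : ∀ x ∈ S, ∑ y ∈ S, (if w x = w y then ψ y else 0) = β * ψ x := fun x hx => by
    rw [← sum_filter, sum_congr rfl (g := fun _ => ψ x) fun y hy =>
      m2 y (mem_filter.1 hy).1 x hx (mem_filter.1 hy).2.symm, sum_const, nsmul_eq_mul,
      ← hβ x hx]
    simp only [eq_comm]
  have e3 : ∑ x ∈ S, (α * φ x) * (β * ψ x) = ∑ y ∈ S, ∑ z ∈ S, γ * (φ y * ψ z) := by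
    calc ∑ x ∈ S, (α * φ x) * (β * ψ x)
        = ∑ x ∈ S, ∑ y ∈ S, ∑ z ∈ S, (if u x = u y ∧ w x = w z then φ y * ψ z else 0) := by
          refine sum_congr rfl fun x hx => ?_
          rw [← e1 x hx, ← e2 x hx, sum_mul_sum]
          refine sum_congr rfl fun y _ => sum_congr rfl fun z _ => ?_
          by_cases h1 : u x = u y <;> by_cases h2 : w x = w z <;> simp [h1, h2]
      _ = ∑ y ∈ S, ∑ z ∈ S, ∑ x ∈ S, (if u x = u y ∧ w x = w z then φ y * ψ z else 0) := by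
          rw [sum_comm]
          exact sum_congr rfl fun y _ => sum_comm
      _ = _ := by
          refine sum_congr rfl fun y hy => sum_congr rfl fun z hz => ?_
          rw [← sum_filter, sum_const, nsmul_eq_mul, hγ y hy z hz]
  have e4 : ∑ y ∈ S, ∑ z ∈ S, γ * (φ y * ψ z) = 0 := by
    simp only [← mul_sum, m4, mul_zero, sum_const_zero]
  have e5 : ∑ x ∈ S, (α * φ x) * (β * ψ x) = α * β * ∑ x ∈ S, φ x * ψ x := by
    rw [mul_sum]
    exact sum_congr rfl fun _ _ => by ring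
  rw [e4, e5] at e3
  have := (mul_eq_zero.1 e3).resolve_left (by positivity)
  linarith

theorem tr_arith_row {q α β γ n A : ℝ} (hq0 : 1 ≤ q) (hα0 : 0 < α) (hβ0 : 0 < β) (hγ0 : 0 ≤ γ)
    (h1' : q * γ ≤ α) (h2' : q * γ ≤ β) (h3' : n ≤ (q ^ 2 + q + 1) * α)
    (b2 : A ≤ n * (γ * γ) - α * α * β + 2 * (α * γ) * α) : q * A ≤ 4 * (α * α * β) := by
  have b3 : (q * γ) * (q * γ) ≤ α * β := mul_le_mul h1' h2' (by positivity) hα0.le
  have b4 : q ^ 2 * (n * (γ * γ)) ≤ (q ^ 2 + q + 1) * (α * α * β) := by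
    calc q ^ 2 * (n * (γ * γ)) = n * ((q * γ) * (q * γ)) := by ring
      _ ≤ ((q ^ 2 + q + 1) * α) * (α * β) := by gcongr
      _ = _ := by ring
  have b5 : q * (2 * (α * γ) * α) ≤ 2 * (α * α * β) := by
    nlinarith [mul_le_mul_of_nonneg_left h2' (mul_nonneg hα0.le hα0.le)]
  have hM : 0 < α * α * β := by positivity
  have b6 : q * (n * (γ * γ) - α * α * β) ≤ 2 * (α * α * β) := by
    have : q * (q * (n * (γ * γ) - α * α * β)) ≤ q * (2 * (α * α * β)) := by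
      nlinarith
    exact le_of_mul_le_mul_left this (by linarith)
  have := mul_le_mul_of_nonneg_left b2 (show (0 : ℝ) ≤ q by linarith)
  nlinarith

theorem tr_quad_bound (S : Finset Ω) (N : Ω → Ω → ℝ) (Nsymm : ∀ y z, N y z = N z y) (φ : Ω → ℝ)
    (m3 : ∑ ω ∈ S, φ ω = 0) (g q M : ℝ) (hq : 0 ≤ q)
    (Arow : ∀ y ∈ S, q * ∑ z ∈ S, |N y z - g| ≤ M) :
    q * ∑ y ∈ S, ∑ z ∈ S, N y z * (φ y * φ z) ≤ M * ∑ x ∈ S, φ x ^ 2 := by
  have z0 : ∑ y ∈ S, ∑ z ∈ S, g * (φ y * φ z) = 0 := by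
    simp only [← mul_sum, m3, mul_zero, sum_const_zero]
  have z1 : ∑ y ∈ S, ∑ z ∈ S, N y z * (φ y * φ z) ≤
      ∑ y ∈ S, ∑ z ∈ S, (|N y z - g| * φ y ^ 2 / 2 + |N y z - g| * φ z ^ 2 / 2) := by
    rw [← sub_zero (∑ y ∈ S, ∑ z ∈ S, N y z * (φ y * φ z)), ← z0, ← sum_sub_distrib]
    refine sum_le_sum fun y _ => ?_
    rw [← sum_sub_distrib]
    refine sum_le_sum fun z _ => ?_
    rcases le_total 0 (N y z - g) with h | h
    · rw [abs_of_nonneg h]
      nlinarith [mul_nonneg h (sq_nonneg (φ y - φ z))]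
    · rw [abs_of_nonpos h]
      nlinarith [mul_nonneg (neg_nonneg.2 h) (sq_nonneg (φ y + φ z))]
  have z2 : ∑ y ∈ S, ∑ z ∈ S, (|N y z - g| * φ y ^ 2 / 2 + |N y z - g| * φ z ^ 2 / 2) =
      ∑ y ∈ S, (∑ z ∈ S, |N y z - g|) * φ y ^ 2 := by
    simp only [sum_add_distrib]
    rw [sum_comm (f := fun y z => |N y z - g| * φ z ^ 2 / 2), ← sum_add_distrib]
    refine sum_congr rfl fun y _ => ?_
    rw [← sum_add_distrib, sum_mul]
    refine sum_congr rfl fun z _ => ?_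
    rw [Nsymm z y]
    ring
  refine (mul_le_mul_of_nonneg_left (z1.trans z2.le) hq).trans ?_
  rw [mul_sum, mul_sum]
  refine sum_le_sum fun y hy => ?_
  rw [← mul_assoc]
  exact mul_le_mul_of_nonneg_right (Arow y hy) (sq_nonneg _)

theorem tr_arith_fin {q M ρ T F P X : ℝ} (hq0 : 1 ≤ q) (hM : 0 < M) (hρ0 : 0 < ρ) (hF : 0 ≤ F)
    (hρq : 4 ≤ q * ρ ^ 2) (hbound : q * (M * T) ≤ 4 * M * F)
    (s3 : ρ * (2 * X) ≤ ρ ^ 2 * P + T) : 2 * X ≤ ρ * (F + P) := by
  have a1 : q * T ≤ 4 * F := by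
    refine le_of_mul_le_mul_left ?_ hM
    linarith
  have a2 : q * T ≤ q * (ρ ^ 2 * F) := by
    nlinarith [mul_le_mul_of_nonneg_right hρq hF]
  have hb2 := le_of_mul_le_mul_left a2 (by linarith)
  refine le_of_mul_le_mul_left ?_ hρ0
  nlinarith

open Classical in
theorem tr_quad_eq (u w : Ω → V) (S : Finset Ω) (α β : ℝ) (φ θ : Ω → ℝ)
    (e1 : ∀ x ∈ S, ∑ y ∈ S, (if u x = u y then φ y else 0) = α * φ x)
    (hθv : ∀ x ∈ S, β * θ x = ∑ y ∈ S, if w x = w y then φ y else 0)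
    (s1 : ∑ x ∈ S, θ x ^ 2 = ∑ x ∈ S, θ x * φ x) :
    α * α * β * ∑ x ∈ S, θ x ^ 2 = ∑ y ∈ S, ∑ z ∈ S, (∑ x ∈ S, ∑ x' ∈ S,
      if u x = u y ∧ u x' = u z ∧ w x = w x' then (1 : ℝ) else 0) * (φ y * φ z) := by
  calc α * α * β * ∑ x ∈ S, θ x ^ 2
      = ∑ x ∈ S, ∑ x' ∈ S, if w x = w x' then (α * φ x) * (α * φ x') else 0 := by
        rw [s1, mul_sum]
        refine sum_congr rfl fun x hx => ?_
        have : α * α * β * (θ x * φ x) = (α * α * φ x) * (β * θ x) := by ring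
        rw [this, hθv x hx, mul_sum]
        refine sum_congr rfl fun x' _ => ?_
        split_ifs <;> ring
    _ = ∑ x ∈ S, ∑ x' ∈ S, ∑ y ∈ S, ∑ z ∈ S,
          (if u x = u y ∧ u x' = u z ∧ w x = w x' then (1 : ℝ) else 0) * (φ y * φ z) := by
        refine sum_congr rfl fun x hx => sum_congr rfl fun x' hx' => ?_
        by_cases h : w x = w x'
        · rw [if_pos h, ← e1 x hx, ← e1 x' hx', sum_mul_sum]
          refine sum_congr rfl fun y _ => sum_congr rfl fun z _ => ?_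
          by_cases h1 : u x = u y <;> by_cases h2 : u x' = u z <;> simp [h1, h2, h]
        · simp [h]
    _ = _ := by
        simp only [sum_mul]
        rw [sum_congr rfl fun x _ => sum_comm, sum_comm]
        refine sum_congr rfl fun y _ => ?_
        rw [sum_congr rfl fun x _ => sum_comm, sum_comm]

open Classical in
/-- Points (`u`) and lines (`w`) of a dense partial linear space. -/
theorem corr_of_linear (u w : Ω → V) (S : Finset Ω) (α β γ q : ℕ) (hq : 1 ≤ q)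
    (hα : ∀ ω ∈ S, (S.filter fun x => u x = u ω).card = α)
    (hβ : ∀ ω ∈ S, (S.filter fun x => w x = w ω).card = β)
    (hγ : ∀ ω ∈ S, (S.filter fun x => u x = u ω ∧ w x = w ω).card = γ)
    (hlin : ∀ x ∈ S, ∀ y ∈ S, ∀ z ∈ S, ∀ t ∈ S,
      u x = u y → w y = w z → u z = u t → w t = w x → w x = w y ∨ u x = u t)
    (h1 : q * γ ≤ α) (h2 : q * γ ≤ β) (h3 : S.card ≤ (q ^ 2 + q + 1) * α)
    (ρ : ℝ) (hρ : 0 ≤ ρ) (hρq : 4 ≤ (q : ℝ) * ρ ^ 2) : Corr u w S ρ := by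
  intro φ ψ m1 m2 m3 m4
  rcases S.eq_empty_or_nonempty with rfl | ⟨ω₀, hω₀⟩
  · simp
  have hα0 : (0 : ℝ) < α := by
    rw [← hα ω₀ hω₀, Nat.cast_pos, card_pos]
    exact ⟨ω₀, mem_filter.2 ⟨hω₀, rfl⟩⟩
  have hβ0 : (0 : ℝ) < β := by
    rw [← hβ ω₀ hω₀, Nat.cast_pos, card_pos]
    exact ⟨ω₀, mem_filter.2 ⟨hω₀, rfl⟩⟩
  have hq0 : (1 : ℝ) ≤ q := by exact_mod_cast hq
  have hρ0 : 0 < ρ := by
    rcases hρ.eq_or_lt with h | h
    · rw [← h] at hρq; norm_num at hρq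
    · exact h
  have cu : ∀ x ∈ S, ∑ y ∈ S, (if u y = u x then (1 : ℝ) else 0) = α := fun x hx => by
    rw [← sum_filter, sum_const, nsmul_eq_mul, mul_one, hα x hx]
  have cw : ∀ x ∈ S, ∑ y ∈ S, (if w y = w x then (1 : ℝ) else 0) = β := fun x hx => by
    rw [← sum_filter, sum_const, nsmul_eq_mul, mul_one, hβ x hx]
  have cuw : ∀ x ∈ S, ∑ y ∈ S, (if u y = u x ∧ w y = w x then (1 : ℝ) else 0) = γ := fun x hx => by
    rw [← sum_filter, sum_const, nsmul_eq_mul, mul_one, hγ x hx]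
  have e1 : ∀ x ∈ S, ∑ y ∈ S, (if u x = u y then φ y else 0) = α * φ x := fun x hx => by
    rw [← cu x hx, sum_mul]
    refine sum_congr rfl fun y hy => ?_
    by_cases h : u x = u y
    · rw [if_pos h, if_pos h.symm, one_mul, m1 x hx y hy h]
    · rw [if_neg h, if_neg (Ne.symm h), zero_mul]
  set θ := trMean w S φ with hθ
  have mθ : Meas w S θ := trMean_meas _ _ _
  have hθv : ∀ x ∈ S, β * θ x = ∑ y ∈ S, if w x = w y then φ y else 0 := fun x hx => by
    have c1 : ((trK w S x).card : ℝ) = β := by rw [← hβ x hx]; rfl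
    rw [hθ, trMean, c1, mul_div_cancel₀ _ hβ0.ne', trK, sum_filter]
    simp only [eq_comm]
  set N : Ω → Ω → ℝ := fun y z => ∑ x ∈ S, ∑ x' ∈ S,
    if u x = u y ∧ u x' = u z ∧ w x = w x' then 1 else 0 with hN
  have Nsymm : ∀ y z, N y z = N z y := fun y z => by
    simp only [hN]
    rw [sum_comm]
    refine sum_congr rfl fun x _ => sum_congr rfl fun x' _ => ?_
    congr 1
    exact propext ⟨fun h => ⟨h.2.1, h.1, h.2.2.symm⟩, fun h => ⟨h.2.1, h.1, h.2.2.symm⟩⟩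
  have Nsame : ∀ y ∈ S, ∀ z, u z = u y → N y z = α * γ := fun y hy z hz => by
    simp only [hN]
    rw [← cu y hy, sum_mul]
    refine sum_congr rfl fun x hx => ?_
    by_cases h : u x = u y
    · rw [if_pos h, one_mul, ← cuw x hx]
      refine sum_congr rfl fun x' _ => ?_
      congr 1
      rw [hz, ← h]
      exact propext ⟨fun h' => ⟨h'.2.1, h'.2.2.symm⟩, fun h' => ⟨rfl, h'.1, h'.2.symm⟩⟩
    · simp [h]
  have Ndiff : ∀ y z, u z ≠ u y → N y z ≤ γ * γ := fun y z hz => by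
    by_cases hex : ∃ x₀ ∈ S, ∃ x₁ ∈ S, u x₀ = u y ∧ u x₁ = u z ∧ w x₀ = w x₁
    · obtain ⟨x₀, hx₀, x₁, hx₁, a1, a2, a3⟩ := hex
      simp only [hN]
      conv_rhs => rw [← cuw x₀ hx₀]
      nth_rw 2 [cuw x₀ hx₀]
      rw [← cuw x₁ hx₁, sum_mul_sum]
      refine sum_le_sum fun x hx => sum_le_sum fun x' hx' => ?_
      by_cases h : u x = u y ∧ u x' = u z ∧ w x = w x'
      · rw [if_pos h]
        have hw : w x = w x₀ := by
          rcases hlin x hx x₀ hx₀ x₁ hx₁ x' hx' (h.1.trans a1.symm) a3 (a2.trans h.2.1.symm)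
            h.2.2.symm with h' | h'
          · exact h'
          · exact absurd (h.2.1.symm.trans (h'.symm.trans h.1)) hz
        rw [if_pos ⟨h.1.trans a1.symm, hw⟩,
          if_pos ⟨h.2.1.trans a2.symm, h.2.2.symm.trans (hw.trans a3)⟩, one_mul]
      · rw [if_neg h]
        split_ifs <;> norm_num
    · have : N y z = 0 := by
        simp only [hN]
        refine sum_eq_zero fun x hx => sum_eq_zero fun x' hx' => if_neg fun h => ?_
        exact hex ⟨x, hx, x', hx', h⟩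
      rw [this]
      positivity
  have Nrow : ∀ y ∈ S, ∑ z ∈ S, N y z = α * α * β := fun y hy => by
    simp only [hN]
    rw [sum_comm]
    have : ∀ x ∈ S, ∑ z ∈ S, ∑ x' ∈ S, (if u x = u y ∧ u x' = u z ∧ w x = w x' then (1 : ℝ) else 0)
        = (if u x = u y then 1 else 0) * (α * β) := fun x hx => by
      by_cases h : u x = u y
      · rw [if_pos h, one_mul, sum_comm, ← cw x hx, mul_sum]
        refine sum_congr rfl fun x' hx' => ?_
        by_cases h' : w x = w x'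
        · rw [if_pos h'.symm, mul_one, ← cu x' hx']
          refine sum_congr rfl fun z _ => ?_
          congr 1
          exact propext ⟨fun h'' => h''.2.1.symm, fun h'' => ⟨h, h''.symm, h'⟩⟩
        · simp [h', Ne.symm h']
      · simp [h]
    rw [sum_congr rfl this, ← sum_mul, cu y hy]
    ring
  have Nquad : α * α * β * ∑ x ∈ S, θ x ^ 2 = ∑ y ∈ S, ∑ z ∈ S, N y z * (φ y * φ z) :=
    tr_quad_eq u w S α β φ θ e1 hθv (by simp only [pow_two]; exact tr_sum_mean mθ φ)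
  have h1' : (q : ℝ) * γ ≤ α := by exact_mod_cast h1
  have h2' : (q : ℝ) * γ ≤ β := by exact_mod_cast h2
  have h3' : (S.card : ℝ) ≤ ((q : ℝ) ^ 2 + q + 1) * α := by exact_mod_cast h3
  have hγ0 : (0 : ℝ) ≤ γ := by positivity
  have Arow : ∀ y ∈ S, q * ∑ z ∈ S, |N y z - γ * γ| ≤ 4 * (α * α * β) := fun y hy => by
    have b1 : ∀ z ∈ S, |N y z - γ * γ| ≤
        γ * γ - N y z + 2 * (α * γ) * (if u z = u y then 1 else 0) := fun z _ => by
      by_cases h : u z = u y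
      · rw [if_pos h, Nsame y hy z h, abs_le]
        constructor <;> nlinarith [mul_nonneg hγ0 hγ0, mul_nonneg hα0.le hγ0]
      · rw [if_neg h, abs_sub_comm, abs_of_nonneg (sub_nonneg.2 (Ndiff y z h))]
        simp
    have b2 := sum_le_sum b1
    rw [sum_add_distrib, sum_sub_distrib, sum_const, nsmul_eq_mul, Nrow y hy, ← mul_sum,
      cu y hy] at b2
    exact tr_arith_row hq0 hα0 hβ0 hγ0 h1' h2' h3' b2
  have hbound := tr_quad_bound S N Nsymm φ m3 (γ * γ) q _ (by linarith) Arow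
  rw [← Nquad] at hbound
  have hM : 0 < (α : ℝ) * α * β := by positivity
  have hφ0 : 0 ≤ ∑ x ∈ S, φ x ^ 2 := by positivity
  have s2 : ∑ x ∈ S, φ x * ψ x = ∑ x ∈ S, ψ x * θ x := by
    rw [hθ, tr_sum_mean m2 φ]
    exact sum_congr rfl fun _ _ => mul_comm _ _
  have s3 : ρ * (2 * ∑ x ∈ S, ψ x * θ x) ≤ ρ ^ 2 * ∑ x ∈ S, ψ x ^ 2 + ∑ x ∈ S, θ x ^ 2 := by
    simp only [mul_sum, ← sum_add_distrib]
    exact sum_le_sum fun x _ => by nlinarith [sq_nonneg (ρ * ψ x - θ x)]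
  rw [s2]
  exact tr_arith_fin hq0 hM hρ0 hφ0 hρq hbound s3

open Classical in
/-- Transfer of a correlation bound along a map with fibres of constant size. -/
theorem Corr.pull {Ω' V' : Type} (π : Ω' → Ω) (S' : Finset Ω') (S : Finset Ω) (c : ℕ)
    (hc : 0 < c) (hmap : ∀ x ∈ S', π x ∈ S)
    (hfib : ∀ y ∈ S, (S'.filter fun x => π x = y).card = c)
    (u w : Ω → V) (u' w' : Ω' → V')
    (hu : ∀ x ∈ S', ∀ y ∈ S', u (π x) = u (π y) → u' x = u' y)
    (hw : ∀ x ∈ S', ∀ y ∈ S', w (π x) = w (π y) → w' x = w' y) {ρ : ℝ}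
    (h : Corr u w S ρ) : Corr u' w' S' ρ := by
  have hsec : ∀ y ∈ S, ∃ x ∈ S', π x = y := fun y hy => by
    obtain ⟨x, hx⟩ := card_pos.1 (by rw [hfib y hy]; exact hc)
    exact ⟨x, (mem_filter.1 hx).1, (mem_filter.1 hx).2⟩
  choose sec hs1 hs2 using hsec
  intro φ' ψ' m1 m2 m3 m4
  set φ : Ω → ℝ := fun y => if hy : y ∈ S then φ' (sec y hy) else 0 with hφ
  set ψ : Ω → ℝ := fun y => if hy : y ∈ S then ψ' (sec y hy) else 0 with hψ
  have e1 : ∀ x ∈ S', φ' x = φ (π x) := fun x hx => by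
    simp only [hφ, dif_pos (hmap x hx)]
    exact m1 _ hx _ (hs1 _ _) (hu _ hx _ (hs1 _ _) (by rw [hs2]))
  have e2 : ∀ x ∈ S', ψ' x = ψ (π x) := fun x hx => by
    simp only [hψ, dif_pos (hmap x hx)]
    exact m2 _ hx _ (hs1 _ _) (hw _ hx _ (hs1 _ _) (by rw [hs2]))
  have hc' : (0 : ℝ) < c := by exact_mod_cast hc
  have pull : ∀ F : Ω → ℝ, ∑ x ∈ S', F (π x) = c * ∑ y ∈ S, F y := fun F => by
    rw [tr_sum_pull π S' S c hmap hfib F, nsmul_eq_mul]
  have n1 : Meas u S φ := fun y hy z hz e => by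
    simp only [hφ, dif_pos hy, dif_pos hz]
    exact m1 _ (hs1 _ _) _ (hs1 _ _) (hu _ (hs1 _ _) _ (hs1 _ _) (by rw [hs2, hs2, e]))
  have n2 : Meas w S ψ := fun y hy z hz e => by
    simp only [hψ, dif_pos hy, dif_pos hz]
    exact m2 _ (hs1 _ _) _ (hs1 _ _) (hw _ (hs1 _ _) _ (hs1 _ _) (by rw [hs2, hs2, e]))
  rw [sum_congr rfl e1, pull φ] at m3
  rw [sum_congr rfl e2, pull ψ] at m4
  have := h φ ψ n1 n2 ((mul_eq_zero.1 m3).resolve_left hc'.ne')
    ((mul_eq_zero.1 m4).resolve_left hc'.ne')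
  have f1 : ∑ x ∈ S', φ' x * ψ' x = c * ∑ y ∈ S, φ y * ψ y := by
    rw [← pull fun y => φ y * ψ y]
    exact sum_congr rfl fun x hx => by rw [e1 x hx, e2 x hx]
  have f2 : ∑ x ∈ S', φ' x ^ 2 = c * ∑ y ∈ S, φ y ^ 2 := by
    rw [← pull fun y => φ y ^ 2]
    exact sum_congr rfl fun x hx => by rw [e1 x hx]
  have f3 : ∑ x ∈ S', ψ' x ^ 2 = c * ∑ y ∈ S, ψ y ^ 2 := by
    rw [← pull fun y => ψ y ^ 2]
    exact sum_congr rfl fun x hx => by rw [e2 x hx]
  rw [f1, f2, f3]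
  nlinarith [mul_le_mul_of_nonneg_left this hc'.le]

open Classical in
/-- Transfer of expansion along a map with fibres of constant size. -/
theorem Expand.pull [DecidableEq I] {Ω' V' : Type} (π : Ω' → Ω) (S' : Finset Ω') (S : Finset Ω)
    (c : ℕ) (hc : 0 < c) (hmap : ∀ x ∈ S', π x ∈ S)
    (hfib : ∀ y ∈ S, (S'.filter fun x => π x = y).card = c)
    (v : I → Ω → V) (v' : I → Ω' → V') (J : Finset I)
    (hv : ∀ i ∈ J, ∀ x ∈ S', ∀ y ∈ S', v' i x = v' i y ↔ v i (π x) = v i (π y)) {k M : ℕ}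
    (h : Expand v S J k M) : Expand v' S' J k M := by
  have hsec : ∀ y ∈ S, ∃ x ∈ S', π x = y := fun y hy => by
    obtain ⟨x, hx⟩ := card_pos.1 (by rw [hfib y hy]; exact hc)
    exact ⟨x, (mem_filter.1 hx).1, (mem_filter.1 hx).2⟩
  choose sec hs1 hs2 using hsec
  intro ψ' hψ'
  set ψ : Coch I Ω := fun τ y => if hy : y ∈ S then ψ' τ (sec y hy) else 0 with hψ
  have e1 : ∀ τ, τ.card = k → τ ⊆ J → ∀ x ∈ S', ψ' τ x = ψ τ (π x) := fun τ hτ hJ x hx => by
    simp only [hψ, dif_pos (hmap x hx)]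
    refine hψ' τ _ _ hτ ⟨hJ, hx⟩ ⟨hJ, hs1 _ _⟩ fun i hi => ?_
    rw [hv i (hJ hi) _ hx _ (hs1 _ _), hs2]
  have hinv : Inv v (dom S J) k ψ := fun τ y z hτ hy hz hr => by
    simp only [hψ, dif_pos hy.2, dif_pos hz.2]
    refine hψ' τ _ _ hτ ⟨hy.1, hs1 _ _⟩ ⟨hy.1, hs1 _ _⟩ fun i hi => ?_
    rw [hv i (hy.1 hi) _ (hs1 _ _) _ (hs1 _ _), hs2, hs2]
    exact hr i hi
  obtain ⟨g, hg, hn⟩ := h ψ hinv
  have scale : ∀ (j : ℕ) (F' : Coch I Ω') (F : Coch I Ω),
      (∀ τ, τ.card = j → τ ⊆ J → ∀ x ∈ S', F' τ x = F τ (π x)) →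
      nrm S' J j F' = c * nrm S J j F := fun j F' F hF => by
    unfold nrm
    rw [mul_sum]
    refine sum_congr rfl fun τ hτ => ?_
    have hτ' := mem_powersetCard.1 hτ
    rw [card_filter, card_filter, ← smul_eq_mul,
      ← tr_sum_pull π S' S c hmap hfib fun y => if F τ y ≠ 0 then 1 else 0]
    exact sum_congr rfl fun x hx => by rw [hF τ hτ'.2 hτ'.1 x hx]
  refine ⟨fun τ x => g τ (π x), fun τ x y hτ hx hy hr => ?_, ?_⟩
  · refine hg τ _ _ hτ ⟨hx.1, hmap _ hx.2⟩ ⟨hx.1, hmap _ hy.2⟩ fun i hi => ?_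
    rw [← hv i (hx.1 hi) _ hx.2 _ hy.2]
    exact hr i hi
  · rw [scale k _ (ψ + dd g) ?_, scale (k + 1) _ (dd ψ) ?_]
    · calc c * nrm S J k (ψ + dd g) ≤ c * (M * nrm S J (k + 1) (dd ψ)) := Nat.mul_le_mul_left _ hn
        _ = _ := by ring
    · intro τ hτ hJ x hx
      refine sum_congr rfl fun i hi => e1 _ ?_ ((erase_subset _ _).trans hJ) x hx
      rw [card_erase_of_mem hi, hτ]
      rfl
    · intro τ hτ hJ x hx
      simp only [Pi.add_apply]
      rw [e1 τ hτ hJ x hx]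
      rfl

end Vale.Agent.P067
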