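import Vale.Agent.P067.Flags
import Vale.Agent.P067.Trickle

/-! The local theorem: parabolic subgroups of `GL ι F` acting on flags in general position. -/

namespace Vale.Agent.P067

open Finset

/-- The stabiliser of the coordinate subspace spanned by the `e b`, `b ∈ S`. -/
def blk {ι F : Type} [Fintype ι] [DecidableEq ι] [Field F] (S : Finset ι) :
    Subgroup (GL ι F) where
  carrier := {p | ∀ a, a ∉ S → ∀ b ∈ S, (p : Matrix ι ι F) a b = 0}
  one_mem' := by
    intro a ha b hb
    have : a ≠ b := fun h => ha (h ▸ hb)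
    simp [this]
  mul_mem' := by
    intro p p' hp hp' a ha b hb
    simp only [Units.val_mul, Matrix.mul_apply]
    refine Finset.sum_eq_zero fun c _ => ?_
    by_cases hc : c ∈ S
    · rw [hp a ha c hc, zero_mul]
    · rw [hp' c hc b hb, mul_zero]
  inv_mem' := by
    intro p hp a ha b hb
    have h1 : Matrix.BlockTriangular (p : Matrix ι ι F) (fun x => if x ∈ S then (0 : ℕ) else 1) := by
      intro x y hxy
      by_cases hx : x ∈ S
      · simp [hx] at hxy
      · by_cases hy : y ∈ S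
        · exact hp x hx y hy
        · simp [hx, hy] at hxy
    letI := p.invertible
    have h2 := Matrix.blockTriangular_inv_of_blockTriangular h1
    have h3 := @h2 a b (by simp [ha, hb])
    simpa [Matrix.coe_units_inv] using h3

theorem mem_blk {ι F : Type} [Fintype ι] [DecidableEq ι] [Field F] {S : Finset ι}
    {p : GL ι F} : p ∈ blk S ↔ ∀ a, a ∉ S → ∀ b ∈ S, (p : Matrix ι ι F) a b = 0 := Iff.rfl

/-- Combinatorial data of a local system: `S j` (`j ∈ J`) are distinct proper nonempty upper sets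
and `H₁`, `H₂` are lower sets for the order given by `key`. -/
structure LocData {ι I : Type} (key : ι → ℤ) (J : Finset I) (S : I → Finset ι)
    (H₁ H₂ : Finset ι) : Prop where
  inj : Function.Injective key
  upper : ∀ j ∈ J, ∀ a ∈ S j, ∀ b, key a ≤ key b → b ∈ S j
  nonempty : ∀ j ∈ J, ∃ a, a ∈ S j
  proper : ∀ j ∈ J, ∃ a, a ∉ S j
  distinct : ∀ j ∈ J, ∀ j' ∈ J, S j = S j' → j = j'
  lower₁ : ∀ b ∈ H₁, ∀ a, key a ≤ key b → a ∈ H₁
  lower₂ : ∀ b ∈ H₂, ∀ a, key a ≤ key b → a ∈ H₂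

/-- The conclusion of the local theorem for the field `F` and all ranks up to `n`. -/
def Loc (F : Type) [Field F] [Fintype F] (n M : ℕ) (lam : ℝ) : Prop :=
  ∀ (ι I : Type) [Fintype ι] [DecidableEq ι] [DecidableEq I] (key : ι → ℤ) (J : Finset I)
    (S : I → Finset ι) (H₁ H₂ : Finset ι), Fintype.card ι ≤ n → LocData key J S H₁ H₂ →
    ∀ σ ⊆ J, ∀ p₀ ∈ (blk H₁ ⊓ blk H₂ : Subgroup (GL ι F)),
      (∀ k, k + 1 ≤ (J \ σ).card →
        Expand (cos fun j => (blk (S j) : Subgroup (GL ι F)))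
          (cls (cos fun j => blk (S j)) (fin (blk H₁ ⊓ blk H₂)) σ p₀) (J \ σ) k M) ∧
      (∀ a ∈ J \ σ, ∀ b ∈ J \ σ, a ≠ b →
        Corr (cos (fun j => (blk (S j) : Subgroup (GL ι F))) a) (cos (fun j => blk (S j)) b)
          (cls (cos fun j => blk (S j)) (fin (blk H₁ ⊓ blk H₂)) σ p₀) lam)

theorem Loc.mono {F : Type} [Field F] [Fintype F] {n n' M : ℕ} {lam : ℝ} (h : Loc F n M lam)
    (hn : n' ≤ n) : Loc F n' M lam :=
  fun ι I _ _ _ key J S H₁ H₂ hc => h ι I key J S H₁ H₂ (hc.trans hn)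

section Act

open Module

variable {ι F : Type} [Fintype ι] [DecidableEq ι] [Field F]

/-- The linear equivalence of an invertible matrix. -/
noncomputable def lin (p : GL ι F) : (ι → F) ≃ₗ[F] (ι → F) :=
  LinearEquiv.ofLinearMap (Matrix.toLin' (p : Matrix ι ι F))
    (Matrix.toLin' ((p⁻¹ : GL ι F) : Matrix ι ι F))
    (by rw [← Matrix.toLin'_mul, Units.mul_inv, Matrix.toLin'_one])
    (by rw [← Matrix.toLin'_mul, Units.inv_mul, Matrix.toLin'_one])

/-- The action of invertible matrices on subspaces. -/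
noncomputable def act (p : GL ι F) (U : Submodule F (ι → F)) : Submodule F (ι → F) :=
  U.map (Matrix.toLin' (p : Matrix ι ι F))

theorem act_eq (p : GL ι F) (U : Submodule F (ι → F)) :
    act p U = U.map (lin p : (ι → F) →ₗ[F] (ι → F)) := rfl

theorem act_one (U : Submodule F (ι → F)) : act 1 U = U := by
  simp [act]

theorem act_mul (p p' : GL ι F) (U : Submodule F (ι → F)) : act (p * p') U = act p (act p' U) := by
  simp [act, Matrix.toLin'_mul, Submodule.map_comp]

theorem act_inv_act (p : GL ι F) (U : Submodule F (ι → F)) : act p⁻¹ (act p U) = U := by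
  rw [← act_mul, inv_mul_cancel, act_one]

theorem act_act_inv (p : GL ι F) (U : Submodule F (ι → F)) : act p (act p⁻¹ U) = U := by
  rw [← act_mul, mul_inv_cancel, act_one]

theorem act_injective (p : GL ι F) : Function.Injective (act p) := fun U V h => by
  rw [← act_inv_act p U, h, act_inv_act]

theorem act_mono (p : GL ι F) {U V : Submodule F (ι → F)} (h : U ≤ V) : act p U ≤ act p V :=
  Submodule.map_mono h

theorem act_inf (p : GL ι F) (U V : Submodule F (ι → F)) : act p (U ⊓ V) = act p U ⊓ act p V :=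
  Submodule.map_inf _ (lin p).injective

theorem act_sup (p : GL ι F) (U V : Submodule F (ι → F)) : act p (U ⊔ V) = act p U ⊔ act p V :=
  Submodule.map_sup _ _ _

theorem act_bot (p : GL ι F) : act p (⊥ : Submodule F (ι → F)) = ⊥ := Submodule.map_bot _

theorem act_top (p : GL ι F) : act p (⊤ : Submodule F (ι → F)) = ⊤ := by
  rw [act_eq, Submodule.map_top, LinearMap.range_eq_top]
  exact (lin p).surjective

theorem finrank_act (p : GL ι F) (U : Submodule F (ι → F)) : finrank F (act p U) = finrank F U :=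
  LinearEquiv.finrank_map_eq (lin p) U

variable (F) in
/-- The coordinate subspace spanned by the `e b`, `b ∈ S`. -/
def cs (S : Finset ι) : Submodule F (ι → F) where
  carrier := {x | ∀ a, a ∉ S → x a = 0}
  zero_mem' := fun _ _ => rfl
  add_mem' := fun hx hy a ha => by simp [hx a ha, hy a ha]
  smul_mem' := fun c x hx a ha => by simp [hx a ha]

omit [Fintype ι] [DecidableEq ι] in
theorem mem_cs {S : Finset ι} {x : ι → F} : x ∈ cs F S ↔ ∀ a, a ∉ S → x a = 0 := Iff.rfl

omit [Fintype ι] [DecidableEq ι] in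
theorem cs_mono {S S' : Finset ι} (h : S ⊆ S') : cs F S ≤ cs F S' :=
  fun _ hx a ha => hx a fun h' => ha (h h')

omit [Fintype ι] [DecidableEq ι] in
theorem cs_empty : cs F (∅ : Finset ι) = ⊥ := by
  rw [eq_bot_iff]
  intro x hx
  exact funext fun a => hx a (by simp)

omit [DecidableEq ι] in
theorem cs_univ : cs F (univ : Finset ι) = ⊤ := by
  rw [eq_top_iff]
  intro x _ a ha
  simp at ha

omit [Fintype ι] in
theorem cs_inter (S S' : Finset ι) : cs F (S ∩ S') = cs F S ⊓ cs F S' := by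
  refine le_antisymm (le_inf (cs_mono inter_subset_left) (cs_mono inter_subset_right)) ?_
  rintro x ⟨h1, h2⟩ a ha
  by_cases h : a ∈ S
  · exact h2 a fun h' => ha (mem_inter.2 ⟨h, h'⟩)
  · exact h1 a h

omit [Fintype ι] in
theorem cs_union (S S' : Finset ι) : cs F (S ∪ S') = cs F S ⊔ cs F S' := by
  refine le_antisymm ?_ (sup_le (cs_mono subset_union_left) (cs_mono subset_union_right))
  intro x hx
  rw [Submodule.mem_sup]
  refine ⟨fun a => if a ∈ S then x a else 0, fun a ha => by simp [ha],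
    fun a => if a ∈ S then 0 else x a, fun a ha => ?_, ?_⟩
  · by_cases h : a ∈ S
    · simp [h]
    · simpa [h] using hx a (by simp [h, ha])
  · funext a
    by_cases h : a ∈ S <;> simp [h]

omit [Fintype ι] in
theorem cs_singleton (a : ι) : cs F {a} = Submodule.span F {Pi.single a (1 : F)} := by
  refine le_antisymm (fun x hx => ?_) ?_
  · rw [Submodule.mem_span_singleton]
    refine ⟨x a, funext fun b => ?_⟩
    by_cases h : b = a
    · subst h
      simp
    · simp [h, hx b (by simpa using h)]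
  · rw [Submodule.span_singleton_le_iff_mem]
    intro b hb
    have : b ≠ a := by simpa using hb
    simp [this]

theorem finrank_cs (S : Finset ι) : finrank F (cs F S) = S.card := by
  induction S using Finset.induction_on with
  | empty => rw [cs_empty]; simp
  | insert a S ha ih =>
    have h := Submodule.finrank_sup_add_finrank_inf_eq (cs F ({a} : Finset ι)) (cs F S)
    rw [← cs_union, ← cs_inter, singleton_inter_of_notMem ha, cs_empty, ih, cs_singleton,
      finrank_span_singleton (by simp)] at h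
    rw [card_insert_of_notMem ha, insert_eq]
    rw [finrank_bot] at h
    omega

theorem act_cs_le {S : Finset ι} {p : GL ι F} (hp : p ∈ blk S) : act p (cs F S) ≤ cs F S := by
  rintro _ ⟨x, hx, rfl⟩ a ha
  simp only [Matrix.toLin'_apply, Matrix.mulVec, dotProduct]
  refine Finset.sum_eq_zero fun b _ => ?_
  by_cases hb : b ∈ S
  · rw [hp a ha b hb, zero_mul]
  · rw [hx b hb, mul_zero]

theorem mem_blk_iff {S : Finset ι} {p : GL ι F} : p ∈ blk S ↔ act p (cs F S) = cs F S := by
  constructor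
  · intro hp
    refine le_antisymm (act_cs_le hp) ?_
    have := act_mono p (act_cs_le ((blk S).inv_mem hp))
    rwa [act_act_inv] at this
  · intro h a ha b hb
    have h1 : Pi.single b (1 : F) ∈ cs F S := fun c hc => by
      have : c ≠ b := fun e => hc (e ▸ hb)
      simp [this]
    have h2 : Matrix.toLin' (p : Matrix ι ι F) (Pi.single b 1) ∈ cs F S :=
      h ▸ Submodule.mem_map_of_mem h1
    simpa using h2 a ha

theorem cos_iff {I : Type} (S : I → Finset ι) (j : I) (p p' : GL ι F) :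
    cos (fun j => (blk (S j) : Subgroup (GL ι F))) j p = cos (fun j => blk (S j)) j p' ↔
      act p (cs F (S j)) = act p' (cs F (S j)) := by
  rw [cos_eq_iff, mem_blk_iff, act_mul]
  constructor
  · intro h
    rw [← act_act_inv p (act p' _), h]
  · intro h
    rw [← h, act_inv_act]

theorem mem_cls_iff [Finite F] {I : Type} (S : I → Finset ι) (P : Subgroup (GL ι F))
    (σ : Finset I) (p₀ p : GL ι F) :
    p ∈ cls (cos fun j => (blk (S j) : Subgroup (GL ι F))) (fin P) σ p₀ ↔
      p ∈ P ∧ ∀ j ∈ σ, act p₀ (cs F (S j)) = act p (cs F (S j)) := by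
  rw [mem_cls, mem_fin]
  simp only [Rel, cos_iff]

open Classical in
/-- The two reference subspaces. -/
noncomputable def HH (H₁ H₂ : Finset ι) : Finset (Submodule F (ι → F)) := {cs F H₁, cs F H₂}

omit [Fintype ι] [DecidableEq ι] in
theorem card_HH (H₁ H₂ : Finset ι) : (HH (F := F) H₁ H₂).card ≤ 2 := card_le_two

omit [Fintype ι] [DecidableEq ι] in
theorem tr_HH {H₁ H₂ : Finset ι} {U : Submodule F (ι → F)} : Tr (HH H₁ H₂) U ↔
    (U ⊓ cs F H₁ = ⊥ ∨ U ⊔ cs F H₁ = ⊤) ∧ (U ⊓ cs F H₂ = ⊥ ∨ U ⊔ cs F H₂ = ⊤) := by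
  simp [Tr, HH]

theorem tr_act {H₁ H₂ : Finset ι} {p : GL ι F} (hp : p ∈ (blk H₁ ⊓ blk H₂ : Subgroup (GL ι F)))
    {U : Submodule F (ι → F)} (h : Tr (HH H₁ H₂) U) : Tr (HH H₁ H₂) (act p U) := by
  rw [tr_HH] at h ⊢
  have h1 := mem_blk_iff.1 hp.1
  have h2 := mem_blk_iff.1 hp.2
  constructor
  · rw [← h1, ← act_inf, ← act_sup]
    exact h.1.imp (fun e => by rw [e, act_bot]) fun e => by rw [e, act_top]
  · rw [← h2, ← act_inf, ← act_sup]
    exact h.2.imp (fun e => by rw [e, act_bot]) fun e => by rw [e, act_top]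

/-- The number of elements with larger or equal key. -/
def rk (key : ι → ℤ) (a : ι) : ℕ := (univ.filter fun b => key a ≤ key b).card

/-- The upper set with `t` elements. -/
def UpD (key : ι → ℤ) (t : ℕ) : Finset ι := univ.filter fun a => rk key a ≤ t

omit [DecidableEq ι] in
theorem mem_UpD {key : ι → ℤ} {t : ℕ} {a : ι} : a ∈ UpD key t ↔ rk key a ≤ t := by simp [UpD]

omit [DecidableEq ι] in
theorem rk_pos (key : ι → ℤ) (a : ι) : 0 < rk key a := card_pos.2 ⟨a, by simp⟩

omit [DecidableEq ι] in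
theorem rk_le (key : ι → ℤ) (a : ι) : rk key a ≤ Fintype.card ι := card_le_univ _

omit [DecidableEq ι] in
theorem rk_anti {key : ι → ℤ} {a b : ι} (h : key a ≤ key b) : rk key b ≤ rk key a :=
  card_le_card fun c hc => by
    simp only [mem_filter, mem_univ, true_and] at hc ⊢
    omega

omit [DecidableEq ι] in
theorem rk_lt {key : ι → ℤ} {a b : ι} (h : key a < key b) : rk key b < rk key a := by
  refine card_lt_card ⟨fun c hc => ?_, fun hc => ?_⟩
  · simp only [mem_filter, mem_univ, true_and] at hc ⊢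
    omega
  · have := @hc a (by simp)
    simp only [mem_filter, mem_univ, true_and] at this
    omega

omit [DecidableEq ι] in
theorem rk_injective {key : ι → ℤ} (hk : Function.Injective key) :
    Function.Injective (rk key) := fun a b h => by
  rcases lt_trichotomy (key a) (key b) with h' | h' | h'
  · have := rk_lt h'
    omega
  · exact hk h'
  · have := rk_lt h'
    omega

omit [DecidableEq ι] in
theorem exists_rk {key : ι → ℤ} (hk : Function.Injective key) {t : ℕ} (h1 : 1 ≤ t)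
    (h2 : t ≤ Fintype.card ι) : ∃ a, rk key a = t := by
  have h : univ.image (rk key) = Icc 1 (Fintype.card ι) := by
    refine eq_of_subset_of_card_le (fun s hs => ?_) ?_
    · obtain ⟨a, -, rfl⟩ := mem_image.1 hs
      exact mem_Icc.2 ⟨rk_pos key a, rk_le key a⟩
    · rw [card_image_of_injective _ (rk_injective hk)]
      simp
  have : t ∈ univ.image (rk key) := h ▸ mem_Icc.2 ⟨h1, h2⟩
  simpa using this

omit [DecidableEq ι] in
theorem UpD_zero (key : ι → ℤ) : UpD key 0 = ∅ :=
  eq_empty_of_forall_notMem fun a ha => by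
    have := rk_pos key a
    rw [mem_UpD] at ha
    omega

omit [DecidableEq ι] in
theorem UpD_top (key : ι → ℤ) {t : ℕ} (h : Fintype.card ι ≤ t) : UpD key t = univ :=
  eq_univ_of_forall fun a => mem_UpD.2 ((rk_le key a).trans h)

omit [DecidableEq ι] in
theorem UpD_mono (key : ι → ℤ) {s t : ℕ} (h : s ≤ t) : UpD key s ⊆ UpD key t :=
  fun _ ha => mem_UpD.2 ((mem_UpD.1 ha).trans h)

theorem UpD_succ {key : ι → ℤ} (hk : Function.Injective key) {t : ℕ} {a : ι}
    (ha : rk key a = t + 1) : UpD key (t + 1) = {a} ∪ UpD key t := by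
  ext b
  simp only [mem_union, mem_singleton, mem_UpD]
  constructor
  · intro h
    rcases h.lt_or_eq with h | h
    · exact Or.inr (by omega)
    · exact Or.inl (rk_injective hk (h.trans ha.symm))
  · rintro (rfl | h) <;> omega

theorem card_UpD {key : ι → ℤ} (hk : Function.Injective key) :
    ∀ t ≤ Fintype.card ι, (UpD key t).card = t
  | 0, _ => by simp [UpD_zero]
  | t + 1, h => by
    obtain ⟨a, ha⟩ := exists_rk hk (show 1 ≤ t + 1 by omega) h
    rw [UpD_succ hk ha, card_union_of_disjoint, card_UpD hk t (by omega), card_singleton, add_comm]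
    rw [disjoint_singleton_left, mem_UpD]
    omega

theorem eq_UpD {key : ι → ℤ} (hk : Function.Injective key) {S : Finset ι}
    (hS : ∀ a ∈ S, ∀ b, key a ≤ key b → b ∈ S) : S = UpD key S.card := by
  refine eq_of_subset_of_card_le (fun a ha => mem_UpD.2 (card_le_card fun b hb => ?_)) ?_
  · exact hS a ha b (by simpa using hb)
  · rw [card_UpD hk _ (card_le_univ _)]

theorem tr_UpD {key : ι → ℤ} {H₁ H₂ : Finset ι} (l₁ : ∀ b ∈ H₁, ∀ a, key a ≤ key b → a ∈ H₁)
    (l₂ : ∀ b ∈ H₂, ∀ a, key a ≤ key b → a ∈ H₂) (t : ℕ) :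
    Tr (HH H₁ H₂) (cs F (UpD key t)) := by
  have aux : ∀ H : Finset ι, (∀ b ∈ H, ∀ a, key a ≤ key b → a ∈ H) →
      cs F (UpD key t) ⊓ cs F H = ⊥ ∨ cs F (UpD key t) ⊔ cs F H = ⊤ := by
    intro H l
    rw [← cs_inter, ← cs_union]
    rcases (UpD key t ∩ H).eq_empty_or_nonempty with h | ⟨a, ha⟩
    · exact Or.inl (by rw [h, cs_empty])
    · right
      rw [← cs_univ]
      congr 1
      refine eq_univ_of_forall fun b => ?_
      rw [mem_inter, mem_UpD] at ha
      rw [mem_union, mem_UpD]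
      rcases le_total (key a) (key b) with h | h
      · exact Or.inl ((rk_anti h).trans ha.1)
      · exact Or.inr (l a ha.2 b h)
  exact tr_HH.2 ⟨aux _ l₁, aux _ l₂⟩

theorem exists_col {key : ι → ℤ} {H : Finset ι}
    (l : ∀ b ∈ H, ∀ a, key a ≤ key b → a ∈ H) {a : ι} (ha : a ∈ H) {A B : Submodule F (ι → F)}
    (hA : finrank F A + 1 = rk key a) (hB : finrank F B = rk key a)
    (tA : A ⊓ cs F H = ⊥ ∨ A ⊔ cs F H = ⊤) :
    ∃ x ∈ B, x ∉ A ∧ x ∈ cs F H := by
  have hH : Fintype.card ι + 1 ≤ rk key a + H.card := by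
    have h1 : (univ.filter fun b => key a ≤ key b) ∪ H = univ :=
      eq_univ_of_forall fun b => by
        rw [mem_union, mem_filter]
        rcases le_total (key a) (key b) with h | h
        · exact Or.inl ⟨mem_univ _, h⟩
        · exact Or.inr (l a ha b h)
    have h2 := card_union_add_card_inter (univ.filter fun b => key a ≤ key b) H
    have h3 : 0 < ((univ.filter fun b => key a ≤ key b) ∩ H).card :=
      card_pos.2 ⟨a, by simp [ha]⟩
    rw [h1, card_univ] at h2
    unfold rk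
    omega
  have e1 := Submodule.finrank_sup_add_finrank_inf_eq A (cs F H)
  have e2 := Submodule.finrank_sup_add_finrank_inf_eq B (cs F H)
  have e3 := Submodule.finrank_le (B ⊔ cs F H)
  rw [finrank_cs] at e1 e2
  rw [Module.finrank_fintype_fun_eq_card] at e3
  have lt : finrank F (A ⊓ cs F H : Submodule F (ι → F)) <
      finrank F (B ⊓ cs F H : Submodule F (ι → F)) := by
    rcases tA with h | h
    · rw [h, finrank_bot]
      omega
    · rw [h, finrank_top, Module.finrank_fintype_fun_eq_card] at e1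
      omega
  by_contra hc
  push Not at hc
  have : B ⊓ cs F H ≤ A ⊓ cs F H := fun x hx => ⟨by_contra fun h => hc x hx.1 h hx.2, hx.2⟩
  have := Submodule.finrank_mono this
  omega

/-- The parabolic group is transitive on full transversal flags. -/
theorem transitive {key : ι → ℤ} (hk : Function.Injective key) {H₁ H₂ : Finset ι}
    (l₁ : ∀ b ∈ H₁, ∀ a, key a ≤ key b → a ∈ H₁) (l₂ : ∀ b ∈ H₂, ∀ a, key a ≤ key b → a ∈ H₂)
    (U : ℕ → Submodule F (ι → F)) (hm : ∀ t < Fintype.card ι, U t ≤ U (t + 1))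
    (hU : ∀ t ≤ Fintype.card ι, finrank F (U t) = t ∧ Tr (HH H₁ H₂) (U t)) :
    ∃ p ∈ (blk H₁ ⊓ blk H₂ : Subgroup (GL ι F)),
      ∀ t ≤ Fintype.card ι, act p (cs F (UpD key t)) = U t := by
  have col : ∀ a, ∃ x ∈ U (rk key a), x ∉ U (rk key a - 1) ∧ (a ∈ H₁ → x ∈ cs F H₁) ∧
      (a ∈ H₂ → x ∈ cs F H₂) := by
    intro a
    have p1 := rk_pos key a
    have p2 := rk_le key a
    obtain ⟨dA, tA⟩ := hU (rk key a - 1) (by omega)
    obtain ⟨dB, -⟩ := hU (rk key a) p2
    rw [tr_HH] at tA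
    have c := fun (H : Finset ι) l ha t =>
      exists_col (F := F) (key := key) (H := H) l (a := a) ha (A := U (rk key a - 1)) (B := U (rk key a))
        (by omega) dB t
    have nest : H₁ ⊆ H₂ ∨ H₂ ⊆ H₁ := by
      by_contra hc
      rw [not_or, not_subset, not_subset] at hc
      obtain ⟨⟨x, h1, h2⟩, y, h3, h4⟩ := hc
      rcases le_total (key x) (key y) with h | h
      · exact h2 (l₂ y h3 x h)
      · exact h4 (l₁ x h1 y h)
    by_cases a1 : a ∈ H₁ <;> by_cases a2 : a ∈ H₂
    · rcases nest with h | h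
      · obtain ⟨x, h1, h2, h3⟩ := c H₁ l₁ a1 tA.1
        exact ⟨x, h1, h2, fun _ => h3, fun _ => cs_mono h h3⟩
      · obtain ⟨x, h1, h2, h3⟩ := c H₂ l₂ a2 tA.2
        exact ⟨x, h1, h2, fun _ => cs_mono h h3, fun _ => h3⟩
    · obtain ⟨x, h1, h2, h3⟩ := c H₁ l₁ a1 tA.1
      exact ⟨x, h1, h2, fun _ => h3, fun h => (a2 h).elim⟩
    · obtain ⟨x, h1, h2, h3⟩ := c H₂ l₂ a2 tA.2
      exact ⟨x, h1, h2, fun h => (a1 h).elim, fun _ => h3⟩
    · obtain ⟨x, h1, h2, -⟩ := c univ (fun _ _ _ _ => mem_univ _) (mem_univ _)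
        (Or.inr (by rw [cs_univ, sup_top_eq]))
      exact ⟨x, h1, h2, fun h => (a1 h).elim, fun h => (a2 h).elim⟩
  choose x hx1 hx2 hx3 hx4 using col
  let A : Matrix ι ι F := Matrix.of fun b a => x a b
  have main : ∀ t ≤ Fintype.card ι, (cs F (UpD key t)).map (Matrix.toLin' A) = U t := by
    intro t
    induction t with
    | zero =>
      intro h
      rw [UpD_zero, cs_empty, Submodule.map_bot]
      exact (Submodule.finrank_eq_zero.1 (hU 0 h).1).symm
    | succ t ih =>
      intro h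
      obtain ⟨a, ha⟩ := exists_rk hk (show 1 ≤ t + 1 by omega) h
      have e : Matrix.toLin' A (Pi.single a 1) = x a := by
        funext b
        simp [A]
      rw [UpD_succ hk ha, cs_union, Submodule.map_sup, ih (by omega), cs_singleton,
        Submodule.map_span, Set.image_singleton, e]
      have m1 := hx1 a
      have m2 := hx2 a
      rw [ha] at m1 m2
      rw [Nat.add_sub_cancel] at m2
      refine Submodule.eq_of_le_of_finrank_le
        (sup_le ((Submodule.span_singleton_le_iff_mem _ _).2 m1) (hm t (by omega))) ?_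
      have lt : U t < Submodule.span F {x a} ⊔ U t := by
        refine lt_of_le_of_ne le_sup_right fun e => m2 ?_
        rw [e]
        exact Submodule.mem_sup_left (Submodule.mem_span_singleton_self _)
      have := Submodule.finrank_lt_finrank_of_lt lt
      rw [(hU t (by omega)).1] at this
      rw [(hU (t + 1) h).1]
      omega
  have hA : IsUnit A := by
    rw [← Matrix.mulVec_surjective_iff_isUnit]
    have h1 := main _ le_rfl
    rw [UpD_top key le_rfl, cs_univ, Submodule.map_top,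
      Submodule.eq_top_of_finrank_eq (S := U _) (by
        rw [(hU _ le_rfl).1, Module.finrank_fintype_fun_eq_card]), LinearMap.range_eq_top] at h1
    exact h1
  obtain ⟨p, hp⟩ := hA
  refine ⟨p, ⟨fun a ha b hb => ?_, fun a ha b hb => ?_⟩, fun t ht => ?_⟩
  · rw [hp]
    exact hx3 b hb a ha
  · rw [hp]
    exact hx4 b hb a ha
  · rw [act, hp]
    exact main t ht

end Act

section Exp

open Module Classical

variable {ι F I : Type} [Fintype ι] [DecidableEq ι] [Field F] [Fintype F] [DecidableEq I]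
  {key : ι → ℤ} {J : Finset I} {S : I → Finset ι} {H₁ H₂ : Finset ι}

omit [DecidableEq I] in
theorem LocData.eqU (h : LocData key J S H₁ H₂) {j : I} (hj : j ∈ J) :
    S j = UpD key (S j).card := eq_UpD h.inj (h.upper j hj)

omit [DecidableEq I] in
theorem LocData.card_inj (h : LocData key J S H₁ H₂) {j j' : I} (hj : j ∈ J) (hj' : j' ∈ J)
    (e : (S j).card = (S j').card) : j = j' :=
  h.distinct j hj j' hj' (by rw [h.eqU hj, h.eqU hj', e])

omit [DecidableEq I] [DecidableEq ι] [Fintype ι] in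
theorem LocData.card_pos (h : LocData key J S H₁ H₂) {j : I} (hj : j ∈ J) : 0 < (S j).card :=
  Finset.card_pos.2 (h.nonempty j hj)

omit [DecidableEq I] [DecidableEq ι] in
theorem LocData.card_lt (h : LocData key J S H₁ H₂) {j : I} (hj : j ∈ J) :
    (S j).card < Fintype.card ι := by
  obtain ⟨a, ha⟩ := h.proper j hj
  exact card_lt_univ_of_notMem ha

omit [DecidableEq I] [DecidableEq ι] [Fintype ι] in
theorem LocData.mono (h : LocData key J S H₁ H₂) {J' : Finset I} (hJ : J' ⊆ J) :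
    LocData key J' S H₁ H₂ :=
  ⟨h.inj, fun j hj => h.upper j (hJ hj), fun j hj => h.nonempty j (hJ hj),
    fun j hj => h.proper j (hJ hj), fun j hj j' hj' => h.distinct j (hJ hj) j' (hJ hj'),
    h.lower₁, h.lower₂⟩

omit [DecidableEq I] in
theorem LocData.card_le (h : LocData key J S H₁ H₂) : J.card ≤ Fintype.card ι := by
  have : (J.image fun j => (S j).card) ⊆ range (Fintype.card ι) := fun t ht => by
    obtain ⟨j, hj, rfl⟩ := mem_image.1 ht
    exact mem_range.2 (h.card_lt hj)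
  have h2 := card_le_card this
  rwa [card_image_of_injOn fun j hj j' hj' e => h.card_inj hj hj' e, card_range] at h2

/-- The face of type `τ` of the chamber `p`. -/
noncomputable def face (S : I → Finset ι) (τ : Finset I) (p : GL ι F) :
    Finset (Submodule F (ι → F)) := τ.image fun j => act p (cs F (S j))

/-- The face with the two trivial subspaces added. -/
noncomputable def face' (S : I → Finset ι) (τ : Finset I) (p : GL ι F) :
    Finset (Submodule F (ι → F)) := insert ⊥ (insert ⊤ (face S τ p))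

omit [Fintype F] [DecidableEq I] in
theorem finrank_vert (S : I → Finset ι) (j : I) (p : GL ι F) :
    finrank F (act p (cs F (S j))) = (S j).card := by rw [finrank_act, finrank_cs]

omit [Fintype F] [DecidableEq I] in
theorem LocData.vert_inj (h : LocData key J S H₁ H₂) {j j' : I} (hj : j ∈ J) (hj' : j' ∈ J)
    {p p' : GL ι F} (e : act p (cs F (S j)) = act p' (cs F (S j'))) : j = j' :=
  h.card_inj hj hj' (by rw [← finrank_vert S j p, e, finrank_vert])

omit [Fintype F] [DecidableEq I] in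
theorem LocData.card_face (h : LocData key J S H₁ H₂) {τ : Finset I} (hτ : τ ⊆ J) (p : GL ι F) :
    (face S τ p).card = τ.card :=
  card_image_of_injOn fun _ hj _ hj' e => h.vert_inj (hτ hj) (hτ hj') e

omit [Fintype F] in
theorem LocData.face_erase (h : LocData key J S H₁ H₂) {τ : Finset I} (hτ : τ ⊆ J) (p : GL ι F)
    {i : I} (hi : i ∈ τ) : (face S τ p).erase (act p (cs F (S i))) = face S (τ.erase i) p := by
  ext U
  simp only [face, mem_erase, mem_image]
  constructor
  · rintro ⟨h1, j, hj, rfl⟩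
    exact ⟨j, ⟨fun e => h1 (by rw [e]), hj⟩, rfl⟩
  · rintro ⟨j, ⟨h1, hj⟩, rfl⟩
    exact ⟨fun e => h1 (h.vert_inj (hτ hj) (hτ hi) e), j, hj, rfl⟩

omit [Fintype F] [DecidableEq I] in
theorem LocData.sum_face (h : LocData key J S H₁ H₂) {τ : Finset I} (hτ : τ ⊆ J) (p : GL ι F)
    (f : Submodule F (ι → F) → ZMod 2) :
    ∑ U ∈ face S τ p, f U = ∑ j ∈ τ, f (act p (cs F (S j))) :=
  sum_image fun _ hj _ hj' e => h.vert_inj (hτ hj) (hτ hj') e

omit [Fintype F] [DecidableEq I] in
theorem LocData.face_eq (h : LocData key J S H₁ H₂) {τ τ' : Finset I} (hτ : τ ⊆ J) (hτ' : τ' ⊆ J)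
    {p p' : GL ι F} (e : face S τ p = face S τ' p') :
    τ = τ' ∧ ∀ j ∈ τ, act p (cs F (S j)) = act p' (cs F (S j)) := by
  have a : ∀ {τ τ' : Finset I} {p p' : GL ι F}, τ ⊆ J → τ' ⊆ J → face S τ p = face S τ' p' →
      ∀ j ∈ τ, j ∈ τ' ∧ act p (cs F (S j)) = act p' (cs F (S j)) := by
    intro τ τ' p p' hτ hτ' e j hj
    have : act p (cs F (S j)) ∈ face S τ' p' := e ▸ mem_image_of_mem _ hj
    obtain ⟨j', hj', e'⟩ := mem_image.1 this
    obtain rfl := h.vert_inj (hτ' hj') (hτ hj) e'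
    exact ⟨hj', e'.symm⟩
  exact ⟨Subset.antisymm (fun j hj => (a hτ hτ' e j hj).1) fun j hj => (a hτ' hτ e.symm j hj).1,
    fun j hj => (a hτ hτ' e j hj).2⟩

omit [Fintype F] [DecidableEq I] in
theorem face_congr {τ : Finset I} {p p' : GL ι F}
    (e : ∀ j ∈ τ, act p (cs F (S j)) = act p' (cs F (S j))) : face S τ p = face S τ p' :=
  image_congr fun j hj => e j hj

omit [Fintype F] [DecidableEq I] in
theorem image_face (τ : Finset I) (g p : GL ι F) :
    (face S τ p).image (act g) = face S τ (g * p) := by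
  simp only [face, image_image, act_mul]
  rfl

omit [Fintype F] [DecidableEq I] in
theorem LocData.flag_face' (h : LocData key J S H₁ H₂) {τ : Finset I} (hτ : τ ⊆ J) {p : GL ι F}
    (hp : p ∈ (blk H₁ ⊓ blk H₂ : Subgroup (GL ι F))) : Flag (HH H₁ H₂) (face' S τ p) := by
  have e : ∀ U ∈ face' S τ p, ∃ t, U = act p (cs F (UpD key t)) := by
    intro U hU
    simp only [face', face, mem_insert, mem_image] at hU
    rcases hU with rfl | rfl | ⟨j, hj, rfl⟩
    · exact ⟨0, by rw [UpD_zero, cs_empty, act_bot]⟩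
    · exact ⟨_, by rw [UpD_top key le_rfl, cs_univ, act_top]⟩
    · exact ⟨_, by rw [← h.eqU (hτ hj)]⟩
  constructor
  · intro U hU
    obtain ⟨t, rfl⟩ := e U hU
    exact tr_act hp (tr_UpD h.lower₁ h.lower₂ t)
  · intro U hU U' hU'
    obtain ⟨t, rfl⟩ := e U hU
    obtain ⟨t', rfl⟩ := e U' hU'
    exact (le_total t t').imp (fun l => act_mono p (cs_mono (UpD_mono key l)))
      fun l => act_mono p (cs_mono (UpD_mono key l))

omit [Fintype F] in
theorem LocData.type_ok (h : LocData key J S H₁ H₂) {σ : Finset I} (hσ : σ ⊆ J) (p : GL ι F)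
    {j : I} (hj : j ∈ J \ σ) : ∀ U ∈ face' S σ p, finrank F U ≠ (S j).card := by
  rw [mem_sdiff] at hj
  intro U hU
  simp only [face', face, mem_insert, mem_image] at hU
  rcases hU with rfl | rfl | ⟨i, hi, rfl⟩
  · rw [finrank_bot]
    exact (h.card_pos hj.1).ne
  · rw [finrank_top, Module.finrank_fintype_fun_eq_card]
    exact (h.card_lt hj.1).ne'
  · rw [finrank_vert]
    exact fun e => hj.2 (h.card_inj (hσ hi) hj.1 e ▸ hi)

theorem LocData.lk_face (h : LocData key J S H₁ H₂) {σ : Finset I} (hσ : σ ⊆ J) {p₀ p : GL ι F}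
    (hp : p ∈ cls (cos fun j => (blk (S j) : Subgroup (GL ι F))) (fin (blk H₁ ⊓ blk H₂)) σ p₀)
    {τ : Finset I} (hτ : τ ⊆ J \ σ) :
    lk (Flag (HH H₁ H₂)) tyS (face' S σ p₀) ((J \ σ).image fun j => (S j).card) (face S τ p) := by
  rw [mem_cls_iff] at hp
  refine ⟨?_, ?_, ?_⟩
  · rw [disjoint_left]
    intro U hU hU'
    obtain ⟨j, hj, rfl⟩ := mem_image.1 hU
    exact h.type_ok hσ p₀ (hτ hj) _ hU' (finrank_vert S j p)
  · refine downF_flag _ _ _ (h.flag_face' (τ := J) Subset.rfl hp.1) fun U hU => ?_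
    simp only [face', face_congr hp.2] at hU
    simp only [face', face, mem_union, mem_insert, mem_image] at hU ⊢
    rcases hU with ⟨j, hj, rfl⟩ | rfl | rfl | ⟨j, hj, rfl⟩
    · exact Or.inr (Or.inr ⟨j, (mem_sdiff.1 (hτ hj)).1, rfl⟩)
    · exact Or.inl rfl
    · exact Or.inr (Or.inl rfl)
    · exact Or.inr (Or.inr ⟨j, hσ hj, rfl⟩)
  · intro U hU
    obtain ⟨j, hj, rfl⟩ := mem_image.1 hU
    exact mem_image.2 ⟨j, hτ hj, (finrank_vert S j p).symm⟩

theorem LocData.exists_face (h : LocData key J S H₁ H₂) (hq : 3 ≤ Fintype.card F)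
    {σ : Finset I} (hσ : σ ⊆ J) {p₀ : GL ι F} {ρ : Finset (Submodule F (ι → F))}
    (hρ : lk (Flag (HH H₁ H₂)) tyS (face' S σ p₀) ((J \ σ).image fun j => (S j).card) ρ) :
    ∃ τ ⊆ J \ σ, ∃ p ∈ cls (cos fun j => (blk (S j) : Subgroup (GL ι F)))
      (fin (blk H₁ ⊓ blk H₂)) σ p₀, ρ = face S τ p := by
  obtain ⟨-, h2, h3⟩ := hρ
  have hq' : (HH (F := F) H₁ H₂).card + 1 ≤ Fintype.card F := by
    have := card_HH (F := F) H₁ H₂
    omega
  obtain ⟨U, hm, hU, hA⟩ := flag_extend (F := F) (W := ι → F) (HH H₁ H₂) hq' _ h2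
  rw [Module.finrank_fintype_fun_eq_card] at hU
  obtain ⟨p, hp, e⟩ := transitive h.inj h.lower₁ h.lower₂ U (fun t _ => hm (Nat.le_succ t)) hU
  have e' : ∀ j ∈ J, act p (cs F (S j)) = U (S j).card := fun j hj => by
    rw [← e _ (h.card_lt hj).le, ← h.eqU hj]
  refine ⟨(J \ σ).filter fun j => U (S j).card ∈ ρ, filter_subset _ _, p, ?_, ?_⟩
  · rw [mem_cls_iff]
    refine ⟨hp, fun j hj => ?_⟩
    rw [e' j (hσ hj), ← finrank_vert S j p₀, hA]
    simp only [face', face, mem_union, mem_insert, mem_image]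
    exact Or.inr (Or.inr (Or.inr ⟨j, hj, rfl⟩))
  · ext A
    simp only [face, mem_image, mem_filter]
    constructor
    · intro hAρ
      obtain ⟨j, hj, ej⟩ := mem_image.1 (h3 A hAρ)
      have := hA A (mem_union_left _ hAρ)
      rw [show finrank F A = (S j).card from ej.symm] at this
      exact ⟨j, ⟨hj, this ▸ hAρ⟩, by rw [e' j (mem_sdiff.1 hj).1, this]⟩
    · rintro ⟨j, ⟨hj, hj'⟩, rfl⟩
      rwa [e' j (mem_sdiff.1 hj).1]

omit [Fintype ι] [DecidableEq ι] [Field F] [Fintype F] [DecidableEq I] in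
theorem ite_pair_le {V : Type} (z : Multiset (Finset V)) (φ : Finset V → ZMod 2) :
    (if pair z φ ≠ 0 then 1 else 0) ≤ (z.map fun ρ => if φ ρ ≠ 0 then 1 else 0).sum := by
  split_ifs with h
  · by_contra hc
    have h0 : (z.map fun ρ => if φ ρ ≠ 0 then 1 else 0).sum = 0 := by omega
    rw [Multiset.sum_eq_zero_iff] at h0
    refine h (Multiset.sum_eq_zero fun x hx => ?_)
    obtain ⟨ρ, hρ, rfl⟩ := Multiset.mem_map.1 hx
    have := h0 _ (Multiset.mem_map_of_mem _ hρ)
    by_contra h'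
    simp [h'] at this
  · exact Nat.zero_le _

omit [Fintype ι] [DecidableEq ι] [Field F] [Fintype F] [DecidableEq I] in
theorem sum_multiset_le {α β : Type} (G : Finset α) (z : Multiset β) (f : α → β → ℕ) (N : ℕ)
    (h : ∀ ρ ∈ z, ∑ g ∈ G, f g ρ ≤ N) :
    ∑ g ∈ G, (z.map (f g)).sum ≤ Multiset.card z * N := by
  induction z using Multiset.induction_on with
  | empty => simp
  | cons a z ih =>
    simp only [Multiset.map_cons, Multiset.sum_cons, sum_add_distrib, Multiset.card_cons]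
    have h1 := h a (Multiset.mem_cons_self _ _)
    have h2 := ih fun ρ hρ => h ρ (Multiset.mem_cons_of_mem hρ)
    nlinarith

theorem LocData.expand (h : LocData key J S H₁ H₂) (hq : 3 ≤ Fintype.card F)
    {σ : Finset I} (hσ : σ ⊆ J) {p₀ : GL ι F} (hp₀ : p₀ ∈ (blk H₁ ⊓ blk H₂ : Subgroup (GL ι F)))
    {k M : ℕ} {c : Finset (Submodule F (ι → F)) → Multiset (Finset (Submodule F (ι → F)))}
    (hc : IsCone (lk (Flag (HH H₁ H₂)) tyS (face' S σ p₀) ((J \ σ).image fun j => (S j).card))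
      k M c) :
    Expand (cos fun j => (blk (S j) : Subgroup (GL ι F)))
      (cls (cos fun j => blk (S j)) (fin (blk H₁ ⊓ blk H₂)) σ p₀) (J \ σ) k
      (2 ^ Fintype.card ι * M) := by
  intro ψ hψ
  set C := cls (cos fun j => (blk (S j) : Subgroup (GL ι F))) (fin (blk H₁ ⊓ blk H₂)) σ p₀ with hC
  have sub : ∀ {τ : Finset I}, τ ⊆ J \ σ → τ ⊆ J := fun hτ => hτ.trans sdiff_subset
  have p₀C : p₀ ∈ C := (mem_cls_iff _ _ _ _ _).2 ⟨hp₀, fun _ _ => rfl⟩
  -- the group
  let G : Finset (GL ι F) := C.image fun w => w * p₀⁻¹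
  have GC : ∀ g ∈ G, ∀ w ∈ C, g * w ∈ C ∧ g⁻¹ * w ∈ C := by
    intro g hg w hw
    obtain ⟨u, hu, rfl⟩ := mem_image.1 hg
    rw [mem_cls_iff] at hu hw
    rw [mem_cls_iff, mem_cls_iff]
    refine ⟨⟨mul_mem (mul_mem hu.1 (inv_mem hp₀)) hw.1, fun j hj => ?_⟩,
      mul_mem (inv_mem (mul_mem hu.1 (inv_mem hp₀))) hw.1, fun j hj => ?_⟩
    · rw [act_mul, act_mul, ← hw.2 j hj, act_inv_act, hu.2 j hj]
    · rw [mul_inv_rev, inv_inv, act_mul, act_mul, ← hw.2 j hj, hu.2 j hj, act_inv_act, ← hu.2 j hj]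
  have cardG : G.card = C.card := card_image_of_injective _ (mul_left_injective _)
  -- face form of `ψ`
  have exF : ∃ φ : Finset (Submodule F (ι → F)) → ZMod 2,
      ∀ τ ⊆ J \ σ, τ.card = k → ∀ p ∈ C, φ (face S τ p) = ψ τ p := by
    refine ⟨fun ρ => if e : ∃ x : Finset I × GL ι F, x.1 ⊆ J \ σ ∧ x.2 ∈ C ∧ ρ = face S x.1 x.2
      then ψ e.choose.1 e.choose.2 else 0, fun τ hτ hk p hp => ?_⟩
    have e : ∃ x : Finset I × GL ι F, x.1 ⊆ J \ σ ∧ x.2 ∈ C ∧ face S τ p = face S x.1 x.2 :=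
      ⟨(τ, p), hτ, hp, rfl⟩
    beta_reduce
    rw [dif_pos e]
    obtain ⟨e1, e2, e3⟩ := e.choose_spec
    obtain ⟨e4, e5⟩ := h.face_eq (sub hτ) (sub e1) e3
    rw [← e4]
    exact (hψ τ _ _ hk ⟨hτ, hp⟩ ⟨hτ, e2⟩ fun j hj => (cos_iff S j _ _).2 (e5 j hj)).symm
  obtain ⟨φ, hφ⟩ := exF
  have dφ : ∀ τ ⊆ J \ σ, τ.card = k + 1 → ∀ p ∈ C, ∀ g ∈ G,
      dF (fun ρ => φ (ρ.image (act g))) (face S τ p) = dd ψ τ (g * p) := by
    intro τ hτ hk p hp g hg
    rw [dF, h.sum_face (sub hτ), dd]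
    refine sum_congr rfl fun i hi => ?_
    rw [h.face_erase (sub hτ) p hi, image_face,
      hφ _ ((erase_subset _ _).trans hτ) (by rw [card_erase_of_mem hi, hk]; rfl) _ (GC g hg p hp).1]
  let hh : GL ι F → Coch I (GL ι F) := fun g τ w =>
    pair (c (face S τ (g⁻¹ * w))) fun ρ => φ (ρ.image (act g))
  have key1 : ∀ g ∈ G, ∀ τ ⊆ J \ σ, τ.card = k → ∀ w ∈ C, (ψ + dd (hh g)) τ (g * w) =
      pair (c (face S τ w)) (dF fun ρ => φ (ρ.image (act g))) := by
    intro g hg τ hτ hk w hw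
    have := (hc _ (h.lk_face hσ hw hτ) (by rw [h.card_face (sub hτ), hk])).2.2
      fun ρ => φ (ρ.image (act g))
    rw [image_face, hφ τ hτ hk _ (GC g hg w hw).1, h.sum_face (sub hτ)] at this
    simp only [Pi.add_apply, dd, hh, inv_mul_cancel_left]
    rw [this, add_assoc, sum_congr rfl fun i hi => by rw [h.face_erase (sub hτ) w hi],
      CharTwo.add_self_eq_zero, add_zero]
  set N := nrm C (J \ σ) (k + 1) (dd ψ) with hN
  have key2 : ∀ τ ⊆ J \ σ, τ.card = k → ∀ w ∈ C,
      ∑ g ∈ G, (if (ψ + dd (hh g)) τ (g * w) ≠ 0 then 1 else 0) ≤ M * N := by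
    intro τ hτ hk w hw
    obtain ⟨c1, c2, -⟩ := hc _ (h.lk_face hσ hw hτ) (by rw [h.card_face (sub hτ), hk])
    calc _ ≤ ∑ g ∈ G, ((c (face S τ w)).map fun ρ =>
          if dF (fun ρ => φ (ρ.image (act g))) ρ ≠ 0 then 1 else 0).sum :=
          sum_le_sum fun g hg => by
            rw [key1 g hg τ hτ hk w hw]
            exact ite_pair_le _ _
      _ ≤ Multiset.card (c (face S τ w)) * N := by
          refine sum_multiset_le G _ (fun g ρ =>
            if dF (fun ρ => φ (ρ.image (act g))) ρ ≠ 0 then 1 else 0) N fun ρ hρ => ?_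
          obtain ⟨d1, d2⟩ := c1 ρ hρ
          obtain ⟨τ', hτ', w', hw', rfl⟩ := h.exists_face hq hσ d1
          rw [h.card_face (sub hτ'), h.card_face (sub hτ), hk] at d2
          rw [sum_congr rfl fun g hg => by rw [dφ τ' hτ' d2 w' hw' g hg], ← card_filter]
          refine le_trans (card_le_card_of_injOn (t := C.filter fun ω => dd ψ τ' ω ≠ 0)
            (fun g => g * w') (fun g hg => ?_) (mul_left_injective w').injOn) ?_
          · rw [coe_filter] at hg ⊢
            exact ⟨(GC g hg.1 w' hw').1, hg.2⟩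
          · exact single_le_sum (f := fun τ => (C.filter fun ω => dd ψ τ ω ≠ 0).card)
              (fun _ _ => Nat.zero_le _) (mem_powersetCard.2 ⟨hτ', d2⟩)
      _ ≤ M * N := Nat.mul_le_mul_right _ c2
  have key3 : ∑ g ∈ G, nrm C (J \ σ) k (ψ + dd (hh g)) ≤
      ∑ _g ∈ G, 2 ^ Fintype.card ι * M * N := by
    have e1 : ∀ g ∈ G, nrm C (J \ σ) k (ψ + dd (hh g)) = ∑ τ ∈ (J \ σ).powersetCard k, ∑ w ∈ C,
        (if (ψ + dd (hh g)) τ (g * w) ≠ 0 then 1 else 0) := by
      intro g hg
      refine sum_congr rfl fun τ _ => ?_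
      rw [← card_filter]
      refine card_bij' (fun w _ => g⁻¹ * w) (fun w _ => g * w) (fun w hw => ?_) (fun w hw => ?_)
        (fun w _ => by simp) fun w _ => by simp
      · rw [mem_filter] at hw ⊢
        exact ⟨(GC g hg w hw.1).2, by simpa using hw.2⟩
      · rw [mem_filter] at hw ⊢
        exact ⟨(GC g hg w hw.1).1, hw.2⟩
    rw [sum_congr rfl e1, sum_comm, sum_const, smul_eq_mul, cardG]
    calc _ ≤ ∑ _τ ∈ (J \ σ).powersetCard k, C.card * (M * N) := by
          refine sum_le_sum fun τ hτ => ?_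
          rw [mem_powersetCard] at hτ
          rw [sum_comm]
          exact (sum_le_card_nsmul _ _ _ fun w hw => key2 τ hτ.1 hτ.2 w hw).trans (by simp)
      _ ≤ _ := by
          rw [sum_const, smul_eq_mul, card_powersetCard]
          have l1 := Nat.choose_le_two_pow (J \ σ).card k
          have l2 : 2 ^ (J \ σ).card ≤ 2 ^ Fintype.card ι :=
            Nat.pow_le_pow_right (by norm_num) (h.mono sdiff_subset).card_le
          calc _ ≤ 2 ^ Fintype.card ι * (C.card * (M * N)) :=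
              Nat.mul_le_mul_right _ (l1.trans l2)
            _ = _ := by ring
  obtain ⟨g, hg, hle⟩ := exists_le_of_sum_le ⟨_, mem_image_of_mem _ p₀C⟩ key3
  refine ⟨hh g, fun τ w w' _ _ _ hr => ?_, hle⟩
  simp only [hh]
  rw [← image_face, ← image_face, face_congr fun j hj => (cos_iff S j _ _).1 (hr j hj)]

end Exp

section Cor

open Module Classical

theorem expand_all (n : ℕ) : ∃ M q₀ : ℕ, ∀ (F : Type) [Field F] [Fintype F],
    q₀ ≤ Fintype.card F → ∀ (ι I : Type) [Fintype ι] [DecidableEq ι] [DecidableEq I]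
      (key : ι → ℤ) (J : Finset I) (S : I → Finset ι) (H₁ H₂ : Finset ι), Fintype.card ι ≤ n →
      LocData key J S H₁ H₂ → ∀ σ ⊆ J, ∀ p₀ ∈ (blk H₁ ⊓ blk H₂ : Subgroup (GL ι F)),
      ∀ k, k + 1 ≤ (J \ σ).card →
        Expand (cos fun j => (blk (S j) : Subgroup (GL ι F)))
          (cls (cos fun j => blk (S j)) (fin (blk H₁ ⊓ blk H₂)) σ p₀) (J \ σ) k M := by
  choose Mf q0 hfill using flag_fill n 2
  choose T Mc hcone using fun k => cone_of_fill k Mf
  refine ⟨2 ^ n * (range (n + 1)).sup Mc, max 3 ((range (n + 1)).sup fun k => (T k).sup q0), ?_⟩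
  intro F _ _ hq ι I _ _ _ key J S H₁ H₂ hn h σ hσ p₀ hp₀ k hk
  have hkn : k ∈ range (n + 1) := by
    have := (h.mono (sdiff_subset (t := σ))).card_le
    rw [mem_range]
    omega
  have hT : ((J \ σ).image fun j => (S j).card).card = (J \ σ).card :=
    card_image_of_injOn fun j hj j' hj' e => h.card_inj (sdiff_subset hj) (sdiff_subset hj') e
  obtain ⟨c, hc⟩ := hcone k _
    (lk (Flag (HH H₁ H₂)) tyS (face' S σ p₀) ((J \ σ).image fun j => (S j).card))
    (downF_lk (downF_flag _) _ _ _) fun s hs j hj => by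
      refine hfill s F (ι → F) (by rwa [Module.finrank_fintype_fun_eq_card]) ?_ _
        (card_HH H₁ H₂) _ (h.flag_face' hσ hp₀) (by simp [face']) (by simp [face']) _ ?_ j
        (by omega)
      · exact ((le_sup (f := q0) hs).trans
          (le_sup (f := fun k => (T k).sup q0) hkn)).trans ((le_max_right _ _).trans hq)
      · intro t ht
        obtain ⟨i, hi, rfl⟩ := mem_image.1 ht
        refine ⟨?_, h.type_ok hσ p₀ hi⟩
        rw [Module.finrank_fintype_fun_eq_card]
        exact card_le_univ _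
  intro ψ hψ
  obtain ⟨g, h1, h2⟩ := h.expand ((le_max_left _ _).trans hq) hσ hp₀ hc ψ hψ
  exact ⟨g, h1, h2.trans (Nat.mul_le_mul_right _
    (Nat.mul_le_mul (Nat.pow_le_pow_right (by norm_num) hn) (le_sup (f := Mc) hkn)))⟩

theorem count_between {F W : Type} [Field F] [Fintype F] [AddCommGroup W] [Module F W]
    [FiniteDimensional F W] (A₀ B₀ : Submodule F W) (d : ℕ) (hA : finrank F A₀ = d)
    (hB : finrank F B₀ = d + 3) (hAB : A₀ ≤ B₀) (𝒜 : Finset (Submodule F W))
    (h : ∀ A ∈ 𝒜, A₀ ≤ A ∧ A ≤ B₀ ∧ finrank F A = d + 1) :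
    𝒜.card ≤ Fintype.card F ^ 2 + Fintype.card F + 1 := by
  have : Finite W := Module.finite_of_finite F
  have : Fintype W := Fintype.ofFinite W
  let f : Submodule F W → Finset W := fun S => univ.filter fun x => x ∈ S
  have hf : ∀ S x, x ∈ f S ↔ x ∈ S := fun S x => by simp [f]
  have hcard : ∀ S : Submodule F W, A₀ ≤ S →
      (f S \ f A₀).card = Fintype.card F ^ finrank F S - Fintype.card F ^ d := by
    have e : ∀ S : Submodule F W, (f S).card = Fintype.card F ^ finrank F S := fun S => by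
      rw [← Fintype.card_subtype, Module.card_eq_pow_finrank (K := F)]
    intro S hS
    rw [card_sdiff_of_subset fun x hx => (hf _ _).2 (hS ((hf _ _).1 hx)), e, e, hA]
  have h1 : (𝒜.biUnion fun A => f A \ f A₀) ⊆ f B₀ \ f A₀ := by
    intro x hx
    obtain ⟨A, hA, hx⟩ := mem_biUnion.1 hx
    rw [mem_sdiff, hf, hf] at hx ⊢
    exact ⟨(h A hA).2.1 hx.1, hx.2⟩
  have h2 := card_le_card h1
  rw [card_biUnion, hcard _ hAB, hB, sum_congr rfl fun A hA => by rw [hcard _ (h A hA).1, (h A hA).2.2],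
    sum_const, smul_eq_mul] at h2
  · obtain ⟨r, hr⟩ : ∃ r, Fintype.card F = r + 2 := ⟨Fintype.card F - 2, by
      have : 2 ≤ Fintype.card F := Fintype.one_lt_card
      omega⟩
    rw [hr] at h2 ⊢
    have e1 : (r + 2) ^ (d + 1) - (r + 2) ^ d = (r + 2) ^ d * (r + 1) :=
      Nat.sub_eq_of_eq_add (by ring)
    have e2 : (r + 2) ^ (d + 3) - (r + 2) ^ d =
        ((r + 2) ^ 2 + (r + 2) + 1) * ((r + 2) ^ d * (r + 1)) := Nat.sub_eq_of_eq_add (by ring)
    rw [e1, e2] at h2
    exact Nat.le_of_mul_le_mul_right h2 (by positivity)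
  · intro A hA A' hA' hne
    rw [Function.onFun, disjoint_left]
    intro x hx hx'
    rw [mem_sdiff, hf, hf] at hx hx'
    obtain ⟨a1, -, a3⟩ := h A hA
    obtain ⟨b1, -, b3⟩ := h A' hA'
    have lt : A₀ < A ⊓ A' := lt_of_le_of_ne (le_inf a1 b1) fun e => hx.2 (e ▸ ⟨hx.1, hx'.1⟩)
    have l := Submodule.finrank_lt_finrank_of_lt lt
    have e1 : A ⊓ A' = A := Submodule.eq_of_le_of_finrank_le inf_le_left (by omega)
    have e2 : A ⊓ A' = A' := Submodule.eq_of_le_of_finrank_le inf_le_right (by omega)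
    exact hne (e1.symm.trans e2)

variable {ι F : Type} [Fintype ι] [DecidableEq ι] [Field F] [Fintype F]
  {key : ι → ℤ} {H₁ H₂ : Finset ι}

theorem locData_full (hk : Function.Injective key) (l₁ : ∀ b ∈ H₁, ∀ a, key a ≤ key b → a ∈ H₁)
    (l₂ : ∀ b ∈ H₂, ∀ a, key a ≤ key b → a ∈ H₂) :
    LocData key (Ico 1 (Fintype.card ι)) (UpD key) H₁ H₂ := by
  refine ⟨hk, fun t _ a ha b hab => mem_UpD.2 ((rk_anti hab).trans (mem_UpD.1 ha)),
    fun t ht => ?_, fun t ht => ?_, fun t ht t' ht' e => ?_, l₁, l₂⟩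
  · rw [mem_Ico] at ht
    obtain ⟨a, ha⟩ := exists_rk hk ht.1 ht.2.le
    exact ⟨a, mem_UpD.2 ha.le⟩
  · rw [mem_Ico] at ht
    obtain ⟨a, ha⟩ := exists_rk hk (show 1 ≤ t + 1 by omega) ht.2
    exact ⟨a, by rw [mem_UpD]; omega⟩
  · rw [mem_Ico] at ht ht'
    rw [← card_UpD hk t ht.2.le, e, card_UpD hk t' ht'.2.le]

variable (F key H₁ H₂) in
/-- The order of the stabiliser of the standard face of type `τ`. -/
noncomputable def St (τ : Finset ℕ) : ℕ :=
  (cls (cos fun t => (blk (UpD key t) : Subgroup (GL ι F))) (fin (blk H₁ ⊓ blk H₂)) τ 1).card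

theorem card_eq_St (τ : Finset ℕ) {w : GL ι F} (hw : w ∈ (blk H₁ ⊓ blk H₂ : Subgroup (GL ι F)))
    (T : Finset (GL ι F)) (hT : ∀ x, x ∈ T ↔ x ∈ (blk H₁ ⊓ blk H₂ : Subgroup (GL ι F)) ∧
      ∀ t ∈ τ, act w (cs F (UpD key t)) = act x (cs F (UpD key t))) :
    T.card = St F key H₁ H₂ τ := by
  refine card_bij' (fun x _ => w⁻¹ * x) (fun x _ => w * x) (fun x hx => ?_) (fun x hx => ?_)
    (fun x _ => by simp) fun x _ => by simp
  · rw [hT] at hx
    rw [mem_cls_iff]
    exact ⟨mul_mem (inv_mem hw) hx.1, fun t ht => by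
      rw [act_mul, ← hx.2 t ht, act_inv_act, act_one]⟩
  · rw [mem_cls_iff] at hx
    rw [hT]
    exact ⟨mul_mem hw hx.1, fun t ht => by rw [act_mul, ← hx.2 t ht, act_one]⟩

theorem St_le (hk : Function.Injective key) (l₁ : ∀ b ∈ H₁, ∀ a, key a ≤ key b → a ∈ H₁)
    (l₂ : ∀ b ∈ H₂, ∀ a, key a ≤ key b → a ∈ H₂) {τ τ' : Finset ℕ} {t : ℕ} (h1 : 1 ≤ t)
    (h2 : t < Fintype.card ι) (ht : t ∈ τ) (ht' : t ∉ τ') (hτ : τ' ⊆ τ) :
    Fintype.card F * St F key H₁ H₂ τ ≤ St F key H₁ H₂ τ' := by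
  obtain ⟨y', hy'⟩ := exists_rk hk h1 h2.le
  obtain ⟨y, hy⟩ := exists_rk hk (show 1 ≤ t + 1 by omega) h2
  have hne : y ≠ y' := fun e => by
    rw [e] at hy
    omega
  have hkey : key y ≤ key y' := by
    by_contra hc
    have := rk_lt (not_le.1 hc)
    omega
  let T : F → GL ι F := fun c => ⟨Matrix.transvection y y' c, Matrix.transvection y y' (-c),
    by rw [Matrix.transvection_mul_transvection_same _ _ hne, add_neg_cancel,
      Matrix.transvection_zero],
    by rw [Matrix.transvection_mul_transvection_same _ _ hne, neg_add_cancel,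
      Matrix.transvection_zero]⟩
  have hT : ∀ c (S : Finset ι), (y' ∈ S → y ∈ S) → T c ∈ blk S := by
    intro c S hS a ha b hb
    have : a ≠ b := fun e => ha (e ▸ hb)
    have h3 : ¬(y = a ∧ y' = b) := by
      rintro ⟨rfl, rfl⟩
      exact ha (hS hb)
    simp [T, Matrix.transvection, this, h3]
  have mem : ∀ (τ : Finset ℕ) (x : GL ι F), x ∈ cls (cos fun t => (blk (UpD key t) : Subgroup (GL ι F)))
      (fin (blk H₁ ⊓ blk H₂)) τ 1 ↔ x ∈ (blk H₁ ⊓ blk H₂ : Subgroup (GL ι F)) ∧
        ∀ s ∈ τ, x ∈ blk (UpD key s) := fun τ x => by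
    rw [mem_cls, mem_fin, rel_cos_iff]
    simp only [inv_one, one_mul]
  rw [St, St, ← card_univ, ← card_product]
  refine card_le_card_of_injOn (fun x => T x.1 * x.2) (fun x hx => ?_) fun x hx x' hx' e => ?_
  · have hx2 := (mem _ _).1 (mem_product.1 hx).2
    refine (mem _ _).2 ⟨mul_mem ⟨hT _ _ fun h => l₁ _ h _ hkey, hT _ _ fun h => l₂ _ h _ hkey⟩ hx2.1,
      fun s hs => mul_mem (hT _ _ fun h => ?_) (hx2.2 s (hτ hs))⟩
    have : s ≠ t := fun e => ht' (e ▸ hs)
    rw [mem_UpD] at h ⊢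
    omega
  · have hx2 := ((mem _ _).1 (mem_product.1 hx).2).2 t ht
    have hx2' := ((mem _ _).1 (mem_product.1 hx').2).2 t ht
    have e1 : (T x'.1)⁻¹ * T x.1 = x'.2 * x.2⁻¹ := by
      have e' : T x.1 * x.2 = T x'.1 * x'.2 := e
      rw [inv_mul_eq_iff_eq_mul, ← mul_assoc, ← e', mul_inv_cancel_right]
    have e2 := (e1 ▸ mul_mem hx2' (inv_mem hx2) : (T x'.1)⁻¹ * T x.1 ∈ blk (UpD key t)) y
      (by rw [mem_UpD]; omega) y' (mem_UpD.2 hy'.le)
    have e3 : (((T x'.1)⁻¹ * T x.1 : GL ι F) : Matrix ι ι F) =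
        Matrix.transvection y y' (-x'.1 + x.1) :=
      Matrix.transvection_mul_transvection_same _ _ hne _ _
    rw [e3] at e2
    have e4 : x.1 = x'.1 := by
      simp only [Matrix.transvection, Matrix.add_apply, Matrix.single_apply_same,
        Matrix.one_apply_ne hne, zero_add] at e2
      linear_combination e2
    have e' : T x.1 * x.2 = T x'.1 * x'.2 := e
    rw [e4] at e'
    exact Prod.ext e4 (mul_left_cancel e')

end Cor

section Base

open Module Classical

variable {ι F : Type} [Fintype ι] [DecidableEq ι] [Field F] [Fintype F]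
  {key : ι → ℤ} {H₁ H₂ : Finset ι}

theorem corr_base (hk : Function.Injective key) (l₁ : ∀ b ∈ H₁, ∀ a, key a ≤ key b → a ∈ H₁)
    (l₂ : ∀ b ∈ H₂, ∀ a, key a ≤ key b → a ∈ H₂) {σ : Finset ℕ} (w₀ : GL ι F) {a b : ℕ}
    (hab : a < b) (hσ : Ico 1 (Fintype.card ι) \ σ = {a, b}) {ρ : ℝ} (hρ : 0 ≤ ρ)
    (hq : 4 ≤ (Fintype.card F : ℝ) * ρ ^ 2) :
    Corr (cos (fun t => (blk (UpD key t) : Subgroup (GL ι F))) a)
      (cos (fun t => blk (UpD key t)) b)
      (cls (cos fun t => blk (UpD key t)) (fin (blk H₁ ⊓ blk H₂)) σ w₀) ρ := by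
  set C := cls (cos fun t => (blk (UpD key t) : Subgroup (GL ι F))) (fin (blk H₁ ⊓ blk H₂)) σ w₀
    with hC
  have hmem : ∀ t, (1 ≤ t ∧ t < Fintype.card ι) ∧ t ∉ σ ↔ t = a ∨ t = b := fun t => by
    rw [← mem_Ico, ← mem_sdiff, hσ, mem_insert, mem_singleton]
  have ha := (hmem a).2 (Or.inl rfl)
  have hb := (hmem b).2 (Or.inr rfl)
  have memC : ∀ x, x ∈ C ↔ x ∈ (blk H₁ ⊓ blk H₂ : Subgroup (GL ι F)) ∧
      ∀ t ∈ σ, act w₀ (cs F (UpD key t)) = act x (cs F (UpD key t)) := fun x =>
    mem_cls_iff _ _ _ _ _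
  have agree : ∀ x ∈ C, ∀ y ∈ C, ∀ t, t ≠ a → t ≠ b →
      act x (cs F (UpD key t)) = act y (cs F (UpD key t)) := by
    intro x hx y hy t h1 h2
    by_cases ht : t ∈ σ
    · rw [← ((memC x).1 hx).2 t ht, ((memC y).1 hy).2 t ht]
    · have : ¬(1 ≤ t ∧ t < Fintype.card ι) := fun h => ((hmem t).1 ⟨h, ht⟩).elim h1 h2
      rcases Nat.eq_zero_or_pos t with rfl | h0
      · rw [UpD_zero, cs_empty, act_bot, act_bot]
      · rw [UpD_top key (by omega), cs_univ, act_top, act_top]
  have one : ∀ c, ∀ x ∈ C, ∀ T : Finset (GL ι F), (∀ y, y ∈ T ↔ y ∈ C ∧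
      act y (cs F (UpD key c)) = act x (cs F (UpD key c))) →
      T.card = St F key H₁ H₂ (insert c σ) := by
    intro c x hx T hT
    rw [memC] at hx
    refine card_eq_St _ hx.1 T fun y => ?_
    rw [hT, memC, forall_mem_insert]
    constructor
    · rintro ⟨⟨h1, h2⟩, h3⟩
      exact ⟨h1, h3.symm, fun t ht => (hx.2 t ht).symm.trans (h2 t ht)⟩
    · rintro ⟨h1, h2, h3⟩
      exact ⟨⟨h1, fun t ht => (hx.2 t ht).trans (h3 t ht)⟩, h2.symm⟩
  have two : ∀ x ∈ C, ∀ T : Finset (GL ι F), (∀ y, y ∈ T ↔ y ∈ C ∧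
      act y (cs F (UpD key a)) = act x (cs F (UpD key a)) ∧
      act y (cs F (UpD key b)) = act x (cs F (UpD key b))) →
      T.card = St F key H₁ H₂ (insert a (insert b σ)) := by
    intro x hx T hT
    rw [memC] at hx
    refine card_eq_St _ hx.1 T fun y => ?_
    rw [hT, memC, forall_mem_insert, forall_mem_insert]
    constructor
    · rintro ⟨⟨h1, h2⟩, h3, h4⟩
      exact ⟨h1, h3.symm, h4.symm, fun t ht => (hx.2 t ht).symm.trans (h2 t ht)⟩
    · rintro ⟨h1, h2, h3, h4⟩
      exact ⟨⟨h1, fun t ht => (hx.2 t ht).trans (h4 t ht)⟩, h2.symm, h3.symm⟩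
  have dim : ∀ (x : GL ι F), ∀ t ≤ Fintype.card ι, finrank F (act x (cs F (UpD key t))) = t :=
    fun x t ht => by rw [finrank_act, finrank_cs, card_UpD hk t ht]
  have mono : ∀ (x : GL ι F) {s t : ℕ}, s ≤ t →
      act x (cs F (UpD key s)) ≤ act x (cs F (UpD key t)) :=
    fun x _ _ h => act_mono x (cs_mono (UpD_mono key h))
  by_cases adj : b = a + 1
  · subst adj
    refine corr_of_linear _ _ C (St F key H₁ H₂ (insert a σ)) (St F key H₁ H₂ (insert (a + 1) σ))
      (St F key H₁ H₂ (insert a (insert (a + 1) σ))) (Fintype.card F) Fintype.card_pos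
      (fun x hx => one a x hx _ fun y => by rw [mem_filter, cos_iff])
      (fun x hx => one (a + 1) x hx _ fun y => by rw [mem_filter, cos_iff])
      (fun x hx => two x hx _ fun y => by rw [mem_filter, cos_iff, cos_iff]) ?_
      (St_le hk l₁ l₂ hb.1.1 hb.1.2 (by simp) (by simp [hb.2])
        (insert_subset_insert _ (subset_insert _ _)))
      (St_le hk l₁ l₂ ha.1.1 ha.1.2 (by simp) (by simp [ha.2]) (subset_insert _ _)) ?_ ρ hρ hq
    · intro x _ y _ z _ t _ h1 h2 h3 h4
      rw [cos_iff] at h1 h2 h3 h4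
      rw [cos_iff, cos_iff]
      by_contra hc
      rw [not_or] at hc
      have lt : act x (cs F (UpD key a)) < act x (cs F (UpD key a)) ⊔ act t (cs F (UpD key a)) :=
        lt_of_le_of_ne le_sup_left fun e => hc.2 (Submodule.eq_of_le_of_finrank_eq
          (left_eq_sup.1 e) (by rw [dim _ _ ha.1.2.le, dim _ _ ha.1.2.le])).symm
      have l := Submodule.finrank_lt_finrank_of_lt lt
      rw [dim _ _ ha.1.2.le] at l
      have e1 : act x (cs F (UpD key a)) ⊔ act t (cs F (UpD key a)) =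
          act x (cs F (UpD key (a + 1))) := Submodule.eq_of_le_of_finrank_le
        (sup_le (mono x (Nat.le_succ a)) (h4 ▸ mono t (Nat.le_succ a)))
        (by rw [dim _ _ hb.1.2.le]; omega)
      have e2 : act x (cs F (UpD key a)) ⊔ act t (cs F (UpD key a)) =
          act y (cs F (UpD key (a + 1))) := Submodule.eq_of_le_of_finrank_le
        (sup_le (h1 ▸ mono y (Nat.le_succ a)) (by rw [h2, ← h3]; exact mono z (Nat.le_succ a)))
        (by rw [dim _ _ hb.1.2.le]; omega)
      exact hc.1 (e1.symm.trans e2)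
    · rcases C.eq_empty_or_nonempty with e | ⟨w, hw⟩
      · rw [e]
        exact Nat.zero_le _
      have h1 := card_le_mul_card_image (f := fun x => act x (cs F (UpD key a))) C
        (St F key H₁ H₂ (insert a σ)) fun A hA => by
          obtain ⟨x, hx, rfl⟩ := mem_image.1 hA
          exact (one a x hx _ fun y => by rw [mem_filter]).le
      have h2 := count_between (act w (cs F (UpD key (a - 1)))) (act w (cs F (UpD key (a + 2))))
        (a - 1) (dim _ _ (by omega)) (by rw [dim _ _ (by omega)]; omega) (mono w (by omega))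
        (C.image fun x => act x (cs F (UpD key a))) fun A hA => by
          obtain ⟨x, hx, rfl⟩ := mem_image.1 hA
          rw [agree w hw x hx _ (by omega) (by omega), agree w hw x hx _ (by omega) (by omega),
            dim _ _ ha.1.2.le]
          exact ⟨mono x (by omega), mono x (by omega), by omega⟩
      rw [mul_comm]
      exact h1.trans (Nat.mul_le_mul_left _ h2)
  · refine Corr.mono (corr_of_indep _ _ C (St F key H₁ H₂ (insert a σ))
      (St F key H₁ H₂ (insert b σ)) (St F key H₁ H₂ (insert a (insert b σ)))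
      (fun x hx => one a x hx _ fun y => by rw [mem_filter, cos_iff])
      (fun x hx => one b x hx _ fun y => by rw [mem_filter, cos_iff]) fun x hx x' hx' => ?_) hρ
    obtain ⟨p, hp, e⟩ := transitive hk l₁ l₂
      (fun t => if t = a then act x (cs F (UpD key t)) else act x' (cs F (UpD key t)))
      (fun t _ => by
        split_ifs with h1 h2 h2
        · omega
        · rw [← agree x hx x' hx' _ h2 (by omega)]
          exact mono x (Nat.le_succ t)
        · rw [← agree x hx x' hx' _ h1 (by omega)]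
          exact mono x (Nat.le_succ t)
        · exact mono x' (Nat.le_succ t))
      (fun t ht => by
        by_cases h1 : t = a
        · rw [if_pos h1]
          exact ⟨dim _ _ ht, tr_act ((memC x).1 hx).1 (tr_UpD l₁ l₂ t)⟩
        · rw [if_neg h1]
          exact ⟨dim _ _ ht, tr_act ((memC x').1 hx').1 (tr_UpD l₁ l₂ t)⟩)
    have pC : p ∈ C := (memC p).2 ⟨hp, fun t ht => by
      rcases le_total t (Fintype.card ι) with h | h
      · rw [e t h, if_neg fun h : t = a => ha.2 (h ▸ ht)]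
        exact ((memC x').1 hx').2 t ht
      · rw [UpD_top key h, cs_univ, act_top, act_top]⟩
    refine two p pC _ fun y => ?_
    rw [mem_filter, cos_iff, cos_iff, e a ha.1.2.le, e b hb.1.2.le, if_pos rfl, if_neg hab.ne']

end Base

/-- The local theorem. -/
theorem local_thm (n : ℕ) : ∃ M : ℕ, ∀ lam : ℝ, 0 < lam → ∃ q₀ : ℕ,
    ∀ (F : Type) [Field F] [Fintype F], q₀ ≤ Fintype.card F → Loc F n M lam := by
  obtain ⟨M, q₁, hM⟩ := expand_all n
  refine ⟨M, fun lam hlam => ?_⟩
  set l : ℝ := min (lam / 2) (1 / (2 * n + 2)) with hl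
  have l0 : 0 < l := lt_min (by positivity) (by positivity)
  refine ⟨max q₁ ⌈4 / l ^ 2⌉₊, fun F _ _ hq ι I _ _ _ key J S H₁ H₂ hn h σ hσ p₀ hp₀ =>
    ⟨hM F ((le_max_left _ _).trans hq) ι I key J S H₁ H₂ hn h σ hσ p₀ hp₀,
      fun a ha b hb hab => ?_⟩⟩
  have hql : 4 ≤ (Fintype.card F : ℝ) * l ^ 2 := by
    have := Nat.ceil_le.1 ((le_max_right _ _).trans hq)
    rwa [div_le_iff₀ (by positivity)] at this
  have hfull := locData_full h.inj h.lower₁ h.lower₂
  have main := trickle_all (cos fun t => (blk (UpD key t) : Subgroup (GL ι F)))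
    (fin (blk H₁ ⊓ blk H₂)) (Ico 1 (Fintype.card ι)) l l0.le
    (by
      have h1 : ((Ico 1 (Fintype.card ι)).card : ℝ) ≤ n + 1 := by
        exact_mod_cast hfull.card_le.trans (hn.trans (Nat.le_succ n))
      calc _ ≤ (n + 1 : ℝ) * (1 / (2 * n + 2)) :=
            mul_le_mul h1 (min_le_right _ _) l0.le (by positivity)
        _ = 1 / 2 := by field_simp)
    (fun σ _ w _ a b hab e => by
      rcases lt_or_gt_of_ne hab with h1 | h1
      · exact corr_base h.inj h.lower₁ h.lower₂ w h1 e l0.le hql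
      · exact (corr_base h.inj h.lower₁ h.lower₂ w h1 (e.trans (pair_comm _ _)) l0.le hql).symm)
    (fun σ hσ w hw a ha b hb hab => by
      have e : (σ ∪ {a, b}) \ σ = {a, b} := by
        rw [union_sdiff_left]
        exact sdiff_eq_self_of_disjoint (by simp [(mem_sdiff.1 ha).2, (mem_sdiff.1 hb).2])
      have := hM F ((le_max_left _ _).trans hq) ι ℕ key (σ ∪ {a, b}) (UpD key) H₁ H₂ hn
        (hfull.mono (union_subset hσ (insert_subset (sdiff_subset ha)
          (singleton_subset_iff.2 (sdiff_subset hb))))) σ subset_union_left w (mem_fin.1 hw) 1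
        (by rw [e, card_pair hab])
      rw [e] at this
      exact conn_of_exact _ _ a b this.exact)
  have ec : ∀ j ∈ J, cos (fun j => (blk (S j) : Subgroup (GL ι F))) j =
      cos (fun t => blk (UpD key t)) (S j).card := fun j hj => by
    unfold cos
    beta_reduce
    rw [← h.eqU hj]
  have eC : cls (cos fun j => (blk (S j) : Subgroup (GL ι F))) (fin (blk H₁ ⊓ blk H₂)) σ p₀ =
      cls (cos fun t => blk (UpD key t)) (fin (blk H₁ ⊓ blk H₂))
        (σ.image fun j => (S j).card) p₀ := by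
    ext x
    rw [mem_cls_iff, mem_cls_iff, forall_mem_image]
    exact and_congr_right fun _ => forall₂_congr fun j hj => by rw [← h.eqU (hσ hj)]
  have hin : ∀ j ∈ J \ σ, (S j).card ∈ Ico 1 (Fintype.card ι) \ σ.image fun j => (S j).card := by
    intro j hj
    rw [mem_sdiff] at hj
    refine mem_sdiff.2 ⟨mem_Ico.2 ⟨h.card_pos hj.1, h.card_lt hj.1⟩, fun hc => ?_⟩
    obtain ⟨i, hi, e⟩ := mem_image.1 hc
    exact hj.2 (h.card_inj (hσ hi) hj.1 e ▸ hi)
  rw [eC, ec a (sdiff_subset ha), ec b (sdiff_subset hb)]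
  refine (main _ (fun t ht => ?_) p₀ (mem_fin.2 hp₀) _ (hin a ha) _ (hin b hb) fun e =>
    hab (h.card_inj (sdiff_subset ha) (sdiff_subset hb) e)).mono ?_
  · obtain ⟨i, hi, rfl⟩ := mem_image.1 ht
    exact mem_Ico.2 ⟨h.card_pos (hσ hi), h.card_lt (hσ hi)⟩
  · have := min_le_left (lam / 2) (1 / (2 * n + 2) : ℝ)
    linarith

end Vale.Agent.P067
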