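import Vale.Agent.P067.Vanish
import Vale.Agent.P067.EK
import Vale.Agent.P067.Convert

/-! Assembly. -/

namespace Vale.Agent.P067

open Finset Filter

theorem main (d : ℕ) (hd : 1 ≤ d) : ∃ D : ℕ, ∃ ε : ℝ, 0 < ε ∧
    ∃ X : ℕ → Finset (Finset ℕ),
      (∀ m, IsPureComplex d (X m) ∧ IsConnected (X m) ∧ DegreeLE d (X m) D ∧
        IsCobExpander d (X m) ε) ∧
      Tendsto (fun m => (faces (X m) 0).card) atTop atTop := by
  classical
  -- the stable range
  choose N₀ hN₀ using fun k : Fin (d + 2) => vanish (d + 1) k (by omega)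
  set N : ℕ := d + 1 + (univ.sup N₀ + 1) with hN
  let W : Fin (d + 1 + 1) → Finset (Fin N) := fun i => univ.filter fun a => a.val < i.val
  have hW : ChainData W := by
    refine ⟨?_, ?_⟩
    · intro i j hij
      refine Finset.ssubset_iff_subset_ne.mpr ⟨?_, ?_⟩
      · intro a ha
        simp only [W, mem_filter, mem_univ, true_and] at ha ⊢
        exact ha.trans hij
      · intro h
        have h1 : (⟨i.val, by omega⟩ : Fin N) ∈ W j := by
          simp only [W, mem_filter, mem_univ, true_and]; exact hij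
        rw [← h] at h1
        simp [W] at h1
    · ext a; simp [W]
  have hcard : univ.sup N₀ + 1 ≤ (W (Fin.last (d + 1)))ᶜ.card := by
    rw [Finset.card_compl, Fintype.card_fin]
    have : (W (Fin.last (d + 1))).card ≤ d + 1 := by
      have h1 : (W (Fin.last (d + 1))).card ≤ (range (d + 1)).card := by
        refine Finset.card_le_card_of_injOn Fin.val ?_ Fin.val_injective.injOn
        intro a ha
        simpa [W] using ha
      simpa using h1
    omega
  have hlast : ∃ a, a ∉ W (Fin.last (d + 1)) := by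
    obtain ⟨a, ha⟩ := Finset.card_pos.mp (lt_of_lt_of_le (Nat.succ_pos _) hcard)
    exact ⟨a, mem_compl.mp ha⟩
  obtain ⟨M, hM⟩ := local_thm N
  obtain ⟨lam, hlam, hek⟩ := ek_expand (d + 2) M
  set lam' : ℝ := min (lam / 2) (1 / 2) with hlam'
  have hl0 : 0 < lam' := lt_min (by positivity) (by norm_num)
  have hl1 : lam' ≤ 1 / 2 := min_le_right _ _
  have hl2 : lam' ≤ lam / 2 := min_le_left _ _
  have hl3 : lam' / (1 - lam') ≤ lam := by
    rw [div_le_iff₀ (by linarith)]
    nlinarith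
  obtain ⟨q₀, hq₀⟩ := hM lam' hl0
  obtain ⟨p, hpge, hpp⟩ := Nat.exists_infinite_primes (q₀ + 3)
  haveI : Fact p.Prime := ⟨hpp⟩
  have hloc : Loc (ZMod p) (Fintype.card (Fin N)) M lam' := by
    rw [Fintype.card_fin]
    exact hq₀ (ZMod p) (by rw [ZMod.card]; omega)
  set Q : ℕ := (Fintype.card (ZMod p) ^ 2) ^ (Fintype.card (Fin N) * Fintype.card (Fin N))
    with hQ
  obtain ⟨C, hC⟩ := hek Q
  obtain ⟨D, ε, hε, hconv⟩ := convert d Q C hd
  have key : ∀ m : ℕ, ∃ X : Finset (Finset ℕ), IsPureComplex d X ∧ IsConnected X ∧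
      DegreeLE d X D ∧ IsCobExpander d X ε ∧ m ≤ Q * (faces X 0).card := by
    intro m
    have hm : 2 ≤ m + 2 := by omega
    have hex : ∀ k ≤ d + 1, Exact (cos (KX (ZMod p) (m + 2) W))
        (dom (fin (GG (ZMod p) (m + 2) (Fin N))) univ) k := by
      intro k hk
      refine hN₀ ⟨k, by omega⟩ p (ZMod p) (by omega) (m + 2) hm M lam' (Fin N) W hW ?_ hloc
      exact ((Finset.le_sup (f := N₀) (mem_univ _)).trans (Nat.le_succ _)).trans hcard
    have hlink := fun σ hσ g₀ (hg₀ : g₀ ∈ fin (GG (ZMod p) (m + 2) (Fin N))) =>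
      link_X W hW hlast hm hloc σ hσ g₀ (mem_fin.mp hg₀)
    have hv : ∀ c : Fin (d + 1 + 1), ∀ g ∈ fin (GG (ZMod p) (m + 2) (Fin N)), ∀ a b, a ≠ b →
        a ≠ c → b ≠ c → Corr (cos (KX (ZMod p) (m + 2) W) a) (cos (KX (ZMod p) (m + 2) W) b)
          (cls (cos (KX (ZMod p) (m + 2) W)) (fin (GG (ZMod p) (m + 2) (Fin N))) {c} g) lam' :=
      fun c g hg a b hab hac hbc =>
        (hlink {c} (singleton_nonempty c) g hg).2 a b hab (by simpa using hac)
          (by simpa using hbc)
    have hglob := trickle_step (cos (KX (ZMod p) (m + 2) W))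
      (fin (GG (ZMod p) (m + 2) (Fin N))) univ lam' hl0.le (by linarith) (by simp; omega)
      (fun c _ g hg a _ b _ hab hac hbc => hv c g hg a b hab hac hbc)
      (fun a _ b _ hab => conn_of_links _ _ a b (hex 1 (by omega))
        fun c hca hcb g hg => (hv c g hg a b hab hca.symm hcb.symm).conn (by linarith))
    have hQ' : ∀ i, ∀ g ∈ fin (GG (ZMod p) (m + 2) (Fin N)),
        (cls (cos (KX (ZMod p) (m + 2) W)) (fin (GG (ZMod p) (m + 2) (Fin N))) {i} g).card ≤ Q :=
      fun i g _ => card_cls_le W i g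
    have hexp := hC (Fin (d + 1 + 1)) _ _ (cos (KX (ZMod p) (m + 2) W))
      (fin (GG (ZMod p) (m + 2) (Fin N))) (by simp)
      (fun σ hσ g₀ hg₀ j hj => (hlink σ hσ g₀ hg₀).1 j hj)
      (by
        intro σ g₀ hg₀ a b hab ha hb
        rcases σ.eq_empty_or_nonempty with rfl | hσ
        · have : cls (cos (KX (ZMod p) (m + 2) W)) (fin (GG (ZMod p) (m + 2) (Fin N))) ∅ g₀ =
              fin (GG (ZMod p) (m + 2) (Fin N)) := by
            ext g
            simp [mem_cls, Rel]
          rw [this]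
          exact (hglob a (mem_univ _) b (mem_univ _) hab).mono hl3
        · exact ((hlink σ hσ g₀ hg₀).2 a b hab ha hb).mono (by linarith)) hQ'
    obtain ⟨X, h1, h2, h3, h4, h5⟩ := hconv (Fin (d + 1 + 1)) _ _ (cos (KX (ZMod p) (m + 2) W))
      (fin (GG (ZMod p) (m + 2) (Fin N))) ⟨1, mem_fin.mpr (Subgroup.one_mem _)⟩ (by simp) hQ'
      (fun k _ hk => hexp k (by omega) (hex k (by omega)))
    refine ⟨X, h1, h2, h3, h4, le_trans ?_ h5⟩
    exact (Nat.le_add_right m 2).trans (le_card_GG (by rw [Fintype.card_fin]; omega))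
  choose X hX using key
  refine ⟨D, ε, hε, X, fun m => ⟨(hX m).1, (hX m).2.1, (hX m).2.2.1, (hX m).2.2.2.1⟩, ?_⟩
  rw [tendsto_atTop_atTop]
  intro b
  refine ⟨Q * b + 1, fun m hm => ?_⟩
  have h5 := (hX m).2.2.2.2
  by_contra hlt
  have : Q * (faces (X m) 0).card ≤ Q * b := Nat.mul_le_mul_left _ (by omega)
  omega

end Vale.Agent.P067
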