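import Vale.Agent.P067.Basic

/-! The ring `F[t]/(t^m)`, its degree filtration, and matrix groups defined by degree bounds. -/

namespace Vale.Agent.P067

open Finset Polynomial

/-- The truncated polynomial ring. -/
abbrev Rg (F : Type) [Field F] (m : ℕ) : Type := AdjoinRoot (X ^ m : F[X])

section Ring

variable {F : Type} [Field F] {m : ℕ}

/-- The coefficient of `t ^ j` (zero when `j < 0` or `m ≤ j`). -/
noncomputable def co (j : ℤ) : Rg F m →ₗ[F] F :=
  if 0 ≤ j then (lcoeff F j.toNat).comp (AdjoinRoot.modByMonicHom (monic_X_pow m)) else 0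

/-- `r` has degree at most `c`. -/
def deg (r : Rg F m) (c : ℤ) : Prop := ∀ j : ℤ, c < j → co j r = 0

/-- The monomial `t ^ c` (zero when `c < 0`). -/
noncomputable def tp (c : ℤ) : Rg F m :=
  if 0 ≤ c then AdjoinRoot.root (X ^ m : F[X]) ^ c.toNat else 0

theorem co_of_neg {j : ℤ} (hj : j < 0) (r : Rg F m) : co j r = 0 := by
  simp [co, not_le.mpr hj]

theorem co_mk (f : F[X]) (j : ℕ) :
    co (j : ℤ) (AdjoinRoot.mk (X ^ m : F[X]) f) = if j < m then f.coeff j else 0 := by
  simp only [co, Int.natCast_nonneg, if_true, Int.toNat_natCast, LinearMap.comp_apply,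
    AdjoinRoot.modByMonicHom_mk, lcoeff_apply]
  split_ifs with h
  · rw [modByMonic_eq_sub_mul_div, coeff_sub]
    have : (X ^ m * (f /ₘ X ^ m)).coeff j = 0 :=
      (X_pow_dvd_iff.mp (dvd_mul_right _ _)) j h
    rw [this, sub_zero]
  · apply coeff_eq_zero_of_degree_lt
    refine (degree_modByMonic_lt f (monic_X_pow m)).trans_le ?_
    rw [degree_X_pow]
    exact_mod_cast not_lt.mp h

theorem co_of_ge {j : ℤ} (hj : (m : ℤ) ≤ j) (r : Rg F m) : co j r = 0 := by
  obtain ⟨f, rfl⟩ := AdjoinRoot.mk_surjective r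
  obtain ⟨n, rfl⟩ := Int.eq_ofNat_of_zero_le ((Int.natCast_nonneg m).trans hj)
  rw [co_mk, if_neg]
  exact_mod_cast not_lt.mpr hj

theorem co_ext {r s : Rg F m} (h : ∀ j : ℤ, co j r = co j s) : r = s := by
  obtain ⟨f, rfl⟩ := AdjoinRoot.mk_surjective r
  obtain ⟨g, rfl⟩ := AdjoinRoot.mk_surjective s
  rw [AdjoinRoot.mk_eq_mk, X_pow_dvd_iff]
  intro d hd
  have := h d
  rw [co_mk, co_mk, if_pos hd, if_pos hd] at this
  rw [coeff_sub, this, sub_self]

theorem co_mul_nat (r s : Rg F m) (j : ℕ) (hj : j < m) :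
    co (j : ℤ) (r * s) = ∑ x ∈ antidiagonal j, co (x.1 : ℤ) r * co (x.2 : ℤ) s := by
  obtain ⟨f, rfl⟩ := AdjoinRoot.mk_surjective r
  obtain ⟨g, rfl⟩ := AdjoinRoot.mk_surjective s
  rw [← map_mul, co_mk, if_pos hj, coeff_mul]
  refine Finset.sum_congr rfl fun x hx => ?_
  have hx' := mem_antidiagonal.mp hx
  rw [co_mk, co_mk, if_pos (by omega), if_pos (by omega)]

theorem deg.mono {r : Rg F m} {c c' : ℤ} (h : deg r c) (hc : c ≤ c') : deg r c' :=
  fun j hj => h j (lt_of_le_of_lt hc hj)

theorem deg_zero (c : ℤ) : deg (0 : Rg F m) c := fun _ _ => map_zero _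

theorem deg.add {r s : Rg F m} {c : ℤ} (h : deg r c) (h' : deg s c) : deg (r + s) c :=
  fun j hj => by rw [map_add, h j hj, h' j hj, add_zero]

theorem deg.neg {r : Rg F m} {c : ℤ} (h : deg r c) : deg (-r) c :=
  fun j hj => by rw [map_neg, h j hj, neg_zero]

theorem deg.sub {r s : Rg F m} {c : ℤ} (h : deg r c) (h' : deg s c) : deg (r - s) c :=
  fun j hj => by rw [map_sub, h j hj, h' j hj, sub_zero]

theorem deg.smul {r : Rg F m} {c : ℤ} (h : deg r c) (a : F) : deg (a • r) c :=
  fun j hj => by rw [map_smul, h j hj, smul_zero]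

theorem deg_sum {α : Type} (s : Finset α) (f : α → Rg F m) {c : ℤ}
    (h : ∀ x ∈ s, deg (f x) c) : deg (∑ x ∈ s, f x) c :=
  fun j hj => by rw [map_sum]; exact Finset.sum_eq_zero fun x hx => h x hx j hj

theorem deg.eq_zero {r : Rg F m} {c : ℤ} (h : deg r c) (hc : c < 0) : r = 0 := by
  refine co_ext fun j => ?_
  rw [map_zero]
  by_cases hj : j < 0
  · exact co_of_neg hj r
  · exact h j (by omega)

theorem deg_top (r : Rg F m) {c : ℤ} (hc : (m : ℤ) - 1 ≤ c) : deg r c :=
  fun _ hj => co_of_ge (by omega) r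

theorem deg.pred {r : Rg F m} {c : ℤ} (h : deg r c) (h0 : co c r = 0) : deg r (c - 1) := by
  intro j hj
  rcases eq_or_lt_of_le (show c ≤ j by omega) with rfl | h1
  · exact h0
  · exact h j h1

theorem deg.co_succ {r : Rg F m} {c : ℤ} (h : deg r (c - 1)) : co c r = 0 := h c (by omega)

theorem deg.mul {r s : Rg F m} {c c' : ℤ} (h : deg r c) (h' : deg s c') :
    deg (r * s) (c + c') := by
  by_cases hc : c < 0
  · rw [h.eq_zero hc, zero_mul]; exact deg_zero _
  by_cases hc' : c' < 0
  · rw [h'.eq_zero hc', mul_zero]; exact deg_zero _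
  intro j hj
  obtain ⟨n, rfl⟩ := Int.eq_ofNat_of_zero_le (show 0 ≤ j by omega)
  by_cases hn : n < m
  · rw [co_mul_nat _ _ _ hn]
    refine Finset.sum_eq_zero fun x hx => ?_
    have hx' := mem_antidiagonal.mp hx
    by_cases h1 : c < x.1
    · rw [h _ h1, zero_mul]
    · rw [h' _ (by omega), mul_zero]
  · exact co_of_ge (by omega) _

theorem co_mul_top {r s : Rg F m} {c c' : ℤ} (h : deg r c) (h' : deg s c')
    (hm : c + c' < m) : co (c + c') (r * s) = co c r * co c' s := by
  by_cases hc : c < 0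
  · rw [h.eq_zero hc]; simp
  by_cases hc' : c' < 0
  · rw [h'.eq_zero hc']; simp
  obtain ⟨a, rfl⟩ := Int.eq_ofNat_of_zero_le (not_lt.mp hc)
  obtain ⟨b, rfl⟩ := Int.eq_ofNat_of_zero_le (not_lt.mp hc')
  rw [← Nat.cast_add, co_mul_nat _ _ _ (by omega)]
  rw [Finset.sum_eq_single (a, b)]
  · intro x hx hne
    have hx' := mem_antidiagonal.mp hx
    by_cases h1 : a < x.1
    · rw [h _ (by omega), zero_mul]
    · have : b < x.2 := by
        by_contra h2
        exact hne (Prod.ext (by simp only; omega) (by simp only; omega))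
      rw [h' _ (by omega), mul_zero]
  · intro hx
    exact (hx (by simp)).elim

theorem co_tp (c j : ℤ) :
    co j (tp c : Rg F m) = if j = c ∧ 0 ≤ c ∧ c < m then 1 else 0 := by
  by_cases hc : 0 ≤ c
  · obtain ⟨a, rfl⟩ := Int.eq_ofNat_of_zero_le hc
    by_cases hj : 0 ≤ j
    · obtain ⟨b, rfl⟩ := Int.eq_ofNat_of_zero_le hj
      have : (tp (a : ℤ) : Rg F m) = AdjoinRoot.mk (X ^ m : F[X]) (X ^ a) := by
        simp [tp]
      rw [this, co_mk, coeff_X_pow]
      by_cases h1 : b = a
      · subst h1; simp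
      · have : ¬ ((b : ℤ) = a) := by omega
        simp [h1, this]
    · rw [co_of_neg (not_le.mp hj), if_neg (by omega)]
  · simp [tp, hc]

theorem deg_tp (c : ℤ) : deg (tp c : Rg F m) c := by
  intro j hj
  rw [co_tp, if_neg (by omega)]

theorem tp_zero : (tp 0 : Rg F m) = 1 := by simp [tp]

theorem tp_mul {c c' : ℤ} (hc : 0 ≤ c) (hc' : 0 ≤ c') :
    (tp c : Rg F m) * tp c' = tp (c + c') := by
  simp only [tp, hc, hc', add_nonneg hc hc', if_true, ← pow_add]
  congr 1
  omega

theorem deg_one : deg (1 : Rg F m) 0 := tp_zero (F := F) (m := m) ▸ deg_tp 0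

theorem deg_algebraMap (a : F) : deg (algebraMap F (Rg F m) a) 0 := by
  rw [Algebra.algebraMap_eq_smul_one]
  exact deg_one.smul a

theorem co_zero_one (hm : 1 ≤ m) : co 0 (1 : Rg F m) = 1 := by
  rw [← tp_zero, co_tp, if_pos (by omega)]

theorem co_zero_algebraMap (hm : 1 ≤ m) (a : F) : co 0 (algebraMap F (Rg F m) a) = a := by
  rw [Algebra.algebraMap_eq_smul_one, map_smul, co_zero_one hm, smul_eq_mul, mul_one]

theorem deg.eq_algebraMap {r : Rg F m} (h : deg r 0) : r = algebraMap F (Rg F m) (co 0 r) := by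
  refine co_ext fun j => ?_
  rcases lt_trichotomy j 0 with hj | rfl | hj
  · rw [co_of_neg hj, co_of_neg hj]
  · by_cases hm : 1 ≤ m
    · rw [co_zero_algebraMap hm]
    · rw [co_of_ge (by omega), co_of_ge (by omega)]
  · rw [h j hj, deg_algebraMap _ j hj]

theorem co_zero_mul (hm : 1 ≤ m) (r s : Rg F m) : co 0 (r * s) = co 0 r * co 0 s := by
  have := co_mul_nat r s 0 (by omega)
  simpa using this

/-- Reduction modulo `t`. -/
noncomputable def c0 (hm : 1 ≤ m) : Rg F m →+* F where
  toFun := co 0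
  map_one' := co_zero_one hm
  map_mul' := co_zero_mul hm
  map_zero' := map_zero _
  map_add' := map_add _

theorem c0_apply (hm : 1 ≤ m) (r : Rg F m) : c0 hm r = co 0 r := rfl

theorem pow_eq_zero_of_co_zero {r : Rg F m} (h : co 0 r = 0) : r ^ m = 0 := by
  obtain ⟨f, rfl⟩ := AdjoinRoot.mk_surjective r
  by_cases hm : 0 < m
  · have h1 := co_mk (m := m) f 0
    rw [if_pos hm] at h1
    have h2 : f.coeff 0 = 0 := by rw [← h1]; exact h
    rw [← map_pow, AdjoinRoot.mk_eq_zero]
    exact pow_dvd_pow_of_dvd (X_dvd_iff.mpr h2) m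
  · have : m = 0 := by omega
    subst this
    rw [← map_pow, AdjoinRoot.mk_eq_zero]
    simp

theorem isUnit_of_co_zero (hm : 1 ≤ m) {r : Rg F m} (h : co 0 r ≠ 0) : IsUnit r := by
  have h1 : IsUnit (algebraMap F (Rg F m) (co 0 r)) := (IsUnit.mk0 _ h).map _
  have h2 : IsNilpotent (r - algebraMap F (Rg F m) (co 0 r)) :=
    ⟨m, pow_eq_zero_of_co_zero (by rw [map_sub, co_zero_algebraMap hm, sub_self])⟩
  have h3 := h2.isUnit_add_right_of_commute h1 (Commute.all _ _)
  simpa using h3

instance [Finite F] : Finite (Rg F m) :=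
  haveI : Module.Finite F (Rg F m) := (monic_X_pow m).finite_adjoinRoot
  Module.finite_of_finite F

end Ring

/-- A submonoid of a finite group is a subgroup. -/
def subgroupOfFinite {Γ : Type} [Group Γ] [Finite Γ] (M : Submonoid Γ) : Subgroup Γ where
  toSubmonoid := M
  inv_mem' := by
    intro g hg
    have h1 : g⁻¹ ∈ Submonoid.powers g :=
      mem_powers_iff_mem_zpowers.mpr (Subgroup.inv_mem _ (Subgroup.mem_zpowers g))
    exact (Submonoid.powers_le.mpr hg) h1

section Groups

variable {F : Type} [Field F] [Fintype F] {m : ℕ} {ι : Type} [Fintype ι] [DecidableEq ι]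

variable (F m) in
/-- Matrices whose `(a, b)` entry has degree at most `lam a - lam b`. -/
noncomputable def Kw (lam : ι → ℤ) : Subgroup (GL ι (Rg F m)) :=
  subgroupOfFinite
    { carrier := {g | ∀ a b, deg ((g : Matrix ι ι (Rg F m)) a b) (lam a - lam b)}
      one_mem' := by
        intro a b
        by_cases h : a = b
        · subst h; simpa using deg_one
        · simpa [h] using deg_zero _
      mul_mem' := by
        intro g g' hg hg' a b
        simp only [Units.val_mul, Matrix.mul_apply]
        refine deg_sum _ _ fun c _ => ?_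
        have := (hg a c).mul (hg' c b)
        simpa using this }

theorem mem_Kw {lam : ι → ℤ} {g : GL ι (Rg F m)} :
    g ∈ Kw F m lam ↔ ∀ a b, deg ((g : Matrix ι ι (Rg F m)) a b) (lam a - lam b) := Iff.rfl

variable (F m ι) in
/-- Matrices with constant determinant. -/
noncomputable def GG : Subgroup (GL ι (Rg F m)) :=
  subgroupOfFinite
    { carrier := {g | deg (g : Matrix ι ι (Rg F m)).det 0}
      one_mem' := by simpa using deg_one
      mul_mem' := by
        intro g g' hg hg'
        have := deg.mul hg hg'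
        simpa using this }

theorem mem_GG {g : GL ι (Rg F m)} :
    g ∈ GG F m ι ↔ deg (g : Matrix ι ι (Rg F m)).det 0 := Iff.rfl

omit [Fintype F] in
theorem deg_prod {α : Type} (s : Finset α) (f : α → Rg F m) (c : α → ℤ)
    (h : ∀ x ∈ s, deg (f x) (c x)) : deg (∏ x ∈ s, f x) (∑ x ∈ s, c x) := by
  classical
  induction s using Finset.induction_on with
  | empty => simpa using deg_one
  | insert a s ha ih =>
    rw [Finset.prod_insert ha, Finset.sum_insert ha]
    exact (h a (mem_insert_self _ _)).mul (ih fun x hx => h x (mem_insert_of_mem hx))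

theorem Kw_le_GG (lam : ι → ℤ) : Kw F m lam ≤ GG F m ι := by
  intro g hg
  rw [mem_GG, Matrix.det_apply]
  refine deg_sum _ _ fun σ _ => ?_
  have h1 := deg_prod univ (fun b => (g : Matrix ι ι (Rg F m)) (σ b) b)
    (fun b => lam (σ b) - lam b) fun b _ => hg _ _
  have h2 : ∑ b, (lam (σ b) - lam b) = 0 := by
    rw [Finset.sum_sub_distrib, Equiv.sum_comp σ lam, sub_self]
  rw [h2] at h1
  rcases Int.units_eq_one_or (Equiv.Perm.sign σ) with h | h
  · simpa [h] using h1
  · simpa [h] using h1.neg

omit [Fintype ι] in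
/-- The indicator weight of `W`. -/
def ind (W : Finset ι) : ι → ℤ := fun a => if a ∈ W then 1 else 0

variable (F m) in
/-- The vertex stabilisers of the complex. -/
noncomputable def KX {I : Type} (W : I → Finset ι) : I → Subgroup (GL ι (Rg F m)) :=
  fun i => Kw F m (ind (W i))

omit [Fintype ι] in
/-- The weight with level `κ` on the block `B`. -/
def lev (B W : Finset ι) (κ : ℤ) : ι → ℤ := fun a => if a ∈ B then κ else ind W a

variable (F m) in
/-- The stabiliser of the `F`-span of the basis vectors in `B` (columns in `B` are constant and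
supported in `B`). -/
noncomputable def Hp (B : Finset ι) : Subgroup (GL ι (Rg F m)) :=
  GG F m ι ⊓ subgroupOfFinite
    { carrier := {g | ∀ a, ∀ b ∈ B,
        deg ((g : Matrix ι ι (Rg F m)) a b) (if a ∈ B then 0 else -1)}
      one_mem' := by
        intro a b hb
        by_cases h : a = b
        · subst h; simpa [hb] using deg_one
        · simpa [h] using deg_zero _
      mul_mem' := by
        intro g g' hg hg' a b hb
        simp only [Units.val_mul, Matrix.mul_apply]
        refine deg_sum _ _ fun c _ => ?_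
        by_cases hc : c ∈ B
        · have := (hg a c hc).mul (hg' c b hb)
          simpa [hc] using this
        · have := (hg' c b hb).eq_zero (by simp [hc])
          rw [this, mul_zero]
          exact deg_zero _ }

theorem mem_Hp {B : Finset ι} {g : GL ι (Rg F m)} :
    g ∈ Hp F m B ↔ g ∈ GG F m ι ∧ ∀ a, ∀ b ∈ B,
      deg ((g : Matrix ι ι (Rg F m)) a b) (if a ∈ B then 0 else -1) := Iff.rfl

variable (F m) in
/-- The dual of `Hp`: rows in `B` are constant and supported in `B`. -/
noncomputable def Hd (B : Finset ι) : Subgroup (GL ι (Rg F m)) :=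
  GG F m ι ⊓ subgroupOfFinite
    { carrier := {g | ∀ a ∈ B, ∀ b,
        deg ((g : Matrix ι ι (Rg F m)) a b) (if b ∈ B then 0 else -1)}
      one_mem' := by
        intro a ha b
        by_cases h : a = b
        · subst h; simpa [ha] using deg_one
        · simpa [h] using deg_zero _
      mul_mem' := by
        intro g g' hg hg' a ha b
        simp only [Units.val_mul, Matrix.mul_apply]
        refine deg_sum _ _ fun c _ => ?_
        by_cases hc : c ∈ B
        · have := (hg a ha c).mul (hg' c hc b)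
          simpa [hc] using this
        · have := (hg a ha c).eq_zero (by simp [hc])
          rw [this, zero_mul]
          exact deg_zero _ }

theorem mem_Hd {B : Finset ι} {g : GL ι (Rg F m)} :
    g ∈ Hd F m B ↔ g ∈ GG F m ι ∧ ∀ a ∈ B, ∀ b,
      deg ((g : Matrix ι ι (Rg F m)) a b) (if b ∈ B then 0 else -1) := Iff.rfl

end Groups

end Vale.Agent.P067
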