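import Vale.Agent.P067.Ring
import Vale.Agent.P067.Local
import Vale.Agent.P067.Double

/-! Transfer along a correspondence of groups, and the leading coefficient correspondence. -/

namespace Vale.Agent.P067

open Finset

section Abstract

variable {Γ Γ' I : Type} [Group Γ] [Group Γ'] [Finite Γ] [Finite Γ'] [DecidableEq I]

/-- A correspondence between coset systems. -/
structure Corresp (R : Subgroup (Γ × Γ')) (Q : Subgroup Γ) (P : Subgroup Γ') (J : Finset I)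
    (K : I → Subgroup Γ) (L : I → Subgroup Γ') : Prop where
  left : ∀ g p, (g, p) ∈ R → g ∈ Q
  right : ∀ g p, (g, p) ∈ R → p ∈ P
  sec : ∀ p ∈ P, ∃ g, (g, p) ∈ R
  back : ∀ j ∈ J, ∀ g p, (g, p) ∈ R → p ∈ L j → g ∈ K j
  lead : ∀ g ∈ Q, ∃ p, (g, p) ∈ R ∧ ∀ j ∈ J, g ∈ K j → p ∈ L j

omit [Finite Γ] [Finite Γ'] in
theorem step_div {R : Subgroup (Γ × Γ')} {g g' : Γ} {p p' : Γ'} (h : (g, p) ∈ R)
    (h' : (g', p') ∈ R) : (g⁻¹ * g', p⁻¹ * p') ∈ R := R.mul_mem (R.inv_mem h) h'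

omit [Finite Γ] [Finite Γ'] in
theorem step_mul {R : Subgroup (Γ × Γ')} {g g' : Γ} {p p' : Γ'} (h : (g, p) ∈ R)
    (h' : (g', p') ∈ R) : (g * g', p * p') ∈ R := R.mul_mem h h'

omit [Finite Γ] in
theorem Corresp.exact {R : Subgroup (Γ × Γ')} {Q : Subgroup Γ} {P : Subgroup Γ'} {J : Finset I}
    {K : I → Subgroup Γ} {L : I → Subgroup Γ'} (h : Corresp R Q P J K L)
    (hodd : Odd (fin (R.comap (MonoidHom.inr Γ Γ'))).card) (g₀ : Γ) (S : Finset Γ)
    (hS : ∀ g, g ∈ S ↔ g₀⁻¹ * g ∈ Q) {k : ℕ} (hex : Exact (cos L) (dom (fin P) J) k) :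
    Exact (cos K) (dom S J) k := by
  classical
  have hN : ∀ p, p ∈ fin (R.comap (MonoidHom.inr Γ Γ')) ↔ ((1 : Γ), p) ∈ R := fun p => by
    rw [mem_fin]; rfl
  have hC : ∀ ω x, x ∈ (fin P).filter (fun p => (g₀⁻¹ * ω, p) ∈ R) ↔ (g₀⁻¹ * ω, x) ∈ R :=
    fun ω x => by
      rw [mem_filter, mem_fin]
      exact ⟨fun h' => h'.2, fun h' => ⟨h.right _ _ h', h'⟩⟩
  refine Exact.of_comp (cos K) (cos L) S (fin P) J
    (fun ω => (fin P).filter fun p => (g₀⁻¹ * ω, p) ∈ R) (fun ω _ => filter_subset _ _)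
    ?_ ?_ ?_ ?_ hex
  · intro x hx
    obtain ⟨g, hg⟩ := h.sec x (mem_fin.1 hx)
    refine ⟨g₀ * g, (hS _).2 (by simpa using h.left _ _ hg), (hC _ _).2 (by simpa using hg)⟩
  · intro i hi ω₁ _ ω₂ _ x₁ hx₁ x₂ hx₂ hv
    rw [cos_eq_iff] at hv ⊢
    have := h.back i hi _ _ (step_div ((hC _ _).1 hx₁) ((hC _ _).1 hx₂)) hv
    simpa [mul_assoc] using this
  · intro ω hω
    obtain ⟨p, hp, -⟩ := h.lead _ ((hS ω).1 hω)
    have : ((fin P).filter fun p => (g₀⁻¹ * ω, p) ∈ R).card =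
        (fin (R.comap (MonoidHom.inr Γ Γ'))).card := by
      refine card_nbij' (fun x => p⁻¹ * x) (fun x => p * x) ?_ ?_ ?_ ?_
      · intro x hx
        have := step_div hp ((hC _ _).1 (mem_coe.1 hx))
        exact mem_coe.2 ((hN _).2 (by simpa using this))
      · intro x hx
        have := step_mul hp ((hN _).1 (mem_coe.1 hx))
        exact mem_coe.2 ((hC _ _).2 (by simpa using this))
      · intro x _; simp
      · intro x _; simp
    rw [this]; exact hodd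
  · intro τ hτ ω₁ hω₁ ω₂ hω₂ hr
    rw [rel_cos_iff] at hr
    have hq : ω₁⁻¹ * ω₂ ∈ Q := by
      have := Q.mul_mem (Q.inv_mem ((hS _).1 hω₁)) ((hS _).1 hω₂)
      simpa [mul_assoc] using this
    obtain ⟨p, hp, hp2⟩ := h.lead _ hq
    refine ⟨fun x => x * p, ⟨fun x hx => ?_, fun x _ y _ hxy => mul_right_cancel hxy,
      fun y hy => ⟨y * p⁻¹, ?_, by simp⟩⟩, fun x _ => ?_⟩
    · have := step_mul ((hC _ _).1 (mem_coe.1 hx)) hp
      exact mem_coe.2 ((hC _ _).2 (by simpa [mul_assoc] using this))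
    · have := step_mul ((hC _ _).1 (mem_coe.1 hy)) (R.inv_mem hp)
      exact mem_coe.2 ((hC _ _).2 (by simpa [mul_assoc] using this))
    · rw [rel_cos_iff]
      intro i hi
      simpa using hp2 i (hτ hi) (hr i hi)

omit [DecidableEq I] in
open Classical in
theorem Corresp.proj {R : Subgroup (Γ × Γ')} {Q : Subgroup Γ} {P : Subgroup Γ'} {J : Finset I}
    {K : I → Subgroup Γ} {L : I → Subgroup Γ'} (h : Corresp R Q P J K L)
    (htriv : ∀ p, ((1 : Γ), p) ∈ R → p = 1) (σ : Finset I) (hσ : σ ⊆ J) (g₀ : Γ) (S : Finset Γ)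
    (hS : ∀ g, g ∈ S ↔ g₀⁻¹ * g ∈ Q ∧ ∀ j ∈ σ, g₀⁻¹ * g ∈ K j) :
    ∃ (π : Γ → Γ') (c : ℕ), 0 < c ∧ (∀ x ∈ S, π x ∈ cls (cos L) (fin P) σ 1) ∧
      (∀ y ∈ cls (cos L) (fin P) σ 1, (S.filter fun x => π x = y).card = c) ∧
      ∀ i ∈ J, ∀ x ∈ S, ∀ y ∈ S, (cos K i x = cos K i y ↔ cos L i (π x) = cos L i (π y)) := by
  have huniq : ∀ g p p', (g, p) ∈ R → (g, p') ∈ R → p = p' := by
    intro g p p' h1 h2
    have := htriv _ (by simpa using step_div h1 h2)
    exact inv_mul_eq_one.1 this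
  have hiff : ∀ j ∈ J, ∀ g p, (g, p) ∈ R → (g ∈ K j ↔ p ∈ L j) := by
    intro j hj g p hgp
    refine ⟨fun hg => ?_, h.back j hj g p hgp⟩
    obtain ⟨p', h1, h2⟩ := h.lead g (h.left _ _ hgp)
    rw [huniq g p p' hgp h1]; exact h2 j hj hg
  have hex : ∀ x, ∃ p, x ∈ S → (g₀⁻¹ * x, p) ∈ R := by
    intro x
    by_cases hx : x ∈ S
    · obtain ⟨p, hp, -⟩ := h.lead _ ((hS x).1 hx).1
      exact ⟨p, fun _ => hp⟩
    · exact ⟨1, fun h' => absurd h' hx⟩
  choose π hπ using hex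
  have hcl : ∀ y, y ∈ cls (cos L) (fin P) σ 1 ↔ y ∈ P ∧ ∀ j ∈ σ, y ∈ L j := fun y => by
    rw [mem_cls, mem_fin, rel_cos_iff]; simp
  have hN : ∀ g, g ∈ fin (R.comap (MonoidHom.inl Γ Γ')) ↔ (g, (1 : Γ')) ∈ R := fun p => by
    rw [mem_fin]; rfl
  refine ⟨π, (fin (R.comap (MonoidHom.inl Γ Γ'))).card,
    card_pos.2 ⟨1, mem_fin.2 (Subgroup.one_mem _)⟩, fun x hx => ?_, fun y hy => ?_,
    fun i hi x hx y hy => ?_⟩
  · rw [hcl]
    exact ⟨h.right _ _ (hπ x hx), fun j hj => (hiff j (hσ hj) _ _ (hπ x hx)).1 (((hS x).1 hx).2 j hj)⟩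
  · rw [hcl] at hy
    obtain ⟨g, hg⟩ := h.sec y hy.1
    have hf : ∀ x, x ∈ S.filter (fun x => π x = y) ↔ (g₀⁻¹ * x, y) ∈ R := by
      intro x
      rw [mem_filter]
      constructor
      · rintro ⟨h1, rfl⟩; exact hπ x h1
      · intro h1
        have hx : x ∈ S := (hS x).2 ⟨h.left _ _ h1, fun j hj =>
          (hiff j (hσ hj) _ _ h1).2 (hy.2 j hj)⟩
        exact ⟨hx, huniq _ _ _ (hπ x hx) h1⟩
    refine card_nbij' (fun x => g⁻¹ * (g₀⁻¹ * x)) (fun x => g₀ * (g * x)) ?_ ?_ ?_ ?_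
    · intro x hx
      have := step_div hg ((hf _).1 (mem_coe.1 hx))
      exact mem_coe.2 ((hN _).2 (by simpa using this))
    · intro x hx
      have := step_mul hg ((hN _).1 (mem_coe.1 hx))
      exact mem_coe.2 ((hf _).2 (by simpa using this))
    · intro x _; simp
    · intro x _; simp
  · rw [cos_eq_iff, cos_eq_iff, ← hiff i hi _ _ (step_div (hπ x hx) (hπ y hy))]
    simp [mul_assoc]

end Abstract

section Lead

variable {F : Type} [Field F] [Fintype F] {m : ℕ} {ι : Type} [Fintype ι] [DecidableEq ι]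

/-- Positions that vanish in the parabolic group. -/
def ZZ (H₁ H₂ : Finset ι) (a b : ι) : Prop := (a ∉ H₁ ∧ b ∈ H₁) ∨ (a ∉ H₂ ∧ b ∈ H₂)

/-- The matrix `p` is compatible with the leading coefficients of `g`. -/
def CompM (lam : ι → ℤ) (H₁ H₂ : Finset ι) (g : Matrix ι ι (Rg F m)) (p : Matrix ι ι F) : Prop :=
  (∀ a b, deg (g a b) (lam a - lam b)) ∧ (∀ a b, ZZ H₁ H₂ a b → g a b = 0) ∧
  (∀ a b, ZZ H₁ H₂ a b → p a b = 0) ∧
    ∀ a b, lam a - lam b < m → p a b = co (lam a - lam b) (g a b)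

omit [Fintype F] in
theorem zz_mul {R : Type} [Semiring R] {H₁ H₂ : Finset ι} {g g' : Matrix ι ι R}
    (h : ∀ a b, ZZ H₁ H₂ a b → g a b = 0) (h' : ∀ a b, ZZ H₁ H₂ a b → g' a b = 0) (a b : ι)
    (hab : ZZ H₁ H₂ a b) : (g * g') a b = 0 := by
  rw [Matrix.mul_apply]
  refine sum_eq_zero fun c _ => ?_
  rcases hab with hab | hab
  · by_cases hc : c ∈ H₁
    · rw [h a c (Or.inl ⟨hab.1, hc⟩), zero_mul]
    · rw [h' c b (Or.inl ⟨hc, hab.2⟩), mul_zero]
  · by_cases hc : c ∈ H₂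
    · rw [h a c (Or.inr ⟨hab.1, hc⟩), zero_mul]
    · rw [h' c b (Or.inr ⟨hc, hab.2⟩), mul_zero]

omit [Fintype F] [Fintype ι] in
theorem zz_one {R : Type} [Semiring R] {H₁ H₂ : Finset ι} (a b : ι) (hab : ZZ H₁ H₂ a b) :
    (1 : Matrix ι ι R) a b = 0 := by
  refine Matrix.one_apply_ne ?_
  rintro rfl
  rcases hab with h | h <;> exact h.1 h.2

omit [Fintype F] in
theorem CompM.mul {lam : ι → ℤ} {H₁ H₂ : Finset ι} (hZ : ∀ a b, lam a < lam b → ZZ H₁ H₂ a b)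
    {g g' : Matrix ι ι (Rg F m)} {p p' : Matrix ι ι F} (h : CompM lam H₁ H₂ g p)
    (h' : CompM lam H₁ H₂ g' p') : CompM lam H₁ H₂ (g * g') (p * p') := by
  obtain ⟨h1, h2, h3, h4⟩ := h
  obtain ⟨h1', h2', h3', h4'⟩ := h'
  refine ⟨fun a b => ?_, zz_mul h2 h2', zz_mul h3 h3', fun a b hab => ?_⟩
  · rw [Matrix.mul_apply]
    refine deg_sum _ _ fun c _ => ?_
    simpa using (h1 a c).mul (h1' c b)
  · rw [Matrix.mul_apply, Matrix.mul_apply, map_sum]
    refine sum_congr rfl fun c _ => ?_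
    have e := co_mul_top (h1 a c) (h1' c b) (by omega)
    rw [show lam a - lam c + (lam c - lam b) = lam a - lam b by ring] at e
    rw [e]
    by_cases c1 : lam a - lam c < m
    · by_cases c2 : lam c - lam b < m
      · rw [h4 a c c1, h4' c b c2]
      · rw [h3 a c (hZ _ _ (by omega)), co_of_neg (j := lam a - lam c) (by omega), zero_mul,
          zero_mul]
    · rw [h3' c b (hZ _ _ (by omega)), co_of_neg (j := lam c - lam b) (by omega), mul_zero,
        mul_zero]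

omit [Fintype F] [Fintype ι] in
theorem co_one_apply (hm : 1 ≤ m) (lam : ι → ℤ) (a b : ι) :
    co (lam a - lam b) ((1 : Matrix ι ι (Rg F m)) a b) = (1 : Matrix ι ι F) a b := by
  by_cases h : a = b
  · subst h; simp [co_zero_one hm]
  · simp [h]

omit [Fintype F] [Fintype ι] in
theorem CompM.one (hm : 1 ≤ m) (lam : ι → ℤ) (H₁ H₂ : Finset ι) :
    CompM lam H₁ H₂ (1 : Matrix ι ι (Rg F m)) (1 : Matrix ι ι F) := by
  refine ⟨fun a b => ?_, zz_one, zz_one, fun a b _ => (co_one_apply hm lam a b).symm⟩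
  by_cases h : a = b
  · subst h; simpa using deg_one
  · simpa [h] using deg_zero _

omit [Fintype F] in
theorem CompM.nil (hm : 1 ≤ m) {lam : ι → ℤ} {H₁ H₂ : Finset ι}
    (hb : ∀ a b, lam a - lam b < 2 * m) {p : Matrix ι ι F}
    (h : CompM lam H₁ H₂ (1 : Matrix ι ι (Rg F m)) p) : (p - 1) * (p - 1) = 0 := by
  have key : ∀ a b, lam a - lam b < m → (p - 1) a b = 0 := fun a b hab => by
    rw [Matrix.sub_apply, h.2.2.2 a b hab, co_one_apply hm, sub_self]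
  ext a b
  rw [Matrix.mul_apply, Matrix.zero_apply]
  refine sum_eq_zero fun c _ => ?_
  by_cases c1 : lam a - lam c < m
  · rw [key a c c1, zero_mul]
  · rw [key c b (by have := hb a b; omega), mul_zero]

/-- The correspondence given by leading coefficients. -/
noncomputable def leadR (hm : 1 ≤ m) (lam : ι → ℤ) (H₁ H₂ : Finset ι)
    (hZ : ∀ a b, lam a < lam b → ZZ H₁ H₂ a b) : Subgroup (GL ι (Rg F m) × GL ι F) :=
  subgroupOfFinite
    { carrier := {x | CompM lam H₁ H₂ (x.1 : Matrix ι ι (Rg F m)) (x.2 : Matrix ι ι F)}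
      one_mem' := CompM.one hm lam H₁ H₂
      mul_mem' := fun h h' => CompM.mul hZ h h' }

theorem mem_leadR {hm : 1 ≤ m} {lam : ι → ℤ} {H₁ H₂ : Finset ι}
    {hZ : ∀ a b, lam a < lam b → ZZ H₁ H₂ a b} {g : GL ι (Rg F m)} {p : GL ι F} :
    (g, p) ∈ leadR hm lam H₁ H₂ hZ ↔
      CompM lam H₁ H₂ (g : Matrix ι ι (Rg F m)) (p : Matrix ι ι F) := Iff.rfl

omit [Fintype F] in
theorem mem_blk_inf {H₁ H₂ : Finset ι} {p : GL ι F} :
    p ∈ (blk H₁ ⊓ blk H₂ : Subgroup (GL ι F)) ↔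
      ∀ a b, ZZ H₁ H₂ a b → (p : Matrix ι ι F) a b = 0 := by
  rw [Subgroup.mem_inf, mem_blk, mem_blk]
  constructor
  · rintro ⟨h1, h2⟩ a b (h | h)
    · exact h1 a h.1 b h.2
    · exact h2 a h.1 b h.2
  · intro h
    exact ⟨fun a ha b hb => h a b (Or.inl ⟨ha, hb⟩), fun a ha b hb => h a b (Or.inr ⟨ha, hb⟩)⟩

/-- The multiplicative section. -/
noncomputable def secM (m : ℕ) (lam : ι → ℤ) (p : Matrix ι ι F) : Matrix ι ι (Rg F m) :=
  Matrix.of fun a b => p a b • tp (lam a - lam b)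

omit [Fintype F] [DecidableEq ι] in
theorem secM_mul {lam : ι → ℤ} {p p' : Matrix ι ι F} (h : ∀ a b, lam a < lam b → p a b = 0)
    (h' : ∀ a b, lam a < lam b → p' a b = 0) :
    secM m lam p * secM m lam p' = secM m lam (p * p') := by
  ext a b
  simp only [secM, Matrix.mul_apply, Matrix.of_apply, sum_smul]
  refine sum_congr rfl fun c _ => ?_
  by_cases c1 : lam a < lam c
  · simp [h a c c1]
  by_cases c2 : lam c < lam b
  · simp [h' c b c2]
  rw [smul_mul_smul_comm, tp_mul (by omega) (by omega)]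
  congr 2; ring

omit [Fintype F] [Fintype ι] in
theorem secM_one (lam : ι → ℤ) : secM m lam (1 : Matrix ι ι F) = 1 := by
  ext a b
  by_cases h : a = b
  · subst h; simp [secM, tp_zero]
  · simp [secM, h]

theorem lead_corresp (hm : 1 ≤ m) {I : Type} (lam : ι → ℤ) (H₁ H₂ : Finset ι)
    (hZ : ∀ a b, lam a < lam b → ZZ H₁ H₂ a b) (hb : ∀ a b, lam a - lam b < 2 * m)
    (Q : Subgroup (GL ι (Rg F m)))
    (hQ : ∀ g, g ∈ Q ↔ g ∈ Kw F m lam ∧ ∀ a b, ZZ H₁ H₂ a b → (g : Matrix ι ι (Rg F m)) a b = 0)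
    (J : Finset I) (S : I → Finset ι) (mu : I → ι → ℤ)
    (hmu : ∀ j ∈ J, ∀ a b, mu j a - mu j b = lam a - lam b + (ind (S j) a - ind (S j) b)) :
    Corresp (leadR hm lam H₁ H₂ hZ) Q (blk H₁ ⊓ blk H₂) J (fun j => Kw F m (mu j))
      (fun j => blk (S j)) := by
  refine ⟨fun g p h => (hQ g).2 ⟨h.1, h.2.1⟩, fun g p h => mem_blk_inf.2 h.2.2.1,
    fun p hp => ?_, fun j hj g p h hp => ?_, fun g hg => ?_⟩
  · have h1 := mem_blk_inf.1 hp
    have h2 := mem_blk_inf.1 (Subgroup.inv_mem _ hp)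
    have z1 : ∀ a b, lam a < lam b → (p : Matrix ι ι F) a b = 0 := fun a b h => h1 a b (hZ a b h)
    have z2 : ∀ a b, lam a < lam b → ((p⁻¹ : GL ι F) : Matrix ι ι F) a b = 0 :=
      fun a b h => h2 a b (hZ a b h)
    refine ⟨⟨secM m lam p, secM m lam (p⁻¹ : GL ι F), ?_, ?_⟩, ?_, ?_, h1, ?_⟩
    · rw [secM_mul z1 z2, Units.mul_inv, secM_one]
    · rw [secM_mul z2 z1, Units.inv_mul, secM_one]
    · intro a b; exact (deg_tp _).smul _
    · intro a b hab; simp [secM, h1 a b hab]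
    · intro a b hab
      simp only [secM, Matrix.of_apply, map_smul, co_tp, smul_eq_mul]
      by_cases c1 : lam a < lam b
      · simp [z1 a b c1]
      · rw [if_pos ⟨trivial, by omega, hab⟩, mul_one]
  · rw [mem_Kw]
    intro a b
    rw [hmu j hj]
    by_cases c : a ∉ S j ∧ b ∈ S j
    · have e : lam a - lam b + (ind (S j) a - ind (S j) b) = lam a - lam b - 1 := by
        simp only [ind, if_neg c.1, if_pos c.2]; ring
      rw [e]
      by_cases c1 : lam a - lam b < m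
      · exact (h.1 a b).pred (by rw [← h.2.2.2 a b c1]; exact hp a c.1 b c.2)
      · exact deg_top _ (by omega)
    · refine (h.1 a b).mono ?_
      simp only [ind]
      split_ifs <;> simp_all
  · have hc : ∀ g ∈ Q, CompM lam H₁ H₂ (g : Matrix ι ι (Rg F m))
        (Matrix.of fun a b => co (lam a - lam b) ((g : Matrix ι ι (Rg F m)) a b)) := by
      intro g hg
      obtain ⟨h1, h2⟩ := (hQ g).1 hg
      exact ⟨h1, h2, fun a b hab => by simp [h2 a b hab], fun a b _ => rfl⟩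
    have h1 := (hc g hg).mul hZ (hc g⁻¹ (Q.inv_mem hg))
    rw [Units.mul_inv] at h1
    have h2 := h1.nil hm hb
    set A := Matrix.of fun a b => co (lam a - lam b) ((g : Matrix ι ι (Rg F m)) a b) with hA
    set B := Matrix.of fun a b => co (lam a - lam b)
      (((g⁻¹ : GL ι (Rg F m)) : Matrix ι ι (Rg F m)) a b) with hB
    have h3 : A * (B * (2 - A * B)) = 1 := by
      have : A * (B * (2 - A * B)) = 1 - (A * B - 1) * (A * B - 1) := by noncomm_ring
      rw [this, h2, sub_zero]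
    refine ⟨⟨A, B * (2 - A * B), h3, mul_eq_one_comm.1 h3⟩, hc g hg, fun j hj hgj a ha b hb' => ?_⟩
    have := (mem_Kw.1 hgj) a b
    rw [hmu j hj] at this
    have e : lam a - lam b + (ind (S j) a - ind (S j) b) = lam a - lam b - 1 := by
      simp only [ind, if_neg ha, if_pos hb']; ring
    rw [e] at this
    exact this.co_succ

theorem lead_odd (p : ℕ) [Fact p.Prime] [CharP F p] (hp : p ≠ 2) (hm : 1 ≤ m) (lam : ι → ℤ)
    (H₁ H₂ : Finset ι) (hZ : ∀ a b, lam a < lam b → ZZ H₁ H₂ a b)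
    (hb : ∀ a b, lam a - lam b < 2 * m) :
    Odd (fin ((leadR (F := F) hm lam H₁ H₂ hZ).comap (MonoidHom.inr _ _))).card := by
  set N := (leadR (F := F) hm lam H₁ H₂ hZ).comap (MonoidHom.inr _ _) with hN
  have hP : IsPGroup p N := by
    intro x
    refine ⟨1, ?_⟩
    have h1 : CompM lam H₁ H₂ (1 : Matrix ι ι (Rg F m)) ((x : GL ι F) : Matrix ι ι F) := x.2
    have h2 := h1.nil hm hb
    have h3 : ∀ k : ℕ, ((x : GL ι F) : Matrix ι ι F) ^ k =
        1 + (k : F) • (((x : GL ι F) : Matrix ι ι F) - 1) := by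
      intro k
      induction k with
      | zero => simp
      | succ k ih =>
        set n := ((x : GL ι F) : Matrix ι ι F) - 1 with hn
        have hx : ((x : GL ι F) : Matrix ι ι F) = 1 + n := by rw [hn]; abel
        rw [pow_succ, ih, hx, add_mul, mul_add, mul_add, smul_mul_assoc, smul_mul_assoc, h2]
        simp [add_smul, add_assoc, add_comm]
    ext1
    ext1
    rw [pow_one, Subgroup.coe_pow, Units.val_pow_eq_pow_val, h3]
    simp
  obtain ⟨n, hn⟩ := IsPGroup.iff_card.1 hP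
  have e : (fin N).card = Nat.card N := by
    unfold fin
    rw [← Set.ncard_eq_toFinset_card, ← Nat.card_coe_set_eq]
    rfl
  rw [e, hn]
  exact ((Fact.out : p.Prime).odd_of_ne_two hp).pow

theorem lead_triv (hm : 1 ≤ m) (lam : ι → ℤ) (H₁ H₂ : Finset ι)
    (hZ : ∀ a b, lam a < lam b → ZZ H₁ H₂ a b) (hb : ∀ a b, lam a - lam b < m) (p : GL ι F)
    (h : ((1 : GL ι (Rg F m)), p) ∈ leadR hm lam H₁ H₂ hZ) : p = 1 := by
  ext a b
  rw [h.2.2.2 a b (hb a b)]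
  exact co_one_apply hm lam a b

theorem generic_exact (p : ℕ) [Fact p.Prime] [CharP F p] (hp : p ≠ 2) (hm : 1 ≤ m) {I : Type}
    [DecidableEq I] {M : ℕ} {ρ : ℝ} (hloc : Loc F (Fintype.card ι) M ρ) (lam : ι → ℤ)
    (H₁ H₂ : Finset ι) (hZ : ∀ a b, lam a < lam b → ZZ H₁ H₂ a b)
    (hb : ∀ a b, lam a - lam b < 2 * m) (Q : Subgroup (GL ι (Rg F m)))
    (hQ : ∀ g, g ∈ Q ↔ g ∈ Kw F m lam ∧ ∀ a b, ZZ H₁ H₂ a b → (g : Matrix ι ι (Rg F m)) a b = 0)
    (J : Finset I) (S : I → Finset ι) (mu : I → ι → ℤ)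
    (hmu : ∀ j ∈ J, ∀ a b, mu j a - mu j b = lam a - lam b + (ind (S j) a - ind (S j) b))
    (key : ι → ℤ) (hdata : LocData key J S H₁ H₂) (g₀ : GL ι (Rg F m))
    (T : Finset (GL ι (Rg F m))) (hT : ∀ g, g ∈ T ↔ g₀⁻¹ * g ∈ Q) (k : ℕ) (hk : k + 1 ≤ J.card) :
    Exact (cos fun j => Kw F m (mu j)) (dom T J) k := by
  refine (lead_corresp hm lam H₁ H₂ hZ hb Q hQ J S mu hmu).exact
    (lead_odd p hp hm lam H₁ H₂ hZ hb) g₀ T hT ?_
  have h := ((hloc ι I key J S H₁ H₂ le_rfl hdata ∅ (empty_subset _) 1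
    (Subgroup.one_mem _)).1 k (by simpa using hk)).exact
  have e : cls (cos fun j => (blk (S j) : Subgroup (GL ι F))) (fin (blk H₁ ⊓ blk H₂)) ∅ 1 =
      fin (blk H₁ ⊓ blk H₂) := by
    ext g; simp [mem_cls, Rel]
  rwa [e, sdiff_empty] at h

omit [DecidableEq ι] in
theorem exists_key (ρ : ι → ℕ) :
    ∃ key : ι → ℤ, Function.Injective key ∧ ∀ a b, key a ≤ key b → ρ a ≤ ρ b := by
  let e := Fintype.equivFin ι
  refine ⟨fun a => ((ρ a * Fintype.card ι + (e a : ℕ) : ℕ) : ℤ), fun a b h => ?_, fun a b h => ?_⟩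
  · have h1 : ρ a * Fintype.card ι + (e a : ℕ) = ρ b * Fintype.card ι + (e b : ℕ) :=
      Int.ofNat_inj.1 h
    have h2 := congrArg (· % Fintype.card ι) h1
    simp only [Nat.mul_add_mod_self_right, Nat.mod_eq_of_lt (e a).2,
      Nat.mod_eq_of_lt (e b).2] at h2
    exact e.injective (Fin.ext h2)
  · have h1 : ρ a * Fintype.card ι + (e a : ℕ) ≤ ρ b * Fintype.card ι + (e b : ℕ) :=
      Int.ofNat_le.1 h
    by_contra hc
    have h2 : (ρ b + 1) * Fintype.card ι ≤ ρ a * Fintype.card ι :=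
      Nat.mul_le_mul_right _ (by omega)
    have := (e b).2
    rw [add_mul] at h2
    omega

omit [Fintype ι] in
theorem exists_cnt {D : ℕ} (W : Fin (D + 1) → Finset ι) (hW : Monotone W) :
    ∃ cnt : ι → ℕ, (∀ a, cnt a ≤ D + 1) ∧ ∀ a b j, cnt a ≤ cnt b → a ∈ W j → b ∈ W j := by
  refine ⟨fun a => (univ.filter fun j => a ∈ W j).card, fun a => ?_, fun a b j h ha => ?_⟩
  · simpa using card_filter_le (univ : Finset (Fin (D + 1))) fun j => a ∈ W j
  · by_contra hb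
    refine absurd h (not_le.2 (card_lt_card ⟨fun i hi => ?_, fun hs => ?_⟩))
    · rw [mem_filter] at hi ⊢
      rcases le_total i j with c | c
      · exact absurd (hW c hi.2) hb
      · exact ⟨mem_univ _, hW c ha⟩
    · exact hb (mem_filter.1 (hs (mem_filter.2 ⟨mem_univ j, ha⟩))).2

end Lead

theorem red_chain {I Ω V : Type} [DecidableEq I] (v : ℕ → I → Ω → V)
    {D : Finset I → Ω → Prop} (hdown : Down D) (k L : ℕ)
    (h1 : ∀ n < L, Red (v n) (v (n + 1)) D k)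
    (h2 : ∀ n < L, ∀ τ x y, D τ x → D τ y → Rel (v n) τ x y → Rel (v (n + 1)) τ x y) :
    Red (v 0) (v L) D k := by
  have : ∀ n ≤ L, Red (v 0) (v n) D k ∧
      ∀ τ x y, D τ x → D τ y → Rel (v 0) τ x y → Rel (v n) τ x y := by
    intro n
    induction n with
    | zero => exact fun _ => ⟨Red.refl _ _ _, fun _ _ _ _ _ h => h⟩
    | succ n ih =>
      intro hn
      obtain ⟨a, b⟩ := ih (by omega)
      exact ⟨Red.trans hdown b a (h1 n hn), fun τ x y hx hy h => h2 n hn τ x y hx hy (b τ x y hx hy h)⟩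
  exact (this L le_rfl).1

end Vale.Agent.P067
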