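import Vale.Agent.P067.Ring
import Vale.Agent.P067.Local
import Vale.Agent.P067.Double
import Vale.Agent.P067.StepAux

/-! Links of the complex and the horoball lemmas, from the local theorem. -/

namespace Vale.Agent.P067

open Finset

variable {F : Type} [Field F] [Fintype F] {m : ℕ} {ι : Type} [Fintype ι] [DecidableEq ι]

/-- The chain of coordinate sets that defines the complex. -/
structure ChainData {ι : Type} [Fintype ι] {D : ℕ} (W : Fin (D + 1) → Finset ι) : Prop where
  mono : StrictMono W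
  zero : W 0 = ∅

/-- Links of nonempty faces are coboundary expanders with small correlations. -/
theorem link_X {D M : ℕ} {lam : ℝ} (W : Fin (D + 1) → Finset ι) (hW : ChainData W)
    (hlast : ∃ a, a ∉ W (Fin.last D)) (hm : 2 ≤ m) (hloc : Loc F (Fintype.card ι) M lam)
    (σ : Finset (Fin (D + 1))) (hσ : σ.Nonempty) (g₀ : GL ι (Rg F m)) (hg₀ : g₀ ∈ GG F m ι) :
    (∀ k, k + 1 ≤ σᶜ.card →
      Expand (cos (KX F m W)) (cls (cos (KX F m W)) (fin (GG F m ι)) σ g₀) σᶜ k M) ∧
    (∀ a b, a ≠ b → a ∉ σ → b ∉ σ →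
      Corr (cos (KX F m W) a) (cos (KX F m W) b)
        (cls (cos (KX F m W)) (fin (GG F m ι)) σ g₀) lam) := by
  classical
  obtain ⟨i, hi⟩ := hσ
  obtain ⟨z, hz⟩ := hlast
  have hmono := hW.mono.monotone
  have hzj : ∀ j, z ∉ W j := fun j h => hz (hmono (Fin.le_last j) h)
  obtain ⟨cnt, hc1, hc2⟩ := exists_cnt W hmono
  obtain ⟨key, hk1, hk2⟩ := exists_key (fun a => (if a ∈ W i then 0 else D + 2) + cnt a)
  let S : Fin (D + 1) → Finset ι := fun j => if i < j then W j \ W i else W j ∪ (W i)ᶜ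
  have hS : ∀ j a, a ∈ S j ↔ if i < j then a ∈ W j ∧ a ∉ W i else a ∈ W j ∨ a ∉ W i := by
    intro j a; simp only [S]; split_ifs <;> simp
  have hsub : ∀ j j', j ≤ j' → ∀ a, a ∈ W j → a ∈ W j' := fun j j' h a ha => hmono h ha
  have hstrict : ∀ j j', j < j' → ∃ a, a ∈ W j' ∧ a ∉ W j := fun j j' h =>
    exists_of_ssubset (hW.mono h)
  have hdata : LocData key (univ.erase i) S (W i) (W i) := by
    have hlow : ∀ b ∈ W i, ∀ a, key a ≤ key b → a ∈ W i := by
      intro b hb a h
      have := hk2 a b h; have := hc1 b; grind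
    refine ⟨hk1, fun j hj a ha b h => ?_, fun j hj => ?_, fun j hj => ?_,
      fun j hj j' hj' h => ?_, hlow, hlow⟩
    · have h1 := hk2 a b h
      have h2 := hc1 b
      have h3 := hc2 a b j
      have h4 := hsub j i
      rw [hS] at ha ⊢; grind
    · simp only [hS]
      by_cases c : i < j
      · simpa [c] using hstrict i j c
      · exact ⟨z, by simp [c, hzj]⟩
    · simp only [hS]
      by_cases c : i < j
      · exact ⟨z, by simp [c, hzj]⟩
      · obtain ⟨a, h1, h2⟩ := hstrict j i (lt_of_le_of_ne (not_lt.1 c) (mem_erase.1 hj).1)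
        exact ⟨a, by simp [c, h1, h2]⟩
    · have h1 : ∀ a, a ∈ S j ↔ a ∈ S j' := fun a => by rw [h]
      simp only [hS] at h1
      have h2 := h1 z
      have h3 := hzj i; have h4 := hzj j; have h5 := hzj j'
      refine hW.mono.injective (Finset.ext fun a => ?_)
      have h6 := h1 a
      have h7 := hsub i j; have h8 := hsub i j'; have h9 := hsub j i; have h10 := hsub j' i
      grind
  have hZ : ∀ a b, ind (W i) a < ind (W i) b → ZZ (W i) (W i) a b := by
    intro a b h; simp only [ind, ZZ] at h ⊢; grind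
  have hb : ∀ a b, ind (W i) a - ind (W i) b < (m : ℤ) := by
    intro a b; simp only [ind]; split_ifs <;> omega
  have hcor := lead_corresp (F := F) (m := m) (by omega) (ind (W i)) (W i) (W i) hZ
    (fun a b => by have := hb a b; omega) (Kw F m (ind (W i)))
    (fun g => ⟨fun h => ⟨h, fun a b hab => (h a b).eq_zero (by
      simp only [ind, ZZ] at hab ⊢; grind)⟩, fun h => h.1⟩)
    (univ.erase i) S (fun j => ind (W j)) (by
      intro j hj a b
      have h1 := hsub i j; have h2 := hsub j i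
      simp only [ind, hS]; grind)
  obtain ⟨π, c, hc, hmap, hfib, hv⟩ := hcor.proj (lead_triv _ _ _ _ hZ hb) (σ.erase i)
    (erase_subset_erase _ (subset_univ _)) g₀ (cls (cos (KX F m W)) (fin (GG F m ι)) σ g₀) (by
      intro g
      rw [mem_cls, mem_fin, rel_cos_iff]
      constructor
      · rintro ⟨-, h⟩
        exact ⟨h i hi, fun j hj => h j (mem_of_mem_erase hj)⟩
      · rintro ⟨h1, h2⟩
        refine ⟨by simpa using (GG F m ι).mul_mem hg₀ (Kw_le_GG _ h1), fun j hj => ?_⟩
        by_cases e : j = i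
        · subst e; exact h1
        · exact h2 j (mem_erase.2 ⟨e, hj⟩))
  have hl := hloc ι (Fin (D + 1)) key (univ.erase i) S (W i) (W i) le_rfl hdata (σ.erase i)
    (erase_subset_erase _ (subset_univ _)) 1 (Subgroup.one_mem _)
  have e : univ.erase i \ σ.erase i = σᶜ := by
    ext j; simp only [mem_sdiff, mem_erase, mem_univ, mem_compl]; grind
  rw [e] at hl
  have hin : ∀ j, j ∉ σ → j ∈ univ.erase i := fun j hj =>
    mem_erase.2 ⟨fun h => hj (h ▸ hi), mem_univ _⟩
  refine ⟨fun k hk => ?_, fun a b hab ha hb' => ?_⟩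
  · exact Expand.pull π _ _ c hc hmap (by convert hfib) _ _ _
      (fun j hj x hx y hy => hv j (hin j (mem_compl.1 hj)) x hx y hy) (hl.1 k hk)
  · exact Corr.pull π _ _ c hc hmap (by convert hfib) _ _ _ _
      (fun x hx y hy => (hv a (hin a ha) x hx y hy).2)
      (fun x hx y hy => (hv b (hin b hb') x hx y hy).2)
      (hl.2 a (mem_compl.2 ha) b (mem_compl.2 hb') hab)

theorem step_mono_primal {B W : Finset ι} {κ κ' : ℤ} {g : GL ι (Rg F m)} (hg : g ∈ Hp F m B)
    (h : κ ≤ κ') (hk : g ∈ Kw F m (lev B W κ)) : g ∈ Kw F m (lev B W κ') := by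
  intro a b
  by_cases c : a ∉ B ∧ b ∈ B
  · rw [(hg.2 a b c.2).eq_zero (by simp [c.1])]; exact deg_zero _
  · refine (hk a b).mono ?_
    simp only [lev]; grind

theorem step_mono_dual {B W : Finset ι} {κ κ' : ℤ} {g : GL ι (Rg F m)} (hg : g ∈ Hd F m B)
    (h : κ' ≤ κ) (hk : g ∈ Kw F m (lev B W κ)) : g ∈ Kw F m (lev B W κ') := by
  intro a b
  by_cases c : a ∈ B ∧ b ∉ B
  · rw [(hg.2 a c.1 b).eq_zero (by simp [c.2])]; exact deg_zero _
  · refine (hk a b).mono ?_
    simp only [lev]; grind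

theorem step_primal (p : ℕ) [Fact p.Prime] [CharP F p] (hp : p ≠ 2) {D M : ℕ} {lam : ℝ}
    (W : Fin (D + 1) → Finset ι) (hW : ChainData W) (B : Finset ι) (hB : B.Nonempty)
    (hBW : Disjoint B (W (Fin.last D))) (hlast : ∃ a, a ∉ W (Fin.last D) ∧ a ∉ B) (hm : 2 ≤ m)
    (hloc : Loc F (Fintype.card ι) M lam) (k : ℕ) (hk : k ≤ D) (κ : ℕ) (hκ : κ < m)
    (i : Fin (D + 1)) (g₀ : GL ι (Rg F m)) (T : Finset (GL ι (Rg F m)))
    (hT : ∀ g, g ∈ T ↔ g₀⁻¹ * g ∈ Hp F m B ⊓ Kw F m (lev B (W i) (κ + 1))) :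
    Exact (cos fun j => Kw F m (lev B (W j) (if i < j then (κ : ℤ) + 1 else κ))) (dom T univ) k := by
  classical
  obtain ⟨z, hz, hzB⟩ := hlast
  obtain ⟨y, hy⟩ := hB
  have hmono := hW.mono.monotone
  have hzj : ∀ j, z ∉ W j := fun j h => hz (hmono (Fin.le_last j) h)
  have hBj : ∀ j, ∀ a ∈ B, a ∉ W j := fun j a h h' =>
    disjoint_left.1 hBW h (hmono (Fin.le_last j) h')
  obtain ⟨cnt, hc1, hc2⟩ := exists_cnt W hmono
  obtain ⟨key, hk1, hk2⟩ := exists_key
    (fun a => if a ∈ B then 0 else (if a ∈ W i then 1 else D + 3) + cnt a)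
  let S : Fin (D + 1) → Finset ι := fun j => if i < j then W j \ W i else (W j ∪ (W i)ᶜ) \ B
  have hS : ∀ j a, a ∈ S j ↔
      if i < j then a ∈ W j ∧ a ∉ W i else (a ∈ W j ∨ a ∉ W i) ∧ a ∉ B := by
    intro j a; simp only [S]; split_ifs <;> simp
  have hsub : ∀ j j', j ≤ j' → ∀ a, a ∈ W j → a ∈ W j' := fun j j' h a ha => hmono h ha
  have hstrict : ∀ j j', j < j' → ∃ a, a ∈ W j' ∧ a ∉ W j := fun j j' h =>
    exists_of_ssubset (hW.mono h)
  have hdata : LocData key univ S B (B ∪ W i) := by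
    refine ⟨hk1, fun j hj a ha b h => ?_, fun j hj => ?_, fun j hj => ?_,
      fun j hj j' hj' h => ?_, fun b hb a h => ?_, fun b hb a h => ?_⟩
    · have h1 := hk2 a b h
      have h2 := hc1 b
      have h3 := hc2 a b j
      have h4 := hsub j i
      have h5 := hBj j a
      rw [hS] at ha ⊢; grind
    · simp only [hS]
      by_cases c : i < j
      · simpa [c] using hstrict i j c
      · exact ⟨z, by simp [c, hzj, hzB]⟩
    · simp only [hS]
      exact ⟨y, by have := hBj j y hy; grind⟩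
    · have h1 : ∀ a, a ∈ S j ↔ a ∈ S j' := fun a => by rw [h]
      simp only [hS] at h1
      have h2 := h1 z
      have h3 := hzj i; have h4 := hzj j; have h5 := hzj j'
      refine hW.mono.injective (Finset.ext fun a => ?_)
      have h6 := h1 a
      have h7 := hsub i j; have h8 := hsub i j'; have h9 := hsub j i; have h10 := hsub j' i
      have h11 := hBj j a; have h12 := hBj j' a
      grind
    · have := hk2 a b h; grind
    · have := hk2 a b h; have := hc1 b
      rw [mem_union] at hb ⊢; grind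
  refine generic_exact p hp (by omega) hloc (lev B (W i) (κ + 1)) B (B ∪ W i) (fun a b h => ?_)
    (fun a b => ?_) _ (fun g => ?_) univ S
    (fun j => lev B (W j) (if i < j then (κ : ℤ) + 1 else κ)) (fun j _ a b => ?_)
    key hdata g₀ T hT k (by simpa using Nat.succ_le_succ hk)
  · simp only [lev, ind, ZZ, mem_union] at h ⊢; grind
  · simp only [lev, ind]; split_ifs <;> omega
  · rw [Subgroup.mem_inf, mem_Hp]
    constructor
    · rintro ⟨⟨-, h1⟩, h2⟩
      refine ⟨h2, fun a b hab => ?_⟩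
      by_cases c : a ∉ B ∧ b ∈ B
      · exact (h1 a b c.2).eq_zero (by simp [c.1])
      · refine (h2 a b).eq_zero ?_
        simp only [lev, ind, ZZ, mem_union] at hab ⊢; grind
    · rintro ⟨h1, h2⟩
      refine ⟨⟨Kw_le_GG _ h1, fun a b hb => ?_⟩, h1⟩
      by_cases c : a ∈ B
      · simpa [lev, c, hb] using h1 a b
      · rw [h2 a b (Or.inl ⟨c, hb⟩)]; exact deg_zero _
  · have h1 := hsub i j; have h2 := hsub j i
    have h3 := hBj j a; have h4 := hBj j b; have h5 := hBj i a; have h6 := hBj i b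
    simp only [lev, ind, hS]; grind

theorem step_dual (p : ℕ) [Fact p.Prime] [CharP F p] (hp : p ≠ 2) {D M : ℕ} {lam : ℝ}
    (W : Fin (D + 1) → Finset ι) (hW : ChainData W) (B : Finset ι) (hB : B.Nonempty)
    (hBW : Disjoint B (W (Fin.last D))) (hlast : ∃ a, a ∉ W (Fin.last D) ∧ a ∉ B) (hm : 2 ≤ m)
    (hloc : Loc F (Fintype.card ι) M lam) (k : ℕ) (hk : k ≤ D) (κ : ℕ) (hκ : κ < m)
    (i : Fin (D + 1)) (g₀ : GL ι (Rg F m)) (T : Finset (GL ι (Rg F m)))
    (hT : ∀ g, g ∈ T ↔ g₀⁻¹ * g ∈ Hd F m B ⊓ Kw F m (lev B (W i) (-κ - 1))) :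
    Exact (cos fun j => Kw F m (lev B (W j) (if j.val < i.val then -(κ : ℤ) - 1 else -κ)))
      (dom T univ) k := by
  classical
  obtain ⟨z, hz, hzB⟩ := hlast
  obtain ⟨y, hy⟩ := hB
  have hmono := hW.mono.monotone
  have hzj : ∀ j, z ∉ W j := fun j h => hz (hmono (Fin.le_last j) h)
  have hBj : ∀ j, ∀ a ∈ B, a ∉ W j := fun j a h h' =>
    disjoint_left.1 hBW h (hmono (Fin.le_last j) h')
  obtain ⟨cnt, hc1, hc2⟩ := exists_cnt W hmono
  obtain ⟨key, hk1, hk2⟩ := exists_key
    (fun a => if a ∈ B then 2 * D + 5 else (if a ∈ W i then 0 else D + 2) + cnt a)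
  let S : Fin (D + 1) → Finset ι := fun j => if j < i then W j ∪ (W i)ᶜ else (W j \ W i) ∪ B
  have hS : ∀ j a, a ∈ S j ↔
      if j < i then a ∈ W j ∨ a ∉ W i else (a ∈ W j ∧ a ∉ W i) ∨ a ∈ B := by
    intro j a; simp only [S]; split_ifs <;> simp
  have hsub : ∀ j j', j ≤ j' → ∀ a, a ∈ W j → a ∈ W j' := fun j j' h a ha => hmono h ha
  have hstrict : ∀ j j', j < j' → ∃ a, a ∈ W j' ∧ a ∉ W j := fun j j' h =>
    exists_of_ssubset (hW.mono h)
  have hdata : LocData key univ S (W i) Bᶜ := by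
    refine ⟨hk1, fun j hj a ha b h => ?_, fun j hj => ?_, fun j hj => ?_,
      fun j hj j' hj' h => ?_, fun b hb a h => ?_, fun b hb a h => ?_⟩
    · have h1 := hk2 a b h
      have h2 := hc1 b
      have h3 := hc2 a b j
      have h4 := hsub j i
      have h5 := hBj j a; have h6 := hBj i b; have h7 := hBj i a
      rw [hS] at ha ⊢; grind
    · simp only [hS]
      by_cases c : j < i
      · exact ⟨z, by simp [c, hzj]⟩
      · exact ⟨y, by simp [c, hy]⟩
    · simp only [hS]
      by_cases c : j < i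
      · obtain ⟨a, h1, h2⟩ := hstrict j i c
        exact ⟨a, by simp [c, h1, h2]⟩
      · exact ⟨z, by simp [c, hzj, hzB]⟩
    · have h1 : ∀ a, a ∈ S j ↔ a ∈ S j' := fun a => by rw [h]
      simp only [hS] at h1
      have h2 := h1 z
      have h3 := hzj i; have h4 := hzj j; have h5 := hzj j'
      refine hW.mono.injective (Finset.ext fun a => ?_)
      have h6 := h1 a
      have h7 := hsub i j; have h8 := hsub i j'; have h9 := hsub j i; have h10 := hsub j' i
      have h11 := hBj j a; have h12 := hBj j' a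
      grind
    · have := hk2 a b h; have := hc1 b; have := hBj i b; grind
    · have := hk2 a b h; have := hc1 b
      rw [mem_compl] at hb ⊢; grind
  refine generic_exact p hp (by omega) hloc (lev B (W i) (-κ - 1)) (W i) Bᶜ (fun a b h => ?_)
    (fun a b => ?_) _ (fun g => ?_) univ S
    (fun j => lev B (W j) (if j.val < i.val then -(κ : ℤ) - 1 else -κ)) (fun j _ a b => ?_)
    key hdata g₀ T hT k (by simpa using Nat.succ_le_succ hk)
  · simp only [lev, ind, ZZ, mem_compl] at h ⊢; grind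
  · simp only [lev, ind]; split_ifs <;> omega
  · rw [Subgroup.mem_inf, mem_Hd]
    constructor
    · rintro ⟨⟨-, h1⟩, h2⟩
      refine ⟨h2, fun a b hab => ?_⟩
      by_cases c : a ∈ B ∧ b ∉ B
      · exact (h1 a c.1 b).eq_zero (by simp [c.2])
      · refine (h2 a b).eq_zero ?_
        have := hBj i b
        simp only [lev, ind, ZZ, mem_compl] at hab ⊢; grind
    · rintro ⟨h1, h2⟩
      refine ⟨⟨Kw_le_GG _ h1, fun a ha b => ?_⟩, h1⟩
      by_cases c : b ∈ B
      · simpa [lev, c, ha] using h1 a b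
      · rw [h2 a b (Or.inr ⟨by simpa using ha, by simpa using c⟩)]; exact deg_zero _
  · have h1 := hsub i j; have h2 := hsub j i
    have h3 := hBj j a; have h4 := hBj j b; have h5 := hBj i a; have h6 := hBj i b
    simp only [lev, ind, hS, ← Fin.lt_def]; grind

/-- The primal horoball lemma. -/
theorem horo_primal (p : ℕ) [Fact p.Prime] [CharP F p] (hp : p ≠ 2) {D M : ℕ} {lam : ℝ}
    (W : Fin (D + 1) → Finset ι) (hW : ChainData W) (B : Finset ι) (hB : B.Nonempty)
    (hBW : Disjoint B (W (Fin.last D))) (hlast : ∃ a, a ∉ W (Fin.last D) ∧ a ∉ B) (hm : 2 ≤ m)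
    (hloc : Loc F (Fintype.card ι) M lam) (k : ℕ) (hk : k ≤ D) :
    Red (cos (KX F m W)) (cos fun i => Kw F m (lev B (W i) m))
      (dom (fin (Hp F m B)) univ) k := by
  classical
  have hmono : ∀ (ℓ ℓ' : Fin (D + 1) → ℤ), (∀ j, ℓ j ≤ ℓ' j) → ∀ τ x y,
      dom (fin (Hp F m B)) univ τ x → dom (fin (Hp F m B)) univ τ y →
      Rel (cos fun j => Kw F m (lev B (W j) (ℓ j))) τ x y →
      Rel (cos fun j => Kw F m (lev B (W j) (ℓ' j))) τ x y := by
    intro ℓ ℓ' h τ x y hx hy hr
    rw [rel_cos_iff] at hr ⊢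
    exact fun j hj => step_mono_primal ((Hp F m B).mul_mem ((Hp F m B).inv_mem (mem_fin.1 hx.2))
      (mem_fin.1 hy.2)) (h j) (hr j hj)
  have inner : ∀ κ < m, Red (cos fun j => Kw F m (lev B (W j) (κ : ℕ)))
      (cos fun j => Kw F m (lev B (W j) (κ + 1 : ℕ))) (dom (fin (Hp F m B)) univ) k := by
    intro κ hκ
    have := red_chain (fun s => cos fun j : Fin (D + 1) =>
        Kw F m (lev B (W j) (if D + 1 ≤ j.val + s then (κ : ℤ) + 1 else κ)))
      (down_dom (fin (Hp F m B)) univ) k (D + 1) (fun s hs => ?_)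
      (fun s _ => hmono _ _ fun j => by split_ifs <;> omega)
    · convert this using 5 with j j
      · rw [if_neg (by omega)]
      · rw [if_pos (by omega)]; push_cast; rfl
    · refine red_of_link _ _ _ ⟨D - s, by omega⟩ (fun j hj x _ y _ => ?_)
        (fun x hx y hy h => ?_) k (fun g₀ hg₀ => ?_)
      · have hj' : j.val ≠ D - s := fun h => hj (Fin.ext h)
        have : (D + 1 ≤ j.val + s) ↔ (D + 1 ≤ j.val + (s + 1)) := by omega
        simp only [cos, this]
      · rw [cos_eq_iff] at h ⊢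
        exact step_mono_primal ((Hp F m B).mul_mem ((Hp F m B).inv_mem (mem_fin.1 hx))
          (mem_fin.1 hy)) (by split_ifs <;> omega) h
      · have := step_primal p hp W hW B hB hBW hlast hm hloc k hk κ hκ ⟨D - s, by omega⟩ g₀
          (cls (cos fun j : Fin (D + 1) =>
            Kw F m (lev B (W j) (if D + 1 ≤ j.val + (s + 1) then (κ : ℤ) + 1 else κ)))
            (fin (Hp F m B)) {⟨D - s, by omega⟩} g₀) (fun g => ?_)
        · convert this using 6 with j
          simp only [Fin.lt_def]; omega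
        · rw [mem_cls, mem_fin, rel_cos_iff, Subgroup.mem_inf]
          simp only [mem_singleton, forall_eq]
          rw [if_pos (by omega), (Hp F m B).mul_mem_cancel_left
            ((Hp F m B).inv_mem (mem_fin.1 hg₀))]
  have := red_chain (fun κ => cos fun j : Fin (D + 1) => Kw F m (lev B (W j) (κ : ℕ)))
    (down_dom (fin (Hp F m B)) univ) k m inner (fun κ _ => hmono _ _ fun j => by omega)
  convert this using 2
  funext j
  unfold KX
  congr 1
  funext a
  have : a ∈ B → a ∉ W j := fun h h' =>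
    disjoint_left.1 hBW h (hW.mono.monotone (Fin.le_last j) h')
  simp only [lev, ind]; grind

/-- The dual horoball lemma. -/
theorem horo_dual (p : ℕ) [Fact p.Prime] [CharP F p] (hp : p ≠ 2) {D M : ℕ} {lam : ℝ}
    (W : Fin (D + 1) → Finset ι) (hW : ChainData W) (B : Finset ι) (hB : B.Nonempty)
    (hBW : Disjoint B (W (Fin.last D))) (hlast : ∃ a, a ∉ W (Fin.last D) ∧ a ∉ B) (hm : 2 ≤ m)
    (hloc : Loc F (Fintype.card ι) M lam) (k : ℕ) (hk : k ≤ D) :
    Red (cos (KX F m W)) (cos fun i => Kw F m (lev B (W i) (-m)))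
      (dom (fin (Hd F m B)) univ) k := by
  classical
  have hmono : ∀ (ℓ ℓ' : Fin (D + 1) → ℤ), (∀ j, ℓ' j ≤ ℓ j) → ∀ τ x y,
      dom (fin (Hd F m B)) univ τ x → dom (fin (Hd F m B)) univ τ y →
      Rel (cos fun j => Kw F m (lev B (W j) (ℓ j))) τ x y →
      Rel (cos fun j => Kw F m (lev B (W j) (ℓ' j))) τ x y := by
    intro ℓ ℓ' h τ x y hx hy hr
    rw [rel_cos_iff] at hr ⊢
    exact fun j hj => step_mono_dual ((Hd F m B).mul_mem ((Hd F m B).inv_mem (mem_fin.1 hx.2))
      (mem_fin.1 hy.2)) (h j) (hr j hj)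
  have inner : ∀ κ < m, Red (cos fun j => Kw F m (lev B (W j) (-(κ : ℕ))))
      (cos fun j => Kw F m (lev B (W j) (-(κ + 1 : ℕ)))) (dom (fin (Hd F m B)) univ) k := by
    intro κ hκ
    have := red_chain (fun s => cos fun j : Fin (D + 1) =>
        Kw F m (lev B (W j) (if j.val < s then -(κ : ℤ) - 1 else -κ)))
      (down_dom (fin (Hd F m B)) univ) k (D + 1) (fun s hs => ?_)
      (fun s _ => hmono _ _ fun j => by split_ifs <;> omega)
    · convert this using 5 with j j
      · rw [if_neg (by omega)]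
      · rw [if_pos (by omega)]; push_cast; ring
    · refine red_of_link _ _ _ ⟨s, hs⟩ (fun j hj x _ y _ => ?_)
        (fun x hx y hy h => ?_) k (fun g₀ hg₀ => ?_)
      · have hj' : j.val ≠ s := fun h => hj (Fin.ext h)
        have : (j.val < s) ↔ (j.val < s + 1) := by omega
        simp only [cos, this]
      · rw [cos_eq_iff] at h ⊢
        exact step_mono_dual ((Hd F m B).mul_mem ((Hd F m B).inv_mem (mem_fin.1 hx))
          (mem_fin.1 hy)) (by split_ifs <;> omega) h
      · refine step_dual p hp W hW B hB hBW hlast hm hloc k hk κ hκ ⟨s, hs⟩ g₀ _ (fun g => ?_)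
        rw [mem_cls, mem_fin, rel_cos_iff, Subgroup.mem_inf]
        simp only [mem_singleton, forall_eq]
        rw [if_pos (by omega), (Hd F m B).mul_mem_cancel_left
          ((Hd F m B).inv_mem (mem_fin.1 hg₀))]
  have := red_chain (fun κ => cos fun j : Fin (D + 1) => Kw F m (lev B (W j) (-(κ : ℕ))))
    (down_dom (fin (Hd F m B)) univ) k m inner (fun κ _ => hmono _ _ fun j => by omega)
  convert this using 2
  funext j
  unfold KX
  congr 1
  funext a
  have : a ∈ B → a ∉ W j := fun h h' =>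
    disjoint_left.1 hBW h (hW.mono.monotone (Fin.le_last j) h')
  simp only [lev, ind]; grind

/-- Vertex stabilisers are bounded. -/
theorem card_cls_le {I : Type} (W : I → Finset ι) (i : I) (g : GL ι (Rg F m)) :
    (cls (cos (KX F m W)) (fin (GG F m ι)) {i} g).card ≤
      (Fintype.card F ^ 2) ^ (Fintype.card ι * Fintype.card ι) := by
  have h : (cls (cos (KX F m W)) (fin (GG F m ι)) {i} g).card ≤
      (univ : Finset (ι × ι → F × F)).card := by
    refine card_le_card_of_injOn (fun x ab =>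
      (co 0 ((g⁻¹ * x : GL ι (Rg F m)) ab.1 ab.2), co 1 ((g⁻¹ * x : GL ι (Rg F m)) ab.1 ab.2)))
      (fun _ _ => mem_coe.2 (mem_univ _)) fun x hx y hy hxy => ?_
    have hd : ∀ x ∈ cls (cos (KX F m W)) (fin (GG F m ι)) {i} g, ∀ a b,
        deg ((g⁻¹ * x : GL ι (Rg F m)) a b) 1 := by
      intro x hx a b
      have := (rel_cos_iff _ _ _ _).1 (mem_cls.1 hx).2 i (mem_singleton_self i)
      refine (this a b).mono ?_
      simp only [ind]; split_ifs <;> omega
    refine mul_left_cancel (a := g⁻¹) ?_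
    ext a b
    have h1 := congrFun hxy (a, b)
    simp only [Prod.mk.injEq] at h1
    refine co_ext fun j => ?_
    by_cases c0 : j < 0
    · rw [co_of_neg c0, co_of_neg c0]
    by_cases c1 : 1 < j
    · rw [hd x hx a b j c1, hd y hy a b j c1]
    rcases (show j = 0 ∨ j = 1 by omega) with rfl | rfl
    · exact h1.1
    · exact h1.2
  simpa [sq] using h

/-- The group grows with `m`. -/
theorem le_card_GG (h2 : 2 ≤ Fintype.card ι) : m ≤ (fin (GG F m ι)).card := by
  obtain ⟨a, b, hab⟩ := Fintype.exists_pair_of_one_lt_card (show 1 < Fintype.card ι by omega)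
  have hd : ∀ j : ℕ, (Matrix.transvection a b (tp j : Rg F m)).det = 1 := fun j =>
    Matrix.det_transvection_of_ne a b hab _
  conv_lhs => rw [← card_range m]
  refine card_le_card_of_injOn (fun j => Matrix.GeneralLinearGroup.mk''
    (Matrix.transvection a b (tp j : Rg F m)) (by rw [hd]; exact isUnit_one))
    (fun j _ => mem_coe.2 (mem_fin.2 ?_)) fun j hj j' _ h => ?_
  · rw [mem_GG]
    show deg (Matrix.transvection a b (tp j : Rg F m)).det 0
    rw [hd]; exact deg_one
  · have h1 : Matrix.transvection a b (tp j : Rg F m) = Matrix.transvection a b (tp j') :=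
      congrArg Units.val h
    have h2 := congrArg (fun A => co (j : ℤ) (A a b)) h1
    have hj' : j < m := mem_range.1 (mem_coe.1 hj)
    simp only [Matrix.transvection, Matrix.add_apply, Matrix.one_apply_ne hab,
      Matrix.single_apply_same, zero_add, co_tp] at h2
    by_contra hne
    rw [if_pos ⟨trivial, by omega, by omega⟩, if_neg (by omega)] at h2
    exact one_ne_zero h2

end Vale.Agent.P067
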