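import Vale.Agent.P067.VRes

/-! Frames of vectors and the subcomplexes they define. -/

namespace Vale.Agent.P067

open Finset Matrix

section Linear

variable {F : Type} [Field F] {ι α : Type}

/-- The family `y x`, `x ∈ φ`, is linearly independent modulo the coordinates in `U`. -/
def indep (U : Finset ι) (φ : Finset α) (y : α → ι → F) : Prop :=
  ∀ c : α → F, (∀ a ∉ U, ∑ x ∈ φ, c x * y x a = 0) → ∀ x ∈ φ, c x = 0

theorem indep.subset {U : Finset ι} {φ φ' : Finset α} {y : α → ι → F} (h : indep U φ y)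
    (hφ : φ' ⊆ φ) : indep U φ' y := by
  classical
  intro c hc x hx
  have := h (fun x => if x ∈ φ' then c x else 0) (fun a ha => by
    rw [← Finset.sum_subset hφ (fun x _ hx => by simp [hx])]
    exact (Finset.sum_congr rfl fun x hx => by simp [hx]).trans (hc a ha)) x (hφ hx)
  simpa [hx] using this

theorem indep.congr {U : Finset ι} {φ : Finset α} {y y' : α → ι → F} (h : indep U φ y)
    (hy : ∀ x ∈ φ, y x = y' x) : indep U φ y' := by
  intro c hc
  refine h c fun a ha => ?_
  rw [← hc a ha]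
  exact Finset.sum_congr rfl fun x hx => by rw [hy x hx]

theorem indep.of_mulVec [Fintype ι] {U : Finset ι} {φ : Finset α} {y : α → ι → F}
    (A : Matrix ι ι F) (hA : ∀ a ∉ U, ∀ b ∈ U, A a b = 0)
    (h : indep U φ fun x => A *ᵥ y x) : indep U φ y := by
  intro c hc
  refine h c fun a ha => ?_
  simp only [mulVec, dotProduct, Finset.mul_sum]
  rw [Finset.sum_comm]
  refine Finset.sum_eq_zero fun b _ => ?_
  by_cases hb : b ∈ U
  · simp [hA a ha b hb]
  · have := hc b hb
    calc ∑ x ∈ φ, c x * (A a b * y x b) = A a b * ∑ x ∈ φ, c x * y x b := by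
          rw [Finset.mul_sum]; exact Finset.sum_congr rfl fun x _ => by ring
      _ = 0 := by rw [this, mul_zero]

/-- A basis vector outside the span of a small family. -/
theorem exists_new [Fintype ι] [DecidableEq ι] (U : Finset ι) (T : Finset α) (y : α → ι → F)
    (h : T.card < Uᶜ.card) :
    ∃ a₀ ∉ U, ∀ c : α → F, ¬ ∀ a ∉ U, ∑ x ∈ T, c x * y x a = (Pi.single a₀ 1 : ι → F) a := by
  classical
  by_contra hno
  push Not at hno
  choose c hc using hno
  let L : (T → F) →ₗ[F] ({a // a ∉ U} → F) :=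
    { toFun := fun d a => ∑ x : T, d x * y x.1 a.1
      map_add' := fun d d' => by ext a; simp [add_mul, Finset.sum_add_distrib]
      map_smul' := fun r d => by ext a; simp [Finset.mul_sum, mul_assoc] }
  have hs : Function.Surjective L := by
    rw [← LinearMap.range_eq_top, eq_top_iff, ← (Pi.basisFun F {a // a ∉ U}).span_eq,
      Submodule.span_le]
    rintro _ ⟨a₀, rfl⟩
    refine ⟨fun x => c a₀.1 a₀.2 x.1, ?_⟩
    ext a
    have := hc a₀.1 a₀.2 a.1 a.2
    rw [← Finset.sum_coe_sort] at this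
    simp only [L, LinearMap.coe_mk, AddHom.coe_mk, this, Pi.basisFun_apply, Pi.single_apply,
      Subtype.ext_iff]
  have h1 := LinearMap.finrank_le_finrank_of_surjective hs
  rw [Module.finrank_fintype_fun_eq_card, Module.finrank_fintype_fun_eq_card,
    Fintype.card_coe, Fintype.card_subtype] at h1
  have h2 : (univ.filter fun a => a ∉ U) = Uᶜ := by ext a; simp
  rw [h2] at h1
  omega

theorem indep.insert [DecidableEq ι] [DecidableEq α] {U U' : Finset ι} (hU : U ⊆ U')
    {T ρ : Finset α} (hρ : ρ ⊆ T) {y : α → ι → F} {a₀ : ι} {x₀ : α} (hx₀ : x₀ ∉ ρ)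
    (hy : y x₀ = Pi.single a₀ 1)
    (hnew : ∀ c : α → F, ¬ ∀ a ∉ U', ∑ x ∈ T, c x * y x a = (Pi.single a₀ 1 : ι → F) a)
    (h : indep U ρ y) : indep U (insert x₀ ρ) y := by
  intro c hc
  have h0 : c x₀ = 0 := by
    by_contra h0
    refine hnew (fun x => if x ∈ ρ then -(c x₀)⁻¹ * c x else 0) fun a ha => ?_
    have h1 := hc a fun h => ha (hU h)
    rw [Finset.sum_insert hx₀, hy] at h1
    rw [← Finset.sum_subset hρ (fun x _ hx => by simp [hx])]
    have h2 : ∑ x ∈ ρ, (if x ∈ ρ then -(c x₀)⁻¹ * c x else 0) * y x a =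
        -(c x₀)⁻¹ * ∑ x ∈ ρ, c x * y x a := by
      rw [Finset.mul_sum]
      exact Finset.sum_congr rfl fun x hx => by simp [hx, mul_assoc]
    rw [h2, eq_neg_of_add_eq_zero_right h1]
    field_simp
  have h1 := h c fun a ha => by
    have := hc a ha
    rwa [Finset.sum_insert hx₀, h0, zero_mul, zero_add] at this
  intro x hx
  rcases mem_insert.mp hx with rfl | hx
  · exact h0
  · exact h1 x hx

/-- Independent columns extend to an invertible matrix. -/
theorem exists_unit_extend [Fintype ι] [DecidableEq ι] (n : ℕ) :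
    ∀ (B : Finset ι) (w : ι → ι → F), Bᶜ.card = n → indep ∅ B w →
      ∃ A : Matrix ι ι F, A.det ≠ 0 ∧ ∀ b ∈ B, ∀ a, A a b = w b a := by
  induction n with
  | zero =>
    intro B w hB h
    have hB' : B = univ := by simpa using hB
    subst hB'
    refine ⟨fun a b => w b a, ?_, fun _ _ _ => rfl⟩
    intro h0
    obtain ⟨c, hc, hc'⟩ := Matrix.exists_mulVec_eq_zero_iff.mpr h0
    refine hc (funext fun x => h c (fun a _ => ?_) x (mem_univ _))
    have := congrFun hc' a
    simpa [mulVec, dotProduct, mul_comm] using this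
  | succ n ih =>
    intro B w hB h
    obtain ⟨b₁, hb₁⟩ := Finset.card_pos.mp (show 0 < Bᶜ.card by omega)
    have hb₁' : b₁ ∉ B := mem_compl.mp hb₁
    obtain ⟨a₀, -, hnew⟩ := exists_new (∅ : Finset ι) B w (by
      have := Finset.card_add_card_compl B
      simp only [compl_empty, card_univ]
      omega)
    have hcongr : ∀ x ∈ B, w x = Function.update w b₁ (Pi.single a₀ 1) x := fun x hx => by
      have hne : x ≠ b₁ := fun e => hb₁' (e ▸ hx)
      rw [Function.update_of_ne hne]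
    obtain ⟨A, hA, hA'⟩ := ih (insert b₁ B) (Function.update w b₁ (Pi.single a₀ 1))
      (by rw [compl_insert, card_erase_of_mem hb₁]; omega)
      (indep.insert (subset_refl _) (subset_refl B) hb₁' (Function.update_self _ _ _)
        (fun c hc => hnew c fun a ha => by
          rw [← hc a ha]
          exact Finset.sum_congr rfl fun x hx => by rw [hcongr x hx]) (h.congr hcongr))
    exact ⟨A, hA, fun b hb a => by rw [hA' b (mem_insert_of_mem hb), hcongr b hb]⟩

end Linear

variable {F : Type} [Field F] [Fintype F] {m : ℕ} {ι : Type} [Fintype ι] [DecidableEq ι]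

omit [Fintype F] [Fintype ι] [DecidableEq ι] in
/-- Reduction of a vector modulo `t`. -/
noncomputable def red (y : ι → Rg F m) : ι → F := fun a => co 0 (y a)

omit [Fintype F] [DecidableEq ι] in
theorem red_mulVec (hm : 1 ≤ m) (A : Matrix ι ι (Rg F m)) (y : ι → Rg F m) :
    red (A *ᵥ y) = (A.map (c0 hm)) *ᵥ red y := by
  ext a
  simp only [red, mulVec, dotProduct, map_sum, co_zero_mul hm, map_apply, c0_apply]

omit [Fintype F] [Fintype ι] in
theorem red_single (hm : 1 ≤ m) (a : ι) :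
    red (Pi.single a 1 : ι → Rg F m) = Pi.single a 1 := by
  ext b
  by_cases h : b = a
  · subst h; simp [red, co_zero_one hm]
  · simp [red, h]

/-- The coordinates of `x` in the basis `g`. -/
noncomputable def crd (g : GL ι (Rg F m)) (x : ι → Rg F m) : ι → Rg F m :=
  ((g⁻¹ : GL ι (Rg F m)) : Matrix ι ι (Rg F m)) *ᵥ x

omit [Fintype F] in
theorem crd_mul (g g' : GL ι (Rg F m)) (x : ι → Rg F m) : crd (g * g') x = crd g' (crd g x) := by
  simp only [crd, _root_.mul_inv_rev, Units.val_mul, mulVec_mulVec]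

omit [Fintype F] in
theorem mulVec_crd (g : GL ι (Rg F m)) (x : ι → Rg F m) :
    (g : Matrix ι ι (Rg F m)) *ᵥ crd g x = x := by
  rw [crd, mulVec_mulVec, ← Units.val_mul, mul_inv_cancel, Units.val_one, one_mulVec]

omit [Fintype F] in
theorem crd_mulVec (g : GL ι (Rg F m)) (x : ι → Rg F m) :
    crd g ((g : Matrix ι ι (Rg F m)) *ᵥ x) = x := by
  rw [crd, mulVec_mulVec, ← Units.val_mul, inv_mul_cancel, Units.val_one, one_mulVec]

/-- The frame `φ` is allowed for the face of type `τ` of the chamber `g`. -/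
def Al {I : Type} (W : I → Finset ι) (φ : Finset (ι → Rg F m)) (τ : Finset I)
    (g : GL ι (Rg F m)) : Prop :=
  g ∈ GG F m ι ∧ indep ∅ φ (fun x => red (crd g x)) ∧
    ∀ i ∈ τ, (∀ x ∈ φ, ∀ a, deg (crd g x a) (ind (W i) a)) ∧
      indep (W i) φ fun x => red (crd g x)

variable {I : Type} {W : I → Finset ι}

theorem al_empty [Fintype I] : Al (F := F) (m := m) W ∅ = dom (fin (GG F m ι)) univ := by
  funext τ g
  simp [Al, dom, mem_fin, indep]

theorem down_al (φ : Finset (ι → Rg F m)) : Down (Al W φ) :=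
  fun _ _ _ h hτ => ⟨h.1, h.2.1, fun i hi => h.2.2 i (hτ hi)⟩

theorem downF_al (τ : Finset I) (g : GL ι (Rg F m)) : DownF fun φ => Al W φ τ g :=
  fun _ _ h hφ => ⟨h.1, h.2.1.subset hφ,
    fun i hi => ⟨fun x hx => (h.2.2 i hi).1 x (hφ hx), (h.2.2 i hi).2.subset hφ⟩⟩

omit [Fintype F] in
theorem indep_crd (hm : 1 ≤ m) {α : Type} {U : Finset ι} {φ : Finset α} {y : α → ι → Rg F m}
    (κ : GL ι (Rg F m)) (hκ : ∀ a ∉ U, ∀ b ∈ U, (κ : Matrix ι ι (Rg F m)) a b = 0)
    (h : indep U φ fun x => red (y x)) : indep U φ fun x => red (crd κ (y x)) := by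
  refine indep.of_mulVec ((κ : Matrix ι ι (Rg F m)).map (c0 hm))
    (fun a ha b hb => by simp [hκ a ha b hb]) (h.congr fun x _ => ?_)
  rw [← red_mulVec, mulVec_crd]

theorem deg_mulVec {lam : ι → ℤ} {κ : GL ι (Rg F m)} (hκ : κ ∈ Kw F m lam) {y : ι → Rg F m}
    (hy : ∀ a, deg (y a) (lam a)) (a : ι) : deg (((κ : Matrix ι ι (Rg F m)) *ᵥ y) a) (lam a) := by
  simp only [mulVec, dotProduct]
  refine deg_sum _ _ fun b _ => ?_
  simpa using (mem_Kw.mp hκ a b).mul (hy b)

theorem al_inv (hm : 1 ≤ m) (φ : Finset (ι → Rg F m)) (τ : Finset I) (g g' : GL ι (Rg F m))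
    (h : Al W φ τ g) (hg' : g' ∈ GG F m ι) (hr : Rel (cos (KX F m W)) τ g g') : Al W φ τ g' := by
  rw [rel_cos_iff] at hr
  have e : ∀ x, crd g' x = crd (g⁻¹ * g') (crd g x) := fun x => by
    rw [← crd_mul, mul_inv_cancel_left]
  simp only [Al, e]
  refine ⟨hg', indep_crd hm _ (by simp) h.2.1, fun i hi => ⟨fun x hx a => ?_, ?_⟩⟩
  · exact deg_mulVec (Subgroup.inv_mem _ (hr i hi)) ((h.2.2 i hi).1 x hx) a
  · refine indep_crd hm _ (fun a ha b hb => ?_) (h.2.2 i hi).2
    exact (mem_Kw.mp (hr i hi) a b).eq_zero (by simp [ind, ha, hb])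

omit [Fintype F] [Fintype ι] in
theorem deg_single (a₀ a : ι) (c : ℤ) (hc : 0 ≤ c) :
    deg ((Pi.single a₀ 1 : ι → Rg F m) a) c := by
  by_cases h : a = a₀
  · subst h; simpa using deg_one.mono hc
  · simpa [h] using deg_zero _

/-- The extension property of the row complexes. -/
theorem al_ext (hm : 1 ≤ m) (U : Finset ι) (hU : ∀ i, W i ⊆ U) (τ : Finset I)
    (g : GL ι (Rg F m)) (T : Finset (ι → Rg F m)) (hT : T.card < Uᶜ.card)
    [DecidableEq (ι → Rg F m)] :
    ∃ x, x ∉ T ∧ ∀ ρ ⊆ T, Al W ρ τ g → Al W (insert x ρ) τ g := by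
  obtain ⟨a₀, -, hnew⟩ := exists_new U T (fun x => red (crd g x)) hT
  set x₀ : ι → Rg F m := (g : Matrix ι ι (Rg F m)) *ᵥ Pi.single a₀ 1 with hx₀
  have e1 : crd g x₀ = Pi.single a₀ 1 := crd_mulVec _ _
  have e2 : red (crd g x₀) = Pi.single a₀ 1 := by rw [e1, red_single hm]
  have hxT : x₀ ∉ T := by
    intro hx
    refine hnew (fun x => if x = x₀ then 1 else 0) fun a _ => ?_
    rw [Finset.sum_eq_single x₀ (fun x _ hx => by simp [hx]) (fun h => (h hx).elim), e2]
    simp
  refine ⟨x₀, hxT, fun ρ hρ h => ⟨h.1, ?_, fun i hi => ⟨fun x hx a => ?_, ?_⟩⟩⟩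
  · exact indep.insert (empty_subset U) hρ (fun h => hxT (hρ h)) e2 hnew h.2.1
  · rcases mem_insert.mp hx with rfl | hx
    · rw [e1]; exact deg_single _ _ _ (ind_nonneg _ _)
    · exact (h.2.2 i hi).1 x hx a
  · exact indep.insert (hU i) hρ (fun h => hxT (hρ h)) e2 hnew (h.2.2 i hi).2

omit [Fintype F] in
theorem isUnit_of_map (hm : 1 ≤ m) (A : Matrix ι ι (Rg F m)) (h : (A.map (c0 hm)).det ≠ 0) :
    IsUnit A := by
  rw [Matrix.isUnit_iff_isUnit_det]
  refine isUnit_of_co_zero hm ?_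
  rw [← c0_apply hm, RingHom.map_det]
  exact h

omit [Fintype F] in
/-- A unit whose columns in `B` are prescribed, whose columns in `U` are standard, and whose
other columns are constant. -/
theorem exists_unit_cols (hm : 1 ≤ m) (U B : Finset ι) (hUB : Disjoint B U)
    (y : ι → ι → Rg F m) (h : indep U B fun b => red (y b)) :
    ∃ κ : GL ι (Rg F m), (∀ b ∈ B, ∀ a, (κ : Matrix ι ι (Rg F m)) a b = y b a) ∧
      (∀ b ∈ U, ∀ a, (κ : Matrix ι ι (Rg F m)) a b = (1 : Matrix ι ι (Rg F m)) a b) ∧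
      ∀ b ∉ B, ∀ a, deg ((κ : Matrix ι ι (Rg F m)) a b) 0 := by
  let w : ι → ι → F := fun b => if b ∈ B then red (y b) else Pi.single b 1
  have hw : indep ∅ (B ∪ U) w := by
    intro c hc
    have hB : ∀ b ∈ B, c b = 0 := h c fun a ha => by
      have := hc a (by simp)
      rw [Finset.sum_union hUB, Finset.sum_eq_zero (s := U), add_zero] at this
      · rw [← this]
        exact Finset.sum_congr rfl fun b hb => by simp [w, hb]
      · intro b hb
        have h1 : b ∉ B := fun h => disjoint_left.mp hUB h hb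
        have h2 : a ≠ b := fun e => ha (e ▸ hb)
        simp [w, h1, h2]
    intro x hx
    rcases mem_union.mp hx with hx | hx
    · exact hB x hx
    · have := hc x (by simp)
      rw [Finset.sum_union hUB, Finset.sum_eq_zero (s := B) (fun b hb => by simp [hB b hb]),
        zero_add, Finset.sum_eq_single x] at this
      · have h1 : x ∉ B := fun h => disjoint_left.mp hUB h hx
        simpa [w, h1] using this
      · intro b hb hbx
        have h1 : b ∉ B := fun h => disjoint_left.mp hUB h hb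
        simp [w, h1, hbx.symm]
      · intro h; exact (h hx).elim
  obtain ⟨A, hA, hA'⟩ := exists_unit_extend _ (B ∪ U) w rfl hw
  let κ₀ : Matrix ι ι (Rg F m) := fun a b =>
    if b ∈ B then y b a else algebraMap F (Rg F m) (A a b)
  have hmap : κ₀.map (c0 hm) = A := by
    ext a b
    rw [Matrix.map_apply, c0_apply]
    by_cases hb : b ∈ B
    · simp only [κ₀, hb, hA' b (mem_union_left _ hb), w, red, if_true]
    · simp only [κ₀, hb, co_zero_algebraMap hm, if_false]
  obtain ⟨κ, hκ⟩ := isUnit_of_map hm κ₀ (by rwa [hmap])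
  refine ⟨κ, fun b hb a => by simp [hκ, κ₀, hb], fun b hb a => ?_, fun b hb a => ?_⟩
  · have h1 : b ∉ B := fun h => disjoint_left.mp hUB h hb
    simp only [hκ, κ₀, h1, if_false, hA' b (mem_union_right _ hb), w]
    by_cases e : a = b
    · subst e; simp
    · simp [e]
  · simp only [hκ, κ₀, hb, if_false]
    exact deg_algebraMap _

omit [Fintype F] [Fintype ι] [DecidableEq ι] in
theorem indep_reindex {α : Type} {U B : Finset ι} {φ : Finset α} {β : ι → α}
    (hβ : Set.BijOn β (B : Set ι) (φ : Set α)) {y : α → ι → F} :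
    indep U φ y ↔ indep U B fun b => y (β b) := by
  classical
  have hsum : ∀ f : α → F, ∑ b ∈ B, f (β b) = ∑ x ∈ φ, f x := fun f =>
    Finset.sum_nbij β (fun b hb => hβ.mapsTo hb) hβ.injOn hβ.surjOn fun _ _ => rfl
  constructor
  · intro h c hc b hb
    have : Nonempty ι := ⟨b⟩
    have hinv : ∀ b ∈ B, Function.invFunOn β (B : Set ι) (β b) = b := fun b hb =>
      hβ.injOn.leftInvOn_invFunOn hb
    have := h (fun x => c (Function.invFunOn β (B : Set ι) x)) (fun a ha => by
      rw [← hsum, ← hc a ha]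
      exact Finset.sum_congr rfl fun b hb => by rw [hinv b hb]) (β b) (hβ.mapsTo hb)
    rwa [hinv b hb] at this
  · intro h c hc x hx
    obtain ⟨b, hb, rfl⟩ := hβ.surjOn hx
    exact h (fun b => c (β b)) (fun a ha => by
      rw [← hc a ha]; exact hsum fun x => c x * y x a) b hb

/-- Transitivity of the face stabilisers on allowed frames. -/
theorem al_trans (hm : 1 ≤ m) {D : ℕ} {W : Fin (D + 1) → Finset ι} (hW : Monotone W)
    (B : Finset ι) (hBW : Disjoint B (W (Fin.last D))) (b₁ : ι) (hb₁ : b₁ ∉ B)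
    (φ : Finset (ι → Rg F m)) (β : ι → ι → Rg F m)
    (hβ : Set.BijOn β (B : Set ι) (φ : Set (ι → Rg F m))) (τ : Finset (Fin (D + 1)))
    (g : GL ι (Rg F m)) (h : Al W φ τ g) :
    ∃ κ ∈ GG F m ι, (∀ i ∈ τ, κ ∈ KX F m W i) ∧
      ∀ b ∈ B, ∀ a, (κ : Matrix ι ι (Rg F m)) a b = crd g (β b) a := by
  rcases τ.eq_empty_or_nonempty with rfl | hτ
  · obtain ⟨κ, h1, -, -⟩ := exists_unit_cols hm ∅ B (disjoint_empty_right _)
      (fun b => crd g (β b)) ((indep_reindex hβ).mp h.2.1)
    obtain ⟨u, hu⟩ := (Matrix.isUnit_iff_isUnit_det _).mp κ.isUnit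
    have hd : (diagonal (Function.update (1 : ι → Rg F m) b₁ (↑u⁻¹))).det = ↑u⁻¹ := by
      rw [det_diagonal, Finset.prod_update_of_mem (mem_univ _)]
      simp
    obtain ⟨δ, hδ⟩ := (Matrix.isUnit_iff_isUnit_det _).mpr (hd ▸ u⁻¹.isUnit)
    refine ⟨κ * δ, ?_, by simp, fun b hb a => ?_⟩
    · rw [mem_GG, Units.val_mul, det_mul, hδ, hd, ← hu, Units.mul_inv]
      exact deg_one
    · have : b ≠ b₁ := fun e => hb₁ (e ▸ hb)
      rw [Units.val_mul, hδ, mul_diagonal, Function.update_of_ne this, h1 b hb]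
      simp
  · set i₁ := τ.max' hτ with hi₁
    have hi₁τ : i₁ ∈ τ := τ.max'_mem hτ
    have hBi : ∀ i, Disjoint B (W i) := fun i => hBW.mono_right (hW (Fin.le_last i))
    obtain ⟨κ, h1, h2, h3⟩ := exists_unit_cols hm (W i₁) B (hBi i₁)
      (fun b => crd g (β b)) ((indep_reindex hβ).mp (h.2.2 i₁ hi₁τ).2)
    have hK : ∀ i ∈ τ, κ ∈ KX F m W i := by
      intro i hi
      refine mem_Kw.mpr fun a b => ?_
      by_cases hb : b ∈ B
      · have : b ∉ W i := disjoint_left.mp (hBi i) hb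
        rw [h1 b hb]
        simpa [ind, this] using (h.2.2 i hi).1 _ (hβ.mapsTo hb) a
      by_cases hbU : b ∈ W i₁
      · rw [h2 b hbU]
        exact deg_one_apply a b _ fun e => by simp [e]
      · have : b ∉ W i := fun h => hbU (hW (τ.le_max' i hi) h)
        refine (h3 b hb a).mono ?_
        have := ind_nonneg (W i) a
        simpa [ind, *] using this
    exact ⟨κ, Kw_le_GG _ (hK i₁ hi₁τ), hK, h1⟩

/-- The subcomplex of an allowed frame is a translate of the complex of `Hp B`. -/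
theorem al_param (hm : 1 ≤ m) {D : ℕ} {W : Fin (D + 1) → Finset ι} (hW : Monotone W)
    (B : Finset ι) (hBW : Disjoint B (W (Fin.last D))) (b₁ : ι) (hb₁ : b₁ ∉ B)
    (φ : Finset (ι → Rg F m)) (hcard : B.card = φ.card) (g₁ : GL ι (Rg F m))
    (h₁ : Al W φ ∅ g₁) :
    ∃ γ ∈ GG F m ι, (∀ τ h, h ∈ Hp F m B → Al W φ τ (γ * h)) ∧
      ∀ τ g, Al W φ τ g → ∃ h ∈ Hp F m B, Rel (cos (KX F m W)) τ g (γ * h) := by
  obtain ⟨β, hβ⟩ : ∃ β : ι → ι → Rg F m, Set.BijOn β (B : Set ι) (φ : Set (ι → Rg F m)) := by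
    let e : B ≃ φ := Finset.equivOfCardEq hcard
    refine ⟨fun a => if h : a ∈ B then (e ⟨a, h⟩).1 else 0, fun a ha => ?_,
      fun a ha a' ha' h => ?_, fun x hx => ?_⟩
    · have ha' : a ∈ B := ha
      simp [ha']
    · have h1 : a ∈ B := ha
      have h2 : a' ∈ B := ha'
      simp only [h1, h2, dif_pos] at h
      exact congrArg Subtype.val (e.injective (Subtype.ext h))
    · exact ⟨(e.symm ⟨x, hx⟩).1, (e.symm ⟨x, hx⟩).2, by simp⟩
  have hcol : ∀ (g κ : GL ι (Rg F m)),
      (∀ b ∈ B, ∀ a, (κ : Matrix ι ι (Rg F m)) a b = crd g (β b) a) →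
      ∀ b ∈ B, crd (g * κ) (β b) = Pi.single b 1 := by
    intro g κ hκ b hb
    rw [crd_mul, ← crd_mulVec κ (Pi.single b 1)]
    congr 1
    ext a
    rw [← hκ b hb a]
    simp
  obtain ⟨κ₁, hκ₁, -, hκ₁'⟩ := al_trans hm hW B hBW b₁ hb₁ φ β hβ ∅ g₁ h₁
  have hγ := hcol g₁ κ₁ hκ₁'
  refine ⟨g₁ * κ₁, Subgroup.mul_mem _ h₁.1 hκ₁, fun τ h hh => ?_, fun τ g hg => ?_⟩
  · have hcrd : ∀ b ∈ B, ∀ a, crd (g₁ * κ₁ * h) (β b) a =
        ((h⁻¹ : GL ι (Rg F m)) : Matrix ι ι (Rg F m)) a b := by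
      intro b hb a
      rw [crd_mul, hγ b hb, crd]
      simp
    have hinv := (mem_Hp.mp (Subgroup.inv_mem _ hh)).2
    have h0 : indep ∅ B fun b => red (crd (g₁ * κ₁ * h) (β b)) := by
      have : indep ∅ B fun b => red (Pi.single b 1 : ι → Rg F m) := by
        intro c hc b hb
        have := hc b (by simp)
        rw [Finset.sum_eq_single b] at this
        · simpa [red_single hm] using this
        · intro x _ hx; simp [red_single hm, hx.symm]
        · intro h; exact (h hb).elim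
      exact (indep_crd hm h (by simp) this).congr fun b hb => by rw [crd_mul, hγ b hb]
    refine ⟨Subgroup.mul_mem _ (Subgroup.mul_mem _ h₁.1 hκ₁) (mem_Hp.mp hh).1,
      (indep_reindex hβ).mpr h0, fun i _ => ⟨fun x hx a => ?_, (indep_reindex hβ).mpr ?_⟩⟩
    · obtain ⟨b, hb, rfl⟩ := hβ.surjOn hx
      rw [hcrd b hb]
      refine (hinv a b hb).mono ?_
      have := ind_nonneg (W i) a
      split_ifs <;> omega
    · intro c hc
      refine h0 c fun a _ => ?_
      by_cases ha : a ∈ W i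
      · have haB : a ∉ B := fun h => disjoint_left.mp hBW h (hW (Fin.le_last i) ha)
        refine Finset.sum_eq_zero fun b hb => ?_
        have := (hinv a b hb).eq_zero (by simp [haB])
        simp only [red, hcrd b hb, this, map_zero, mul_zero]
      · exact hc a ha
  · obtain ⟨κ, hκ, hκ', hκ''⟩ := al_trans hm hW B hBW b₁ hb₁ φ β hβ τ g hg
    refine ⟨(g₁ * κ₁)⁻¹ * (g * κ), mem_Hp.mpr ⟨Subgroup.mul_mem _
      (Subgroup.inv_mem _ (Subgroup.mul_mem _ h₁.1 hκ₁)) (Subgroup.mul_mem _ hg.1 hκ),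
      fun a b hb => ?_⟩, ?_⟩
    · have e1 : ((g * κ : GL ι (Rg F m)) : Matrix ι ι (Rg F m)) *ᵥ Pi.single b 1 = β b := by
        rw [← hcol g κ hκ'' b hb, mulVec_crd]
      have e2 : (((g₁ * κ₁)⁻¹ * (g * κ) : GL ι (Rg F m)) : Matrix ι ι (Rg F m)) *ᵥ
          Pi.single b 1 = Pi.single b 1 := by
        rw [Units.val_mul, ← mulVec_mulVec, e1]
        exact hγ b hb
      have e3 := congrFun e2 a
      simp only [mulVec_single_one, col_apply] at e3
      rw [e3]
      by_cases e : a = b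
      · subst e; simpa [hb] using deg_one
      · simpa [e] using deg_zero _
    · rw [rel_cos_iff]
      intro i hi
      simpa [mul_assoc] using hκ' i hi

end Vale.Agent.P067
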