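import Mathlib

/-! `SL_n` of a local ring is generated by the transvections in one row and one column. -/

namespace Vale.Agent.P067

open Finset Matrix

variable {R : Type} [CommRing R] {ι : Type} [Fintype ι] [DecidableEq ι]

/-- A transvection as a unit. -/
def tv (a b : ι) (h : a ≠ b) (c : R) : GL ι R where
  val := transvection a b c
  inv := transvection a b (-c)
  val_inv := by rw [transvection_mul_transvection_same _ _ h]; simp
  inv_val := by rw [transvection_mul_transvection_same _ _ h]; simp

@[simp] theorem tv_val (a b : ι) (h : a ≠ b) (c : R) :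
    (tv a b h c : Matrix ι ι R) = transvection a b c := rfl

theorem tv_comm (a b z : ι) (hab : a ≠ b) (haz : a ≠ z) (hzb : z ≠ b) (c : R) :
    tv a b hab c = tv a z haz c * tv z b hzb 1 * tv a z haz (-c) * tv z b hzb (-1) := by
  ext x y
  simp only [Units.val_mul, tv_val, transvection, Matrix.add_mul, Matrix.mul_add, Matrix.one_mul,
    Matrix.mul_one, single_mul_single_same, single_mul_single_of_ne _ _ _ _ hab.symm,
    single_mul_single_of_ne _ _ _ _ haz.symm, single_mul_single_of_ne _ _ _ _ hzb.symm,
    Matrix.zero_mul, Matrix.add_apply, single_apply, Matrix.zero_apply]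
  split_ifs <;> ring

section Gen

variable (Sg : Subgroup (GL ι R))

/-- Row operations that add multiples of row `a` to the other rows. -/
theorem exists_col_ops (hT : ∀ a b (h : a ≠ b) (c : R), tv a b h c ∈ Sg) (a : ι) (c : ι → R)
    (s : Finset ι) (hs : a ∉ s) :
    ∃ u ∈ Sg, (u : Matrix ι ι R).det = 1 ∧ ∀ (g : Matrix ι ι R) x y,
      ((u : Matrix ι ι R) * g) x y = g x y + if x ∈ s then c x * g a y else 0 := by
  induction s using Finset.induction_on with
  | empty => exact ⟨1, Sg.one_mem, by simp, by simp⟩
  | insert b s hb ih =>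
    obtain ⟨u, hu, hd, h⟩ := ih fun h => hs (mem_insert_of_mem h)
    have hba : b ≠ a := fun h => hs (h ▸ mem_insert_self _ _)
    have has : a ∉ s := fun h => hs (mem_insert_of_mem h)
    refine ⟨tv b a hba (c b) * u, Sg.mul_mem (hT _ _ _ _) hu, ?_, ?_⟩
    · simp [hd, det_transvection_of_ne _ _ hba]
    · intro g x y
      rw [Units.val_mul, Matrix.mul_assoc, tv_val]
      by_cases hx : x = b
      · subst hx
        rw [transvection_mul_apply_same, h, h]
        simp [hb, has]
      · rw [transvection_mul_apply_of_ne _ _ _ _ hx, h]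
        simp [hx]

/-- Column operations that add multiples of column `a` to the other columns. -/
theorem exists_row_ops (hT : ∀ a b (h : a ≠ b) (c : R), tv a b h c ∈ Sg) (a : ι) (c : ι → R)
    (s : Finset ι) (hs : a ∉ s) :
    ∃ u ∈ Sg, (u : Matrix ι ι R).det = 1 ∧ ∀ (g : Matrix ι ι R) x y,
      (g * (u : Matrix ι ι R)) x y = g x y + if y ∈ s then c y * g x a else 0 := by
  induction s using Finset.induction_on with
  | empty => exact ⟨1, Sg.one_mem, by simp, by simp⟩
  | insert b s hb ih =>
    obtain ⟨u, hu, hd, h⟩ := ih fun h => hs (mem_insert_of_mem h)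
    have hba : a ≠ b := fun h => hs (h ▸ mem_insert_self _ _)
    have has : a ∉ s := fun h => hs (mem_insert_of_mem h)
    refine ⟨u * tv a b hba (c b), Sg.mul_mem hu (hT _ _ _ _), ?_, ?_⟩
    · simp [hd, det_transvection_of_ne _ _ hba]
    · intro g x y
      rw [Units.val_mul, ← Matrix.mul_assoc, tv_val]
      by_cases hy : y = b
      · subst hy
        rw [mul_transvection_apply_same, h, h]
        simp [hb, has]
      · rw [mul_transvection_apply_of_ne _ _ _ _ hy, h]
        simp [hy]

/-- Rows and columns in `s` are those of the identity. -/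
def Done (s : Finset ι) (g : Matrix ι ι R) : Prop :=
  ∀ a ∈ s, ∀ b, g a b = (1 : Matrix ι ι R) a b ∧ g b a = (1 : Matrix ι ι R) b a

theorem step_one (hT : ∀ a b (h : a ≠ b) (c : R), tv a b h c ∈ Sg) (s : Finset ι) (a : ι)
    (ha : a ∉ s) (g : GL ι R) (hd : (g : Matrix ι ι R).det = 1) (hs : Done s (g : Matrix ι ι R))
    (h1 : (g : Matrix ι ι R) a a = 1)
    (ih : ∀ g' : GL ι R, (g' : Matrix ι ι R).det = 1 → Done (insert a s) (g' : Matrix ι ι R) →
      g' ∈ Sg) : g ∈ Sg := by
  obtain ⟨u, hu, hud, hu'⟩ := exists_col_ops Sg hT a (fun x => -(g : Matrix ι ι R) x a)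
    (univ.erase a) (by simp)
  obtain ⟨w, hw, hwd, hw'⟩ := exists_row_ops Sg hT a (fun y => -(g : Matrix ι ι R) a y)
    (univ.erase a) (by simp)
  have key : u * g * w ∈ Sg := by
    refine ih _ (by simp [hud, hwd, hd]) ?_
    intro x hx y
    simp only [Units.val_mul, hw', hu']
    rcases mem_insert.mp hx with rfl | hx
    · by_cases hy : y = x
      · subst hy; simp [h1]
      · simp [hy, h1, Ne.symm hy]
    · have hxa : x ≠ a := fun h => ha (h ▸ hx)
      have e1 : (g : Matrix ι ι R) x a = 0 := by rw [(hs x hx a).1]; simp [hxa]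
      have e2 : (g : Matrix ι ι R) a x = 0 := by rw [(hs x hx a).2]; simp [hxa.symm]
      simp [e1, e2, (hs x hx y).1, (hs x hx y).2]
  have : g = u⁻¹ * (u * g * w) * w⁻¹ := by group
  rw [this]
  exact Sg.mul_mem (Sg.mul_mem (Sg.inv_mem hu) key) (Sg.inv_mem hw)

theorem done_tv_mul {s : Finset ι} {g : Matrix ι ι R} (hs : Done s g) {a b : ι} (ha : a ∉ s)
    (hb : b ∉ s) (c : R) : Done s (transvection a b c * g) := by
  intro x hx y
  have hxa : x ≠ a := fun h => ha (h ▸ hx)
  have hxb : b ≠ x := fun h => hb (h ▸ hx)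
  refine ⟨by rw [transvection_mul_apply_of_ne _ _ _ _ hxa, (hs x hx y).1], ?_⟩
  by_cases hy : y = a
  · subst hy
    rw [transvection_mul_apply_same, (hs x hx y).2, (hs x hx b).2]
    simp [hxb]
  · rw [transvection_mul_apply_of_ne _ _ _ _ hy, (hs x hx y).2]

theorem step_unit (hT : ∀ a b (h : a ≠ b) (c : R), tv a b h c ∈ Sg) (s : Finset ι) (a : ι)
    (ha : a ∉ s) (g : GL ι R) (hd : (g : Matrix ι ι R).det = 1) (hs : Done s (g : Matrix ι ι R))
    (r : ι) (hr : r ∉ s) (hra : r ≠ a) (h1 : IsUnit ((g : Matrix ι ι R) r a))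
    (ih : ∀ g' : GL ι R, (g' : Matrix ι ι R).det = 1 → Done (insert a s) (g' : Matrix ι ι R) →
      g' ∈ Sg) : g ∈ Sg := by
  obtain ⟨x, hx⟩ := h1.exists_left_inv
  have key : tv a r hra.symm ((1 - (g : Matrix ι ι R) a a) * x) * g ∈ Sg := by
    refine step_one Sg hT s a ha _ ?_ (done_tv_mul hs ha hr _) ?_ ih
    · simp [hd, det_transvection_of_ne _ _ hra.symm]
    · rw [Units.val_mul, tv_val, transvection_mul_apply_same, mul_assoc, hx]
      ring
  exact (Sg.mul_mem_cancel_left (hT _ _ _ _)).mp key

theorem mem_of_det_eq_one {F : Type} [Field F] (c : R →+* F) (hc : ∀ r, c r ≠ 0 → IsUnit r)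
    (z : ι) (h1 : ∀ a (h : a ≠ z) (r : R), tv a z h r ∈ Sg)
    (h2 : ∀ b (h : z ≠ b) (r : R), tv z b h r ∈ Sg) (g : GL ι R)
    (hd : (g : Matrix ι ι R).det = 1) : g ∈ Sg := by
  have hT : ∀ a b (h : a ≠ b) (r : R), tv a b h r ∈ Sg := by
    intro a b h r
    by_cases hb : b = z
    · subst hb; exact h1 a h r
    by_cases ha : a = z
    · subst ha; exact h2 b h r
    rw [tv_comm a b z h ha (Ne.symm hb)]
    exact Sg.mul_mem (Sg.mul_mem (Sg.mul_mem (h1 _ _ _) (h2 _ _ _)) (h1 _ _ _)) (h2 _ _ _)
  have main : ∀ t : Finset ι, z ∉ t → ∀ g : GL ι R, (g : Matrix ι ι R).det = 1 →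
      Done (insert z t)ᶜ (g : Matrix ι ι R) → g ∈ Sg := by
    intro t
    induction t using Finset.induction_on with
    | empty =>
      intro _ g hd hs
      have e1 : (g : Matrix ι ι R) = diagonal (Function.update 1 z ((g : Matrix ι ι R) z z)) := by
        ext x y
        by_cases hx : x = z
        · by_cases hy : y = z
          · subst hx; subst hy; simp
          · rw [(hs y (by simp [hy]) x).2]
            subst hx
            simp [Ne.symm hy]
        · rw [(hs x (by simp [hx]) y).1]
          by_cases hy : x = y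
          · subst hy; simp [hx]
          · simp [hy]
      have e2 : (g : Matrix ι ι R) z z = 1 := by
        rw [e1, det_diagonal, Finset.prod_update_of_mem (mem_univ z)] at hd
        simpa using hd
      have : g = 1 := by
        ext1
        rw [e1, e2]
        simp
      rw [this]
      exact Sg.one_mem
    | insert a t hat ih =>
      intro hz g hd hs
      have haz : a ≠ z := fun h => hz (h ▸ mem_insert_self _ _)
      have hzt : z ∉ t := fun h => hz (mem_insert_of_mem h)
      have ha : a ∉ (insert z (insert a t))ᶜ := by simp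
      have hz' : z ∉ (insert z (insert a t))ᶜ := by simp
      have ih' : ∀ g' : GL ι R, (g' : Matrix ι ι R).det = 1 →
          Done (insert a (insert z (insert a t))ᶜ) (g' : Matrix ι ι R) → g' ∈ Sg := by
        intro g' hd' hs'
        refine ih hzt g' hd' fun x hx => hs' x ?_
        simp only [mem_compl, mem_insert, not_or] at hx ⊢
        tauto
      have hex : ∃ r, c ((g : Matrix ι ι R) r a) ≠ 0 := by
        by_contra hno
        push Not at hno
        have h0 : (c.mapMatrix (g : Matrix ι ι R)).det = 0 :=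
          det_eq_zero_of_column_eq_zero a fun r => by simpa using hno r
        rw [← RingHom.map_det, hd] at h0
        simp at h0
      obtain ⟨r, hr⟩ := hex
      have hrs : r ∉ (insert z (insert a t))ᶜ := by
        intro h
        have hra : r ≠ a := fun e => ha (e ▸ h)
        rw [(hs r h a).1] at hr
        simp [hra] at hr
      by_cases hra : r = a
      · subst hra
        obtain ⟨x, hx⟩ := (hc _ hr).exists_left_inv
        have key : tv z r haz.symm ((1 - (g : Matrix ι ι R) z r) * x) * g ∈ Sg := by
          refine step_unit Sg hT _ r ha _ ?_ (done_tv_mul hs hz' ha _) z hz' haz.symm ?_ ih'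
          · simp [hd, det_transvection_of_ne _ _ haz.symm]
          · rw [Units.val_mul, tv_val, transvection_mul_apply_same, mul_assoc, hx]
            simp
        exact (Sg.mul_mem_cancel_left (hT _ _ _ _)).mp key
      · exact step_unit Sg hT _ a ha g hd hs r hrs hra (hc _ hr) ih'
  refine main (univ.erase z) (by simp) g hd ?_
  intro x hx
  simp at hx

end Gen

end Vale.Agent.P067
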