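import Vale.Agent.P067.Step

/-! Restriction to, and extension from, the complement of a block `B`. -/

namespace Vale.Agent.P067

open Finset Matrix

variable {F : Type} [Field F] [Fintype F] {m : ℕ} {ι : Type} [Fintype ι] [DecidableEq ι]

/-- The index set of the Levi factor. -/
abbrev Off (B : Finset ι) : Type := {a : ι // a ∉ B}

section Ext

variable {R : Type} [CommRing R]

/-- Extension by the identity on `B`. -/
def extM (B : Finset ι) (l : Matrix (Off B) (Off B) R) : Matrix ι ι R := fun a b =>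
  if h : a ∉ B ∧ b ∉ B then l ⟨a, h.1⟩ ⟨b, h.2⟩ else (1 : Matrix ι ι R) a b

/-- Restriction to the complement of `B`. -/
def resM (B : Finset ι) (g : Matrix ι ι R) : Matrix (Off B) (Off B) R := fun a b => g a.1 b.1

omit [Fintype ι] in
theorem extM_off (B : Finset ι) (l : Matrix (Off B) (Off B) R) (a b : Off B) :
    extM B l a.1 b.1 = l a b := by
  simp [extM, a.2, b.2]

omit [Fintype ι] in
theorem extM_left (B : Finset ι) (l : Matrix (Off B) (Off B) R) {a : ι} (ha : a ∈ B) (b : ι) :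
    extM B l a b = (1 : Matrix ι ι R) a b := by
  simp [extM, ha]

omit [Fintype ι] in
theorem extM_right (B : Finset ι) (l : Matrix (Off B) (Off B) R) (a : ι) {b : ι} (hb : b ∈ B) :
    extM B l a b = (1 : Matrix ι ι R) a b := by
  simp [extM, hb]

omit [Fintype ι] in
theorem resM_extM (B : Finset ι) (l : Matrix (Off B) (Off B) R) : resM B (extM B l) = l := by
  ext a b
  exact extM_off B l a b

omit [Fintype ι] in
theorem resM_one (B : Finset ι) : resM B (1 : Matrix ι ι R) = 1 := by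
  ext a b
  simp [resM, Matrix.one_apply, Subtype.ext_iff]

theorem sum_off (B : Finset ι) (f : ι → R) (h : ∀ c ∈ B, f c = 0) :
    ∑ c, f c = ∑ c : Off B, f c.1 := by
  rw [← Finset.sum_subtype Bᶜ (by simp) f]
  refine (Finset.sum_subset (subset_univ _) fun c _ hc => h c (by simpa using hc)).symm

theorem resM_mul (B : Finset ι) (g g' : Matrix ι ι R)
    (h : (∀ a ∉ B, ∀ c ∈ B, g a c = 0) ∨ (∀ c ∈ B, ∀ b ∉ B, g' c b = 0)) :
    resM B (g * g') = resM B g * resM B g' := by
  ext a b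
  simp only [resM, Matrix.mul_apply]
  refine sum_off B _ fun c hc => ?_
  rcases h with h | h
  · rw [h a.1 a.2 c hc, zero_mul]
  · rw [h c hc b.1 b.2, mul_zero]

omit [Fintype ι] in
theorem extM_one (B : Finset ι) : extM B (1 : Matrix (Off B) (Off B) R) = 1 := by
  ext a b
  unfold extM
  split_ifs with h
  · simp [Matrix.one_apply, Subtype.ext_iff]
  · rfl

theorem extM_mul (B : Finset ι) (l l' : Matrix (Off B) (Off B) R) :
    extM B (l * l') = extM B l * extM B l' := by
  ext a b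
  by_cases ha : a ∈ B
  · rw [Matrix.mul_apply, Finset.sum_eq_single a]
    · simp [extM_left B _ ha]
    · intro c _ hc
      simp [extM_left B _ ha, hc.symm]
    · simp
  by_cases hb : b ∈ B
  · rw [Matrix.mul_apply, Finset.sum_eq_single b]
    · simp [extM_right B _ _ hb]
    · intro c _ hc
      simp [extM_right B _ _ hb, hc]
    · simp
  have h := resM_mul B (extM B l) (extM B l') (Or.inl fun x hx c hc => by
    have : x ≠ c := fun e => hx (e ▸ hc)
    simp [extM_right B _ _ hc, this])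
  rw [resM_extM, resM_extM] at h
  have h2 := congrFun (congrFun h ⟨a, ha⟩) ⟨b, hb⟩
  exact (extM_off B (l * l') ⟨a, ha⟩ ⟨b, hb⟩).trans h2.symm

/-- The block embedding of the Levi factor. -/
def emb (B : Finset ι) : GL (Off B) R →* GL ι R where
  toFun l := ⟨extM B l, extM B (l⁻¹ : GL (Off B) R), by rw [← extM_mul]; simp [extM_one],
    by rw [← extM_mul]; simp [extM_one]⟩
  map_one' := Units.ext (extM_one B)
  map_mul' l l' := Units.ext (extM_mul B _ _)

theorem emb_val (B : Finset ι) (l : GL (Off B) R) : (emb B l : Matrix ι ι R) = extM B l := rfl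

theorem det_block (B : Finset ι) (g : Matrix ι ι R)
    (h : (∀ a ∉ B, ∀ c ∈ B, g a c = 0) ∨ (∀ c ∈ B, ∀ b ∉ B, g c b = 0)) :
    g.det = (resM B g).det * (toSquareBlockProp g fun a => ¬ a ∉ B).det := by
  rcases h with h | h
  · exact twoBlockTriangular_det' g (fun a => a ∉ B) fun a ha c hc => h a ha c (by simpa using hc)
  · exact twoBlockTriangular_det g (fun a => a ∉ B) fun c hc b hb => h c (by simpa using hc) b hb

theorem det_extM (B : Finset ι) (l : Matrix (Off B) (Off B) R) : (extM B l).det = l.det := by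
  rw [det_block B _ (Or.inl fun x hx c hc => by
    have : x ≠ c := fun e => hx (e ▸ hc)
    simp [extM_right B _ _ hc, this]), resM_extM]
  have : (toSquareBlockProp (extM B l) fun a => ¬ a ∉ B) = 1 := by
    ext a b
    have ha : a.1 ∈ B := by simpa using a.2
    simp [toSquareBlockProp_def, extM_left B _ ha, Matrix.one_apply, Subtype.ext_iff]
  rw [this, det_one, mul_one]

end Ext

/-- The chain restricted to the complement of `B`. -/
def resW {I : Type} (B : Finset ι) (W : I → Finset ι) : I → Finset (Off B) :=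
  fun i => (W i).subtype fun a => a ∉ B

omit [Fintype ι] in
theorem ind_resW {I : Type} (B : Finset ι) (W : I → Finset ι) (i : I) (a : Off B) :
    ind (resW B W i) a = ind (W i) a.1 := by
  simp [ind, resW]

/-- The properties of `Hp B`, `Hd B` (with top level `κ`) that are used below. -/
structure Good (B : Finset ι) (H : Subgroup (GL ι (Rg F m))) (κ : ℤ) : Prop where
  le : H ≤ GG F m ι
  zero : (∀ g ∈ H, ∀ a ∉ B, ∀ c ∈ B, (g : Matrix ι ι (Rg F m)) a c = 0) ∨
    (∀ g ∈ H, ∀ c ∈ B, ∀ b ∉ B, (g : Matrix ι ι (Rg F m)) c b = 0)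
  const : ∀ g ∈ H, ∀ a ∈ B, ∀ b ∈ B, deg ((g : Matrix ι ι (Rg F m)) a b) 0
  emb : ∀ l ∈ GG F m (Off B), emb B l ∈ H
  top : ∀ g ∈ H, ∀ U : Finset ι,
    (∀ a ∉ B, ∀ b ∉ B, deg ((g : Matrix ι ι (Rg F m)) a b) (ind U a - ind U b)) →
      g ∈ Kw F m (lev B U κ)

theorem emb_mem_GG (B : Finset ι) {l : GL (Off B) (Rg F m)} (hl : l ∈ GG F m (Off B)) :
    emb B l ∈ GG F m ι := by
  rw [mem_GG, emb_val, det_extM]
  exact hl

omit [Fintype F] [Fintype ι] in
theorem deg_one_apply (a b : ι) (c : ℤ) (h : a = b → 0 ≤ c) :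
    deg ((1 : Matrix ι ι (Rg F m)) a b) c := by
  by_cases e : a = b
  · subst e; simpa using deg_one.mono (h rfl)
  · simpa [e] using deg_zero _

omit [Fintype ι] in
theorem ind_le (U : Finset ι) (a : ι) : ind U a ≤ 1 := by
  unfold ind; split_ifs <;> omega

omit [Fintype ι] in
theorem ind_nonneg (U : Finset ι) (a : ι) : 0 ≤ ind U a := by
  unfold ind; split_ifs <;> omega

theorem good_Hp (B : Finset ι) : Good B (Hp F m B) m where
  le := fun _ hg => (mem_Hp.mp hg).1
  zero := Or.inl fun g hg a ha c hc => ((mem_Hp.mp hg).2 a c hc).eq_zero (by simp [ha])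
  const := fun g hg a ha b hb => by simpa [ha] using (mem_Hp.mp hg).2 a b hb
  emb := fun l hl => mem_Hp.mpr ⟨emb_mem_GG B hl, fun a b hb => by
    rw [emb_val, extM_right B _ _ hb]
    exact deg_one_apply a b _ fun e => by simp [e, hb]⟩
  top := fun g hg U h => mem_Kw.mpr fun a b => by
    have h2 := (mem_Hp.mp hg).2
    by_cases ha : a ∈ B <;> by_cases hb : b ∈ B
    · simpa [lev, ha, hb] using h2 a b hb
    · refine deg_top _ ?_
      have := ind_le U b
      simp only [lev, ha, hb, if_true, if_false]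
      omega
    · rw [(h2 a b hb).eq_zero (by simp [ha])]
      exact deg_zero _
    · simpa [lev, ha, hb] using h a ha b hb

theorem good_Hd (B : Finset ι) : Good B (Hd F m B) (-m) where
  le := fun _ hg => (mem_Hd.mp hg).1
  zero := Or.inr fun g hg c hc b hb => ((mem_Hd.mp hg).2 c hc b).eq_zero (by simp [hb])
  const := fun g hg a ha b hb => by simpa [hb] using (mem_Hd.mp hg).2 a ha b
  emb := fun l hl => mem_Hd.mpr ⟨emb_mem_GG B hl, fun a ha b => by
    rw [emb_val, extM_left B _ ha]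
    exact deg_one_apply a b _ fun e => by simp [← e, ha]⟩
  top := fun g hg U h => mem_Kw.mpr fun a b => by
    have h2 := (mem_Hd.mp hg).2
    by_cases ha : a ∈ B <;> by_cases hb : b ∈ B
    · simpa [lev, ha, hb] using h2 a ha b
    · rw [(h2 a ha b).eq_zero (by simp [hb])]
      exact deg_zero _
    · refine deg_top _ ?_
      have := ind_nonneg U a
      simp only [lev, ha, hb, if_true, if_false]
      omega
    · simpa [lev, ha, hb] using h a ha b hb

namespace Good

variable {B : Finset ι} {H : Subgroup (GL ι (Rg F m))} {κ : ℤ}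

theorem res_mul (hH : Good B H κ) {g g' : GL ι (Rg F m)} (hg : g ∈ H) (hg' : g' ∈ H) :
    resM B ((g * g' : GL ι (Rg F m)) : Matrix ι ι (Rg F m)) =
      resM B (g : Matrix ι ι (Rg F m)) * resM B (g' : Matrix ι ι (Rg F m)) := by
  rw [Units.val_mul]
  exact resM_mul B _ _ (hH.zero.imp (fun h => h g hg) fun h => h g' hg')

open Classical in
/-- The projection to the Levi factor. -/
noncomputable def pr (hH : Good B H κ) (g : GL ι (Rg F m)) : GL (Off B) (Rg F m) :=
  if hg : g ∈ H then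
    ⟨resM B (g : Matrix ι ι (Rg F m)), resM B ((g⁻¹ : GL ι (Rg F m)) : Matrix ι ι (Rg F m)),
      by rw [← hH.res_mul hg (H.inv_mem hg)]; simp [resM_one],
      by rw [← hH.res_mul (H.inv_mem hg) hg]; simp [resM_one]⟩
  else 1

theorem pr_val (hH : Good B H κ) {g : GL ι (Rg F m)} (hg : g ∈ H) :
    (hH.pr g : Matrix (Off B) (Off B) (Rg F m)) = resM B (g : Matrix ι ι (Rg F m)) := by
  simp [pr, hg]

theorem pr_mul (hH : Good B H κ) {g g' : GL ι (Rg F m)} (hg : g ∈ H) (hg' : g' ∈ H) :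
    hH.pr (g * g') = hH.pr g * hH.pr g' := by
  ext1
  rw [Units.val_mul, hH.pr_val hg, hH.pr_val hg', hH.pr_val (H.mul_mem hg hg'), hH.res_mul hg hg']

theorem pr_one (hH : Good B H κ) : hH.pr 1 = 1 := by
  ext1
  rw [hH.pr_val H.one_mem]
  exact resM_one B

theorem pr_inv (hH : Good B H κ) {g : GL ι (Rg F m)} (hg : g ∈ H) :
    hH.pr g⁻¹ = (hH.pr g)⁻¹ := by
  rw [eq_inv_iff_mul_eq_one, ← hH.pr_mul (H.inv_mem hg) hg, inv_mul_cancel, hH.pr_one]

theorem pr_emb (hH : Good B H κ) {l : GL (Off B) (Rg F m)} (hl : l ∈ GG F m (Off B)) :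
    hH.pr (Vale.Agent.P067.emb B l) = l := by
  ext1
  rw [hH.pr_val (hH.emb l hl), emb_val, resM_extM]

theorem pr_mem_GG (hm : 1 ≤ m) (hH : Good B H κ) {g : GL ι (Rg F m)} (hg : g ∈ H) :
    hH.pr g ∈ GG F m (Off B) := by
  rw [mem_GG, hH.pr_val hg]
  have h1 := det_block B (g : Matrix ι ι (Rg F m)) (hH.zero.imp (fun h => h g hg) fun h => h g hg)
  set e := (toSquareBlockProp (g : Matrix ι ι (Rg F m)) fun a => ¬ a ∉ B).det with he
  have h2 : deg e 0 := by
    rw [he, Matrix.det_apply]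
    refine deg_sum _ _ fun σ _ => ?_
    have h3 := deg_prod univ
      (fun b => (toSquareBlockProp (g : Matrix ι ι (Rg F m)) fun a => ¬ a ∉ B) (σ b) b)
      (fun _ => 0) fun b _ => hH.const g hg _ (by simpa using (σ b).2) _ (by simpa using b.2)
    rw [Finset.sum_const_zero] at h3
    rcases Int.units_eq_one_or (Equiv.Perm.sign σ) with h | h
    · simpa [h] using h3
    · simpa [h] using h3.neg
  have h3 : IsUnit (g : Matrix ι ι (Rg F m)).det := (Matrix.isUnit_iff_isUnit_det _).mp g.isUnit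
  have h4 : co 0 e ≠ 0 := by
    intro h0
    have h5 := (h3.map (c0 hm)).ne_zero
    rw [h1, map_mul, c0_apply hm e, h0, mul_zero] at h5
    exact h5 rfl
  have h6 : (resM B (g : Matrix ι ι (Rg F m))).det =
      (g : Matrix ι ι (Rg F m)).det * algebraMap F (Rg F m) (co 0 e)⁻¹ := by
    rw [h1, mul_assoc]
    nth_rewrite 1 [h2.eq_algebraMap]
    rw [← map_mul, mul_inv_cancel₀ h4, map_one, mul_one]
  rw [h6]
  simpa using deg.mul (mem_GG.mp (hH.le hg)) (deg_algebraMap _)

theorem pr_mem_KX {I : Type} (hH : Good B H κ) (W : I → Finset ι) (i : I) {g : GL ι (Rg F m)}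
    (hg : g ∈ H) (h : g ∈ KX F m W i) : hH.pr g ∈ KX F m (resW B W) i := by
  refine mem_Kw.mpr fun a b => ?_
  rw [hH.pr_val hg, ind_resW, ind_resW]
  exact mem_Kw.mp h a.1 b.1

theorem mem_top (hH : Good B H κ) (U : Finset ι) {g : GL ι (Rg F m)} (hg : g ∈ H)
    (h : hH.pr g = 1) : g ∈ Kw F m (lev B U κ) := by
  refine hH.top g hg U fun a ha b hb => ?_
  have h1 := congrArg Units.val h
  rw [hH.pr_val hg] at h1
  have h2 : (g : Matrix ι ι (Rg F m)) a b = (1 : Matrix ι ι (Rg F m)) a b := by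
    have := congrFun (congrFun h1 ⟨a, ha⟩) ⟨b, hb⟩
    simpa [resM, Matrix.one_apply, Subtype.ext_iff] using this
  rw [h2]
  exact deg_one_apply a b _ fun e => by simp [e]

end Good

theorem emb_mem_KX {I : Type} (B : Finset ι) (W : I → Finset ι) (i : I)
    {l : GL (Off B) (Rg F m)} (h : l ∈ KX F m (resW B W) i) : emb B l ∈ KX F m W i := by
  refine mem_Kw.mpr fun a b => ?_
  rw [emb_val]
  by_cases ha : a ∈ B
  · rw [extM_left B _ ha]
    exact deg_one_apply a b _ fun e => by simp [e]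
  by_cases hb : b ∈ B
  · rw [extM_right B _ _ hb]
    exact deg_one_apply a b _ fun e => by simp [e]
  have := mem_Kw.mp h ⟨a, ha⟩ ⟨b, hb⟩
  rw [ind_resW, ind_resW] at this
  rw [show extM B (l : Matrix (Off B) (Off B) (Rg F m)) a b = _ from
    extM_off B _ ⟨a, ha⟩ ⟨b, hb⟩]
  exact this

section Consequences

variable {I : Type} [Fintype I] [DecidableEq I] {B : Finset ι} {H : Subgroup (GL ι (Rg F m))}
  {κ : ℤ} {W : I → Finset ι} {k : ℕ}

omit [DecidableEq I] in
theorem inv_emb (hH : Good B H κ) {γ : GL ι (Rg F m)} (hγ : γ ∈ H) {j : ℕ}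
    {h : Coch I (GL ι (Rg F m))} (hh : Inv (cos (KX F m W)) (dom (fin H) univ) j h) :
    Inv (cos (KX F m (resW B W))) (dom (fin (GG F m (Off B))) univ) j
      fun τ l => h τ (γ * emb B l) := by
  intro τ l l' hτ h1 h2 hr
  refine hh τ _ _ hτ ⟨subset_univ _, mem_fin.mpr (H.mul_mem hγ (hH.emb l (mem_fin.mp h1.2)))⟩
    ⟨subset_univ _, mem_fin.mpr (H.mul_mem hγ (hH.emb l' (mem_fin.mp h2.2)))⟩ ?_
  rw [rel_cos_iff] at hr ⊢
  intro i hi
  have := emb_mem_KX B W i (hr i hi)
  simpa [mul_assoc] using this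

/-- A cocycle on `H` that is a coboundary on the Levi factor is a coboundary. -/
theorem cobdy_of_levi (hm : 1 ≤ m) (hH : Good B H κ)
    (hred : Red (cos (KX F m W)) (cos fun i => Kw F m (lev B (W i) κ)) (dom (fin H) univ) k)
    (f : Coch I (GL ι (Rg F m))) (hf : Inv (cos (KX F m W)) (dom (fin H) univ) k f)
    (hc : Cocyc (dom (fin H) univ) k f)
    (hL : Cobdy (cos (KX F m (resW B W))) (dom (fin (GG F m (Off B))) univ) k
      fun τ l => f τ (emb B l)) :
    Cobdy (cos (KX F m W)) (dom (fin H) univ) k f := by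
  obtain ⟨h, f', hh, hf', hE⟩ := hred f hf hc
  obtain ⟨ψ, hψ, hψE⟩ := hL
  have hh' := inv_emb hH H.one_mem hh
  simp only [one_mul] at hh'
  have hpull : ∀ {χ : Coch I (GL (Off B) (Rg F m))},
      Inv (cos (KX F m (resW B W))) (dom (fin (GG F m (Off B))) univ) (k - 1) χ →
      Inv (cos (KX F m W)) (dom (fin H) univ) (k - 1) fun τ g => χ τ (hH.pr g) := by
    intro χ hχ τ g g' hτ h1 h2 hr
    have hg := mem_fin.mp h1.2
    have hg' := mem_fin.mp h2.2
    refine hχ τ _ _ hτ ⟨subset_univ _, mem_fin.mpr (hH.pr_mem_GG hm hg)⟩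
      ⟨subset_univ _, mem_fin.mpr (hH.pr_mem_GG hm hg')⟩ ?_
    rw [rel_cos_iff] at hr ⊢
    intro i hi
    rw [← hH.pr_inv hg, ← hH.pr_mul (H.inv_mem hg) hg']
    exact hH.pr_mem_KX W i (H.mul_mem (H.inv_mem hg) hg') (hr i hi)
  refine ⟨_, (hpull (hψ.add hh')).add hh, fun τ g hτ hD => ?_⟩
  have hg := mem_fin.mp hD.2
  have hl := hH.pr_mem_GG hm hg
  have hD' : dom (fin H) univ τ (emb B (hH.pr g)) := ⟨subset_univ _, mem_fin.mpr (hH.emb _ hl)⟩
  have e1 : f' τ g = f' τ (emb B (hH.pr g)) := by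
    refine hf' τ _ _ hτ hD hD' ?_
    rw [rel_cos_iff]
    intro i _
    refine hH.mem_top _ (H.mul_mem (H.inv_mem hg) (hH.emb _ hl)) ?_
    rw [hH.pr_mul (H.inv_mem hg) (hH.emb _ hl), hH.pr_inv hg, hH.pr_emb hl, inv_mul_cancel]
  have e2 := hE τ g hτ hD
  have e3 := hE τ _ hτ hD'
  have e4 := hψE τ (hH.pr g) hτ ⟨subset_univ _, mem_fin.mpr hl⟩
  simp only [Pi.add_apply, dd, Finset.sum_add_distrib] at e2 e3 e4 ⊢
  rw [e2, e1, ← e4, e3, add_assoc (f' τ _), CharTwo.add_self_eq_zero, add_zero]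

/-- Exactness on the Levi factor gives exactness on `H`. -/
theorem exact_of_levi (hm : 1 ≤ m) (hH : Good B H κ)
    (hred : Red (cos (KX F m W)) (cos fun i => Kw F m (lev B (W i) κ)) (dom (fin H) univ) k)
    (hL : Exact (cos (KX F m (resW B W))) (dom (fin (GG F m (Off B))) univ) k) :
    Exact (cos (KX F m W)) (dom (fin H) univ) k := by
  intro f hf hc
  refine cobdy_of_levi hm hH hred f hf hc (hL _ ?_ ?_)
  · simpa using inv_emb hH H.one_mem hf
  · intro τ l hτ hD
    exact hc τ (emb B l) hτ ⟨subset_univ _, mem_fin.mpr (hH.emb l (mem_fin.mp hD.2))⟩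

/-- The unipotent radical acts trivially on the restriction to the Levi factor. -/
theorem cobdy_radical (hH : Good B H κ)
    (hred : Red (cos (KX F m W)) (cos fun i => Kw F m (lev B (W i) κ)) (dom (fin H) univ) k)
    (f : Coch I (GL ι (Rg F m))) (hf : Inv (cos (KX F m W)) (dom (fin H) univ) k f)
    (hc : Cocyc (dom (fin H) univ) k f) {γ : GL ι (Rg F m)} (hγ : γ ∈ H) (h1 : hH.pr γ = 1) :
    Cobdy (cos (KX F m (resW B W))) (dom (fin (GG F m (Off B))) univ) k
      fun τ l => f τ (γ * emb B l) + f τ (emb B l) := by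
  obtain ⟨h, f', hh, hf', hE⟩ := hred f hf hc
  have hh' := inv_emb hH H.one_mem hh
  simp only [one_mul] at hh'
  refine ⟨_, (inv_emb hH hγ hh).add hh', fun τ l hτ hD => ?_⟩
  have hl := mem_fin.mp hD.2
  have m1 := hH.emb l hl
  have m2 := H.mul_mem hγ m1
  have hD1 : dom (fin H) univ τ (emb B l) := ⟨subset_univ _, mem_fin.mpr m1⟩
  have hD2 : dom (fin H) univ τ (γ * emb B l) := ⟨subset_univ _, mem_fin.mpr m2⟩
  have e1 : f' τ (γ * emb B l) = f' τ (emb B l) := by
    refine hf' τ _ _ hτ hD2 hD1 ?_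
    rw [rel_cos_iff]
    intro i _
    refine hH.mem_top _ (H.mul_mem (H.inv_mem m2) m1) ?_
    rw [hH.pr_mul (H.inv_mem m2) m1, hH.pr_inv m2, hH.pr_mul hγ m1, h1, one_mul, inv_mul_cancel]
  have e2 := hE τ _ hτ hD1
  have e3 := hE τ _ hτ hD2
  simp only [Pi.add_apply, dd, Finset.sum_add_distrib] at e2 e3 ⊢
  rw [e2, e3, e1, add_add_add_comm, CharTwo.add_self_eq_zero, zero_add]

end Consequences

end Vale.Agent.P067
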