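import Vale.Agent.P067.VFrame
import Vale.Agent.P067.VGen
import Vale.Agent.P067.Fill

/-! Vanishing of the cohomology of the coset complex in the stable range. -/

namespace Vale.Agent.P067

open Finset Matrix

section Formal

variable {I Ω V : Type} [DecidableEq I]

theorem Cobdy.add {v : I → Ω → V} {D : Finset I → Ω → Prop} {k : ℕ} {f g : Coch I Ω}
    (hf : Cobdy v D k f) (hg : Cobdy v D k g) : Cobdy v D k (f + g) := by
  obtain ⟨h, hh, hE⟩ := hf
  obtain ⟨h', hh', hE'⟩ := hg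
  refine ⟨h + h', hh.add hh', fun τ ω hτ hD => ?_⟩
  rw [dd_add]
  simp only [Pi.add_apply]
  rw [hE τ ω hτ hD, hE' τ ω hτ hD]

theorem Cobdy.zero (v : I → Ω → V) (D : Finset I → Ω → Prop) (k : ℕ) :
    Cobdy v D k (0 : Coch I Ω) :=
  ⟨0, Inv.zero v D _, fun _ _ _ _ => by rw [dd_zero]⟩

theorem Cobdy.sum {α : Type} {v : I → Ω → V} {D : Finset I → Ω → Prop} {k : ℕ} (s : Finset α)
    (f : α → Coch I Ω) (h : ∀ x ∈ s, Cobdy v D k (f x)) : Cobdy v D k (∑ x ∈ s, f x) :=
  Finset.sum_induction f _ (fun _ _ => Cobdy.add) (Cobdy.zero v D k) h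

theorem Cobdy.congr {v : I → Ω → V} {D : Finset I → Ω → Prop} {k : ℕ} {f g : Coch I Ω}
    (hf : Cobdy v D k f) (h : EqOn D k g f) : Cobdy v D k g := by
  obtain ⟨h', hh, hE⟩ := hf
  exact ⟨h', hh, fun τ ω hτ hD => (h τ ω hτ hD).trans (hE τ ω hτ hD)⟩

theorem exact_zero [Fintype I] (v : I → Ω → V) (S : Finset Ω) (i : I) :
    Exact v (dom S univ) 0 := by
  intro f _ hc
  refine ⟨0, Inv.zero _ _ _, fun τ ω hτ hD => ?_⟩
  rw [Finset.card_eq_zero] at hτ
  subst hτ
  have := hc {i} ω (by simp) ⟨subset_univ _, hD.2⟩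
  simpa [dd] using this

variable {Γ : Type} [Group Γ] [Finite Γ] [Fintype I]

/-- Left translation of a cochain. -/
def sh (γ : Γ) (f : Coch I Γ) : Coch I Γ := fun τ g => f τ (γ * g)

omit [DecidableEq I] [Finite Γ] [Fintype I] in
theorem sh_one (f : Coch I Γ) : sh 1 f = f := by
  funext τ g
  simp [sh]

omit [DecidableEq I] in
theorem Inv.sh {K : I → Subgroup Γ} {G H : Subgroup Γ} (hH : H ≤ G) {k : ℕ} {f : Coch I Γ}
    (hf : Inv (cos K) (dom (fin G) univ) k f) {γ : Γ} (hγ : γ ∈ G) :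
    Inv (cos K) (dom (fin H) univ) k (sh γ f) := by
  intro τ g g' hτ h1 h2 hr
  refine hf τ _ _ hτ ⟨subset_univ _, mem_fin.mpr (G.mul_mem hγ (hH (mem_fin.mp h1.2)))⟩
    ⟨subset_univ _, mem_fin.mpr (G.mul_mem hγ (hH (mem_fin.mp h2.2)))⟩ ?_
  rw [rel_cos_iff] at hr ⊢
  intro i hi
  simpa [mul_assoc] using hr i hi

theorem Cocyc.sh {G H : Subgroup Γ} (hH : H ≤ G) {k : ℕ} {f : Coch I Γ}
    (hf : Cocyc (dom (fin G) univ) k f) {γ : Γ} (hγ : γ ∈ G) :
    Cocyc (dom (fin H) univ) k (sh γ f) := fun τ g hτ h1 =>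
  hf τ (γ * g) hτ ⟨subset_univ _, mem_fin.mpr (G.mul_mem hγ (hH (mem_fin.mp h1.2)))⟩

omit [Group Γ] [Finite Γ] [Fintype I] in
theorem Cocyc.add {D : Finset I → Γ → Prop} {k : ℕ} {f g : Coch I Γ} (hf : Cocyc D k f)
    (hg : Cocyc D k g) : Cocyc D k (f + g) := by
  intro τ ω hτ hD
  rw [dd_add]
  simp only [Pi.add_apply]
  rw [hf τ ω hτ hD, hg τ ω hτ hD]
  simp

end Formal

variable {F : Type} [Field F] [Fintype F] {m : ℕ} {ι : Type} [Fintype ι] [DecidableEq ι]

section Sigma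

variable {I : Type} [Fintype I] [DecidableEq I]

/-- The elements that act trivially on restrictions of classes to the Levi factor. -/
noncomputable def Sig (W : I → Finset ι) (B : Finset ι) (k : ℕ) : Subgroup (GL ι (Rg F m)) :=
  subgroupOfFinite
    { carrier := {γ | γ ∈ GG F m ι ∧ ∀ f : Coch I (GL ι (Rg F m)),
        Inv (cos (KX F m W)) (dom (fin (GG F m ι)) univ) k f →
        Cocyc (dom (fin (GG F m ι)) univ) k f →
        Cobdy (cos (KX F m (resW B W))) (dom (fin (GG F m (Off B))) univ) k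
          fun τ l => f τ (γ * emb B l) + f τ (emb B l)}
      one_mem' := ⟨Subgroup.one_mem _, fun f _ _ => (Cobdy.zero _ _ _).congr fun τ l _ _ => by
        simp [CharTwo.add_self_eq_zero]⟩
      mul_mem' := by
        rintro γ γ' ⟨h1, h2⟩ ⟨h1', h2'⟩
        refine ⟨Subgroup.mul_mem _ h1 h1', fun f hf hc => ?_⟩
        refine ((h2' (sh γ f) (hf.sh le_rfl h1) (hc.sh le_rfl h1)).add (h2 f hf hc)).congr
          fun τ l _ _ => ?_
        simp only [sh, Pi.add_apply, mul_assoc]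
        rw [add_assoc, ← add_assoc (f τ (γ * emb B l)), CharTwo.add_self_eq_zero, zero_add] }

theorem mem_Sig_of_radical {W : I → Finset ι} {B : Finset ι} {k : ℕ}
    {H : Subgroup (GL ι (Rg F m))} {κ : ℤ} (hH : Good B H κ)
    (hred : Red (cos (KX F m W)) (cos fun i => Kw F m (lev B (W i) κ)) (dom (fin H) univ) k)
    {γ : GL ι (Rg F m)} (hγ : γ ∈ H) (h1 : resM B (γ : Matrix ι ι (Rg F m)) = 1) :
    γ ∈ Sig W B k := by
  refine ⟨hH.le hγ, fun f hf hc => cobdy_radical hH hred f ?_ ?_ hγ ?_⟩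
  · simpa [sh_one] using hf.sh hH.le (Subgroup.one_mem _)
  · simpa [sh_one] using hc.sh hH.le (Subgroup.one_mem _)
  · ext1
    rw [hH.pr_val hγ, h1, Units.val_one]

theorem tv_mem_GG (a b : ι) (h : a ≠ b) (r : Rg F m) : tv a b h r ∈ GG F m ι := by
  rw [mem_GG, tv_val, det_transvection_of_ne _ _ h]
  exact deg_one

theorem mem_Sig (hm : 1 ≤ m) {W : I → Finset ι} (z : ι) {k : ℕ}
    (hp : Red (cos (KX F m W)) (cos fun i => Kw F m (lev {z} (W i) m))
      (dom (fin (Hp F m {z})) univ) k)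
    (hd : Red (cos (KX F m W)) (cos fun i => Kw F m (lev {z} (W i) (-m)))
      (dom (fin (Hd F m {z})) univ) k)
    (γ : GL ι (Rg F m)) (hγ : (γ : Matrix ι ι (Rg F m)).det = 1) : γ ∈ Sig W {z} k := by
  refine mem_of_det_eq_one _ (c0 hm) (fun r hr => isUnit_of_co_zero hm hr) z
    (fun a h r => ?_) (fun b h r => ?_) γ hγ
  · refine mem_Sig_of_radical (good_Hd _) hd (mem_Hd.mpr ⟨tv_mem_GG _ _ _ _, fun x hx y => ?_⟩) ?_
    · rw [mem_singleton] at hx
      subst hx
      have : (tv a x h r : Matrix ι ι (Rg F m)) x y = (1 : Matrix ι ι (Rg F m)) x y := by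
        simp [transvection, h]
      rw [this]
      exact deg_one_apply _ _ _ fun e => by simp [← e]
    · rw [← resM_one {z}]
      ext x y
      have : z ≠ y.1 := fun e => y.2 (by simp [← e])
      simp [resM, transvection, this]
  · refine mem_Sig_of_radical (good_Hp _) hp (mem_Hp.mpr ⟨tv_mem_GG _ _ _ _, fun x y hy => ?_⟩) ?_
    · rw [mem_singleton] at hy
      subst hy
      have : (tv y b h r : Matrix ι ι (Rg F m)) x y = (1 : Matrix ι ι (Rg F m)) x y := by
        simp [transvection, h.symm]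
      rw [this]
      exact deg_one_apply _ _ _ fun e => by simp [e]
    · rw [← resM_one {z}]
      ext x y
      have : z ≠ x.1 := fun e => x.2 (by simp [← e])
      simp [resM, transvection, this]

end Sigma

section PGroup

/-- The constant part of a matrix. -/
noncomputable def cst (hm : 1 ≤ m) : GL ι (Rg F m) →* GL ι (Rg F m) :=
  Units.map (RingHom.mapMatrix ((algebraMap F (Rg F m)).comp (c0 hm))).toMonoidHom

omit [Fintype F] in
theorem cst_apply (hm : 1 ≤ m) (g : GL ι (Rg F m)) (a b : ι) :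
    (cst hm g : Matrix ι ι (Rg F m)) a b =
      algebraMap F (Rg F m) (co 0 ((g : Matrix ι ι (Rg F m)) a b)) := rfl

omit [Fintype F] in
theorem cst_cst (hm : 1 ≤ m) (g : GL ι (Rg F m)) : cst hm (cst hm g) = cst hm g := by
  ext a b
  rw [cst_apply, cst_apply, co_zero_algebraMap hm]

theorem cst_mem_Kw (hm : 1 ≤ m) {lam : ι → ℤ} {g : GL ι (Rg F m)} (hg : g ∈ Kw F m lam) :
    cst hm g ∈ Kw F m lam := by
  refine mem_Kw.mpr fun a b => ?_
  rw [cst_apply]
  by_cases h : lam a - lam b < 0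
  · rw [(mem_Kw.mp hg a b).eq_zero h, map_zero, map_zero]
    exact deg_zero _
  · exact (deg_algebraMap _).mono (not_lt.mp h)

theorem cst_mem_zero (hm : 1 ≤ m) (g : GL ι (Rg F m)) : cst hm g ∈ Kw F m (ind ∅) := by
  refine mem_Kw.mpr fun a b => ?_
  rw [cst_apply]
  simpa [ind] using deg_algebraMap _

/-- The congruence subgroup. -/
noncomputable def PP (hm : 1 ≤ m) : Subgroup (GL ι (Rg F m)) := GG F m ι ⊓ (cst hm).ker

theorem det_PP (hm : 1 ≤ m) {γ : GL ι (Rg F m)} (hγ : γ ∈ PP hm) :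
    (γ : Matrix ι ι (Rg F m)).det = 1 := by
  have h1 : cst hm γ = 1 := hγ.2
  have h2 := RingHom.map_det ((algebraMap F (Rg F m)).comp (c0 hm)) (γ : Matrix ι ι (Rg F m))
  have h3 : ((algebraMap F (Rg F m)).comp (c0 hm)).mapMatrix (γ : Matrix ι ι (Rg F m)) = 1 :=
    congrArg Units.val h1
  rw [h3, det_one] at h2
  rw [(mem_GG.mp hγ.1).eq_algebraMap]
  exact h2

omit [Fintype F] in
theorem exists_root_mul {r : Rg F m} (hm : 1 ≤ m) (h : co 0 r = 0) :
    ∃ s, r = AdjoinRoot.root (Polynomial.X ^ m : Polynomial F) * s := by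
  obtain ⟨f, rfl⟩ := AdjoinRoot.mk_surjective r
  have h1 := co_mk (m := m) f 0
  rw [if_pos (by omega)] at h1
  obtain ⟨g, rfl⟩ := Polynomial.X_dvd_iff.mpr (show f.coeff 0 = 0 by rw [← h1]; exact h)
  exact ⟨AdjoinRoot.mk _ g, by simp⟩

theorem odd_PP (p : ℕ) [Fact p.Prime] [CharP F p] (hp : p ≠ 2) (hm : 1 ≤ m) [Nonempty ι] :
    Odd (fin (PP (F := F) (ι := ι) hm)).card := by
  have hinj : Function.Injective (algebraMap F (Rg F m)) :=
    Function.LeftInverse.injective (co_zero_algebraMap hm)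
  have : CharP (Rg F m) p := charP_of_injective_algebraMap hinj p
  have hP : IsPGroup p (PP (F := F) (ι := ι) hm) := by
    rintro ⟨γ, hγ⟩
    refine ⟨m, Subtype.ext (Units.ext ?_)⟩
    have h1 : cst hm γ = 1 := hγ.2
    have h2 : ∀ a b, co 0 (((γ : Matrix ι ι (Rg F m)) - 1) a b) = 0 := by
      intro a b
      apply hinj
      rw [Matrix.sub_apply, map_sub, map_sub, ← cst_apply hm, h1, map_zero, sub_eq_zero]
      have := cst_apply (F := F) (ι := ι) hm 1 a b
      rw [map_one] at this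
      exact this
    choose n hn using fun a b => exists_root_mul hm (h2 a b)
    have h3 : (γ : Matrix ι ι (Rg F m)) =
        1 + AdjoinRoot.root (Polynomial.X ^ m : Polynomial F) • Matrix.of n := by
      ext a b
      have := hn a b
      rw [Matrix.sub_apply] at this
      simp [← this]
    have h4 : AdjoinRoot.root (Polynomial.X ^ m : Polynomial F) ^ (p ^ m) = 0 := by
      have h5 : AdjoinRoot.root (Polynomial.X ^ m : Polynomial F) ^ m = 0 := by
        rw [← AdjoinRoot.mk_X, ← map_pow, AdjoinRoot.mk_self]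
      exact pow_eq_zero_of_le (Nat.lt_pow_self (Fact.out : p.Prime).one_lt).le h5
    simp only [SubmonoidClass.mk_pow, Units.val_pow_eq_pow_val, OneMemClass.coe_one,
      Units.val_one]
    rw [h3, add_pow_char_pow_of_commute _ _ (Commute.one_left _), one_pow, smul_pow, h4,
      zero_smul, add_zero]
  obtain ⟨n, hn⟩ := hP.exists_card_eq
  have h6 : (fin (PP (F := F) (ι := ι) hm)).card = p ^ n := by
    rw [← hn, fin, ← Set.ncard_eq_toFinset_card]
    rfl
  rw [h6]
  exact ((Fact.out : p.Prime).odd_of_ne_two hp).pow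

/-- A cocycle invariant under the congruence subgroup is a coboundary. -/
theorem cobdy_of_invariant (hm : 1 ≤ m) {D : ℕ} {W : Fin (D + 1) → Finset ι} (h0 : W 0 = ∅)
    {k : ℕ} (hk : 1 ≤ k) (f : Coch (Fin (D + 1)) (GL ι (Rg F m)))
    (hf : Inv (cos (KX F m W)) (dom (fin (GG F m ι)) univ) k f)
    (hc : Cocyc (dom (fin (GG F m ι)) univ) k f)
    (hP : ∀ γ ∈ PP hm, ∀ τ g, f τ (γ * g) = f τ g) :
    Cobdy (cos (KX F m W)) (dom (fin (GG F m ι)) univ) k f := by
  refine ⟨fun τ g => if 0 ∈ τ then 0 else f (insert 0 τ) g, ?_, ?_⟩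
  · intro τ g g' hτ h1 h2 hr
    by_cases h : 0 ∈ τ
    · simp [h]
    simp only [h, if_false]
    have hg := mem_fin.mp h1.2
    have hg' := mem_fin.mp h2.2
    rw [rel_cos_iff] at hr
    set κ := g⁻¹ * g' with hκ
    have hκG : κ ∈ GG F m ι := Subgroup.mul_mem _ (Subgroup.inv_mem _ hg) hg'
    have hκ0 : cst hm κ ∈ GG F m ι := Kw_le_GG _ (cst_mem_zero hm κ)
    have hγ : g * (κ * (cst hm κ)⁻¹) * g⁻¹ ∈ PP hm := by
      refine ⟨Subgroup.mul_mem _ (Subgroup.mul_mem _ hg (Subgroup.mul_mem _ hκG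
        (Subgroup.inv_mem _ hκ0))) (Subgroup.inv_mem _ hg), ?_⟩
      simp [cst_cst]
    have e : g' = g * (κ * (cst hm κ)⁻¹) * g⁻¹ * (g * cst hm κ) := by
      rw [hκ]; group
    rw [e, hP _ hγ]
    refine hf _ _ _ (by rw [card_insert_of_notMem h]; omega) ⟨subset_univ _, h1.2⟩
      ⟨subset_univ _, mem_fin.mpr (Subgroup.mul_mem _ hg hκ0)⟩ ?_
    rw [rel_cos_iff]
    intro i hi
    rw [inv_mul_cancel_left]
    rcases mem_insert.mp hi with rfl | hi
    · have := cst_mem_zero hm κ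
      rw [← h0] at this
      exact this
    · exact cst_mem_Kw hm (hr i hi)
  · intro τ g hτ hD
    simp only [dd]
    by_cases h : 0 ∈ τ
    · rw [Finset.sum_eq_single 0]
      · simp [insert_erase h]
      · intro i _ hi
        simp [h, hi.symm]
      · intro h'; exact (h' h).elim
    · have := hc (insert 0 τ) g (by rw [card_insert_of_notMem h, hτ]) ⟨subset_univ _, hD.2⟩
      simp only [dd, Pi.zero_apply] at this
      rw [Finset.sum_insert h, erase_insert h] at this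
      have h2 := CharTwo.add_eq_zero.mp this
      rw [h2]
      refine Finset.sum_congr rfl fun i hi => ?_
      have hi0 : (0 : Fin (D + 1)) ≠ i := fun e => h (e ▸ hi)
      rw [if_neg (by simp [h]), erase_insert_of_ne hi0]

end PGroup

section Main

theorem chainData_resW {D : ℕ} {W : Fin (D + 1) → Finset ι} (hW : ChainData W) (B : Finset ι)
    (hB : Disjoint B (W (Fin.last D))) : ChainData (resW B W) := by
  refine ⟨fun i j hij => ?_, ?_⟩
  · have h1 := hW.mono hij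
    refine Finset.ssubset_iff_subset_ne.mpr ⟨fun a ha => ?_, fun h => ?_⟩
    · simp only [resW, mem_subtype] at ha ⊢
      exact h1.le ha
    · obtain ⟨a, ha, ha'⟩ := Finset.exists_of_ssubset h1
      have haB : a ∉ B := fun h' =>
        disjoint_left.mp hB h' (hW.mono.monotone (Fin.le_last j) ha)
      have : (⟨a, haB⟩ : Off B) ∈ resW B W j := by simpa [resW] using ha
      rw [← h] at this
      exact ha' (by simpa [resW] using this)
  · ext a
    simp [resW, hW.zero]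

theorem card_compl_resW {I : Type} (W : I → Finset ι) (B : Finset ι) (i : I) :
    (W i)ᶜ.card ≤ (resW B W i)ᶜ.card + B.card := by
  have h1 : (W i)ᶜ ⊆ ((resW B W i)ᶜ.map (Function.Embedding.subtype _)) ∪ B := by
    intro a ha
    by_cases haB : a ∈ B
    · exact mem_union_right _ haB
    · refine mem_union_left _ (mem_map.mpr ⟨⟨a, haB⟩, ?_, rfl⟩)
      simpa [resW] using ha
  refine (card_le_card h1).trans ((card_union_le _ _).trans ?_)
  rw [card_map]

theorem exists_block (U : Finset ι) (r : ℕ) (h : r + 1 ≤ Uᶜ.card) :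
    ∃ B : Finset ι, B.card = r ∧ Disjoint B U ∧ ∃ a, a ∉ U ∧ a ∉ B := by
  obtain ⟨B, hB, hc⟩ := Finset.exists_subset_card_eq (show r ≤ Uᶜ.card by omega)
  refine ⟨B, hc, disjoint_left.mpr fun a ha => mem_compl.mp (hB ha), ?_⟩
  obtain ⟨a, ha, ha'⟩ := Finset.exists_mem_notMem_of_card_lt_card (show B.card < Uᶜ.card by omega)
  exact ⟨a, mem_compl.mp ha, ha'⟩

theorem rel_mul_left {I Γ : Type} [Group Γ] (K : I → Subgroup Γ) (τ : Finset I) (γ x y : Γ) :
    Rel (cos K) τ (γ * x) (γ * y) ↔ Rel (cos K) τ x y := by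
  simp [rel_cos_iff, mul_assoc]

/-- The inductive step. -/
theorem vanish_step (p : ℕ) [Fact p.Prime] [CharP F p] (hp : p ≠ 2) (hm : 2 ≤ m) {D M : ℕ}
    {lam : ℝ} (W : Fin (D + 1) → Finset ι) (hW : ChainData W)
    (hloc : Loc F (Fintype.card ι) M lam) (k : ℕ) (hk1 : 1 ≤ k) (hk : k ≤ D) (s : ℕ)
    (hs : ∀ (V : Type) [DecidableEq V] (Δ : Finset V → Prop), DownF Δ →
      (∀ T : Finset V, T.card ≤ s → ∃ x, x ∉ T ∧ ∀ ρ ⊆ T, Δ ρ → Δ (insert x ρ)) →
      ∀ j ≤ k, FExact Δ j)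
    (hbig : s + k + 2 ≤ (W (Fin.last D))ᶜ.card)
    (ih : ∀ B : Finset ι, B.card ≤ k + 1 → Disjoint B (W (Fin.last D)) → ∀ j < k,
      Exact (cos (KX F m (resW B W))) (dom (fin (GG F m (Off B))) univ) j) :
    Exact (cos (KX F m W)) (dom (fin (GG F m ι)) univ) k := by
  classical
  have hm1 : 1 ≤ m := by omega
  have hmono := hW.mono.monotone
  obtain ⟨B₁, hB₁, hB₁W, b₁, hb₁W, hb₁⟩ := exists_block (W (Fin.last D)) 1 (by omega)
  obtain ⟨z, rfl⟩ := Finset.card_eq_one.mp hB₁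
  have : Nonempty ι := ⟨z⟩
  have hp1 := horo_primal (F := F) p hp W hW {z} (singleton_nonempty z) hB₁W ⟨b₁, hb₁W, hb₁⟩ hm
    hloc k hk
  have hd1 := horo_dual (F := F) p hp W hW {z} (singleton_nonempty z) hB₁W ⟨b₁, hb₁W, hb₁⟩ hm
    hloc k hk
  have triv : ∀ f : Coch (Fin (D + 1)) (GL ι (Rg F m)),
      Inv (cos (KX F m W)) (dom (fin (GG F m ι)) univ) k f →
      Cocyc (dom (fin (GG F m ι)) univ) k f → ∀ γ ∈ PP hm1,
      Cobdy (cos (KX F m W)) (dom (fin (GG F m ι)) univ) k (sh γ f + f) := by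
    intro f hf hc γ hγ
    have hf' := (hf.sh le_rfl hγ.1).add hf
    have hc' := (hc.sh le_rfl hγ.1).add hc
    rw [← al_empty (W := W)] at hf' hc' ⊢
    refine double (cos (KX F m W)) (Al W) down_al downF_al
      (fun φ τ g g' h1 h2 hr => al_inv hm1 φ τ g g' h1 h2.1 hr) k ?_ ?_ _ hf' hc' ?_
    · intro τ g _
      exact hs _ _ (downF_al τ g) fun T hT =>
        al_ext hm1 (W (Fin.last D)) (fun i => hmono (Fin.le_last i)) τ g T (by omega)
    · intro φ h2 h3
      by_cases hex : ∃ g₁, Al W φ ∅ g₁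
      · obtain ⟨g₁, hg₁⟩ := hex
        obtain ⟨B, hB, hBW, b, hbW, hb⟩ := exists_block (W (Fin.last D)) φ.card (by omega)
        obtain ⟨γ₁, -, hγ₁, hγ₁'⟩ := al_param hm1 hmono B hBW b hb φ hB g₁ hg₁
        have hred := horo_primal (F := F) p hp W hW B (card_pos.mp (by omega)) hBW ⟨b, hbW, hb⟩ hm
          hloc (k + 1 - φ.card) (by omega)
        have hex' := exact_of_levi hm1 (good_Hp B) hred (ih B (by omega) hBW _ (by omega))
        refine Exact.push (down_al φ) (down_dom _ _) (fun h => γ₁ * h)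
          (fun τ h hh => hγ₁ τ h (mem_fin.mp hh.2)) (fun τ x y _ _ => rel_mul_left _ _ _ _ _)
          (fun τ g hg => ?_) hex'
        obtain ⟨h, hh, hr⟩ := hγ₁' τ g hg
        exact ⟨h, ⟨subset_univ _, mem_fin.mpr hh⟩, hr⟩
      · intro f _ _
        exact ⟨0, Inv.zero _ _ _, fun τ g _ hD =>
          (hex ⟨g, down_al φ _ _ _ hD (empty_subset _)⟩).elim⟩
    · intro x
      by_cases hex : ∃ g₁, Al W {x} ∅ g₁
      · obtain ⟨g₁, hg₁⟩ := hex
        obtain ⟨γ₁, hγ₁G, hγ₁, hγ₁'⟩ := al_param hm1 hmono {z} hB₁W b₁ hb₁ {x} (by simp) g₁ hg₁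
        rw [al_empty] at hf' hc'
        refine Cobdy.push (v' := cos (KX F m W)) (D' := dom (fin (Hp F m {z})) univ)
          (down_al _) (down_dom _ _) (fun h => γ₁ * h)
          (fun τ h hh => hγ₁ τ h (mem_fin.mp hh.2))
          (fun τ x y _ _ => (rel_mul_left _ _ _ _ _).mp) (fun τ g hg => ?_) ?_ ?_
        · obtain ⟨h, hh, hr⟩ := hγ₁' τ g hg
          exact ⟨h, ⟨subset_univ _, mem_fin.mpr hh⟩, hr⟩
        · intro τ g g' hτ h1 h2 hr
          exact hf' τ g g' hτ ⟨subset_univ _, mem_fin.mpr h1.1⟩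
            ⟨subset_univ _, mem_fin.mpr h2.1⟩ hr
        · refine cobdy_of_levi hm1 (good_Hp {z}) hp1 (sh γ₁ (sh γ f + f))
            (hf'.sh (good_Hp {z}).le hγ₁G) (hc'.sh (good_Hp {z}).le hγ₁G) ?_
          have hδ : ((γ₁⁻¹ * γ * γ₁ : GL ι (Rg F m)) : Matrix ι ι (Rg F m)).det = 1 := by
            rw [Units.val_mul, Units.val_mul, det_mul, det_mul, det_PP hm1 hγ, mul_one,
              ← det_mul, ← Units.val_mul, inv_mul_cancel, Units.val_one, det_one]
          have := (mem_Sig hm1 z hp1 hd1 _ hδ).2 (sh γ₁ f) (hf.sh le_rfl hγ₁G)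
            (hc.sh le_rfl hγ₁G)
          refine this.congr fun τ l _ _ => ?_
          simp [sh, mul_assoc]
      · exact ⟨0, Inv.zero _ _ _, fun τ g _ hD =>
          (hex ⟨g, down_al _ _ _ _ hD (empty_subset _)⟩).elim⟩
  intro f hf hc
  have h1 := Cobdy.sum (fin (PP hm1)) (fun γ => sh γ f + f) fun γ hγ =>
    triv f hf hc γ (mem_fin.mp hγ)
  have h2 : Cobdy (cos (KX F m W)) (dom (fin (GG F m ι)) univ) k
      (∑ γ ∈ fin (PP hm1), sh γ f) := by
    refine cobdy_of_invariant hm1 hW.zero hk1 _ ?_ ?_ ?_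
    · exact Finset.sum_induction _ _ (fun _ _ => Inv.add) (Inv.zero _ _ _) fun γ hγ =>
        hf.sh le_rfl (mem_fin.mp hγ).1
    · refine Finset.sum_induction _ (Cocyc (dom (fin (GG F m ι)) univ) k) (fun _ _ => Cocyc.add)
        (fun _ _ _ _ => by rw [dd_zero]) fun γ hγ => hc.sh le_rfl (mem_fin.mp hγ).1
    · intro γ₀ hγ₀ τ g
      simp only [Finset.sum_apply, sh]
      refine Finset.sum_bijective (fun γ => γ * γ₀) (Group.mulRight_bijective γ₀)
        (fun γ => ?_) fun γ _ => by rw [mul_assoc]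
      simp only [mem_fin]
      exact ((PP hm1).mul_mem_cancel_right hγ₀).symm
  refine (h1.add h2).congr fun τ g _ _ => ?_
  obtain ⟨c, hc'⟩ := odd_PP (F := F) (ι := ι) p hp hm1
  simp only [Finset.sum_add_distrib, Finset.sum_const, hc', Pi.add_apply, Finset.sum_apply,
    Pi.smul_apply]
  rw [add_right_comm, CharTwo.add_self_eq_zero, zero_add, add_smul, one_smul, mul_smul, two_smul,
    CharTwo.add_self_eq_zero, zero_add]

end Main

theorem vanish_le (D k : ℕ) (hk : k ≤ D) : ∃ N₀ : ℕ,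
    ∀ (p : ℕ) [Fact p.Prime] (F : Type) [Field F] [Fintype F] [CharP F p], p ≠ 2 →
    ∀ m : ℕ, 2 ≤ m → ∀ (M : ℕ) (lam : ℝ) (ι : Type) [Fintype ι] [DecidableEq ι]
      (W : Fin (D + 1) → Finset ι), ChainData W → N₀ ≤ (W (Fin.last D))ᶜ.card →
      Loc F (Fintype.card ι) M lam →
      ∀ j ≤ k, Exact (cos (KX F m W)) (dom (fin (GG F m ι)) univ) j := by
  induction k with
  | zero =>
    refine ⟨0, fun p _ F _ _ _ _ m _ M lam ι _ _ W _ _ _ j hj => ?_⟩
    rw [Nat.le_zero.mp hj]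
    exact exact_zero _ _ 0
  | succ k ih =>
    obtain ⟨N, hN⟩ := ih (by omega)
    obtain ⟨s, hs⟩ := fexact_of_ext (k + 1)
    refine ⟨N + s + k + 3, fun p _ F _ _ _ hp m hm M lam ι _ _ W hW hbig hloc j hj => ?_⟩
    rcases Nat.lt_succ_iff_lt_or_eq.mp (Nat.lt_succ_of_le hj) with h | rfl
    · exact hN p F hp m hm M lam ι W hW (by omega) hloc j (by omega)
    · refine vanish_step p hp hm W hW hloc (k + 1) (by omega) hk s hs (by omega)
        fun B hB hBW j hj => ?_
      refine hN p F hp m hm M lam (Off B) (resW B W) (chainData_resW hW B hBW) ?_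
        (hloc.mono (Fintype.card_subtype_le _)) j (by omega)
      have := card_compl_resW W B (Fin.last D)
      omega

theorem vanish (D k : ℕ) (hk : k ≤ D) : ∃ N₀ : ℕ,
    ∀ (p : ℕ) [Fact p.Prime] (F : Type) [Field F] [Fintype F] [CharP F p], p ≠ 2 →
    ∀ m : ℕ, 2 ≤ m → ∀ (M : ℕ) (lam : ℝ) (ι : Type) [Fintype ι] [DecidableEq ι]
      (W : Fin (D + 1) → Finset ι), ChainData W → N₀ ≤ (W (Fin.last D))ᶜ.card →
      Loc F (Fintype.card ι) M lam →
      Exact (cos (KX F m W)) (dom (fin (GG F m ι)) univ) k := by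
  obtain ⟨N, hN⟩ := vanish_le D k hk
  exact ⟨N, fun p _ F _ _ _ hp m hm M lam ι _ _ W hW hbig hloc =>
    hN p F hp m hm M lam ι W hW hbig hloc k le_rfl⟩

end Vale.Agent.P067
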